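import Mathlib

/-! Elementary counting lemmas used in `BoxCount.lean` and `Alpha.lean`. -/

namespace Vale.Agent.P018

open Finset

theorem BoxCount_card_Icc (c r : ℝ) (hr : 0 ≤ r) :
    ((Finset.Icc ⌈c - r⌉ ⌊c + r⌋).card : ℝ) ≤ 2 * r + 1 := by
  rw [Int.card_Icc]
  have h1 := Int.floor_le (c + r)
  have h2 := Int.le_ceil (c - r)
  rcases le_or_gt (⌊c + r⌋ + 1 - ⌈c - r⌉) 0 with h | h
  · rw [Int.toNat_eq_zero.mpr h]
    push_cast
    positivity
  · have h3 : ((⌊c + r⌋ + 1 - ⌈c - r⌉).toNat : ℝ) = ((⌊c + r⌋ + 1 - ⌈c - r⌉ : ℤ) : ℝ) := by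
      exact_mod_cast Int.toNat_of_nonneg h.le
    rw [h3]
    push_cast
    linarith

theorem BoxCount_mem_Icc {c r : ℝ} {n : ℤ} (h : |(n : ℝ) - c| ≤ r) :
    n ∈ Finset.Icc ⌈c - r⌉ ⌊c + r⌋ := by
  rw [Finset.mem_Icc, Int.ceil_le, Int.le_floor]
  constructor <;> linarith [(abs_le.mp h).1, (abs_le.mp h).2]

theorem BoxCount_card_le {α β : Type} [DecidableEq β] (s : Finset α) (f : α → β) (K : ℝ)
    (h : ∀ a ∈ s, ((s.filter fun x => f x = f a).card : ℝ) ≤ K) :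
    (s.card : ℝ) ≤ K * (s.image f).card := by
  rw [Finset.card_eq_sum_card_image f s]
  push_cast
  calc ∑ b ∈ s.image f, ((s.filter fun x => f x = b).card : ℝ) ≤ ∑ _b ∈ s.image f, K := by
        refine Finset.sum_le_sum fun b hb => ?_
        obtain ⟨a, ha, rfl⟩ := Finset.mem_image.mp hb
        exact h a ha
    _ = K * (s.image f).card := by rw [Finset.sum_const, nsmul_eq_mul, mul_comm]

theorem BoxCount_card_biUnion {α β : Type} [DecidableEq β] (s : Finset α) (t : α → Finset β)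
    (K : ℝ) (h : ∀ a ∈ s, ((t a).card : ℝ) ≤ K) : ((s.biUnion t).card : ℝ) ≤ s.card * K := by
  calc ((s.biUnion t).card : ℝ) ≤ ∑ a ∈ s, ((t a).card : ℝ) := by
        exact_mod_cast Finset.card_biUnion_le
    _ ≤ ∑ _a ∈ s, K := Finset.sum_le_sum h
    _ = s.card * K := by rw [Finset.sum_const, nsmul_eq_mul]

end Vale.Agent.P018
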