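import Vale.Agent.P018.Key
import Vale.Agent.P018.BoxCountAux

/-!
Counting by the cofactor `α`: large primes are negligible.

Proof of `root_close`. `u ^ k - 1 = (∑ i < k, u ^ i) (u - 1)` (`geom_sum_mul`); the function
`u ↦ ‖∑ i < k, u ^ i‖` is continuous with value `k` at 1, so it is at least `1 / 2` near 1.

Proof of `close_of_pow_close`: apply `root_close` to `u = σ (β i β' j / (β j β' i))`.

Proof of `close_of_alpha`. If `wedge (a x) (a x') = 0` then (`wedge_eq_zero_iff`, `Cfg.eqnL`)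
`u ^ k = (x - θ i) (x' - θ j) / ((x - θ j) (x' - θ i))` for `u = β i β' j / (β j β' i)`, and
`(x - θ i) (x' - θ j) - (x - θ j) (x' - θ i) = (x - x') (θ i - θ j)` has norm at most
`2 K X * 2 K`, while `‖x - σ θ j‖ ≥ X / K - K ≥ X / (2 K)` when `X ≥ 2 K ^ 2`. So
`Close (16 K ^ 4 / X) (β ^ k) (β' ^ k)`; conclude with `close_of_pow_close`.

Proof of `cfgNegl_alpha`. Let `A = X / B ^ k`. If `S` is nonempty then `a x ≠ 0` (`Cfg.a_ne`), so
`1 ≤ K A` and there are at most `(2 K A + 1) ^ d ≤ (3 K A) ^ d` vectors `a` (`a_crd`,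
`Fintype.piFinset` of `Finset.Icc`). Fix `a₀` and consider the points with `a x = a₀`. Use
`exists_key` (constant `C₁` for `K ^ 2`, `Cfg.good`) at the constant scale `δ₁ = 1 / (C C₁)`:
at most `C₁ (1 + (K ^ 4 + 1) / δ₁) ^ (d - 1)` keys (`Good.close`), and points with the same key
are `Close (C / X)` by `close_of_alpha`. Inside such a class use the key at scale
`δ₂ = 1 / (2 C₁ (K B) ^ 2)`: at most `C₁ (1 + (C / X) / δ₂) ^ (d - 1)` keys, and points with the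
same key have `wedge = 0` (`wedge_eq_zero_of_close`), so there are at most `K` of them
(`Cfg.mult`). In total `S.card ≤ C' A ^ d (1 + B ^ 2 / X) ^ (d - 1)`. Now
`A ^ d ≤ X ^ (d - k (y - η))` and `B ^ 2 / X ≤ X ^ (2 (y + η) / d - 1) ≤ X ^ (2 η / d)` because
`2 y ≤ k y ≤ d`. So `e = d - k y + (k + 2) η < 1` for small `η`.
-/

namespace Vale.Agent.P018

open Polynomial NumberField Finset

variable {d : ℕ} {L : Type} [Field L] [NumberField L] {g : ℤ[X]} {θ : Fin d → 𝓞 L}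

theorem root_close (k : ℕ) (hk : 1 ≤ k) :
    ∃ c : ℝ, 0 < c ∧ ∀ u : ℂ, ‖u - 1‖ ≤ c → ‖u - 1‖ ≤ 2 * ‖u ^ k - 1‖ := by
  have hcont : Continuous fun u : ℂ => ‖∑ i ∈ range k, u ^ i‖ := by fun_prop
  have hk1 : (1 : ℝ) ≤ k := by exact_mod_cast hk
  have h1 : (1 / 2 : ℝ) < ‖∑ i ∈ range k, (1 : ℂ) ^ i‖ := by
    simp only [one_pow, Finset.sum_const, Finset.card_range, nsmul_eq_mul, mul_one,
      Complex.norm_natCast]
    linarith
  have h2 := (hcont.continuousAt (x := 1)).eventually (lt_mem_nhds h1)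
  obtain ⟨c, hc, h3⟩ := Metric.eventually_nhds_iff.mp h2
  refine ⟨c / 2, by positivity, fun u hu => ?_⟩
  have h4 := h3 (y := u) (by rw [dist_eq_norm]; linarith)
  rw [← geom_sum_mul, norm_mul]
  nlinarith [norm_nonneg (u - 1)]

theorem Alpha_div_iff {p q : ℂ} (hq : q ≠ 0) (r : ℝ) : ‖p - q‖ ≤ r * ‖q‖ ↔ ‖p / q - 1‖ ≤ r := by
  rw [div_sub_one hq, norm_div, div_le_iff₀ (norm_pos_iff.mpr hq)]

theorem close_of_pow_close (k : ℕ) (hk : 1 ≤ k) : ∃ c : ℝ, 0 < c ∧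
    ∀ (d : ℕ) (L : Type) [Field L] (β β' : Fin d → L) (ρ : ℝ), (∀ j, β j ≠ 0) → (∀ j, β' j ≠ 0) →
      Close c β β' → Close ρ (fun j => β j ^ k) (fun j => β' j ^ k) → Close (2 * ρ) β β' := by
  obtain ⟨c, hc, h⟩ := root_close k hk
  refine ⟨c, hc, fun d L _ β β' ρ h0 h0' h1 h2 σ i j => ?_⟩
  have hq : σ (β j * β' i) ≠ 0 := (map_ne_zero σ).mpr (mul_ne_zero (h0 j) (h0' i))
  have h3 := h1 σ i j
  have h4 := h2 σ i j
  simp only [← mul_pow] at h4
  rw [map_sub, map_pow, map_pow, Alpha_div_iff (pow_ne_zero _ hq), ← div_pow] at h4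
  rw [map_sub, Alpha_div_iff hq] at h3 ⊢
  linarith [h _ h3]

theorem Alpha_lower {k : ℕ} {K X B : ℝ} {S : Finset ℤ} {a b : ℤ → Fin d → ℤ} {c : ℤ}
    (hc : Cfg θ k K X B S a b c) (hX : 2 * K ^ 2 ≤ X) {x : ℤ} (hx : x ∈ S) (σ : L →+* ℂ)
    (j : Fin d) : X ≤ 2 * K * ‖(x : ℂ) - σ (θ j : L)‖ := by
  have h1 := norm_sub_norm_le (x : ℂ) (σ (θ j : L))
  rw [Complex.norm_intCast] at h1
  have h2 := hc.th_le σ j
  have h3 := hc.x_lo x hx
  have h4 := hc.one_le_K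
  have h5 : K * (|(x : ℝ)| - K) ≤ K * ‖(x : ℂ) - σ (θ j : L)‖ :=
    mul_le_mul_of_nonneg_left (by linarith) (by linarith)
  nlinarith

theorem Alpha_pow_close (hθ : Roots g θ) {k : ℕ} {K X B : ℝ} {S : Finset ℤ}
    {a b : ℤ → Fin d → ℤ} {c : ℤ} (hc : Cfg θ k K X B S a b c) (hX : 2 * K ^ 2 ≤ X) {x x' : ℤ}
    (hx : x ∈ S) (hx' : x' ∈ S) (hw : wedge (a x) (a x') = 0) :
    Close (16 * K ^ 4 / X) (fun j => vec θ (b x) j ^ k) (fun j => vec θ (b x') j ^ k) := by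
  intro σ i j
  have hK := hc.one_le_K
  have hX1 := hc.one_le_X
  have h1 := (wedge_eq_zero_iff hθ _ _).mp hw i j
  have hw0 : 0 < ‖σ (vec θ (a x) j * vec θ (a x') i)‖ :=
    norm_pos_iff.mpr ((map_ne_zero σ).mpr (mul_ne_zero (hc.a_ne hx j) (hc.a_ne hx' i)))
  have e1 : (vec θ (b x) i ^ k * vec θ (b x') j ^ k - vec θ (b x) j ^ k * vec θ (b x') i ^ k) *
      (vec θ (a x) j * vec θ (a x') i) =
      (c : L) ^ k * (c : L) ^ k * (((x : L) - x') * ((θ i : L) - θ j)) := by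
    have a1 := hc.eqnL hx i
    have a2 := hc.eqnL hx j
    have a3 := hc.eqnL hx' i
    have a4 := hc.eqnL hx' j
    calc _ = (vec θ (a x) i * vec θ (b x) i ^ k) * (vec θ (a x') j * vec θ (b x') j ^ k) -
          (vec θ (a x) j * vec θ (b x) j ^ k) * (vec θ (a x') i * vec θ (b x') i ^ k) := by
          linear_combination (-(vec θ (b x) i ^ k * vec θ (b x') j ^ k)) * h1
      _ = _ := by rw [a1, a2, a3, a4]; ring
  have e2 : (vec θ (b x) j ^ k * vec θ (b x') i ^ k) * (vec θ (a x) j * vec θ (a x') i) =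
      (c : L) ^ k * (c : L) ^ k * (((x : L) - θ j) * ((x' : L) - θ i)) := by
    have a2 := hc.eqnL hx j
    have a3 := hc.eqnL hx' i
    calc _ = (vec θ (a x) j * vec θ (b x) j ^ k) * (vec θ (a x') i * vec θ (b x') i ^ k) := by ring
      _ = _ := by rw [a2, a3]; ring
  refine le_of_mul_le_mul_right ?_ hw0
  rw [mul_assoc, ← norm_mul, ← norm_mul, ← map_mul, ← map_mul, e1, e2, map_mul σ (_ * _),
    map_mul σ (_ * _) (_ * _), norm_mul, norm_mul, mul_left_comm]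
  refine mul_le_mul_of_nonneg_left ?_ (norm_nonneg _)
  simp only [map_mul, map_sub, map_intCast, norm_mul]
  have b1 := Alpha_lower hc hX hx σ j
  have b2 := Alpha_lower hc hX hx' σ i
  have b3 : ‖(x : ℂ) - x'‖ ≤ 2 * K * X := by
    refine (norm_sub_le _ _).trans ?_
    rw [Complex.norm_intCast, Complex.norm_intCast]
    linarith [hc.x_hi x hx, hc.x_hi x' hx']
  have b4 : ‖σ (θ i : L) - σ (θ j : L)‖ ≤ 2 * K :=
    (norm_sub_le _ _).trans (by linarith [hc.th_le σ i, hc.th_le σ j])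
  have b5 : X * X ≤ (2 * K * ‖(x : ℂ) - σ (θ j : L)‖) * (2 * K * ‖(x' : ℂ) - σ (θ i : L)‖) :=
    mul_le_mul b1 b2 (by linarith) (by positivity)
  have b6 := mul_le_mul b3 b4 (norm_nonneg _) (by positivity)
  rw [div_mul_eq_mul_div, le_div_iff₀ (by linarith)]
  calc _ ≤ 2 * K * X * (2 * K) * X := mul_le_mul_of_nonneg_right b6 (by linarith)
    _ = 4 * K ^ 2 * (X * X) := by ring
    _ ≤ 4 * K ^ 2 * ((2 * K * ‖(x : ℂ) - σ (θ j : L)‖) * (2 * K * ‖(x' : ℂ) - σ (θ i : L)‖)) :=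
        mul_le_mul_of_nonneg_left b5 (by positivity)
    _ = _ := by ring

theorem close_of_alpha (hθ : Roots g θ) (k : ℕ) (hk : 1 ≤ k) (K : ℝ) :
    ∃ C : ℝ, 1 ≤ C ∧ ∀ (X B : ℝ) (S : Finset ℤ) (a b : ℤ → Fin d → ℤ) (c : ℤ),
      Cfg θ k K X B S a b c → C ≤ X → ∀ x ∈ S, ∀ x' ∈ S, wedge (a x) (a x') = 0 →
      Close C⁻¹ (vec θ (b x)) (vec θ (b x')) → Close (C / X) (vec θ (b x)) (vec θ (b x')) := by
  obtain ⟨c₀, hc₀, h⟩ := close_of_pow_close k hk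
  have h1 : 0 < c₀⁻¹ := inv_pos.mpr hc₀
  have h2 : 0 ≤ K ^ 2 := by positivity
  have h3 : 0 ≤ K ^ 4 := by positivity
  refine ⟨1 + c₀⁻¹ + 2 * K ^ 2 + 32 * K ^ 4, by linarith,
    fun X B S a b c hc hX x hx x' hx' hw hcl => ?_⟩
  have hX1 := hc.one_le_X
  have h4 := h d L _ _ _ (hc.b_ne hx) (hc.b_ne hx')
    (hcl.mono (inv_le_of_inv_le₀ hc₀ (by linarith)))
    (Alpha_pow_close hθ hc (by linarith) hx hx' hw)
  refine h4.mono ?_
  rw [← mul_div_assoc]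
  exact div_le_div_of_nonneg_right (by linarith) (by linarith)

theorem Alpha_key_card {key : (Fin d → L) → Fin d × (Fin d → ℤ)} {K C δ : ℝ}
    (hkey : ∀ (β₀ : Fin d → L) (ρ : ℝ) (T : Finset (Fin d → L)), 0 ≤ ρ → Good θ K β₀ →
      (∀ β ∈ T, Good θ K β ∧ Close ρ β β₀) → ((T.image key).card : ℝ) ≤ C * (1 + ρ / δ) ^ (d - 1))
    (S : Finset ℤ) (f : ℤ → Fin d → L) (β₀ : Fin d → L) (ρ : ℝ) (hρ : 0 ≤ ρ) (h0 : Good θ K β₀)
    (h : ∀ x ∈ S, Good θ K (f x) ∧ Close ρ (f x) β₀) (M : ℝ) (hM0 : 0 ≤ M)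
    (hM : ∀ x ∈ S, ((S.filter fun x' => key (f x') = key (f x)).card : ℝ) ≤ M) :
    (S.card : ℝ) ≤ M * (C * (1 + ρ / δ) ^ (d - 1)) := by
  classical
  have h1 := BoxCount_card_le S (fun x => key (f x)) M hM
  have h2 := hkey β₀ ρ (S.image f) hρ h0 (by
    intro β hβ
    obtain ⟨x, hx, rfl⟩ := Finset.mem_image.mp hβ
    exact h x hx)
  rw [Finset.image_image] at h2
  exact h1.trans (mul_le_mul_of_nonneg_left h2 hM0)

theorem Alpha_count (hθ : Roots g θ) (hd : 1 ≤ d) (k : ℕ) (hk : 1 ≤ k) (K : ℝ) :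
    ∃ C : ℝ, 1 ≤ C ∧ ∀ (X B : ℝ) (S : Finset ℤ) (a b : ℤ → Fin d → ℤ) (c : ℤ),
      Cfg θ k K X B S a b c → C ≤ X →
      (S.card : ℝ) ≤ C * (1 + C * (B ^ 2 / X)) ^ (d - 1) * (X / B ^ k) ^ d := by
  by_cases hK : 1 ≤ K
  swap
  · exact ⟨1, le_rfl, fun X B S a b c hc _ => absurd hc.one_le_K hK⟩
  obtain ⟨C, hC, hα⟩ := close_of_alpha hθ k hk K
  obtain ⟨C₁, hC₁, hkey⟩ := exists_key hθ hd (K ^ 2) (one_le_pow₀ hK)
  obtain ⟨key₁, hk1, hk1'⟩ := hkey (C * C₁)⁻¹ (by positivity)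
  set D : ℝ := K * C₁ * (C₁ * (1 + ((K ^ 2) ^ 2 + 1) / (C * C₁)⁻¹) ^ (d - 1)) * (3 * K) ^ d with hD
  have hD0 : 0 ≤ D := by positivity
  have hE0 : 0 ≤ 2 * C * C₁ * K ^ 2 := by positivity
  refine ⟨C + D + 2 * C * C₁ * K ^ 2, by linarith, fun X B S a b c hc hX => ?_⟩
  have hX1 := hc.one_le_X
  have hB := hc.one_le_B
  rcases S.eq_empty_or_nonempty with rfl | ⟨x₀, hx₀⟩
  · simp only [Finset.card_empty, Nat.cast_zero]
    positivity
  set A : ℝ := X / B ^ k with hA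
  have hA0 : 0 < A := by positivity
  have hKA : 1 ≤ K * A := by
    have h1 : a x₀ ≠ 0 := fun h => hc.a_ne hx₀ ⟨0, hd⟩ (by simp [vec_eq, h])
    obtain ⟨i, hi⟩ := Function.ne_iff.mp h1
    have h2 : (1 : ℝ) ≤ |(a x₀ i : ℝ)| := by exact_mod_cast Int.one_le_abs hi
    exact h2.trans (hc.a_crd x₀ hx₀ i)
  have himg : ((S.image a).card : ℝ) ≤ (3 * K) ^ d * A ^ d := by
    have h1 : S.image a ⊆ Fintype.piFinset fun _ : Fin d =>
        Finset.Icc ⌈(0 : ℝ) - K * A⌉ ⌊(0 : ℝ) + K * A⌋ := by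
      intro v hv
      obtain ⟨x, hx, rfl⟩ := Finset.mem_image.mp hv
      exact Fintype.mem_piFinset.mpr fun i => BoxCount_mem_Icc (by simpa using hc.a_crd x hx i)
    refine (Nat.cast_le.mpr (Finset.card_le_card h1)).trans ?_
    rw [Fintype.card_piFinset, Finset.prod_const, Finset.card_univ, Fintype.card_fin, ← mul_pow]
    push_cast
    refine pow_le_pow_left₀ (Nat.cast_nonneg _) ((BoxCount_card_Icc _ _ (by linarith)).trans ?_) _
    linarith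
  obtain ⟨key₂, hk2, hk2'⟩ := hkey (2 * C₁ * (K * B) ^ 2)⁻¹ (by positivity)
  have hfib : ∀ x₁ ∈ S, ((S.filter fun x => a x = a x₁).card : ℝ) ≤
      (K * (C₁ * (1 + (C / X) / (2 * C₁ * (K * B) ^ 2)⁻¹) ^ (d - 1))) *
        (C₁ * (1 + ((K ^ 2) ^ 2 + 1) / (C * C₁)⁻¹) ^ (d - 1)) := by
    intro x₁ hx₁
    refine Alpha_key_card hk1' _ (fun x => vec θ (b x)) (vec θ (b x₁)) _ (by positivity)
      (hc.good hx₁) (fun x hx => ?_) _ (by positivity) fun x₂ hx₂ => ?_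
    · have hxS := (Finset.mem_filter.mp hx).1
      exact ⟨hc.good hxS, (hc.good hxS).close (hc.good hx₁) (by positivity)⟩
    obtain ⟨hx₂S, hx₂a⟩ := Finset.mem_filter.mp hx₂
    refine Alpha_key_card hk2' _ (fun x => vec θ (b x)) (vec θ (b x₂)) _ (by positivity)
      (hc.good hx₂S) (fun x hx => ?_) _ (by linarith) fun x₃ hx₃ => ?_
    · obtain ⟨hx', hxk⟩ := Finset.mem_filter.mp hx
      obtain ⟨hxS, hxa⟩ := Finset.mem_filter.mp hx'
      refine ⟨hc.good hxS, hα X B S a b c hc (by linarith) x hxS x₂ hx₂S ?_ ?_⟩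
      · funext i j
        simp only [wedge, hxa, hx₂a, Pi.zero_apply]
        ring
      · refine (hk1 _ _ (hc.good hxS) (hc.good hx₂S) hxk).mono (le_of_eq ?_)
        field_simp
    have hx₃S := (Finset.mem_filter.mp (Finset.mem_filter.mp hx₃).1).1
    refine le_trans (Nat.cast_le.mpr (Finset.card_le_card fun x hx => ?_)) (hc.mult x₃ hx₃S)
    obtain ⟨hx', hxk⟩ := Finset.mem_filter.mp hx
    have hxS := (Finset.mem_filter.mp (Finset.mem_filter.mp hx').1).1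
    refine Finset.mem_filter.mpr ⟨hxS, wedge_eq_zero_of_close hθ _ _ _ (K * B) (by positivity)
      (hk2 _ _ (hc.good hx₃S) (hc.good hxS) hxk.symm) (hc.b_hi x₃ hx₃S) (hc.b_hi x hxS) ?_⟩
    have h1 : C₁ * (2 * C₁ * (K * B) ^ 2)⁻¹ * (K * B) ^ 2 = 1 / 2 := by field_simp
    linarith
  have h1 := BoxCount_card_le S a _ hfib
  have h2 : (C / X) / (2 * C₁ * (K * B) ^ 2)⁻¹ = 2 * C * C₁ * K ^ 2 * (B ^ 2 / X) := by
    field_simp
  rw [h2] at h1
  calc (S.card : ℝ) ≤ _ := h1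
    _ ≤ (K * (C₁ * (1 + 2 * C * C₁ * K ^ 2 * (B ^ 2 / X)) ^ (d - 1))) *
        (C₁ * (1 + ((K ^ 2) ^ 2 + 1) / (C * C₁)⁻¹) ^ (d - 1)) * ((3 * K) ^ d * A ^ d) :=
        mul_le_mul_of_nonneg_left himg (by positivity)
    _ = D * (1 + 2 * C * C₁ * K ^ 2 * (B ^ 2 / X)) ^ (d - 1) * A ^ d := by rw [hD]; ring
    _ ≤ _ := by gcongr <;> linarith

theorem cfgNegl_alpha (hθ : Roots g θ) (hd : 1 ≤ d) (k : ℕ) (hk : 2 ≤ k) (y : ℝ)
    (h1 : (d : ℝ) - 1 < k * y) (h2 : k * y ≤ d) : CfgNegl θ k y := by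
  have hd1 : (1 : ℝ) ≤ d := by exact_mod_cast hd
  have hk2 : (2 : ℝ) ≤ k := by exact_mod_cast hk
  have hy : 0 < y := by
    by_contra h
    have h3 : k * y ≤ 0 := mul_nonpos_of_nonneg_of_nonpos (by linarith) (not_lt.mp h)
    linarith
  have hy2 : 2 * y ≤ d := by nlinarith
  set η : ℝ := (1 - d + k * y) / (2 * (k + 2)) with hη
  have hη0 : 0 < η := div_pos (by linarith) (by positivity)
  have hη1 : (k + 2) * η = (1 - d + k * y) / 2 := by rw [hη]; field_simp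
  refine ⟨η, hη0, 2 * η + (d - k * (y - η)), by nlinarith, fun K => ?_⟩
  obtain ⟨C, hC, h⟩ := Alpha_count hθ hd k (by omega) K
  refine ⟨C * (1 + C) ^ (d - 1), C, fun X hX B S a b c hc hB1 hB2 => ?_⟩
  have hX1 := hc.one_le_X
  have hX0 : 0 < X := by linarith
  have hB := hc.one_le_B
  have h3 : B ^ 2 / X ≤ X ^ (2 * η / d) := by
    rw [div_le_iff₀ hX0]
    calc B ^ 2 ≤ (X ^ ((y + η) / d)) ^ 2 := pow_le_pow_left₀ (by linarith) hB2 _
      _ = X ^ ((y + η) / d * 2) := by rw [Real.rpow_mul hX0.le, Real.rpow_two]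
      _ ≤ X ^ (2 * η / d + 1) := by
          refine Real.rpow_le_rpow_of_exponent_le hX1 ?_
          rw [div_mul_eq_mul_div, div_add_one (by linarith)]
          exact div_le_div_of_nonneg_right (by linarith) (by linarith)
      _ = _ := by rw [Real.rpow_add hX0, Real.rpow_one]
  have h4 : 1 ≤ X ^ (2 * η / d) := Real.one_le_rpow hX1 (by positivity)
  have h5 : (1 + C * (B ^ 2 / X)) ^ (d - 1) ≤ (1 + C) ^ (d - 1) * X ^ (2 * η) := by
    calc (1 + C * (B ^ 2 / X)) ^ (d - 1) ≤ ((1 + C) * X ^ (2 * η / d)) ^ (d - 1) := by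
          refine pow_le_pow_left₀ (by positivity) ?_ _
          nlinarith [mul_le_mul_of_nonneg_left h3 (by linarith : 0 ≤ C)]
      _ ≤ (1 + C) ^ (d - 1) * (X ^ (2 * η / d)) ^ d := by
          rw [mul_pow]
          exact mul_le_mul_of_nonneg_left (pow_le_pow_right₀ h4 (Nat.sub_le _ _)) (by positivity)
      _ = _ := by
          rw [← Real.rpow_mul_natCast hX0.le, div_mul_cancel₀ _ (by linarith)]
  have h6 : (X / B ^ k) ^ d ≤ X ^ (d - k * (y - η)) := by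
    rw [Real.rpow_sub hX0, Real.rpow_natCast, div_pow]
    refine div_le_div_of_nonneg_left (by positivity) (by positivity) ?_
    calc X ^ (k * (y - η)) = ((X ^ ((y - η) / d)) ^ k) ^ d := by
          rw [← Real.rpow_mul_natCast hX0.le, ← Real.rpow_mul_natCast hX0.le]
          congr 1
          field_simp
      _ ≤ _ := by gcongr
  calc (S.card : ℝ) ≤ _ := h X B S a b c hc hX
    _ ≤ C * ((1 + C) ^ (d - 1) * X ^ (2 * η)) * X ^ (d - k * (y - η)) := by gcongr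
    _ = _ := by rw [Real.rpow_add hX0]; ring

end Vale.Agent.P018
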