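import Vale.Agent.P018.Family

namespace Vale.Agent.P018

open Finset

/-- The numerical condition under which primes `p` of size about `X ^ y` are negligible. -/
def LocalGood (d k : ℕ) (y : ℝ) : Prop :=
  ∃ (r a b : ℕ) (μ τ : ℝ), 2 ≤ r ∧ r ≤ d ∧ 0 < μ ∧ 0 ≤ τ ∧
    ((fam r a b k).card : ℝ) * (a * (1 - k * y / d) + b * (y / d)) <
      ((fam r a b k).card : ℝ) * τ -
        (τ + (((r : ℝ) - 1) * μ + 1)) ^ (r + 1) / (((r + 1).factorial : ℝ) * μ ^ (r - 1)) ∧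
    ((d : ℝ) - 1) * μ + y / d < 1 ∧ ((d : ℝ) - r) * μ + r * (y / d) < 1

/-- The leading term of the size of the family. -/
noncomputable def pvol (r : ℕ) (κ a b : ℝ) : ℝ :=
  ∑ s ∈ range (r - 1), ((r - 2).choose s : ℝ) * κ ^ s *
    (a ^ (s + 1) / ((s + 1).factorial : ℝ)) * (b ^ (r - 1 - s) / ((r - 1 - s).factorial : ℝ))

theorem pvol_mono (r : ℕ) {κ a b a' b' : ℝ} (hκ : 0 ≤ κ) (ha : 0 ≤ a) (hb : 0 ≤ b)
    (h1 : a ≤ a') (h2 : b ≤ b') : pvol r κ a b ≤ pvol r κ a' b' := by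
  unfold pvol
  refine Finset.sum_le_sum fun s _ => ?_
  have ha' : 0 ≤ a' := ha.trans h1
  gcongr

theorem pvol_smul (r : ℕ) (κ a b N : ℝ) :
    pvol r κ (N * a) (N * b) = N ^ r * pvol r κ a b := by
  unfold pvol
  rw [Finset.mul_sum]
  refine Finset.sum_congr rfl fun s hs => ?_
  rw [Finset.mem_range] at hs
  have h : N ^ r = N ^ (s + 1) * N ^ (r - 1 - s) := by
    rw [← pow_add]; congr 1; omega
  rw [h, mul_pow, mul_pow]
  ring

theorem pvol_scale (r : ℕ) {κ k d a b : ℝ} (hκ : 0 ≤ κ) (hd : 0 ≤ d) (hk : κ * d ≤ k)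
    (ha : 0 ≤ a) (hb : 0 ≤ b) : d ^ (r - 1) * pvol r κ a b ≤ pvol r k a (d * b) := by
  unfold pvol
  rw [Finset.mul_sum]
  refine Finset.sum_le_sum fun s hs => ?_
  rw [Finset.mem_range] at hs
  have h : d ^ (r - 1) = d ^ s * d ^ (r - 1 - s) := by
    rw [← pow_add]; congr 1; omega
  have h2 : (κ * d) ^ s ≤ k ^ s := pow_le_pow_left₀ (mul_nonneg hκ hd) hk s
  rw [h, mul_pow d b]
  calc d ^ s * d ^ (r - 1 - s) * (((r - 2).choose s : ℝ) * κ ^ s *
        (a ^ (s + 1) / ((s + 1).factorial : ℝ)) * (b ^ (r - 1 - s) / ((r - 1 - s).factorial : ℝ)))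
      = ((r - 2).choose s : ℝ) * (κ * d) ^ s * (a ^ (s + 1) / ((s + 1).factorial : ℝ)) *
        (d ^ (r - 1 - s) * b ^ (r - 1 - s) / ((r - 1 - s).factorial : ℝ)) := by
        rw [mul_pow]; ring
    _ ≤ _ := by gcongr

theorem exists_big (P T w C c D : ℝ) (n : ℕ) (hP : 0 < P)
    (h : T ^ n / D < P * (T - w)) (hT : 0 ≤ T) (hc : 0 ≤ c) (hD : 0 < D) :
    ∃ N : ℕ, 0 < N ∧ 0 < N * (T - w) - C ∧
      (N * T + c) ^ n / D < (N : ℝ) ^ (n - 1) * P * (N * (T - w) - C) ∨ n = 0 := by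
  rcases Nat.eq_zero_or_pos n with hn | hn
  · exact ⟨1, Or.inr hn⟩
  have hcont : Continuous fun t : ℝ => P * ((T - w) - C * t) - (T + c * t) ^ n / D := by
    fun_prop
  have h0 : 0 < P * ((T - w) - C * 0) - (T + c * 0) ^ n / D := by
    simp only [mul_zero, sub_zero, add_zero]; linarith
  have hev : ∀ᶠ t in nhds (0 : ℝ), 0 < P * ((T - w) - C * t) - (T + c * t) ^ n / D :=
    hcont.continuousAt.eventually (lt_mem_nhds h0)
  have hev2 := (tendsto_inv_atTop_nhds_zero_nat (𝕜 := ℝ)).eventually hev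
  obtain ⟨N, hN1, hN2⟩ := (hev2.and (Filter.eventually_gt_atTop 0)).exists
  have hNpos : (0 : ℝ) < N := by exact_mod_cast hN2
  refine ⟨N, Or.inl ⟨hN2, ?_, ?_⟩⟩
  · have h1 : 0 ≤ (T + c * (N : ℝ)⁻¹) ^ n / D := by positivity
    have h2 : 0 < P * ((T - w) - C * (N : ℝ)⁻¹) := by linarith
    have h3 : 0 < (T - w) - C * (N : ℝ)⁻¹ := by
      by_contra hneg
      have := mul_nonpos_of_nonneg_of_nonpos hP.le (not_lt.1 hneg)
      linarith
    have h4 : N * (T - w) - C = N * ((T - w) - C * (N : ℝ)⁻¹) := by field_simp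
    rw [h4]; positivity
  · have h4 : N * (T - w) - C = N * ((T - w) - C * (N : ℝ)⁻¹) := by field_simp
    have h5 : N * T + c = N * (T + c * (N : ℝ)⁻¹) := by field_simp
    have h6 : (N : ℝ) ^ n = (N : ℝ) ^ (n - 1) * N := by
      rw [← pow_succ]; congr 1; omega
    rw [h4, h5, mul_pow, h6]
    have h7 : (T + c * (N : ℝ)⁻¹) ^ n / D < P * ((T - w) - C * (N : ℝ)⁻¹) := by linarith
    have h8 : 0 < (N : ℝ) ^ (n - 1) * N := by positivity
    calc (N : ℝ) ^ (n - 1) * N * (T + c * (N : ℝ)⁻¹) ^ n / D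
        = (N : ℝ) ^ (n - 1) * N * ((T + c * (N : ℝ)⁻¹) ^ n / D) := by ring
      _ < (N : ℝ) ^ (n - 1) * N * (P * ((T - w) - C * (N : ℝ)⁻¹)) := by gcongr
      _ = _ := by ring

theorem sum_bound {N a b d y κ α β r K A B : ℝ} (hN : 0 ≤ N) (ha : 0 ≤ a) (hr : 0 ≤ r)
    (hα0 : 0 ≤ α) (hα1 : α ≤ 1 - κ * y) (hα2 : α ≤ 1) (hβ : 0 ≤ β) (hA : A ≤ N * a + (r + 1))
    (hB : B ≤ N * (d * b) + (K + 1)) (e5 : N * (d * b) * β = N * (b * y)) :
    A * α + B * β ≤ N * (a * (1 - κ * y) + b * y) + ((r + 1) + (K + 1) * β) := by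
  have e1 : A * α ≤ (N * a + (r + 1)) * α := by gcongr
  have e2 : B * β ≤ (N * (d * b) + (K + 1)) * β := by gcongr
  have e3 : N * a * α ≤ N * a * (1 - κ * y) := by gcongr
  have e4 : (r + 1) * α ≤ (r + 1) * 1 := by gcongr
  linarith

/-- Scale-free criterion. -/
theorem localGood_of (d k r : ℕ) (κ y m a b : ℝ) (hr : 2 ≤ r) (hrd : r ≤ d) (hκ : 0 ≤ κ)
    (hκk : κ * d ≤ k) (hy : 0 < y) (hyk : k * y ≤ d) (hm : 0 < m) (ha : 0 < a) (hb : 0 < b)
    (h : (((r : ℝ) + 1) / r * (a * (1 - κ * y) + b * y)) ^ r <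
      (r.factorial : ℝ) * m ^ (r - 1) * pvol r κ a b)
    (h1 : (1 - 1 / (d : ℝ)) * m + y / d < 1) (h2 : (1 - (r : ℝ) / d) * m + r * (y / d) < 1) :
    LocalGood d k y := by
  have hd0 : (0 : ℝ) < d := by exact_mod_cast (by omega : 0 < d)
  have hr0 : (0 : ℝ) < r := by exact_mod_cast (by omega : 0 < r)
  have hr2 : (2 : ℝ) ≤ r := by exact_mod_cast hr
  have hk0 : (0 : ℝ) ≤ k := Nat.cast_nonneg k
  obtain ⟨α, hα⟩ : ∃ α : ℝ, α = 1 - k * y / d := ⟨_, rfl⟩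
  have hα0 : 0 ≤ α := by
    rw [hα, sub_nonneg, div_le_one hd0]; exact hyk
  have hα1 : α ≤ 1 - κ * y := by
    rw [hα]
    have : κ * y ≤ k * y / d := by
      rw [le_div_iff₀ hd0]; nlinarith
    linarith
  have hα2 : α ≤ 1 := by
    have : 0 ≤ κ * y := by positivity
    linarith
  obtain ⟨μ, hμ⟩ : ∃ μ : ℝ, μ = m / d := ⟨_, rfl⟩
  have hμ0 : 0 < μ := by rw [hμ]; positivity
  have hmμ : m = μ * d := by rw [hμ]; field_simp
  obtain ⟨w, hw⟩ : ∃ w : ℝ, w = a * (1 - κ * y) + b * y := ⟨_, rfl⟩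
  have hw0 : 0 < w := by
    have h3 : 0 ≤ a * (1 - κ * y) := mul_nonneg ha.le (hα0.trans hα1)
    have h4 : 0 < b * y := by positivity
    linarith
  obtain ⟨T, hT⟩ : ∃ T : ℝ, T = ((r : ℝ) + 1) / r * w := ⟨_, rfl⟩
  have hT0 : 0 < T := by rw [hT]; positivity
  obtain ⟨P, hP⟩ : ∃ P : ℝ, P = pvol r k a (d * b) := ⟨_, rfl⟩
  have hP1 : (d : ℝ) ^ (r - 1) * pvol r κ a b ≤ P := by
    rw [hP]; exact pvol_scale r hκ hd0.le hκk ha.le hb.le
  rw [← hw, ← hT] at h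
  have hf0 : (0 : ℝ) < (r.factorial : ℝ) := by exact_mod_cast r.factorial_pos
  have h3 : T ^ r < (r.factorial : ℝ) * μ ^ (r - 1) * P := by
    refine h.trans_le ?_
    rw [hmμ, mul_pow]
    calc (r.factorial : ℝ) * (μ ^ (r - 1) * (d : ℝ) ^ (r - 1)) * pvol r κ a b
        = (r.factorial : ℝ) * μ ^ (r - 1) * ((d : ℝ) ^ (r - 1) * pvol r κ a b) := by ring
      _ ≤ _ := by gcongr
  have hP0 : 0 < P := by
    have h4 : 0 < T ^ r := by positivity
    have h5 : 0 < (r.factorial : ℝ) * μ ^ (r - 1) := by positivity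
    by_contra hneg
    have := mul_nonpos_of_nonneg_of_nonpos h5.le (not_lt.1 hneg)
    linarith
  obtain ⟨D, hD⟩ : ∃ D : ℝ, D = ((r + 1).factorial : ℝ) * μ ^ (r - 1) := ⟨_, rfl⟩
  have hD0 : 0 < D := by rw [hD]; positivity
  have hTw : T - w = T / (r + 1) := by rw [hT]; field_simp; ring
  have h4 : T ^ (r + 1) / D < P * (T - w) := by
    rw [div_lt_iff₀ hD0, hTw, hD, Nat.factorial_succ, pow_succ]
    push_cast
    calc T ^ r * T < (r.factorial : ℝ) * μ ^ (r - 1) * P * T := by gcongr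
      _ = _ := by field_simp
  obtain ⟨c, hc⟩ : ∃ c : ℝ, c = ((r : ℝ) - 1) * μ + 1 := ⟨_, rfl⟩
  have hc0 : 0 ≤ c := by
    have : 0 ≤ ((r : ℝ) - 1) * μ := mul_nonneg (by linarith) hμ0.le
    linarith
  obtain ⟨N, hN⟩ := exists_big P T w (((r : ℝ) + 1) + (r * k + 1) * (y / d)) c D (r + 1) hP0 h4
    hT0.le hc0 hD0
  rcases hN with ⟨hN0, hN1, hN2⟩ | hN
  swap
  · omega
  have hNpos : (0 : ℝ) < N := by exact_mod_cast hN0
  refine ⟨r, ⌈N * a⌉₊ + r, ⌈N * (d * b)⌉₊ + r * k, μ, N * T, hr, hrd, hμ0, by positivity, ?_, ?_,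
    ?_⟩
  · have hH := fam_card_ge r (⌈N * a⌉₊ + r) (⌈N * (d * b)⌉₊ + r * k) k hr (by omega) (by omega)
    have hH2 : (N : ℝ) ^ r * P ≤ ((fam r (⌈N * a⌉₊ + r) (⌈N * (d * b)⌉₊ + r * k) k).card : ℝ) := by
      refine le_trans ?_ hH
      rw [hP, ← pvol_smul]
      refine pvol_mono r hk0 (by positivity) (by positivity) ?_ ?_
      · push_cast
        have := Nat.le_ceil (N * a)
        linarith
      · push_cast
        have := Nat.le_ceil (N * (d * b))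
        linarith
    generalize ((fam r (⌈N * a⌉₊ + r) (⌈N * (d * b)⌉₊ + r * k) k).card : ℝ) = H at hH2
    rw [← hα, ← hc, ← hD]
    have hA : ((⌈N * a⌉₊ + r : ℕ) : ℝ) ≤ N * a + (r + 1) := by
      push_cast
      have := (Nat.ceil_lt_add_one (by positivity : 0 ≤ N * a)).le
      linarith
    have hB : ((⌈N * (d * b)⌉₊ + r * k : ℕ) : ℝ) ≤ N * (d * b) + (r * k + 1) := by
      push_cast
      have := (Nat.ceil_lt_add_one (by positivity : 0 ≤ N * (d * b))).le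
      linarith
    generalize ((⌈N * a⌉₊ + r : ℕ) : ℝ) = A at hA
    generalize ((⌈N * (d * b)⌉₊ + r * k : ℕ) : ℝ) = B at hB
    have hβ : 0 ≤ y / d := by positivity
    have hS : A * α + B * (y / d) ≤ N * w + (((r : ℝ) + 1) + (r * k + 1) * (y / d)) := by
      have e5 : N * (d * b) * (y / d) = N * (b * y) := by field_simp
      rw [hw]
      exact sum_bound hNpos.le ha.le hr0.le hα0 hα1 hα2 hβ hA hB e5
    simp only [Nat.add_sub_cancel] at hN2
    have hS2 : N * (T - w) - (((r : ℝ) + 1) + (r * k + 1) * (y / d)) ≤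
        N * T - (A * α + B * (y / d)) := by linarith
    have hH0 : 0 ≤ H := le_trans (by positivity) hH2
    have e6 : (N : ℝ) ^ r * P * (N * (T - w) - (((r : ℝ) + 1) + (r * k + 1) * (y / d))) ≤
        H * (N * T - (A * α + B * (y / d))) :=
      mul_le_mul hH2 hS2 hN1.le hH0
    linarith
  · have : ((d : ℝ) - 1) * μ = (1 - 1 / (d : ℝ)) * m := by rw [hμ]; field_simp
    rw [this]; exact h1
  · have : ((d : ℝ) - r) * μ = (1 - (r : ℝ) / d) * m := by rw [hμ]; field_simp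
    rw [this]; exact h2

end Vale.Agent.P018
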