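import Vale.Agent.P018.Defs

namespace Vale.Agent.P018

open Polynomial Filter Topology

section aux
open Finset

lemma eval_periodic (f : ℤ[X]) (q : ℕ) :
    Function.Periodic (fun n : ℕ => (q : ℤ) ∣ f.eval (n : ℤ)) q := by
  intro n
  have h : (q : ℤ) ∣ f.eval ((n + q : ℕ) : ℤ) - f.eval (n : ℤ) := by
    have := Polynomial.sub_dvd_eval_sub ((n + q : ℕ) : ℤ) (n : ℤ) f
    push_cast at this ⊢
    simpa using this
  apply propext
  exact (dvd_iff_dvd_of_dvd_sub h)

lemma rho_eq (f : ℤ[X]) (q : ℕ) (hq : 0 < q) :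
    rho f q = ((range q).filter (fun a : ℕ => (q : ℤ) ∣ f.eval (a : ℤ))).card := by
  classical
  have : NeZero q := ⟨hq.ne'⟩
  unfold rho
  rw [Nat.card_eq_fintype_card, Fintype.card_subtype]
  have key : ∀ a : ℕ, Polynomial.aeval (a : ZMod q) f = 0 ↔ (q : ℤ) ∣ f.eval (a : ℤ) := by
    intro a
    rw [← ZMod.intCast_zmod_eq_zero_iff_dvd]
    have : ((a : ℕ) : ZMod q) = algebraMap ℤ (ZMod q) (a : ℤ) := by simp
    rw [this, Polynomial.aeval_algebraMap_apply]
    simp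
  symm
  apply Finset.card_bij (fun (a : ℕ) _ => (a : ZMod q))
  · intro a ha
    simp only [mem_filter, mem_univ, true_and]
    exact (key a).2 (mem_filter.1 ha).2
  · intro a ha b hb hab
    have h1 := mem_range.1 (mem_filter.1 ha).1
    have h2 := mem_range.1 (mem_filter.1 hb).1
    have := (ZMod.natCast_eq_natCast_iff' a b q).1 hab
    rwa [Nat.mod_eq_of_lt h1, Nat.mod_eq_of_lt h2] at this
  · intro b hb
    refine ⟨b.val, ?_, by simp⟩
    simp only [mem_filter, mem_range]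
    refine ⟨ZMod.val_lt b, (key b.val).1 ?_⟩
    simpa using hb

lemma count_mul_period (P : ℕ → Prop) [DecidablePred P] (q : ℕ) (hP : Function.Periodic P q)
    (t : ℕ) : ((Ico 1 (1 + q * t)).filter P).card = t * ((range q).filter P).card := by
  induction t with
  | zero => simp
  | succ t ih =>
    have h1 : Ico 1 (1 + q * (t + 1)) = Ico 1 (1 + q * t) ∪ Ico (1 + q * t) (1 + q * t + q) := by
      rw [Finset.Ico_union_Ico_eq_Ico (by omega) (by omega)]
      congr 1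
      ring
    rw [h1, filter_union, card_union_of_disjoint, ih,
      Nat.filter_Ico_card_eq_of_periodic _ _ _ hP, Nat.count_eq_card_filter_range]
    · ring
    · exact disjoint_filter_filter (Finset.Ico_disjoint_Ico_consecutive _ _ _)

lemma count_upper (P : ℕ → Prop) [DecidablePred P] (q : ℕ) (hq : 0 < q)
    (hP : Function.Periodic P q) (N : ℕ) :
    (((Icc 1 N).filter P).card : ℝ) ≤ ((range q).filter P).card * ((N : ℝ) / q + 1) := by
  have h1 : Icc 1 N ⊆ Ico 1 (1 + q * (N / q + 1)) := by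
    intro x hx
    rw [mem_Icc] at hx
    rw [mem_Ico]
    have := Nat.lt_mul_div_succ N hq
    omega
  have h2 := card_le_card (filter_subset_filter P h1)
  rw [count_mul_period P q hP] at h2
  have h3 : (((Icc 1 N).filter P).card : ℝ)
      ≤ ((N / q + 1 : ℕ) : ℝ) * ((range q).filter P).card := by exact_mod_cast h2
  have h4 : ((N / q : ℕ) : ℝ) ≤ (N : ℝ) / q := Nat.cast_div_le
  push_cast at h3
  have h5 : (0 : ℝ) ≤ ((range q).filter P).card := Nat.cast_nonneg _
  nlinarith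

lemma count_lower (P : ℕ → Prop) [DecidablePred P] (q : ℕ) (hq : 0 < q)
    (hP : Function.Periodic P q) (N : ℕ) :
    ((range q).filter P).card * ((N : ℝ) / q - 1) ≤ (((Icc 1 N).filter P).card : ℝ) := by
  have h1 : Ico 1 (1 + q * (N / q)) ⊆ Icc 1 N := by
    intro x hx
    rw [mem_Ico] at hx
    rw [mem_Icc]
    have := Nat.mul_div_le N q
    omega
  have h2 := card_le_card (filter_subset_filter P h1)
  rw [count_mul_period P q hP] at h2
  have h3 : ((N / q : ℕ) : ℝ) * ((range q).filter P).card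
      ≤ (((Icc 1 N).filter P).card : ℝ) := by exact_mod_cast h2
  have h4 : (N : ℝ) / q - 1 ≤ ((N / q : ℕ) : ℝ) := by
    have h6 : (N : ℝ) < (q : ℝ) * (((N / q : ℕ) : ℝ) + 1) := by
      exact_mod_cast Nat.lt_mul_div_succ N hq
    have hq' : (0 : ℝ) < q := by exact_mod_cast hq
    rw [sub_le_iff_le_add, div_le_iff₀ hq']
    linarith
  have h5 : (0 : ℝ) ≤ ((range q).filter P).card := Nat.cast_nonneg _
  nlinarith

lemma count_tendsto (P : ℕ → Prop) [DecidablePred P] (q : ℕ) (hq : 0 < q)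
    (hP : Function.Periodic P q) :
    Tendsto (fun N : ℕ => (((Icc 1 N).filter P).card : ℝ) / N) atTop
      (𝓝 ((((range q).filter P).card : ℝ) / q)) := by
  set c : ℝ := (((range q).filter P).card : ℝ) with hc
  have hlim : Tendsto (fun N : ℕ => c / (N : ℝ)) atTop (𝓝 0) :=
    tendsto_const_div_atTop_nhds_zero_nat c
  have hq' : (0 : ℝ) < q := by exact_mod_cast hq
  apply tendsto_of_tendsto_of_tendsto_of_le_of_le' (g := fun N : ℕ => c / q - c / N)
    (h := fun N : ℕ => c / q + c / N)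
  · simpa using tendsto_const_nhds.sub hlim
  · simpa using tendsto_const_nhds.add hlim
  · filter_upwards [eventually_gt_atTop 0] with N hN
    have hN' : (0 : ℝ) < N := by exact_mod_cast hN
    rw [le_div_iff₀ hN']
    refine le_trans (le_of_eq ?_) (count_lower P q hq hP N)
    rw [← hc]
    field_simp
  · filter_upwards [eventually_gt_atTop 0] with N hN
    have hN' : (0 : ℝ) < N := by exact_mod_cast hN
    rw [div_le_iff₀ hN']
    refine le_trans (count_upper P q hq hP N) (le_of_eq ?_)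
    rw [← hc]
    field_simp

lemma count_crt (P R : ℕ → Prop) [DecidablePred P] [DecidablePred R] (m n : ℕ) (hm : 0 < m)
    (hn : 0 < n) (hmn : m.Coprime n) (hP : Function.Periodic P m) (hR : Function.Periodic R n) :
    ((range (m * n)).filter (fun a => P a ∧ R a)).card
      = ((range m).filter P).card * ((range n).filter R).card := by
  rw [← card_product]
  apply Finset.card_bij (fun (a : ℕ) _ => (a % m, a % n))
  · intro a ha
    simp only [mem_filter, mem_range, mem_product] at ha ⊢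
    refine ⟨⟨Nat.mod_lt _ hm, ?_⟩, Nat.mod_lt _ hn, ?_⟩
    · rw [hP.map_mod_nat]; exact ha.2.1
    · rw [hR.map_mod_nat]; exact ha.2.2
  · intro a ha b hb hab
    simp only [mem_filter, mem_range, Prod.mk.injEq] at ha hb hab
    have : a ≡ b [MOD m * n] := (Nat.modEq_and_modEq_iff_modEq_mul hmn).1 ⟨hab.1, hab.2⟩
    exact Nat.ModEq.eq_of_lt_of_lt this ha.1 hb.1
  · rintro ⟨x, y⟩ hxy
    simp only [mem_filter, mem_range, mem_product] at hxy
    obtain ⟨a, ha1, ha2⟩ := Nat.chineseRemainder hmn x y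
    have hmn0 : 0 < m * n := Nat.mul_pos hm hn
    have e1 : a % (m * n) % m = x := by
      rw [Nat.mod_mod_of_dvd _ (Dvd.intro n rfl)]
      exact Nat.ModEq.eq_of_lt_of_lt ((Nat.mod_modEq a m).trans ha1) (Nat.mod_lt _ hm) hxy.1.1
    have e2 : a % (m * n) % n = y := by
      rw [Nat.mod_mod_of_dvd _ (Dvd.intro_left m rfl)]
      exact Nat.ModEq.eq_of_lt_of_lt ((Nat.mod_modEq a n).trans ha2) (Nat.mod_lt _ hn) hxy.2.1
    refine ⟨a % (m * n), ?_, by simp only [e1, e2]⟩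
    simp only [mem_filter, mem_range]
    refine ⟨Nat.mod_lt _ hmn0, ?_, ?_⟩
    · rw [← hP.map_mod_nat, e1]; exact hxy.1.2
    · rw [← hR.map_mod_nat, e2]; exact hxy.2.2

lemma periodic_of_dvd {P : ℕ → Prop} {m n : ℕ} (hP : Function.Periodic P m) (h : m ∣ n) :
    Function.Periodic P n := by
  obtain ⟨t, rfl⟩ := h
  have := hP.nat_mul t
  simpa [mul_comm] using this

open Classical in
lemma count_trunc (f : ℤ[X]) (k : ℕ) (S : Finset Nat.Primes) :
    ((((range (∏ p ∈ S, (p : ℕ) ^ k)).filter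
      (fun a : ℕ => ∀ p ∈ S, ¬ (((p : ℕ) : ℤ) ^ k ∣ f.eval (a : ℤ)))).card : ℝ)
        / ((∏ p ∈ S, (p : ℕ) ^ k : ℕ) : ℝ))
      = ∏ p ∈ S, (1 - (rho f ((p : ℕ) ^ k) : ℝ) / ((p : ℕ) : ℝ) ^ k) ∧
    Function.Periodic (fun a : ℕ => ∀ p ∈ S, ¬ (((p : ℕ) : ℤ) ^ k ∣ f.eval (a : ℤ)))
      (∏ p ∈ S, (p : ℕ) ^ k) := by
  have hper : ∀ p : Nat.Primes, Function.Periodic
      (fun a : ℕ => ¬ (((p : ℕ) : ℤ) ^ k ∣ f.eval (a : ℤ))) ((p : ℕ) ^ k) := by
    intro p a
    have := eval_periodic f ((p : ℕ) ^ k) a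
    simp only [Nat.cast_pow] at this
    simp only [this]
  induction S using Finset.induction_on with
  | empty => simp [Function.Periodic]
  | insert p S hp ih =>
    obtain ⟨ih1, ih2⟩ := ih
    have hppos : 0 < (p : ℕ) ^ k := pow_pos p.2.pos k
    have hQpos : 0 < ∏ p ∈ S, (p : ℕ) ^ k := prod_pos (fun p _ => pow_pos p.2.pos k)
    have hcop : ((p : ℕ) ^ k).Coprime (∏ p ∈ S, (p : ℕ) ^ k) := by
      apply Nat.Coprime.prod_right
      intro q hq
      apply Nat.Coprime.pow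
      exact (Nat.coprime_primes p.2 q.2).2 (fun h => hp (by rwa [Subtype.ext h]))
    simp only [prod_insert hp, forall_mem_insert]
    constructor
    · rw [count_crt _ _ _ _ hppos hQpos hcop (hper p) ih2, ← ih1]
      have h1 := Finset.card_filter_add_card_filter_not (s := range ((p : ℕ) ^ k))
        (fun a : ℕ => (((p : ℕ) ^ k : ℕ) : ℤ) ∣ f.eval (a : ℤ))
      rw [← rho_eq f _ hppos, card_range] at h1
      simp only [Nat.cast_pow] at h1
      have h2 : ((((range ((p : ℕ) ^ k)).filter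
          (fun a : ℕ => ¬ (((p : ℕ) : ℤ) ^ k ∣ f.eval (a : ℤ)))).card : ℝ))
          = ((p : ℕ) : ℝ) ^ k - rho f ((p : ℕ) ^ k) := by
        have : ((rho f ((p : ℕ) ^ k) + ((range ((p : ℕ) ^ k)).filter
          (fun a : ℕ => ¬ (((p : ℕ) : ℤ) ^ k ∣ f.eval (a : ℤ)))).card : ℕ) : ℝ)
            = (((p : ℕ) ^ k : ℕ) : ℝ) := by rw [h1]
        push_cast at this
        linarith
      have hp0 : ((p : ℕ) : ℝ) ^ k ≠ 0 := by exact_mod_cast hppos.ne'
      have hQ0 : ((∏ p ∈ S, (p : ℕ) ^ k : ℕ) : ℝ) ≠ 0 := by exact_mod_cast hQpos.ne'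
      rw [Nat.cast_mul, Nat.cast_mul, h2, Nat.cast_pow]
      field_simp
    · intro a
      have e1 := periodic_of_dvd (hper p) (Dvd.intro (∏ p ∈ S, (p : ℕ) ^ k) rfl) a
      have e2 := periodic_of_dvd ih2 (Dvd.intro_left ((p : ℕ) ^ k) rfl) a
      simp only at e1 e2 ⊢
      rw [e1, e2]

lemma exists_bezout (f : ℤ[X]) (hirr : Irreducible (f.map (Int.castRingHom ℚ))) :
    ∃ (u v : ℤ[X]) (D : ℤ), D ≠ 0 ∧ u * f + v * derivative f = C D := by
  obtain ⟨a, b, hab⟩ := (separable_def' _).1 hirr.separable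
  obtain ⟨b1, hb1, h1⟩ := IsLocalization.integerNormalization_spec (nonZeroDivisors ℤ) a
  obtain ⟨b2, hb2, h2⟩ := IsLocalization.integerNormalization_spec (nonZeroDivisors ℤ) b
  refine ⟨C b2 * IsLocalization.integerNormalization (nonZeroDivisors ℤ) a,
    C b1 * IsLocalization.integerNormalization (nonZeroDivisors ℤ) b, b1 * b2,
    mul_ne_zero (nonZeroDivisors.ne_zero hb1) (nonZeroDivisors.ne_zero hb2), ?_⟩
  apply Polynomial.map_injective (algebraMap ℤ ℚ) (algebraMap ℤ ℚ).injective_int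
  have e : algebraMap ℤ ℚ = Int.castRingHom ℚ := rfl
  simp only [Polynomial.map_add, Polynomial.map_mul, h1, h2, Polynomial.map_C,
    ← Polynomial.derivative_map]
  rw [e]
  simp only [zsmul_eq_mul, eq_intCast, map_intCast, map_mul]
  linear_combination ((b1 : ℚ[X]) * b2) * hab

lemma rho_le (f u v : ℤ[X]) (D : ℤ) (huv : u * f + v * derivative f = C D) (p k : ℕ)
    (hp : p.Prime) (hk : 1 ≤ k) (hD : ¬ (p : ℤ) ∣ D) : rho f (p ^ k) ≤ f.natDegree := by
  classical
  have : Fact p.Prime := ⟨hp⟩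
  have hppos : 0 < p ^ k := pow_pos hp.pos k
  rw [rho_eq f _ hppos]
  set g := f.map (Int.castRingHom (ZMod p)) with hg
  have hg0 : g ≠ 0 := by
    intro h0
    have := congrArg (Polynomial.map (Int.castRingHom (ZMod p))) huv
    simp only [Polynomial.map_add, Polynomial.map_mul, ← Polynomial.derivative_map, ← hg, h0,
      derivative_zero, mul_zero, add_zero, Polynomial.map_C] at this
    have h1 : ((D : ℤ) : ZMod p) = 0 := by
      have := this.symm
      rw [Polynomial.C_eq_zero] at this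
      simpa using this
    exact hD ((ZMod.intCast_zmod_eq_zero_iff_dvd D p).1 h1)
  have hpk : (p : ℤ) ∣ ((p ^ k : ℕ) : ℤ) := by
    push_cast
    exact dvd_pow_self _ (by omega)
  calc _ ≤ g.roots.toFinset.card := ?_
    _ ≤ Multiset.card g.roots := Multiset.toFinset_card_le _
    _ ≤ g.natDegree := Polynomial.card_roots' g
    _ ≤ f.natDegree := Polynomial.natDegree_map_le
  apply Finset.card_le_card_of_injOn (fun a : ℕ => (a : ZMod p))
  · intro a ha
    simp only [coe_filter, mem_range, Set.mem_ofPred_eq] at ha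
    simp only [Multiset.mem_toFinset, mem_coe, mem_roots hg0, IsRoot.def]
    rw [hg]
    have : ((a : ℕ) : ZMod p) = Int.castRingHom (ZMod p) (a : ℤ) := by simp
    rw [this, Polynomial.eval_map, Polynomial.eval₂_at_apply]
    simp only [eq_intCast]
    exact (ZMod.intCast_zmod_eq_zero_iff_dvd _ p).2 (hpk.trans ha.2)
  · intro a ha b hb hab
    simp only [coe_filter, mem_range, Set.mem_ofPred_eq] at ha hb
    have hy : (p : ℤ) ∣ (b : ℤ) - a := by
      have : a ≡ b [MOD p] := (ZMod.natCast_eq_natCast_iff a b p).1 hab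
      exact this.dvd
    obtain ⟨z, hz⟩ := Polynomial.binomExpansion f (a : ℤ) ((b : ℤ) - a)
    rw [add_sub_cancel] at hz
    have h1 : ((p ^ k : ℕ) : ℤ) ∣ ((b : ℤ) - a) * (f.derivative.eval (a : ℤ) + z * ((b : ℤ) - a)) := by
      have : ((b : ℤ) - a) * (f.derivative.eval (a : ℤ) + z * ((b : ℤ) - a))
          = f.eval (b : ℤ) - f.eval (a : ℤ) := by rw [hz]; ring
      rw [this]
      exact dvd_sub hb.2 ha.2
    have h2 : ¬ (p : ℤ) ∣ f.derivative.eval (a : ℤ) + z * ((b : ℤ) - a) := by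
      intro h
      have h3 : (p : ℤ) ∣ f.derivative.eval (a : ℤ) :=
        (dvd_add_left (Dvd.dvd.mul_left hy z)).1 h
      apply hD
      have := congrArg (Polynomial.eval (a : ℤ)) huv
      simp only [eval_add, eval_mul, eval_C] at this
      rw [← this]
      exact dvd_add (Dvd.dvd.mul_left (hpk.trans ha.2) _) (Dvd.dvd.mul_left h3 _)
    have h4 : IsCoprime ((p ^ k : ℕ) : ℤ) (f.derivative.eval (a : ℤ) + z * ((b : ℤ) - a)) := by
      push_cast
      apply IsCoprime.pow_left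
      exact (Irreducible.coprime_iff_not_dvd (Nat.prime_iff_prime_int.1 hp).irreducible).2 h2
    have h5 := h4.dvd_of_dvd_mul_right h1
    have h6 : a ≡ b [MOD p ^ k] := (Nat.modEq_iff_dvd).2 h5
    exact Nat.ModEq.eq_of_lt_of_lt h6 ha.1 hb.1

lemma pi_div_tendsto : Tendsto (fun N : ℕ => (Nat.primeCounting N : ℝ) / N) atTop (𝓝 0) := by
  have h1 := (tendsto_natCast_atTop_atTop (R := ℝ)).eventually
    (Chebyshev.eventually_primeCounting_le (ε := 1) one_pos)
  have h2 : Tendsto (fun N : ℕ => (Real.log 4 + 1) / Real.log N) atTop (𝓝 0) :=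
    Tendsto.div_atTop tendsto_const_nhds
      (Real.tendsto_log_atTop.comp tendsto_natCast_atTop_atTop)
  apply tendsto_of_tendsto_of_tendsto_of_le_of_le' tendsto_const_nhds h2
  · exact Eventually.of_forall (fun N => by positivity)
  · filter_upwards [h1, eventually_gt_atTop 0] with N hN hN0
    have hN' : (0 : ℝ) < N := by exact_mod_cast hN0
    rw [Nat.floor_natCast] at hN
    rw [div_le_iff₀ hN']
    refine hN.trans (le_of_eq ?_)
    ring

open Classical in
lemma tail_bound (f : ℤ[X]) (k d ξ N : ℕ) (hk : 2 ≤ k) (hξ : 1 ≤ ξ)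
    (hrho : ∀ p : ℕ, p.Prime → ξ < p → rho f (p ^ k) ≤ d) :
    (((Icc 1 N).filter (fun n : ℕ => ∃ p : ℕ, p.Prime ∧ ξ < p ∧ p ≤ N ∧
      (p : ℤ) ^ k ∣ f.eval (n : ℤ))).card : ℝ) ≤ d * N / ξ + d * Nat.primeCounting N := by
  set T := (Ioc ξ N).filter Nat.Prime with hT
  have h1 : (Icc 1 N).filter (fun n : ℕ => ∃ p : ℕ, p.Prime ∧ ξ < p ∧ p ≤ N ∧
      (p : ℤ) ^ k ∣ f.eval (n : ℤ)) ⊆ T.biUnion (fun p => (Icc 1 N).filter
        (fun n : ℕ => ((p ^ k : ℕ) : ℤ) ∣ f.eval (n : ℤ))) := by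
    intro n hn
    simp only [mem_filter, mem_biUnion, hT, mem_Ioc] at hn ⊢
    obtain ⟨hn1, p, hp1, hp2, hp3, hp4⟩ := hn
    exact ⟨p, ⟨⟨hp2, hp3⟩, hp1⟩, hn1, by exact_mod_cast hp4⟩
  have h2 := (card_le_card h1).trans card_biUnion_le
  have h3 : ∀ p ∈ T, (((Icc 1 N).filter
      (fun n : ℕ => ((p ^ k : ℕ) : ℤ) ∣ f.eval (n : ℤ))).card : ℝ)
      ≤ d * N * ((p : ℝ) ^ 2)⁻¹ + d := by
    intro p hp
    simp only [hT, mem_filter, mem_Ioc] at hp
    have hppos : 0 < p ^ k := pow_pos hp.2.pos k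
    have h4 := count_upper _ (p ^ k) hppos (eval_periodic f (p ^ k)) N
    rw [← rho_eq f _ hppos] at h4
    have h5 : (rho f (p ^ k) : ℝ) ≤ d := by exact_mod_cast hrho p hp.2 hp.1.1
    have hp1 : (1 : ℝ) ≤ p := by exact_mod_cast hp.2.one_lt.le
    have h6 : (N : ℝ) / ((p ^ k : ℕ) : ℝ) ≤ N * ((p : ℝ) ^ 2)⁻¹ := by
      push_cast
      rw [← div_eq_mul_inv]
      exact div_le_div_of_nonneg_left (Nat.cast_nonneg _) (by positivity)
        (pow_le_pow_right₀ hp1 hk)
    have h7 : (0 : ℝ) ≤ (N : ℝ) / ((p ^ k : ℕ) : ℝ) + 1 := by positivity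
    calc _ ≤ _ := h4
      _ ≤ d * ((N : ℝ) / ((p ^ k : ℕ) : ℝ) + 1) := mul_le_mul_of_nonneg_right h5 h7
      _ ≤ d * (N * ((p : ℝ) ^ 2)⁻¹ + 1) :=
          mul_le_mul_of_nonneg_left (by linarith) (Nat.cast_nonneg _)
      _ = _ := by ring
  have h4 : ∑ p ∈ T, ((p : ℝ) ^ 2)⁻¹ ≤ (ξ : ℝ)⁻¹ := by
    by_cases hN : ξ ≤ N
    · have h5 : ∑ p ∈ T, ((p : ℝ) ^ 2)⁻¹ ≤ ∑ p ∈ Ioc ξ N, ((p : ℝ) ^ 2)⁻¹ :=
        sum_le_sum_of_subset_of_nonneg (filter_subset _ _) (fun _ _ _ => by positivity)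
      have h6 := sum_Ioc_inv_sq_le_sub (α := ℝ) (k := ξ) (n := N) (by omega) hN
      have h7 : (0 : ℝ) ≤ (N : ℝ)⁻¹ := by positivity
      linarith
    · have : T = ∅ := by
        rw [hT, Finset.Ioc_eq_empty (by omega)]; simp
      rw [this]; simp
  have h5 : (T.card : ℝ) ≤ Nat.primeCounting N := by
    have : T.card ≤ Nat.primeCounting N := by
      rw [← Nat.primesLE_card_eq_primeCounting]
      apply card_le_card
      intro p hp
      simp only [hT, mem_filter, mem_Ioc] at hp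
      exact Nat.mem_primesLE.2 ⟨hp.1.2, hp.2⟩
    exact_mod_cast this
  calc _ ≤ ((∑ p ∈ T, ((Icc 1 N).filter
      (fun n : ℕ => ((p ^ k : ℕ) : ℤ) ∣ f.eval (n : ℤ))).card : ℕ) : ℝ) := by exact_mod_cast h2
    _ ≤ ∑ p ∈ T, ((d : ℝ) * N * ((p : ℝ) ^ 2)⁻¹ + d) := by
        push_cast
        exact sum_le_sum (by simpa using h3)
    _ = d * N * ∑ p ∈ T, ((p : ℝ) ^ 2)⁻¹ + d * T.card := by
        rw [sum_add_distrib, ← mul_sum]; simp [mul_comm]
    _ ≤ d * N * (ξ : ℝ)⁻¹ + d * Nat.primeCounting N := by gcongr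
    _ = _ := by rw [div_eq_mul_inv]

end aux

open Classical in
/-- Sieve reduction: only primes larger than the range of `n` matter. -/
theorem sieve_reduction (f : ℤ[X]) (k : ℕ) (hk : 2 ≤ k)
    (hirr : Irreducible (f.map (Int.castRingHom ℚ)))
    (hloc : ∀ p : ℕ, p.Prime → rho f (p ^ k) < p ^ k)
    (hbad : Tendsto (fun N : ℕ => (((Finset.Icc 1 N).filter
        (fun n : ℕ => ∃ p : ℕ, p.Prime ∧ N < p ∧ (p : ℤ) ^ k ∣ f.eval (n : ℤ))).card : ℝ) / (N : ℝ))
        atTop (𝓝 0)) :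
    ∃ c : ℝ, 0 < c ∧
      HasProd (fun p : Nat.Primes => 1 - (rho f ((p : ℕ) ^ k) : ℝ) / ((p : ℕ) : ℝ) ^ k) c ∧
      Tendsto (fun N : ℕ => (countFree f k N : ℝ) / (N : ℝ)) atTop (𝓝 c) := by
  obtain ⟨u, v, D, hD, huv⟩ := exists_bezout f hirr
  set d := f.natDegree with hd
  have hrho : ∀ p : ℕ, p.Prime → D.natAbs < p → rho f (p ^ k) ≤ d := by
    intro p hp hDp
    apply rho_le f u v D huv p k hp (by omega)
    intro h
    have := Nat.le_of_dvd (Int.natAbs_pos.2 hD) (Int.natCast_dvd.1 h)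
    omega
  let g : Nat.Primes → ℝ := fun p => -((rho f ((p : ℕ) ^ k) : ℝ) / ((p : ℕ) : ℝ) ^ k)
  have hgpos : ∀ p, 0 < 1 + g p := by
    intro p
    have h1 : (rho f ((p : ℕ) ^ k) : ℝ) < ((p : ℕ) : ℝ) ^ k := by exact_mod_cast hloc p p.2
    have h2 : (0 : ℝ) < ((p : ℕ) : ℝ) ^ k := by exact_mod_cast pow_pos p.2.pos k
    have := (div_lt_one h2).2 h1
    simp only [g]
    linarith
  have hsum : Summable (fun p => ‖g p‖) := by
    have h1 : Summable (fun n : ℕ => (d : ℝ) * ((n : ℝ) ^ 2)⁻¹) :=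
      (Real.summable_nat_pow_inv.2 (by norm_num)).mul_left _
    have h2 : Summable (fun p : Nat.Primes => (d : ℝ) * (((p : ℕ) : ℝ) ^ 2)⁻¹) :=
      h1.comp_injective Subtype.val_injective
    apply h2.of_norm_bounded_eventually
    have hfin : {p : Nat.Primes | (p : ℕ) ≤ D.natAbs}.Finite :=
      (Set.finite_Iic D.natAbs).preimage Subtype.val_injective.injOn
    filter_upwards [hfin.compl_mem_cofinite] with p hp
    simp only [Set.mem_compl_iff, Set.mem_ofPred_eq, not_le] at hp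
    have h5 : (rho f ((p : ℕ) ^ k) : ℝ) ≤ d := by exact_mod_cast hrho p p.2 hp
    have hp1 : (1 : ℝ) ≤ (p : ℕ) := by exact_mod_cast p.2.one_lt.le
    simp only [g, norm_neg, norm_norm]
    rw [Real.norm_of_nonneg (by positivity), ← div_eq_mul_inv]
    exact div_le_div₀ (Nat.cast_nonneg _) h5 (by positivity) (pow_le_pow_right₀ hp1 hk)
  have hmul : Multipliable (fun p => 1 + g p) := multipliable_one_add_of_summable hsum
  have hne : ∏' p, (1 + g p) ≠ 0 :=
    tprod_one_add_ne_zero_of_summable (fun p => (hgpos p).ne') hsum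
  have hprod : HasProd (fun p : Nat.Primes => 1 - (rho f ((p : ℕ) ^ k) : ℝ) / ((p : ℕ) : ℝ) ^ k)
      (∏' p, (1 + g p)) := by
    have := hmul.hasProd
    simpa only [g, sub_eq_add_neg] using this
  have hnn : 0 ≤ ∏' p, (1 + g p) :=
    ge_of_tendsto' hmul.hasProd (fun S => Finset.prod_nonneg (fun p _ => (hgpos p).le))
  refine ⟨_, lt_of_le_of_ne hnn hne.symm, hprod, ?_⟩
  set c := ∏' p, (1 + g p)
  rw [Metric.tendsto_atTop]
  intro ε hε
  obtain ⟨ξ, hξ1, hξ2, hξ3⟩ : ∃ ξ : ℕ, 1 ≤ ξ ∧ D.natAbs ≤ ξ ∧ (d : ℝ) / ξ < ε / 5 := by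
    have h1 := (tendsto_const_div_atTop_nhds_zero_nat (d : ℝ)).eventually
      (gt_mem_nhds (show (0 : ℝ) < ε / 5 by positivity))
    obtain ⟨ξ, h2, h3, h4⟩ := ((eventually_ge_atTop 1).and
      ((eventually_ge_atTop D.natAbs).and h1)).exists
    exact ⟨ξ, h2, h3, h4⟩
  have hfin : {p : Nat.Primes | (p : ℕ) ≤ ξ}.Finite :=
    (Set.finite_Iic ξ).preimage Subtype.val_injective.injOn
  obtain ⟨S, hS1, hS2⟩ : ∃ S : Finset Nat.Primes, hfin.toFinset ≤ S ∧
      dist (∏ p ∈ S, (1 - (rho f ((p : ℕ) ^ k) : ℝ) / ((p : ℕ) : ℝ) ^ k)) c < ε / 5 := by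
    have h1 : Tendsto (fun S : Finset Nat.Primes =>
        ∏ p ∈ S, (1 - (rho f ((p : ℕ) ^ k) : ℝ) / ((p : ℕ) : ℝ) ^ k)) atTop (𝓝 c) := hprod
    have h2 := h1.eventually (Metric.ball_mem_nhds c (show (0 : ℝ) < ε / 5 by positivity))
    exact ((eventually_ge_atTop hfin.toFinset).and h2).exists
  obtain ⟨ht1, ht2⟩ := count_trunc f k S
  have hQpos : 0 < ∏ p ∈ S, (p : ℕ) ^ k := Finset.prod_pos (fun p _ => pow_pos p.2.pos k)
  have hlim := count_tendsto _ _ hQpos ht2
  rw [ht1] at hlim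
  have e1 := hlim.eventually (Metric.ball_mem_nhds _ (show (0 : ℝ) < ε / 5 by positivity))
  have e2 := hbad.eventually (gt_mem_nhds (show (0 : ℝ) < ε / 5 by positivity))
  have e3 := (pi_div_tendsto.const_mul (d : ℝ)).eventually
    (gt_mem_nhds (show (d : ℝ) * 0 < ε / 5 by rw [mul_zero]; positivity))
  obtain ⟨N0, hN0⟩ := eventually_atTop.1 (e1.and (e2.and (e3.and (eventually_gt_atTop 0))))
  refine ⟨N0, fun N hN => ?_⟩
  obtain ⟨h1, h2, h3, h4⟩ := hN0 N hN
  have hN' : (0 : ℝ) < N := by exact_mod_cast h4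
  have htail := tail_bound f k d ξ N hk hξ1 (fun p hp hp2 => hrho p hp (by omega))
  set A := ((Finset.Icc 1 N).filter
      (fun a : ℕ => ∀ p ∈ S, ¬ (((p : ℕ) : ℤ) ^ k ∣ f.eval (a : ℤ)))) with hA
  set B1 := (Finset.Icc 1 N).filter (fun n : ℕ => ∃ p : ℕ, p.Prime ∧ ξ < p ∧ p ≤ N ∧
      (p : ℤ) ^ k ∣ f.eval (n : ℤ)) with hB1
  set B2 := (Finset.Icc 1 N).filter
        (fun n : ℕ => ∃ p : ℕ, p.Prime ∧ N < p ∧ (p : ℤ) ^ k ∣ f.eval (n : ℤ)) with hB2
  have hle : countFree f k N ≤ A.card := by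
    unfold countFree
    apply Finset.card_le_card
    intro n hn
    simp only [hA, Finset.mem_filter] at hn ⊢
    exact ⟨hn.1, fun p _ => hn.2 p p.2⟩
  have hge : A.card ≤ countFree f k N + B1.card + B2.card := by
    unfold countFree
    refine le_trans (Finset.card_le_card ?_)
      ((Finset.card_union_le _ _).trans (Nat.add_le_add_right (Finset.card_union_le _ _) _))
    intro n hn
    simp only [hA, hB1, hB2, Finset.mem_filter, Finset.mem_union] at hn ⊢
    by_cases hfree : PowerFree k (f.eval (n : ℤ))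
    · exact Or.inl (Or.inl ⟨hn.1, hfree⟩)
    · unfold PowerFree at hfree
      push Not at hfree
      obtain ⟨p, hp, hdvd⟩ := hfree
      have hξp : ξ < p := by
        by_contra hcon
        exact hn.2 ⟨p, hp⟩ (hS1 (hfin.mem_toFinset.2 (not_lt.1 hcon))) hdvd
      by_cases hpN : p ≤ N
      · exact Or.inl (Or.inr ⟨hn.1, p, hp, hξp, hpN, hdvd⟩)
      · exact Or.inr ⟨hn.1, p, hp, by omega, hdvd⟩
  have hle' : (countFree f k N : ℝ) / N ≤ (A.card : ℝ) / N := by
    gcongr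
  have hge' : (A.card : ℝ) / N ≤ (countFree f k N : ℝ) / N + (B1.card : ℝ) / N
      + (B2.card : ℝ) / N := by
    rw [← add_div, ← add_div]
    gcongr
    exact_mod_cast hge
  have hB1' : (B1.card : ℝ) / N ≤ d / ξ + d * ((Nat.primeCounting N : ℝ) / N) := by
    rw [div_le_iff₀ hN']
    refine htail.trans (le_of_eq ?_)
    field_simp
  rw [Real.dist_eq, abs_lt] at hS2 ⊢
  simp only [Real.dist_eq, abs_lt] at h1
  constructor <;> linarith [h1.1, h1.2, hS2.1, hS2.2]

end Vale.Agent.P018
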