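import Vale.Agent.P018.Core
import Vale.Agent.P018.LocalGood
import Vale.Agent.P018.Sieve

namespace Vale.Agent.P018

open Polynomial NumberField Finset Filter Topology

/-- Primes of size about `N ^ y` contribute a negligible number of `x` with `p ^ k ∣ g x`. -/
def LocNegl (g : ℤ[X]) (k : ℕ) (y : ℝ) : Prop :=
  ∀ (c : ℕ) (c₁ : ℝ), 0 < c₁ → ∃ η : ℝ, 0 < η ∧ ∀ δ : ℝ, 0 < δ → ∀ᶠ N : ℕ in atTop,
    ∀ S : Finset ℤ, (∀ x ∈ S, c₁ * N ≤ |(x : ℝ)| ∧ |(x : ℝ)| ≤ c * N ∧ ∃ p : ℕ, p.Prime ∧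
      (N : ℝ) ≤ p ∧ (N : ℝ) ^ (y - η) ≤ p ∧ p ≤ (N : ℝ) ^ (y + η) ∧ (p : ℤ) ^ k ∣ g.eval x) →
      (S.card : ℝ) ≤ δ * N

theorem eventually_rpow_le (C₀ e e' δ : ℝ) (he : e < e') (hδ : 0 < δ) :
    ∀ᶠ N : ℕ in atTop, C₀ * (N : ℝ) ^ e ≤ δ * (N : ℝ) ^ e' := by
  obtain ⟨Y₀, hY₀, h⟩ := exists_large (C₀ / δ) (e' - e) (by linarith)
  filter_upwards [tendsto_natCast_atTop_atTop.eventually_ge_atTop Y₀] with N hN
  have h1 := h N hN
  have hN0 : (0 : ℝ) < N := by linarith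
  rw [neg_sub, Real.rpow_sub hN0, ← mul_div_assoc, div_lt_one (by positivity), div_mul_eq_mul_div,
    div_lt_iff₀ hδ] at h1
  linarith

variable {d : ℕ} {L : Type} [Field L] [NumberField L] {g : ℤ[X]} {θ : Fin d → 𝓞 L}

theorem locNegl_of_localGood (hθ : Roots g θ) (hm : g.Monic) (hdeg : g.natDegree = d) (k : ℕ)
    (hk : 1 ≤ k) (y : ℝ) (hy : 0 ≤ y) (h : LocalGood d k y) : LocNegl g k y := by
  obtain ⟨r, a, b, μ, τ, hr2, hrd, hμ, hτ, hnum, h1, h2⟩ := h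
  intro c c₁ hc₁
  have e1 : ∀ᶠ η : ℝ in 𝓝 0, ((fam r a b k).card : ℝ) *
      (a * (1 - k * (y - η) / d) + b * ((y + η) / d)) < ((fam r a b k).card : ℝ) * τ -
        (τ + (((r : ℝ) - 1) * μ + 1)) ^ (r + 1) / (((r + 1).factorial : ℝ) * μ ^ (r - 1)) :=
    ContinuousAt.eventually_lt (by fun_prop) continuousAt_const (by simpa using hnum)
  have e2 : ∀ᶠ η : ℝ in 𝓝 0, ((d : ℝ) - 1) * μ + (y + η) / d < 1 :=
    ContinuousAt.eventually_lt (by fun_prop) continuousAt_const (by simpa using h1)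
  have e3 : ∀ᶠ η : ℝ in 𝓝 0, ((d : ℝ) - r) * μ + r * ((y + η) / d) < 1 :=
    ContinuousAt.eventually_lt (by fun_prop) continuousAt_const (by simpa using h2)
  obtain ⟨η, ⟨⟨f1, f2⟩, f3⟩, hη⟩ :=
    ((((e1.and e2).and e3).filter_mono nhdsWithin_le_nhds).and
      (self_mem_nhdsWithin (a := (0 : ℝ)) (s := Set.Ioi 0))).exists
  have hη0 : 0 < η := hη
  refine ⟨η, hη0, fun δ hδ => ?_⟩
  set β := (y + η) / d with hβ
  have hβ0 : 0 ≤ β := by positivity
  obtain ⟨C₀, Y₀, hC⟩ := core hθ hm hdeg k r a b hk hr2 hrd (1 - k * (y - η) / d) β μ τ (y - η)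
    (y + η) hμ hτ le_rfl le_rfl hβ0 f1 c c₁ hc₁
  set γ := max (β - μ) 0 with hγ
  set e := μ * (d - 1) + β + γ * (r - 1) with he
  have hr1 : (1 : ℝ) ≤ r := by exact_mod_cast (by omega : 1 ≤ r)
  have he1 : e < 1 := by
    rcases le_total (β - μ) 0 with h | h
    · rw [he, hγ, max_eq_right h]; linarith
    · rw [he, hγ, max_eq_left h]; linarith
  filter_upwards [eventually_rpow_le (|C₀| * 2 ^ (r - 1)) e 1 δ he1 hδ,
    tendsto_natCast_atTop_atTop.eventually_ge_atTop Y₀,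
    tendsto_natCast_atTop_atTop.eventually_ge_atTop (1 : ℝ)] with N hN1 hN2 hN3 S hS
  have hN0 : (0 : ℝ) < N := by linarith
  refine (hC N hN2 S hS).trans ?_
  rw [Real.rpow_one] at hN1
  refine le_trans ?_ hN1
  have h3 : (N : ℝ) ^ (β - μ) + 1 ≤ 2 * (N : ℝ) ^ γ := by
    have h4 : (N : ℝ) ^ (β - μ) ≤ (N : ℝ) ^ γ :=
      Real.rpow_le_rpow_of_exponent_le hN3 (le_max_left _ _)
    have h5 : 1 ≤ (N : ℝ) ^ γ := Real.one_le_rpow hN3 (le_max_right _ _)
    linarith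
  calc C₀ * (((N : ℝ) ^ μ) ^ (d - 1) * (N : ℝ) ^ β * ((N : ℝ) ^ (β - μ) + 1) ^ (r - 1))
      ≤ |C₀| * (((N : ℝ) ^ μ) ^ (d - 1) * (N : ℝ) ^ β * (2 * (N : ℝ) ^ γ) ^ (r - 1)) := by
        gcongr
        exact le_abs_self _
    _ = |C₀| * 2 ^ (r - 1) * (N : ℝ) ^ e := by
        rw [he, Real.rpow_add hN0, Real.rpow_add hN0, mul_pow, ← Real.rpow_natCast ((N : ℝ) ^ μ),
          ← Real.rpow_natCast ((N : ℝ) ^ γ), ← Real.rpow_mul hN0.le, ← Real.rpow_mul hN0.le,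
          Nat.cast_sub (by omega : 1 ≤ d), Nat.cast_sub (by omega : 1 ≤ r), Nat.cast_one]
        ring

theorem eventually_pow_le (hθ : Roots g θ) (k c : ℕ) (c₁ : ℝ) (hc₁ : 0 < c₁) (e : ℝ)
    (he : (d : ℝ) < e) : ∀ᶠ N : ℕ in atTop, ∀ (x : ℤ) (p : ℕ), c₁ * N ≤ |(x : ℝ)| →
      |(x : ℝ)| ≤ c * N → (p : ℤ) ^ k ∣ g.eval x → (p : ℝ) ^ k < (N : ℝ) ^ e := by
  obtain ⟨R, hR, hRθ⟩ := exists_bound θ
  obtain ⟨σ⟩ : Nonempty (L →+* ℂ) := inferInstance
  filter_upwards [eventually_rpow_le ((c + R) ^ d) d e (1 / 2) he (by norm_num),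
    tendsto_natCast_atTop_atTop.eventually_gt_atTop (R / c₁),
    tendsto_natCast_atTop_atTop.eventually_ge_atTop (1 : ℝ)] with N hN1 hN2 hN3 x p hx1 hx2 hp
  have hN0 : (0 : ℝ) < N := by linarith
  have h1 : ∏ j, ‖(x : ℂ) - em σ (θ j)‖ = |((g.eval x : ℤ) : ℝ)| := by
    have := congrArg (fun z => ‖em σ z‖) (hθ.prod x)
    simpa only [map_prod, map_sub, map_intCast, norm_prod, Complex.norm_intCast] using this
  have hxR : R < |(x : ℝ)| := by
    rw [div_lt_iff₀ hc₁] at hN2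
    linarith
  have h2 : g.eval x ≠ 0 := by
    intro h
    rw [h] at h1
    simp only [Int.cast_zero, abs_zero, prod_eq_zero_iff, mem_univ, true_and, norm_eq_zero] at h1
    obtain ⟨j, hj⟩ := h1
    have h3 := hRθ σ j
    rw [← sub_eq_zero.mp hj, Complex.norm_intCast] at h3
    linarith
  have h4 : |((g.eval x : ℤ) : ℝ)| ≤ ((c + R) * N) ^ d := by
    rw [← h1]
    refine (prod_le_prod (g := fun _ => (c + R) * N) (fun _ _ => norm_nonneg _)
      fun j _ => ?_).trans (by simp)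
    refine (norm_sub_le _ _).trans ?_
    rw [Complex.norm_intCast]
    have := hRθ σ j
    nlinarith
  have h5 : (p : ℝ) ^ k ≤ |((g.eval x : ℤ) : ℝ)| := by
    have := Int.le_of_dvd (abs_pos.mpr h2) ((dvd_abs _ _).mpr hp)
    exact_mod_cast this
  rw [Real.rpow_natCast, ← mul_pow] at hN1
  have h6 : 0 < (N : ℝ) ^ e := by positivity
  linarith

theorem locNegl_of_gt (hθ : Roots g θ) (k : ℕ) (hk : 1 ≤ k) (y : ℝ) (h : (d : ℝ) < k * y) :
    LocNegl g k y := by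
  intro c c₁ hc₁
  have hk0 : (0 : ℝ) < k := by exact_mod_cast hk
  refine ⟨(k * y - d) / (2 * k), by apply div_pos <;> linarith, fun δ hδ => ?_⟩
  have he : (d : ℝ) < (y - (k * y - d) / (2 * k)) * k := by
    field_simp
    linarith
  filter_upwards [eventually_pow_le hθ k c c₁ hc₁ _ he] with N hN S hS
  rcases S.eq_empty_or_nonempty with rfl | ⟨x, hx⟩
  · simp only [card_empty, Nat.cast_zero]; positivity
  exfalso
  obtain ⟨h1, h2, p, -, -, h3, -, h4⟩ := hS x hx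
  have h5 := hN x p h1 h2 h4
  rw [Real.rpow_mul (by positivity), Real.rpow_natCast] at h5
  exact absurd (pow_le_pow_left₀ (by positivity) h3 k) (not_le.mpr h5)

theorem negl_of_locNegl (hθ : Roots g θ) (k : ℕ) (hk : 1 ≤ k)
    (h : ∀ y : ℝ, 1 ≤ y → LocNegl g k y) (c : ℕ) (c₁ : ℝ) (hc₁ : 0 < c₁) (δ : ℝ) (hδ : 0 < δ) :
    ∀ᶠ N : ℕ in atTop, ∀ S : Finset ℤ, (∀ x ∈ S, c₁ * N ≤ |(x : ℝ)| ∧ |(x : ℝ)| ≤ c * N ∧
      ∃ p : ℕ, p.Prime ∧ (N : ℝ) ≤ p ∧ (p : ℤ) ^ k ∣ g.eval x) → (S.card : ℝ) ≤ δ * N := by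
  classical
  choose! η hη hN using fun (y : ℝ) (hy : 1 ≤ y) => h y hy c c₁ hc₁
  obtain ⟨t, ht, hcov⟩ := (isCompact_Icc (a := (1 : ℝ)) (b := d + 1)).elim_nhds_subcover
    (fun y => Set.Ioo (y - η y) (y + η y))
    (fun y hy => Ioo_mem_nhds (by linarith [hη y hy.1]) (by linarith [hη y hy.1]))
  have hδ' : 0 < δ / (t.card + 1) := by positivity
  have hall := (eventually_all_finset t).mpr fun y hy => hN y (ht y hy).1 _ hδ'
  filter_upwards [hall, eventually_pow_le hθ k c c₁ hc₁ (d + 1) (by linarith),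
    tendsto_natCast_atTop_atTop.eventually_gt_atTop (1 : ℝ)] with N hN1 hN2 hN3 S hS
  have hN0 : (0 : ℝ) < N := by linarith
  let Sy : ℝ → Finset ℤ := fun y => S.filter fun x => ∃ p : ℕ, p.Prime ∧
      (N : ℝ) ≤ p ∧ (N : ℝ) ^ (y - η y) ≤ p ∧ p ≤ (N : ℝ) ^ (y + η y) ∧ (p : ℤ) ^ k ∣ g.eval x
  have hsub : S ⊆ t.biUnion Sy := by
    intro x hx
    obtain ⟨h1, h2, p, hp, h3, h4⟩ := hS x hx
    have hp0 : (0 : ℝ) < p := by linarith
    have h5 := hN2 x p h1 h2 h4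
    have h6 : (p : ℝ) ≤ (N : ℝ) ^ ((d : ℝ) + 1) :=
      (le_self_pow₀ (by linarith) (by omega)).trans h5.le
    have h7 : Real.logb N p ∈ Set.Icc (1 : ℝ) (d + 1) := by
      constructor
      · rw [Real.le_logb_iff_rpow_le hN3 hp0, Real.rpow_one]; exact h3
      · rw [Real.logb_le_iff_le_rpow hN3 hp0]; exact h6
    obtain ⟨y, hy, hy'⟩ := Set.mem_iUnion₂.mp (hcov h7)
    refine mem_biUnion.mpr ⟨y, hy, mem_filter.mpr ⟨hx, p, hp, h3, ?_, ?_, h4⟩⟩
    · exact (Real.le_logb_iff_rpow_le hN3 hp0).mp hy'.1.le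
    · exact (Real.logb_le_iff_le_rpow hN3 hp0).mp hy'.2.le
  have h8 : ∀ y ∈ t, ((Sy y).card : ℝ) ≤ δ / (t.card + 1) * N := fun y hy =>
    hN1 y hy _ fun x hx => ⟨(hS x (mem_filter.mp hx).1).1, (hS x (mem_filter.mp hx).1).2.1,
      (mem_filter.mp hx).2⟩
  calc (S.card : ℝ) ≤ ∑ y ∈ t, ((Sy y).card : ℝ) := by
        exact_mod_cast (card_le_card hsub).trans card_biUnion_le
    _ ≤ t.card * (δ / (t.card + 1) * N) := by
        simpa using sum_le_card_nsmul t _ _ h8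
    _ ≤ δ * N := by
        rw [← mul_assoc]
        refine mul_le_mul_of_nonneg_right ?_ hN0.le
        rw [← mul_div_assoc, div_le_iff₀ (by positivity)]
        nlinarith

theorem irreducible_integralNormalization (f : ℤ[X]) (hd : 1 ≤ f.natDegree)
    (hirr : Irreducible (f.map (Int.castRingHom ℚ))) :
    Irreducible (f.integralNormalization.map (Int.castRingHom ℚ)) := by
  have hf0 : f ≠ 0 := by rintro rfl; simp at hd
  have ha : ((f.leadingCoeff : ℤ) : ℚ) ≠ 0 := by exact_mod_cast leadingCoeff_ne_zero.mpr hf0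
  letI : Invertible ((f.leadingCoeff : ℤ) : ℚ) := invertibleOfNonzero ha
  let φ := Polynomial.algEquivCMulXAddC ((f.leadingCoeff : ℤ) : ℚ) 0
  have h1 : φ (f.integralNormalization.map (Int.castRingHom ℚ)) =
      C (((f.leadingCoeff : ℤ) : ℚ) ^ (f.natDegree - 1)) * f.map (Int.castRingHom ℚ) := by
    apply Polynomial.funext
    intro x
    have h2 := integralNormalization_eval₂_leadingCoeff_mul hd (Int.castRingHom ℚ) x
    simp only [φ, algEquivCMulXAddC_apply, ← comp_eq_aeval, eval_comp, eval_mul, eval_C, eval_add,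
      eval_X, add_zero, eval_map]
    simpa using h2
  rw [← MulEquiv.irreducible_iff φ, h1]
  exact (irreducible_isUnit_mul (isUnit_C.mpr (IsUnit.mk0 _ (pow_ne_zero _ ha)))).mpr hirr

theorem asymptotic_of_locNegl (d k : ℕ) (hd : 1 ≤ d) (hk : 2 ≤ k)
    (h : ∀ (L : Type) [Field L] [NumberField L] (g : ℤ[X]) (θ : Fin d → 𝓞 L), Roots g θ →
      g.Monic → g.natDegree = d → ∀ y : ℝ, 1 ≤ y → k * y ≤ d → LocNegl g k y) :
    Asymptotic d k := by
  classical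
  intro f hirr hdeg hloc
  apply sieve_reduction f k hk hirr hloc
  have hf0 : f ≠ 0 := by rintro rfl; simp at hdeg; omega
  have hd' : 1 ≤ f.natDegree := by omega
  have hgm := monic_integralNormalization hf0
  have hgd : f.integralNormalization.natDegree = d := by
    rw [natDegree_integralNormalization, hdeg]
  obtain ⟨L, _, _, θ, hθ⟩ := exists_roots d hd f.integralNormalization hgm hgd
    (irreducible_integralNormalization f hd' hirr)
  have hall : ∀ y : ℝ, 1 ≤ y → LocNegl f.integralNormalization k y := by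
    intro y hy
    rcases le_or_gt (k * y) d with h1 | h1
    · exact h L _ θ hθ hgm hgd y hy h1
    · exact locNegl_of_gt hθ k (by omega) y h1
  set a := f.leadingCoeff with ha
  have ha0 : a ≠ 0 := leadingCoeff_ne_zero.mpr hf0
  have ha1 : (1 : ℝ) ≤ |(a : ℝ)| := by exact_mod_cast Int.one_le_abs ha0
  rw [tendsto_order]
  refine ⟨fun b hb => Eventually.of_forall fun N => lt_of_lt_of_le hb (by positivity),
    fun b hb => ?_⟩
  filter_upwards [negl_of_locNegl hθ k (by omega) hall a.natAbs (b / 3) (by positivity) (b / 3)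
    (by positivity), tendsto_natCast_atTop_atTop.eventually_gt_atTop (0 : ℝ)] with N hN hN0
  set B := (Finset.Icc 1 N).filter
    (fun n : ℕ => ∃ p : ℕ, p.Prime ∧ N < p ∧ (p : ℤ) ^ k ∣ f.eval (n : ℤ)) with hB
  have h1 : ((B.filter fun n : ℕ => (n : ℝ) < b / 3 * N).card : ℝ) ≤ b / 3 * N := by
    have h2 : (B.filter fun n : ℕ => (n : ℝ) < b / 3 * N) ⊆ Finset.Icc 1 ⌊b / 3 * N⌋₊ := by
      intro n hn
      obtain ⟨h3, h4⟩ := mem_filter.mp hn
      exact mem_Icc.mpr ⟨(mem_Icc.mp (mem_filter.mp h3).1).1, Nat.le_floor h4.le⟩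
    have h5 := card_le_card h2
    rw [Nat.card_Icc, Nat.add_sub_cancel] at h5
    exact (Nat.cast_le.mpr h5).trans (Nat.floor_le (by positivity))
  have h6 : ((B.filter fun n : ℕ => ¬ (n : ℝ) < b / 3 * N).card : ℝ) ≤ b / 3 * N := by
    rw [← card_image_of_injective _ (f := fun n : ℕ => a * (n : ℤ))
      (fun n n' hn => by exact_mod_cast mul_left_cancel₀ ha0 hn)]
    refine hN _ fun x hx => ?_
    obtain ⟨n, hn, rfl⟩ := mem_image.mp hx
    obtain ⟨h3, h4⟩ := mem_filter.mp hn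
    obtain ⟨h5, p, hp, h7, h8⟩ := mem_filter.mp h3
    have h9 : (n : ℝ) ≤ N := by exact_mod_cast (mem_Icc.mp h5).2
    have h10 : (0 : ℝ) ≤ n := by positivity
    refine ⟨?_, ?_, p, hp, by exact_mod_cast h7.le, ?_⟩
    · push_cast
      rw [abs_mul, abs_of_nonneg h10]
      nlinarith [not_lt.mp h4]
    · push_cast
      rw [abs_mul, abs_of_nonneg h10, Nat.cast_natAbs, Int.cast_abs]
      exact mul_le_mul_of_nonneg_left h9 (abs_nonneg _)
    · have h11 := integralNormalization_eval₂_leadingCoeff_mul hd' (RingHom.id ℤ) (n : ℤ)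
      simp only [RingHom.id_apply, eval₂_id] at h11
      rw [h11]
      exact h8.mul_left _
  have h12 : (B.card : ℝ) = (B.filter fun n : ℕ => (n : ℝ) < b / 3 * N).card +
      (B.filter fun n : ℕ => ¬ (n : ℝ) < b / 3 * N).card := by
    exact_mod_cast (card_filter_add_card_filter_not (s := B) _).symm
  rw [div_lt_iff₀ hN0, h12]
  nlinarith

theorem asymptotic_of_localGood (d k : ℕ) (hd : 1 ≤ d) (hk : 2 ≤ k)
    (h : ∀ y : ℝ, 1 ≤ y → k * y ≤ d → LocalGood d k y) : Asymptotic d k :=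
  asymptotic_of_locNegl d k hd hk fun _ _ _ _ _ hθ hm hdeg y hy hyk =>
    locNegl_of_localGood hθ hm hdeg k (by omega) y (by linarith) (h y hy hyk)

end Vale.Agent.P018
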