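import Vale.Agent.P018.Point

namespace Vale.Agent.P018

open Polynomial NumberField Finset

/-- Few integers of size `O(p)` are roots of `g` modulo `p`. -/
theorem card_roots_le (d : ℕ) (g : ℤ[X]) (hm : g.Monic) (hdeg : g.natDegree = d) (p : ℕ)
    (hp : p.Prime) (c : ℕ) (S : Finset ℤ) (hS : ∀ x ∈ S, |x| ≤ c * p ∧ (p : ℤ) ∣ g.eval x) :
    S.card ≤ d * (2 * c + 1) := by
  classical
  haveI : Fact p.Prime := ⟨hp⟩
  have hp0 : (0 : ℤ) < p := by exact_mod_cast hp.pos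
  set gp := g.map (Int.castRingHom (ZMod p)) with hgp
  have hgpm : gp.Monic := hm.map _
  have h1 : gp.roots.toFinset.card ≤ d := by
    refine (Multiset.toFinset_card_le _).trans ((card_roots' _).trans ?_)
    rw [hgp, hm.natDegree_map, hdeg]
  have h2 : S.card ≤ (gp.roots.toFinset ×ˢ Icc (-(c : ℤ)) c).card := by
    refine card_le_card_of_injOn (fun x => ((x : ZMod p), x / p)) (fun x hx => ?_)
      (fun x _ y _ h => ?_)
    · obtain ⟨h3, h4⟩ := hS x hx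
      simp only [coe_product, Set.mem_prod, mem_coe, Multiset.mem_toFinset, coe_Icc, Set.mem_Icc]
      refine ⟨(mem_roots hgpm.ne_zero).mpr ?_, ?_, ?_⟩
      · rw [IsRoot, hgp, eval_intCast_map]
        exact (ZMod.intCast_zmod_eq_zero_iff_dvd _ _).mpr h4
      · rw [Int.le_ediv_iff_mul_le hp0]
        have := (abs_le.mp h3).1
        linarith
      · apply Int.ediv_le_of_le_mul hp0
        exact (abs_le.mp h3).2
    · simp only [Prod.mk.injEq] at h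
      have h5 : x % p = y % p := (ZMod.intCast_eq_intCast_iff' x y p).mp h.1
      rw [← Int.mul_ediv_add_emod x p, ← Int.mul_ediv_add_emod y p, h5, h.2]
  refine h2.trans ?_
  rw [card_product, Int.card_Icc]
  exact Nat.mul_le_mul h1 (by omega)

theorem prime_eq_of_mul_eq (p p' : ℕ) (hp : p.Prime) (hp' : p'.Prime) (c c' : ℤ) (hc' : c' ≠ 0)
    (h : (p : ℤ) * c = p' * c') (hlt : |c'| < p) : p = p' := by
  have h1 : (p : ℤ) ∣ p' * c' := ⟨c, h.symm⟩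
  rcases (Nat.prime_iff_prime_int.mp hp).dvd_or_dvd h1 with h2 | h2
  · exact (Nat.prime_dvd_prime_iff_eq hp hp').mp (by exact_mod_cast h2)
  · have := Int.le_of_dvd (abs_pos.mpr hc') ((dvd_abs _ _).mpr h2)
    omega

theorem exists_max_index {d : ℕ} (b : Fin d → ℤ) (hb : b ≠ 0) :
    ∃ i₀, b i₀ ≠ 0 ∧ ∀ i, |b i| ≤ |b i₀| := by
  obtain ⟨j, hj⟩ := Function.ne_iff.mp hb
  obtain ⟨i₀, -, h⟩ := exists_max_image univ (fun i => |b i|) ⟨j, mem_univ j⟩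
  refine ⟨i₀, fun h0 => ?_, fun i => h i (mem_univ i)⟩
  have := h j (mem_univ j)
  simp only [h0, abs_zero, abs_nonpos_iff] at this
  exact hj this

theorem abs_sub_le_of_floor_eq (M s t : ℝ) (hM : 0 < M) (h : ⌊M * s⌋ = ⌊M * t⌋) :
    |s - t| ≤ M⁻¹ := by
  have h1 := Int.abs_sub_lt_one_of_floor_eq_floor h
  rw [← mul_sub, abs_mul, abs_of_pos hM] at h1
  rw [inv_eq_one_div, le_div_iff₀ hM]
  linarith

/-- Directions in the same cell have close conjugate ratios. -/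
theorem ratio_close {d : ℕ} (R C₁ : ℝ) (hR : 1 ≤ R) (hC₁ : C₁ = d * R ^ d) (z z₀ : ℂ)
    (hz : ‖z‖ ≤ R) (hz₀ : ‖z₀‖ ≤ R) (b b' : Fin d → ℤ) (i₀ : Fin d) (hb : b i₀ ≠ 0)
    (hb' : b' i₀ ≠ 0) (hmax : ∀ i, |b i| ≤ |b i₀|) (hmax' : ∀ i, |b' i| ≤ |b' i₀|)
    (hlo : |(b i₀ : ℝ)| ≤ C₁ ^ d * ‖bev b z₀‖) (hlo' : |(b' i₀ : ℝ)| ≤ C₁ ^ d * ‖bev b' z₀‖)
    (ρ : ℝ) (hρ : ∀ i, |(b i : ℝ) / b i₀ - (b' i : ℝ) / b' i₀| ≤ ρ) :
    ‖bev b z / bev b z₀ - bev b' z / bev b' z₀‖ ≤ 2 * C₁ ^ (2 * d + 2) * ρ := by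
  have hd : (1 : ℝ) ≤ d := by have := i₀.2; exact_mod_cast (by omega : 1 ≤ d)
  have hC : 1 ≤ C₁ := hC₁ ▸ one_le_mul_of_one_le_of_one_le hd (one_le_pow₀ hR)
  have hρ0 : 0 ≤ ρ := (abs_nonneg _).trans (hρ i₀)
  let Φ : (Fin d → ℤ) → ℂ → ℂ := fun c w => ∑ i, (((c i : ℝ) / c i₀ : ℝ) : ℂ) * w ^ (i : ℕ)
  have hΦ : ∀ c : Fin d → ℤ, c i₀ ≠ 0 → ∀ w : ℂ, bev c w = (c i₀ : ℂ) * Φ c w := by
    intro c hc w
    have : (c i₀ : ℂ) ≠ 0 := by exact_mod_cast hc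
    simp only [Φ, bev, mul_sum]
    refine sum_congr rfl fun i _ => ?_
    push_cast
    field_simp
  have hup : ∀ c : Fin d → ℤ, c i₀ ≠ 0 → (∀ i, |c i| ≤ |c i₀|) → ∀ w : ℂ, ‖w‖ ≤ R →
      ‖Φ c w‖ ≤ C₁ := by
    intro c hc hcm w hw
    have := norm_bev_le (fun i => (c i : ℝ) / c i₀) w R 1 hR hw (fun i => by
      have h0 : (0 : ℝ) < |(c i₀ : ℝ)| := abs_pos.mpr (by exact_mod_cast hc)
      rw [abs_div, div_le_one h0]
      exact_mod_cast hcm i)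
    rw [mul_one, ← hC₁] at this
    exact this
  have hdiff : ∀ w : ℂ, ‖w‖ ≤ R → ‖Φ b w - Φ b' w‖ ≤ C₁ * ρ := by
    intro w hw
    have := norm_bev_le (fun i => (b i : ℝ) / b i₀ - (b' i : ℝ) / b' i₀) w R ρ hR hw hρ
    rw [← hC₁] at this
    refine le_trans (le_of_eq ?_) this
    congr 1
    simp only [Φ, ← sum_sub_distrib]
    refine sum_congr rfl fun i _ => ?_
    push_cast
    ring
  have hlow : ∀ c : Fin d → ℤ, c i₀ ≠ 0 → |(c i₀ : ℝ)| ≤ C₁ ^ d * ‖bev c z₀‖ →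
      1 ≤ C₁ ^ d * ‖Φ c z₀‖ := by
    intro c hc h
    have h0 : (0 : ℝ) < |(c i₀ : ℝ)| := abs_pos.mpr (by exact_mod_cast hc)
    rw [hΦ c hc, norm_mul, Complex.norm_intCast] at h
    apply le_of_mul_le_mul_left _ h0
    linarith
  have h1 := hlow b hb hlo
  have h2 := hlow b' hb' hlo'
  have h3 : 0 < ‖Φ b z₀‖ := by
    by_contra h
    have : ‖Φ b z₀‖ = 0 := le_antisymm (not_lt.mp h) (norm_nonneg _)
    rw [this] at h1; linarith
  have h4 : 0 < ‖Φ b' z₀‖ := by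
    by_contra h
    have : ‖Φ b' z₀‖ = 0 := le_antisymm (not_lt.mp h) (norm_nonneg _)
    rw [this] at h2; linarith
  have h3' := norm_pos_iff.mp h3
  have h4' := norm_pos_iff.mp h4
  have hbc : (b i₀ : ℂ) ≠ 0 := by exact_mod_cast hb
  have hbc' : (b' i₀ : ℂ) ≠ 0 := by exact_mod_cast hb'
  have h5 : bev b z / bev b z₀ - bev b' z / bev b' z₀ =
      ((Φ b z - Φ b' z) * Φ b' z₀ - Φ b' z * (Φ b z₀ - Φ b' z₀)) / (Φ b z₀ * Φ b' z₀) := by
    rw [hΦ b hb, hΦ b hb, hΦ b' hb', hΦ b' hb']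
    field_simp
    ring
  rw [h5, norm_div, norm_mul, div_le_iff₀ (mul_pos h3 h4)]
  have h6 : ‖(Φ b z - Φ b' z) * Φ b' z₀ - Φ b' z * (Φ b z₀ - Φ b' z₀)‖ ≤ 2 * C₁ ^ 2 * ρ := by
    refine (norm_sub_le _ _).trans ?_
    rw [norm_mul, norm_mul]
    have e1 := mul_le_mul (hdiff z hz) (hup b' hb' hmax' z₀ hz₀) (norm_nonneg _) (by positivity)
    have e2 := mul_le_mul (hup b' hb' hmax' z hz) (hdiff z₀ hz₀) (norm_nonneg _) (by positivity)
    nlinarith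
  refine h6.trans ?_
  have h7 : 1 ≤ (C₁ ^ d * ‖Φ b z₀‖) * (C₁ ^ d * ‖Φ b' z₀‖) := one_le_mul_of_one_le_of_one_le h1 h2
  calc 2 * C₁ ^ 2 * ρ ≤ 2 * C₁ ^ 2 * ρ * ((C₁ ^ d * ‖Φ b z₀‖) * (C₁ ^ d * ‖Φ b' z₀‖)) :=
        le_mul_of_one_le_right (by positivity) h7
    _ = _ := by ring

/-- The set of possible cells. -/
noncomputable def cells (d : ℕ) (M : ℝ) : Finset (Fin d × (Fin d → ℤ)) :=
  univ.biUnion fun i₀ => ({i₀} : Finset (Fin d)) ×ˢ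
    Fintype.piFinset fun i => if i = i₀ then {⌊M⌋} else Icc (-⌈M⌉) ⌈M⌉

theorem card_cells (d : ℕ) (M : ℝ) (hM : 1 ≤ M) : ((cells d M).card : ℝ) ≤ d * (5 * M) ^ (d - 1) := by
  have h1 : ∀ i₀ : Fin d, (((({i₀} : Finset (Fin d)) ×ˢ
      Fintype.piFinset fun i => if i = i₀ then {⌊M⌋} else Icc (-⌈M⌉) ⌈M⌉).card : ℕ) : ℝ) ≤
      (5 * M) ^ (d - 1) := by
    intro i₀
    rw [card_product, card_singleton, one_mul, Fintype.card_piFinset,
      ← mul_prod_erase univ _ (mem_univ i₀), if_pos rfl, card_singleton, one_mul]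
    push_cast
    have h2 : ∏ i ∈ univ.erase i₀, (((if i = i₀ then ({⌊M⌋} : Finset ℤ)
        else Icc (-⌈M⌉) ⌈M⌉).card : ℕ) : ℝ) ≤ ∏ _i ∈ univ.erase i₀, 5 * M := by
      refine prod_le_prod (fun _ _ => by positivity) fun i hi => ?_
      rw [if_neg (ne_of_mem_erase hi), Int.card_Icc]
      have h3 : (⌈M⌉ : ℝ) < M + 1 := Int.ceil_lt_add_one M
      have h4 : 0 < ⌈M⌉ := Int.ceil_pos.mpr (by linarith)
      have h5 : (((⌈M⌉ + 1 - -⌈M⌉).toNat : ℕ) : ℤ) = ⌈M⌉ + 1 - -⌈M⌉ :=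
        Int.toNat_of_nonneg (by omega)
      have h6 : (((⌈M⌉ + 1 - -⌈M⌉).toNat : ℕ) : ℝ) = ⌈M⌉ + 1 - -⌈M⌉ := by exact_mod_cast h5
      rw [h6]
      linarith
    rw [prod_const, card_erase_of_mem (mem_univ i₀), card_univ, Fintype.card_fin] at h2
    exact h2
  have h7 : (cells d M).card ≤ ∑ i₀ : Fin d, (({i₀} : Finset (Fin d)) ×ˢ
      Fintype.piFinset fun i => if i = i₀ then {⌊M⌋} else Icc (-⌈M⌉) ⌈M⌉).card := card_biUnion_le
  calc ((cells d M).card : ℝ) ≤ ∑ i₀ : Fin d, (((({i₀} : Finset (Fin d)) ×ˢ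
      Fintype.piFinset fun i => if i = i₀ then {⌊M⌋} else Icc (-⌈M⌉) ⌈M⌉).card : ℕ) : ℝ) := by
        exact_mod_cast h7
    _ ≤ ∑ _i₀ : Fin d, (5 * M) ^ (d - 1) := sum_le_sum fun i _ => h1 i
    _ = _ := by simp

theorem mem_cells {d : ℕ} (M : ℝ) (hM : 0 < M) (b : Fin d → ℤ) (i₀ : Fin d) (hb : b i₀ ≠ 0)
    (hmax : ∀ i, |b i| ≤ |b i₀|) :
    (i₀, fun i => ⌊M * ((b i : ℝ) / b i₀)⌋) ∈ cells d M := by
  simp only [cells, mem_biUnion, mem_univ, true_and, mem_product, mem_singleton,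
    Fintype.mem_piFinset]
  refine ⟨i₀, rfl, fun i => ?_⟩
  have h0 : (b i₀ : ℝ) ≠ 0 := by exact_mod_cast hb
  split_ifs with h
  · rw [h, div_self h0, mul_one]; exact mem_singleton_self _
  · have h1 : |(b i : ℝ) / b i₀| ≤ 1 := by
      rw [abs_div, div_le_one (abs_pos.mpr h0)]
      exact_mod_cast hmax i
    obtain ⟨h2, h3⟩ := abs_le.mp h1
    rw [mem_Icc]
    constructor
    · rw [Int.le_floor]
      push_cast
      have := Int.le_ceil M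
      nlinarith
    · refine (Int.floor_le_ceil _).trans (Int.ceil_le_ceil ?_)
      nlinarith

end Vale.Agent.P018
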