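import Vale.Agent.P018.Vander
import Vale.Agent.P018.BoxCountAux

/-!
The trivial endgame: count all integer vectors in each ball.

Proof of `box_count`. Let `m` with `B ≤ K |b₀ m|`. For `b ∈ F`, `b m` is an integer of absolute
value at most `K B`, and for `i ≠ m`, `|b i - b m * b₀ i / b₀ m| ≤ ω B ^ 2 / |b₀ m| ≤ K ω B`, so
given `b m` the integer `b i` lies in an interval of length `2 K ω B`.

Proof of `cfgNegl_box`. Take `η, e, C` from `Covered` and shrink `η` so that
`ν + β + (d - 1) max (β - μ) 0 < 1` for `β = (y + η) / d` (a smaller window is contained in the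
larger one as `1 ≤ X`). The points close to `t ∈ T` have `|wedge (b x) (b t)| ≤ C' X ^ (-μ) B ^ 2`
(`wedge_le_of_close`), so `box_count` bounds the number of vectors `b x`, and each vector comes
from at most `K` points (`Cfg.mult`, as `wedge v v = 0`).
-/

namespace Vale.Agent.P018

open Polynomial NumberField Finset

variable {d : ℕ} {L : Type} [Field L] [NumberField L] {g : ℤ[X]} {θ : Fin d → 𝓞 L}

theorem box_count (K B ω : ℝ) (hK : 1 ≤ K) (hB : 1 ≤ B) (hω : 0 ≤ ω) (b₀ : Fin d → ℤ)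
    (hb₀ : ∃ m, B ≤ K * |(b₀ m : ℝ)|) (F : Finset (Fin d → ℤ))
    (hF : ∀ b ∈ F, (∀ i, |(b i : ℝ)| ≤ K * B) ∧ ∀ i j, |(wedge b b₀ i j : ℝ)| ≤ ω * B ^ 2) :
    (F.card : ℝ) ≤ (2 * K * B + 1) * (2 * K * ω * B + 1) ^ (d - 1) := by
  obtain ⟨m, hm⟩ := hb₀
  have hK0 : 0 < K := by linarith
  have hB0 : 0 < B := by linarith
  have hm0 : 0 < |(b₀ m : ℝ)| := by
    by_contra h
    have h1 : K * |(b₀ m : ℝ)| ≤ 0 := mul_nonpos_of_nonneg_of_nonpos hK0.le (not_lt.mp h)
    linarith
  have hm1 : (b₀ m : ℝ) ≠ 0 := abs_pos.mp hm0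
  set r : ℝ := K * ω * B with hr
  have hr0 : 0 ≤ r := by positivity
  set cell : ℤ → Fin d → Finset ℤ := fun v i => if i = m then {v} else
    Finset.Icc ⌈(v : ℝ) * b₀ i / b₀ m - r⌉ ⌊(v : ℝ) * b₀ i / b₀ m + r⌋ with hcell
  have hsub : F ⊆ (Finset.Icc ⌈(0 : ℝ) - K * B⌉ ⌊(0 : ℝ) + K * B⌋).biUnion
      fun v => Fintype.piFinset (cell v) := by
    intro b hb
    obtain ⟨h1, h2⟩ := hF b hb
    refine Finset.mem_biUnion.mpr ⟨b m, BoxCount_mem_Icc (by simpa using h1 m), ?_⟩
    refine Fintype.mem_piFinset.mpr fun i => ?_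
    simp only [hcell]
    split_ifs with hi
    · simp [hi]
    · refine BoxCount_mem_Icc ?_
      have h3 := h2 i m
      have h4 : (b i : ℝ) - (b m : ℝ) * b₀ i / b₀ m = (wedge b b₀ i m : ℝ) / b₀ m := by
        simp only [wedge]
        push_cast
        field_simp
      rw [h4, abs_div, div_le_iff₀ hm0]
      refine h3.trans ?_
      have h5 : ω * B * B ≤ ω * B * (K * |(b₀ m : ℝ)|) :=
        mul_le_mul_of_nonneg_left hm (by positivity)
      rw [hr]
      nlinarith
  have hc : ∀ v, ((Fintype.piFinset (cell v)).card : ℝ) ≤ (2 * r + 1) ^ (d - 1) := by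
    intro v
    rw [Fintype.card_piFinset, ← Finset.mul_prod_erase _ _ (Finset.mem_univ m)]
    have h1 : (cell v m).card = 1 := by simp [hcell]
    rw [h1, one_mul]
    push_cast
    calc ∏ i ∈ Finset.univ.erase m, ((cell v i).card : ℝ) ≤ ∏ _i ∈ Finset.univ.erase m, (2 * r + 1) := by
          refine Finset.prod_le_prod (fun i _ => Nat.cast_nonneg _) fun i hi => ?_
          simp only [hcell, if_neg (Finset.ne_of_mem_erase hi)]
          exact BoxCount_card_Icc _ _ hr0
      _ = (2 * r + 1) ^ (d - 1) := by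
          rw [Finset.prod_const, Finset.card_erase_of_mem (Finset.mem_univ m), Finset.card_univ,
            Fintype.card_fin]
  calc (F.card : ℝ) ≤ _ := Nat.cast_le.mpr (Finset.card_le_card hsub)
    _ ≤ _ := BoxCount_card_biUnion _ _ _ fun v _ => hc v
    _ ≤ (2 * (K * B) + 1) * (2 * r + 1) ^ (d - 1) :=
        mul_le_mul_of_nonneg_right (BoxCount_card_Icc _ _ (by positivity)) (by positivity)
    _ = _ := by rw [hr]; ring

theorem cfgNegl_box (hθ : Roots g θ) (hd : 1 ≤ d) (k : ℕ) (y μ ν : ℝ) (hy : 0 ≤ y)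
    (h : Covered θ k y μ ν) (h1 : ν + y / d < 1) (h2 : ν + y / d + (d - 1) * (y / d - μ) < 1) :
    CfgNegl θ k y := by
  classical
  obtain ⟨η₀, hη₀, e, he, H⟩ := h
  obtain ⟨C', hC', hw⟩ := wedge_le_of_close hθ
  have hd1 : (1 : ℝ) ≤ d := by exact_mod_cast hd
  have hd0 : (0 : ℝ) < d := by linarith
  set δ : ℝ := min (1 - (ν + y / d)) (1 - (ν + y / d + (d - 1) * (y / d - μ))) with hδ
  have hδ0 : 0 < δ := lt_min (by linarith) (by linarith)
  have hδ1 : δ ≤ 1 - (ν + y / d) := min_le_left _ _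
  have hδ2 : δ ≤ 1 - (ν + y / d + (d - 1) * (y / d - μ)) := min_le_right _ _
  set η : ℝ := min η₀ (δ / 2) with hη
  have hη0 : 0 < η := lt_min hη₀ (by linarith)
  have hη1 : η ≤ η₀ := min_le_left _ _
  have hη2 : η ≤ δ / 2 := min_le_right _ _
  set β : ℝ := (y + η) / d with hβ
  set m : ℝ := max (β - μ) 0 with hm
  have hηd : η / d ≤ η := div_le_self hη0.le hd1
  have hβe : β = y / d + η / d := by rw [hβ, add_div]
  have hlt : ν + β + (d - 1) * m < 1 := by
    rcases max_cases (β - μ) 0 with h3 | h3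
    · rw [hm, h3.1, hβe]
      have h4 : η / d + (d - 1) * (η / d) = η := by field_simp; ring
      nlinarith
    · rw [hm, h3.1, hβe]
      linarith
  refine ⟨η, hη0, max e (ν + β + (d - 1) * m), max_lt he hlt, fun K => ?_⟩
  obtain ⟨C, X₀, hC, H⟩ := H K
  refine ⟨C + C * (K * (3 * K * (2 * K ^ 3 * C' * C + 1) ^ (d - 1))), X₀,
    fun X hX B S a b c hc hB1 hB2 => ?_⟩
  have hX1 := hc.one_le_X
  have hX0 : 0 < X := by linarith
  have hK := hc.one_le_K
  have hB := hc.one_le_B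
  obtain ⟨T, hTS, hT, hbad⟩ := H X hX B S a b c hc
    ((Real.rpow_le_rpow_of_exponent_le hX1 (by gcongr)).trans hB1)
    (hB2.trans (Real.rpow_le_rpow_of_exponent_le hX1 (by gcongr)))
  set E : ℝ := max e (ν + β + (d - 1) * m) with hE
  have hXm : 1 ≤ X ^ m := Real.one_le_rpow hX1 (le_max_right _ _)
  have hρ : 0 ≤ C * X ^ (-μ) := by positivity
  have hball : ∀ t ∈ T, ((S.filter fun x =>
      Close (C * X ^ (-μ)) (vec θ (b x)) (vec θ (b t))).card : ℝ) ≤
      K * (3 * K * (2 * K ^ 3 * C' * C + 1) ^ (d - 1)) * X ^ (β + (d - 1) * m) := by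
    intro t ht
    set St := S.filter fun x => Close (C * X ^ (-μ)) (vec θ (b x)) (vec θ (b t)) with hSt
    have h3 : (St.card : ℝ) ≤ K * (St.image b).card := by
      refine BoxCount_card_le St b K fun x hx => ?_
      refine le_trans (Nat.cast_le.mpr (Finset.card_le_card ?_))
        (hc.mult x (Finset.mem_filter.mp hx).1)
      intro x' hx'
      obtain ⟨h4, h5⟩ := Finset.mem_filter.mp hx'
      refine Finset.mem_filter.mpr ⟨(Finset.mem_filter.mp h4).1, ?_⟩
      funext i j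
      simp only [wedge, h5, Pi.zero_apply]
      ring
    have h4 := box_count K B (C' * (C * X ^ (-μ)) * K ^ 2) hK hB (by positivity) (b t)
      (hc.b_big t (hTS ht)) (St.image b) (by
        intro v hv
        obtain ⟨x, hx, rfl⟩ := Finset.mem_image.mp hv
        obtain ⟨hxS, hx⟩ := Finset.mem_filter.mp hx
        refine ⟨hc.b_crd x hxS, fun i j => ?_⟩
        refine (hw _ _ _ (K * B) hρ hx (hc.b_hi x hxS) (hc.b_hi t (hTS ht)) i j).trans
          (le_of_eq ?_)
        ring)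
    have h5 : 2 * K * B + 1 ≤ 3 * K * X ^ β := by
      have h6 : 1 ≤ K * B := one_le_mul_of_one_le_of_one_le hK hB
      have h7 : K * B ≤ K * X ^ β := mul_le_mul_of_nonneg_left hB2 (by linarith)
      linarith
    have h6 : 2 * K * (C' * (C * X ^ (-μ)) * K ^ 2) * B + 1 ≤
        (2 * K ^ 3 * C' * C + 1) * X ^ m := by
      have h7 : X ^ (-μ) * B ≤ X ^ m := by
        calc X ^ (-μ) * B ≤ X ^ (-μ) * X ^ β := mul_le_mul_of_nonneg_left hB2 (by positivity)
          _ = X ^ (β - μ) := by rw [← Real.rpow_add hX0]; ring_nf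
          _ ≤ X ^ m := Real.rpow_le_rpow_of_exponent_le hX1 (le_max_left _ _)
      have h8 : 2 * K ^ 3 * C' * C * (X ^ (-μ) * B) ≤ 2 * K ^ 3 * C' * C * X ^ m :=
        mul_le_mul_of_nonneg_left h7 (by positivity)
      nlinarith
    have h7 : X ^ (β + (d - 1) * m) = X ^ β * (X ^ m) ^ (d - 1) := by
      rw [Real.rpow_add hX0, ← Real.rpow_natCast, ← Real.rpow_mul hX0.le, Nat.cast_sub hd]
      push_cast
      rw [mul_comm m]
    calc (St.card : ℝ) ≤ K * ((2 * K * B + 1) *
          (2 * K * (C' * (C * X ^ (-μ)) * K ^ 2) * B + 1) ^ (d - 1)) :=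
          h3.trans (mul_le_mul_of_nonneg_left h4 (by linarith))
      _ ≤ K * ((3 * K * X ^ β) * ((2 * K ^ 3 * C' * C + 1) * X ^ m) ^ (d - 1)) := by gcongr
      _ = _ := by rw [h7, mul_pow]; ring
  have hsub : S ⊆ (S.filter fun x => ∀ t ∈ T,
      ¬ Close (C * X ^ (-μ)) (vec θ (b x)) (vec θ (b t))) ∪ T.biUnion fun t =>
        S.filter fun x => Close (C * X ^ (-μ)) (vec θ (b x)) (vec θ (b t)) := by
    intro x hx
    by_cases h3 : ∀ t ∈ T, ¬ Close (C * X ^ (-μ)) (vec θ (b x)) (vec θ (b t))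
    · exact Finset.mem_union_left _ (Finset.mem_filter.mpr ⟨hx, h3⟩)
    · push Not at h3
      obtain ⟨t, ht, h3⟩ := h3
      exact Finset.mem_union_right _
        (Finset.mem_biUnion.mpr ⟨t, ht, Finset.mem_filter.mpr ⟨hx, h3⟩⟩)
  have h3 := BoxCount_card_biUnion T _ _ hball
  have h4 : X ^ e ≤ X ^ E := Real.rpow_le_rpow_of_exponent_le hX1 (le_max_left _ _)
  have h5 : X ^ ν * X ^ (β + (d - 1) * m) ≤ X ^ E := by
    rw [← Real.rpow_add hX0]
    exact Real.rpow_le_rpow_of_exponent_le hX1 (le_trans (le_of_eq (by ring)) (le_max_right _ _))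
  set D : ℝ := K * (3 * K * (2 * K ^ 3 * C' * C + 1) ^ (d - 1)) with hD
  have hD0 : 0 ≤ D := by positivity
  have h6 : (T.card : ℝ) * (D * X ^ (β + (d - 1) * m)) ≤ C * D * X ^ E := by
    calc (T.card : ℝ) * (D * X ^ (β + (d - 1) * m)) ≤ C * X ^ ν * (D * X ^ (β + (d - 1) * m)) :=
          mul_le_mul_of_nonneg_right hT (by positivity)
      _ = C * D * (X ^ ν * X ^ (β + (d - 1) * m)) := by ring
      _ ≤ C * D * X ^ E := mul_le_mul_of_nonneg_left h5 (by positivity)
  have h7 := (Nat.cast_le (α := ℝ)).mpr ((Finset.card_le_card hsub).trans (Finset.card_union_le _ _))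
  push_cast at h7
  have h8 : C * X ^ e ≤ C * X ^ E := mul_le_mul_of_nonneg_left h4 (by linarith)
  linarith

end Vale.Agent.P018
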