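import Vale.Agent.P018.Assembly

/-!
Definitions shared by the files of the second stage of the project (translation lemma and the
quartic endgame). See `docs/P018.md` for the overview.
-/

namespace Vale.Agent.P018

open Polynomial NumberField Finset

variable {d : ℕ} {L : Type} [Field L] [NumberField L]

/-- Roots of a monic irreducible polynomial in a Galois number field. -/
structure GalRoots (g : ℤ[X]) (θ : Fin d → 𝓞 L) : Prop extends Roots g θ where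
  monic : g.Monic
  deg : g.natDegree = d
  gal : IsGalois ℚ L
  trans : ∀ i j, ∃ σ : L ≃ₐ[ℚ] L, σ (θ i : L) = (θ j : L)
  perm : ∀ σ : L ≃ₐ[ℚ] L, ∃ π : Equiv.Perm (Fin d), ∀ j, σ (θ j : L) = (θ (π j) : L)
  emb : ∀ σ σ' : L →+* ℂ, ∃ π : Equiv.Perm (Fin d), ∀ j, σ (θ j : L) = σ' (θ (π j) : L)

/-- The conjugates of the element of `ℤ[θ]` with coordinates `b`. -/
noncomputable def vec (θ : Fin d → 𝓞 L) (b : Fin d → ℤ) : Fin d → L :=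
  fun j => ((bev b (θ j) : 𝓞 L) : L)

/-- Torus invariant closeness: `|β i β' j / (β j β' i) - 1| ≤ ρ` in every complex embedding. -/
def Close (ρ : ℝ) (β β' : Fin d → L) : Prop :=
  ∀ (σ : L →+* ℂ) (i j : Fin d), ‖σ (β i * β' j - β j * β' i)‖ ≤ ρ * ‖σ (β j * β' i)‖

/-- The vector of conjugates of an element of `ℚ(θ)`. -/
def Equi (θ : Fin d → 𝓞 L) (β : Fin d → L) : Prop :=
  ∃ r : Fin d → ℚ, ∀ j, β j = ∑ i, (r i : L) * (θ j : L) ^ (i : ℕ)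

/-- A nonzero element of `ℚ(θ)` whose conjugates have comparable sizes. -/
def Good (θ : Fin d → 𝓞 L) (K : ℝ) (β : Fin d → L) : Prop :=
  Equi θ β ∧ (∀ j, β j ≠ 0) ∧ ∀ (σ : L →+* ℂ) (i j : Fin d), ‖σ (β i)‖ ≤ K * ‖σ (β j)‖

/-- The `2 × 2` minors of two integer vectors. -/
def wedge (b b' : Fin d → ℤ) : Fin d → Fin d → ℤ := fun i j => b i * b' j - b j * b' i

/-- A finite family of points `(x, a x, b x)` with `α β ^ k = c ^ k (x - θ)`, `|x| ≈ X`,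
`|β| ≈ B`, `|α| ≈ X / B ^ k`. -/
structure Cfg (θ : Fin d → 𝓞 L) (k : ℕ) (K X B : ℝ) (S : Finset ℤ) (a b : ℤ → Fin d → ℤ)
    (c : ℤ) : Prop where
  one_le_K : 1 ≤ K
  one_le_X : 1 ≤ X
  one_le_B : 1 ≤ B
  th_le : ∀ (σ : L →+* ℂ) j, ‖σ (θ j : L)‖ ≤ K
  c_ne : c ≠ 0
  eqn : ∀ x ∈ S, ∀ j, bev (a x) (θ j) * bev (b x) (θ j) ^ k = (c : 𝓞 L) ^ k * ((x : 𝓞 L) - θ j)
  x_lo : ∀ x ∈ S, X ≤ K * |(x : ℝ)|
  x_hi : ∀ x ∈ S, |(x : ℝ)| ≤ K * X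
  b_hi : ∀ x ∈ S, ∀ (σ : L →+* ℂ) j, ‖σ (vec θ (b x) j)‖ ≤ K * B
  b_lo : ∀ x ∈ S, ∀ (σ : L →+* ℂ) j, B ≤ K * ‖σ (vec θ (b x) j)‖
  a_hi : ∀ x ∈ S, ∀ (σ : L →+* ℂ) j, ‖σ (vec θ (a x) j)‖ ≤ K * (X / B ^ k)
  a_lo : ∀ x ∈ S, ∀ (σ : L →+* ℂ) j, X / B ^ k ≤ K * ‖σ (vec θ (a x) j)‖
  b_crd : ∀ x ∈ S, ∀ i, |(b x i : ℝ)| ≤ K * B
  b_big : ∀ x ∈ S, ∃ i, B ≤ K * |(b x i : ℝ)|
  a_crd : ∀ x ∈ S, ∀ i, |(a x i : ℝ)| ≤ K * (X / B ^ k)
  mult : ∀ x ∈ S, ((S.filter fun x' => wedge (b x) (b x') = 0).card : ℝ) ≤ K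

open Classical in
/-- More than `D` points of `S` are `ρ`-close to `x`. -/
def Rich (θ : Fin d → 𝓞 L) (S : Finset ℤ) (b : ℤ → Fin d → ℤ) (ρ : ℝ) (D : ℕ) (x : ℤ) : Prop :=
  D < (S.filter fun x' => Close ρ (vec θ (b x')) (vec θ (b x))).card

/-- The numerical hypothesis of `relation_exists` with `r = d`. -/
def RelGood (d k : ℕ) (α β μ : ℝ) : Prop :=
  ∃ (a b : ℕ) (τ : ℝ), 0 ≤ τ ∧
    ((fam d a b k).card : ℝ) * (a * α + b * β) < ((fam d a b k).card : ℝ) * τ -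
      (τ + (((d : ℝ) - 1) * μ + 1)) ^ (d + 1) / (((d + 1).factorial : ℝ) * μ ^ (d - 1))

/-- The scale free criterion with translation cost `κ`. -/
def Crit (d k : ℕ) (y μ κ s t : ℝ) : Prop :=
  (((d : ℝ) + 1) / d * (s * (1 - k * y / d + k * κ / d) + t * (y / d + (d - 1) * κ / d))) ^ d <
    (d.factorial : ℝ) * μ ^ (d - 1) * pvol d k s t

/-- Every configuration with `B ≈ X ^ (y / d)` has at most `X ^ e` points, `e < 1`. -/
def CfgNegl (θ : Fin d → 𝓞 L) (k : ℕ) (y : ℝ) : Prop :=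
  ∃ η : ℝ, 0 < η ∧ ∃ e : ℝ, e < 1 ∧ ∀ K : ℝ, ∃ C X₀ : ℝ, ∀ X : ℝ, X₀ ≤ X →
    ∀ (B : ℝ) (S : Finset ℤ) (a b : ℤ → Fin d → ℤ) (c : ℤ), Cfg θ k K X B S a b c →
      X ^ ((y - η) / d) ≤ B → B ≤ X ^ ((y + η) / d) → (S.card : ℝ) ≤ C * X ^ e

open Classical in
/-- All but `X ^ e` points, `e < 1`, lie in at most `X ^ ν` balls of radius `X ^ (-μ)`. -/
def Covered (θ : Fin d → 𝓞 L) (k : ℕ) (y μ ν : ℝ) : Prop :=
  ∃ η : ℝ, 0 < η ∧ ∃ e : ℝ, e < 1 ∧ ∀ K : ℝ, ∃ C X₀ : ℝ, 1 ≤ C ∧ ∀ X : ℝ, X₀ ≤ X →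
    ∀ (B : ℝ) (S : Finset ℤ) (a b : ℤ → Fin d → ℤ) (c : ℤ), Cfg θ k K X B S a b c →
      X ^ ((y - η) / d) ≤ B → B ≤ X ^ ((y + η) / d) →
      ∃ T ⊆ S, (T.card : ℝ) ≤ C * X ^ ν ∧
        ((S.filter fun x => ∀ t ∈ T,
          ¬ Close (C * X ^ (-μ)) (vec θ (b x)) (vec θ (b t))).card : ℝ) ≤ C * X ^ e

/-- The cofactors of three vectors in dimension four: `∑ i, x i * xi u v w i = det (x, u, v, w)`. -/
def xi {R : Type} [CommRing R] (u v w : Fin 4 → R) (i : Fin 4) : R :=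
  (Matrix.of ![Pi.single i 1, u, v, w]).det

/-- The point `x` is a vertex of a nondegenerate triangle of points `ρ`-close to it. -/
def Fat (θ : Fin 4 → 𝓞 L) (S : Finset ℤ) (b : ℤ → Fin 4 → ℤ) (ρ : ℝ) (x : ℤ) : Prop :=
  ∃ x' ∈ S, ∃ x'' ∈ S, Close ρ (vec θ (b x)) (vec θ (b x')) ∧
    Close ρ (vec θ (b x)) (vec θ (b x'')) ∧ xi (b x) (b x') (b x'') ≠ 0

/-- Integer Pluecker vectors. -/
def Pl (P : Fin 4 → Fin 4 → ℤ) : Prop :=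
  (∀ i j, P i j = -P j i) ∧ P 0 1 * P 2 3 - P 0 2 * P 1 3 + P 0 3 * P 1 2 = 0

/-- Pluecker coordinates in the basis of conjugates. -/
noncomputable def pw (θ : Fin d → 𝓞 L) (P : Fin d → Fin d → ℤ) (i j : Fin d) : 𝓞 L :=
  ∑ a, ∑ b, (P a b : 𝓞 L) * θ i ^ (a : ℕ) * θ j ^ (b : ℕ)

/-- The quartic condition on the cross ratio of a line. -/
def Quart {R : Type} [CommRing R] (θ : Fin 4 → R) (p : Fin 4 → Fin 4 → R) : Prop :=
  (p 0 1 * p 2 3) ^ 4 * (((θ 2 - θ 0) * (θ 3 - θ 1)) * ((θ 3 - θ 0) * (θ 2 - θ 1))) -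
    (p 0 2 * p 1 3) ^ 4 * (((θ 1 - θ 0) * (θ 3 - θ 2)) * ((θ 3 - θ 0) * (θ 2 - θ 1))) +
    (p 0 3 * p 1 2) ^ 4 * (((θ 1 - θ 0) * (θ 3 - θ 2)) * ((θ 2 - θ 0) * (θ 3 - θ 1))) = 0

/-- Pluecker vectors of the special lines. -/
def Special (θ : Fin 4 → 𝓞 L) (P : Fin 4 → Fin 4 → ℤ) : Prop :=
  (∀ i j, P i j = -P j i) ∧ (∀ i j, i ≠ j → pw θ P i j ≠ 0) ∧
    pw θ P 0 1 * pw θ P 2 3 - pw θ P 0 2 * pw θ P 1 3 + pw θ P 0 3 * pw θ P 1 2 = 0 ∧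
    Quart θ (pw θ P)

theorem em_bev (σ : L →+* ℂ) (θ : Fin d → 𝓞 L) (b : Fin d → ℤ) (j : Fin d) :
    em σ (bev b (θ j)) = σ (vec θ b j) := rfl

theorem vec_eq (θ : Fin d → 𝓞 L) (b : Fin d → ℤ) (j : Fin d) :
    vec θ b j = ∑ i, (b i : L) * (θ j : L) ^ (i : ℕ) := by
  exact map_bev (algebraMap (𝓞 L) L) b (θ j)

theorem equi_vec (θ : Fin d → 𝓞 L) (b : Fin d → ℤ) : Equi θ (vec θ b) :=
  ⟨fun i => b i, fun j => by simp [vec_eq]⟩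

omit [NumberField L] in
theorem Close.mono {ρ ρ' : ℝ} {β β' : Fin d → L} (h : Close ρ β β') (hρ : ρ ≤ ρ') :
    Close ρ' β β' := fun σ i j =>
  (h σ i j).trans (mul_le_mul_of_nonneg_right hρ (norm_nonneg _))

omit [NumberField L] in
theorem Close.refl {ρ : ℝ} (hρ : 0 ≤ ρ) (β : Fin d → L) : Close ρ β β := fun σ i j => by
  rw [mul_comm (β i), sub_self, map_zero, norm_zero]
  positivity

omit [NumberField L] in
theorem Close.symm {ρ : ℝ} {β β' : Fin d → L} (h : Close ρ β β') : Close ρ β' β := fun σ i j => by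
  have := h σ j i
  rwa [mul_comm (β j), mul_comm (β i)] at this

omit [NumberField L] in
theorem Close.trans {ρ ρ' : ℝ} {β β' β'' : Fin d → L} (h : Close ρ β β') (h' : Close ρ' β' β'')
    (hρ : 0 ≤ ρ) (h0 : ∀ j, β' j ≠ 0) : Close (ρ + ρ' + ρ * ρ') β β'' := fun σ i j => by
  have h1 := h σ i j
  have h2 := h' σ i j
  have hi : 0 < ‖σ (β' i)‖ := norm_pos_iff.mpr ((map_ne_zero σ).mpr (h0 i))
  have hj : 0 < ‖σ (β' j)‖ := norm_pos_iff.mpr ((map_ne_zero σ).mpr (h0 j))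
  simp only [map_sub, map_mul, norm_mul] at h1 h2 ⊢
  have h3 : ‖σ (β' i) * σ (β'' j)‖ ≤ (1 + ρ') * (‖σ (β' j)‖ * ‖σ (β'' i)‖) := by
    have h4 := norm_sub_norm_le (σ (β' i) * σ (β'' j)) (σ (β' j) * σ (β'' i))
    rw [norm_mul (σ (β' j))] at h4
    linarith
  have h5 : (σ (β i) * σ (β'' j) - σ (β j) * σ (β'' i)) * (σ (β' i) * σ (β' j)) =
      (σ (β i) * σ (β' j) - σ (β j) * σ (β' i)) * (σ (β' i) * σ (β'' j)) +
      σ (β j) * σ (β' i) * (σ (β' i) * σ (β'' j) - σ (β' j) * σ (β'' i)) := by ring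
  have h6 : ‖σ (β i) * σ (β'' j) - σ (β j) * σ (β'' i)‖ * (‖σ (β' i)‖ * ‖σ (β' j)‖) ≤
      (ρ * (‖σ (β j)‖ * ‖σ (β' i)‖)) * ((1 + ρ') * (‖σ (β' j)‖ * ‖σ (β'' i)‖)) +
      ‖σ (β j)‖ * ‖σ (β' i)‖ * (ρ' * (‖σ (β' j)‖ * ‖σ (β'' i)‖)) := by
    rw [← norm_mul, ← norm_mul, h5]
    refine (norm_add_le _ _).trans (add_le_add ?_ ?_)
    · rw [norm_mul]
      exact mul_le_mul h1 h3 (norm_nonneg _) (by positivity)
    · rw [norm_mul, norm_mul]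
      exact mul_le_mul_of_nonneg_left h2 (by positivity)
  refine le_of_mul_le_mul_right (h6.trans (le_of_eq ?_)) (mul_pos hi hj)
  ring

omit [NumberField L] in
theorem Close.trans3 {ρ : ℝ} {β β' β'' : Fin d → L} (h : Close ρ β β') (h' : Close ρ β' β'')
    (hρ : 0 ≤ ρ) (hρ1 : ρ ≤ 1) (h0 : ∀ j, β' j ≠ 0) : Close (3 * ρ) β β'' :=
  (h.trans h' hρ h0).mono (by nlinarith)

omit [NumberField L] in
theorem close_mul_iff {ρ : ℝ} {β β' γ : Fin d → L} (hγ : ∀ j, γ j ≠ 0) :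
    Close ρ (fun j => β j * γ j) (fun j => β' j * γ j) ↔ Close ρ β β' := by
  refine forall_congr' fun σ => forall_congr' fun i => forall_congr' fun j => ?_
  have h1 : β i * γ i * (β' j * γ j) - β j * γ j * (β' i * γ i) =
      (β i * β' j - β j * β' i) * (γ i * γ j) := by ring
  have h2 : β j * γ j * (β' i * γ i) = (β j * β' i) * (γ i * γ j) := by ring
  have h3 : 0 < ‖σ (γ i * γ j)‖ :=
    norm_pos_iff.mpr ((map_ne_zero σ).mpr (mul_ne_zero (hγ i) (hγ j)))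
  rw [h1, h2, map_mul σ _ (γ i * γ j), map_mul σ _ (γ i * γ j), norm_mul, norm_mul, ← mul_assoc]
  exact mul_le_mul_iff_left₀ h3

theorem Good.close {θ : Fin d → 𝓞 L} {K : ℝ} {β β' : Fin d → L} (h : Good θ K β)
    (h' : Good θ K β') (hK : 0 ≤ K) : Close (K ^ 2 + 1) β β' := fun σ i j => by
  simp only [map_sub, map_mul]
  refine (norm_sub_le _ _).trans ?_
  simp only [norm_mul]
  have h1 := h.2.2 σ i j
  have h2 := h'.2.2 σ j i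
  have h3 : ‖σ (β i)‖ * ‖σ (β' j)‖ ≤ (K * ‖σ (β j)‖) * (K * ‖σ (β' i)‖) :=
    mul_le_mul h1 h2 (norm_nonneg _) (by positivity)
  nlinarith

theorem Good.mono {θ : Fin d → 𝓞 L} {K K' : ℝ} {β : Fin d → L} (h : Good θ K β) (hK : K ≤ K') :
    Good θ K' β :=
  ⟨h.1, h.2.1, fun σ i j => (h.2.2 σ i j).trans (mul_le_mul_of_nonneg_right hK (norm_nonneg _))⟩

variable {θ : Fin d → 𝓞 L} {k : ℕ} {K X B : ℝ} {S : Finset ℤ} {a b : ℤ → Fin d → ℤ} {c : ℤ}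

theorem Cfg.b_ne (h : Cfg θ k K X B S a b c) {x : ℤ} (hx : x ∈ S) (j : Fin d) :
    vec θ (b x) j ≠ 0 := by
  obtain ⟨σ⟩ : Nonempty (L →+* ℂ) := inferInstance
  intro h0
  have h1 := h.b_lo x hx σ j
  rw [h0, map_zero, norm_zero, mul_zero] at h1
  linarith [h.one_le_B]

theorem Cfg.a_ne (h : Cfg θ k K X B S a b c) {x : ℤ} (hx : x ∈ S) (j : Fin d) :
    vec θ (a x) j ≠ 0 := by
  obtain ⟨σ⟩ : Nonempty (L →+* ℂ) := inferInstance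
  intro h0
  have h1 := h.a_lo x hx σ j
  rw [h0, map_zero, norm_zero, mul_zero] at h1
  have h2 : 0 < X / B ^ k := div_pos (by linarith [h.one_le_X]) (pow_pos (by linarith [h.one_le_B]) _)
  linarith

theorem Cfg.good (h : Cfg θ k K X B S a b c) {x : ℤ} (hx : x ∈ S) :
    Good θ (K ^ 2) (vec θ (b x)) := by
  refine ⟨equi_vec θ _, h.b_ne hx, fun σ i j => (h.b_hi x hx σ i).trans ?_⟩
  have h1 := h.b_lo x hx σ j
  have h2 := h.one_le_K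
  nlinarith

theorem Cfg.eqnL (h : Cfg θ k K X B S a b c) {x : ℤ} (hx : x ∈ S) (j : Fin d) :
    vec θ (a x) j * vec θ (b x) j ^ k = (c : L) ^ k * ((x : L) - (θ j : L)) := by
  have := congrArg (algebraMap (𝓞 L) L) (h.eqn x hx j)
  simp only [map_mul, map_pow, map_sub, map_intCast] at this
  exact this

theorem Cfg.sub (h : Cfg θ k K X B S a b c) {S' : Finset ℤ} (hS : S' ⊆ S) :
    Cfg θ k K X B S' a b c where
  one_le_K := h.one_le_K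
  one_le_X := h.one_le_X
  one_le_B := h.one_le_B
  th_le := h.th_le
  c_ne := h.c_ne
  eqn x hx := h.eqn x (hS hx)
  x_lo x hx := h.x_lo x (hS hx)
  x_hi x hx := h.x_hi x (hS hx)
  b_hi x hx := h.b_hi x (hS hx)
  b_lo x hx := h.b_lo x (hS hx)
  a_hi x hx := h.a_hi x (hS hx)
  a_lo x hx := h.a_lo x (hS hx)
  b_crd x hx := h.b_crd x (hS hx)
  b_big x hx := h.b_big x (hS hx)
  a_crd x hx := h.a_crd x (hS hx)
  mult x hx := le_trans (Nat.cast_le.mpr (card_le_card (filter_subset_filter _ hS)))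
    (h.mult x (hS hx))

end Vale.Agent.P018
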