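import Mathlib

namespace Vale.Agent.P018

open MvPolynomial

theorem exists_weight (κ : Type) [Fintype κ] (D : ℕ) : ∃ w : κ → ℕ, (∀ j, 1 ≤ w j) ∧
    ∀ m m' : κ →₀ ℕ, (∀ j, m j ≤ D) → (∀ j, m' j ≤ D) →
      ∑ j, m j * w j = ∑ j, m' j * w j → m = m' := by
  let e := Fintype.equivFin κ
  refine ⟨fun j => (D + 1) ^ (e j : ℕ), fun j => Nat.one_le_pow _ _ (Nat.succ_pos D), ?_⟩
  intro m m' hm hm' h
  let f : Fin (Fintype.card κ) → Fin (D + 1) := fun i => ⟨m (e.symm i), Nat.lt_succ_of_le (hm _)⟩
  let f' : Fin (Fintype.card κ) → Fin (D + 1) :=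
    fun i => ⟨m' (e.symm i), Nat.lt_succ_of_le (hm' _)⟩
  have h1 : finFunctionFinEquiv f = finFunctionFinEquiv f' := by
    apply Fin.ext
    rw [finFunctionFinEquiv_apply, finFunctionFinEquiv_apply, ← e.sum_comp, ← e.sum_comp]
    simpa [f, f'] using h
  have h2 := finFunctionFinEquiv.injective h1
  ext j
  have := congrArg Fin.val (congrFun h2 (e j))
  simpa [f, f'] using this

/-- Standard exponents. -/
def stdExp (κ : Type) [Fintype κ] [DecidableEq κ] (n D W : ℕ) : Finset (κ → ℕ) :=
  (Fintype.piFinset fun _ => Finset.range (W + 1)).filter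
    fun s => (Finset.univ.filter fun j => D ≤ s j).card < n

theorem mem_stdExp {κ : Type} [Fintype κ] [DecidableEq κ] {n D W : ℕ} {s : κ → ℕ} :
    s ∈ stdExp κ n D W ↔ (∀ j, s j ≤ W) ∧ (Finset.univ.filter fun j => D ≤ s j).card < n := by
  simp [stdExp]

theorem card_stdExp (κ : Type) [Fintype κ] [DecidableEq κ] (n D W : ℕ) :
    (stdExp κ n D W).card
      ≤ 2 ^ Fintype.card κ * ((D + 1) ^ Fintype.card κ * (W + 1) ^ (n - 1)) := by
  have hsub : stdExp κ n D W ⊆ (Finset.univ.filter fun A : Finset κ => A.card < n).biUnion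
      fun A => Fintype.piFinset fun j => if j ∈ A then Finset.range (W + 1) else Finset.range D := by
    intro s hs
    rw [mem_stdExp] at hs
    simp only [Finset.mem_biUnion, Finset.mem_filter, Finset.mem_univ, true_and,
      Fintype.mem_piFinset]
    refine ⟨_, hs.2, fun j => ?_⟩
    by_cases h : D ≤ s j
    · simp [h, hs.1 j]
    · simp [h, not_le.1 h]
  refine (Finset.card_le_card hsub).trans ((Finset.card_biUnion_le_card_mul _ _
    ((D + 1) ^ Fintype.card κ * (W + 1) ^ (n - 1)) ?_).trans ?_)
  · intro A hA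
    have hA' : A.card < n := (Finset.mem_filter.1 hA).2
    rw [Fintype.card_piFinset]
    calc ∏ j, (if j ∈ A then Finset.range (W + 1) else Finset.range D).card
        ≤ ∏ j, ((D + 1) * if j ∈ A then W + 1 else 1) := by
          refine Finset.prod_le_prod' fun j _ => ?_
          split_ifs
          · rw [Finset.card_range]; nlinarith
          · rw [Finset.card_range]; omega
      _ = (D + 1) ^ Fintype.card κ * (W + 1) ^ A.card := by
          rw [Finset.prod_mul_distrib, Finset.prod_const, Finset.card_univ, Finset.prod_ite_mem,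
            Finset.univ_inter, Finset.prod_const]
      _ ≤ _ := Nat.mul_le_mul_left _ (Nat.pow_le_pow_right (Nat.succ_pos W) (by omega))
  · refine Nat.mul_le_mul_right _ ((Finset.card_filter_le _ _).trans ?_)
    simp

section

variable {κ : Type} [Fintype κ] [DecidableEq κ] {L : Type} [Field L] {𝒮 : Type}

open Classical in
/-- The generating functions `v ^ j * u ^ s`. -/
noncomputable def rankGens (u : 𝒮 → κ → L) (v : 𝒮 → L) (n D δ W : ℕ) : Finset (𝒮 → L) :=
  (Finset.range (W * δ + 1) ×ˢ stdExp κ n D W).image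
    fun z P => v P ^ z.1 * ∏ j, u P j ^ z.2 j

theorem poly_mul_mem (u : 𝒮 → κ → L) (v : 𝒮 → L) (n D δ W : ℕ) (q : Polynomial L) (i : ℕ)
    (hq : q.natDegree + i ≤ W * δ) (s : κ → ℕ) (hs : s ∈ stdExp κ n D W) :
    (fun P => q.eval (v P) * (v P ^ i * ∏ j, u P j ^ s j))
      ∈ Submodule.span L (rankGens u v n D δ W : Set (𝒮 → L)) := by
  have : (fun P => q.eval (v P) * (v P ^ i * ∏ j, u P j ^ s j))
      = ∑ a ∈ Finset.range (q.natDegree + 1),
        q.coeff a • fun P => v P ^ (a + i) * ∏ j, u P j ^ s j := by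
    ext P
    rw [Polynomial.eval_eq_sum_range, Finset.sum_mul, Finset.sum_apply]
    refine Finset.sum_congr rfl fun a _ => ?_
    simp only [Pi.smul_apply, smul_eq_mul]
    ring
  rw [this]
  refine Submodule.sum_mem _ fun a ha => Submodule.smul_mem _ _ (Submodule.subset_span ?_)
  rw [Finset.mem_range] at ha
  simp only [rankGens, Finset.coe_image, Set.mem_image, Finset.mem_coe, Finset.mem_product,
    Finset.mem_range]
  exact ⟨(a + i, s), ⟨by simp only; omega, hs⟩, rfl⟩

theorem poly_mul_span (u : 𝒮 → κ → L) (v : 𝒮 → L) (n D δ W : ℕ) (q : Polynomial L)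
    (hq : q.natDegree ≤ δ) (g : 𝒮 → L)
    (hg : g ∈ Submodule.span L (rankGens u v n D δ W : Set (𝒮 → L))) :
    (fun P => q.eval (v P) * g P)
      ∈ Submodule.span L (rankGens u v n D δ (W + 1) : Set (𝒮 → L)) := by
  induction hg using Submodule.span_induction with
  | mem g hg =>
    simp only [rankGens, Finset.coe_image, Set.mem_image, Finset.mem_coe, Finset.mem_product,
      Finset.mem_range] at hg
    obtain ⟨z, ⟨h1, h2⟩, rfl⟩ := hg
    refine poly_mul_mem u v n D δ (W + 1) q z.1 (by rw [add_mul]; omega) z.2 ?_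
    rw [mem_stdExp] at h2 ⊢
    exact ⟨fun j => (h2.1 j).trans (Nat.le_succ W), h2.2⟩
  | zero =>
    have : (fun P => q.eval (v P) * (0 : 𝒮 → L) P) = 0 := by ext P; simp
    rw [this]
    exact Submodule.zero_mem _
  | add g h _ _ h1 h2 =>
    have := Submodule.add_mem _ h1 h2
    convert this using 1
    ext P; simp [mul_add]
  | smul a g _ h1 =>
    have := Submodule.smul_mem _ a h1
    convert this using 1
    ext P; simp [mul_left_comm]

end

/-- Hilbert function bound.  Points `P` have coordinates `u P : κ → L` and `v P : L`.  If every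
`n` of the coordinates `u` satisfy, together with `v`, a nontrivial relation of degree at most `D`,
then outside boundedly many values of `v` the polynomials of degree at most `E` in `u` span a
space of functions of dimension at most `C * (E + 1) ^ n`. -/
theorem rank_bound (κ : Type) [Fintype κ] [DecidableEq κ] (n D : ℕ) (hn : 1 ≤ n) :
    ∃ C₀ : ℕ, ∀ (L : Type) [Field L] (𝒮 : Type) (u : 𝒮 → κ → L) (v : 𝒮 → L),
      (∀ T : Finset κ, T.card = n → ∃ F : MvPolynomial κ (Polynomial L), F ≠ 0 ∧
          (∀ m ∈ F.support, ∀ j, (j ∉ T → m j = 0) ∧ m j ≤ D) ∧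
          (∀ m, (F.coeff m).natDegree ≤ D) ∧
          ∀ P, eval₂ (Polynomial.evalRingHom (v P)) (u P) F = 0) →
      ∃ Z : Finset L, Z.card ≤ C₀ ∧
        ∀ (E : ℕ) (ι : Type) [Fintype ι] (G : ι → MvPolynomial κ L) (P : ι → 𝒮),
          (∀ t, (G t).totalDegree ≤ E) → (∀ t, v (P t) ∉ Z) →
          LinearIndependent L (fun t : ι => fun t' : ι => eval (u (P t')) (G t)) →
          Fintype.card ι ≤ C₀ * (E + 1) ^ n := by
  classical
  obtain ⟨w, hw1, hwinj⟩ := exists_weight κ D
  set δ : ℕ := 2 ^ Fintype.card κ * D + D with hδ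
  set ws : ℕ := ∑ j, w j with hws
  refine ⟨(δ + 1) * (2 ^ Fintype.card κ * (D + 1) ^ Fintype.card κ) * (ws + 2) ^ n, ?_⟩
  intro L _ 𝒮 u v hrel
  choose! F hF0 hFs hFd hFe using hrel
  let wt : (κ →₀ ℕ) → ℕ := fun m => ∑ j, m j * w j
  have hlead : ∀ T : Finset κ, T.card = n → ∃ m ∈ (F T).support,
      ∀ m' ∈ (F T).support, m' ≠ m → wt m' < wt m := by
    intro T hT
    obtain ⟨m, hm, hmax⟩ := Finset.exists_max_image (F T).support wt
      (support_nonempty.2 (hF0 T hT))
    refine ⟨m, hm, fun m' hm' hne => lt_of_le_of_ne (hmax m' hm') fun h => hne ?_⟩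
    exact hwinj _ _ (fun j => (hFs T hT m' hm' j).2) (fun j => (hFs T hT m hm j).2) h
  choose! lead hlead1 hlead2 using hlead
  set Ts : Finset (Finset κ) := Finset.powersetCard n Finset.univ with hTs
  have hmemT : ∀ T, T ∈ Ts ↔ T.card = n := fun T => by simp [hTs]
  have hTcard : Ts.card ≤ 2 ^ Fintype.card κ := by
    simpa using Finset.card_le_univ Ts
  have hprod : ∀ A ⊆ Ts, (∏ T ∈ A, (F T).coeff (lead T)).natDegree ≤ 2 ^ Fintype.card κ * D := by
    intro A hA
    refine (Polynomial.natDegree_prod_le _ _).trans ((Finset.sum_le_card_nsmul _ _ D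
      fun T hT => hFd T ((hmemT T).1 (hA hT)) _).trans ?_)
    exact Nat.mul_le_mul_right _ ((Finset.card_le_card hA).trans hTcard)
  set c : Polynomial L := ∏ T ∈ Ts, (F T).coeff (lead T) with hc
  have hc0 : c ≠ 0 := Finset.prod_ne_zero_iff.2 fun T hT =>
    mem_support_iff.1 (hlead1 T ((hmemT T).1 hT))
  have hcd : c.natDegree ≤ δ := (hprod Ts subset_rfl).trans (Nat.le_add_right _ _)
  have key : ∀ W : ℕ, ∀ m : κ →₀ ℕ, wt m < W →
      (fun P => c.eval (v P) ^ W * ∏ j, u P j ^ m j)
        ∈ Submodule.span L (rankGens u v n D δ W : Set (𝒮 → L)) := by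
    intro W
    induction W with
    | zero => intro m hm; omega
    | succ W ih =>
      intro m hm
      by_cases hstd : (Finset.univ.filter fun j => D ≤ m j).card < n
      · have h1 := poly_mul_mem u v n D δ (W + 1) (c ^ (W + 1)) 0
          ((Polynomial.natDegree_pow_le.trans (Nat.mul_le_mul_left _ hcd))) m
          (mem_stdExp.2 ⟨fun j => by
            have h2 : m j * w j ≤ wt m := Finset.single_le_sum (f := fun j => m j * w j)
              (fun _ _ => Nat.zero_le _) (Finset.mem_univ j)
            have h3 := Nat.mul_le_mul_left (m j) (hw1 j)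
            omega, hstd⟩)
        simpa using h1
      · obtain ⟨T, hT1, hT⟩ := Finset.exists_subset_card_eq (not_lt.1 hstd)
        have hle : lead T ≤ m := by
          intro j
          by_cases hj : j ∈ T
          · exact (hFs T hT _ (hlead1 T hT) j).2.trans (Finset.mem_filter.1 (hT1 hj)).2
          · rw [(hFs T hT _ (hlead1 T hT) j).1 hj]; exact Nat.zero_le _
        obtain ⟨m0, rfl⟩ := exists_add_of_le hle
        set c' : Polynomial L := ∏ T' ∈ Ts.erase T, (F T').coeff (lead T') with hc'
        have hcc : c = (F T).coeff (lead T) * c' :=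
          (Finset.mul_prod_erase Ts (fun T => (F T).coeff (lead T)) ((hmemT T).2 hT)).symm
        have hid : (fun P => c.eval (v P) ^ (W + 1) * ∏ j, u P j ^ (lead T + m0) j)
            = -∑ m' ∈ (F T).support.erase (lead T), fun P => (c' * (F T).coeff m').eval (v P)
              * (c.eval (v P) ^ W * ∏ j, u P j ^ (m' + m0) j) := by
          ext P
          have h1 := hFe T hT P
          rw [eval₂_eq', ← Finset.add_sum_erase _ _ (hlead1 T hT)] at h1
          simp only [Polynomial.coe_evalRingHom] at h1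
          simp only [Pi.neg_apply, Finset.sum_apply, Finsupp.add_apply, pow_add,
            Finset.prod_mul_distrib, Polynomial.eval_mul]
          have h2 : ∑ m' ∈ (F T).support.erase (lead T), c'.eval (v P) * ((F T).coeff m').eval (v P)
              * (c.eval (v P) ^ W * ((∏ j, u P j ^ m' j) * ∏ j, u P j ^ m0 j))
              = (c'.eval (v P) * c.eval (v P) ^ W * ∏ j, u P j ^ m0 j) *
                ∑ m' ∈ (F T).support.erase (lead T),
                  ((F T).coeff m').eval (v P) * ∏ j, u P j ^ m' j := by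
            rw [Finset.mul_sum]
            exact Finset.sum_congr rfl fun m' _ => by ring
          have h3 : c.eval (v P) = ((F T).coeff (lead T)).eval (v P) * c'.eval (v P) := by
            rw [hcc, Polynomial.eval_mul]
          rw [h2, pow_one]
          linear_combination (c.eval (v P) ^ W * (∏ j, u P j ^ lead T j) * ∏ j, u P j ^ m0 j) * h3
            + (c'.eval (v P) * c.eval (v P) ^ W * ∏ j, u P j ^ m0 j) * h1
        rw [hid]
        refine Submodule.neg_mem _ (Submodule.sum_mem _ fun m' hm' => ?_)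
        have hm'' := Finset.mem_erase.1 hm'
        refine poly_mul_span u v n D δ W _ (Polynomial.natDegree_mul_le.trans
          (add_le_add (hprod _ (Finset.erase_subset _ _)) (hFd T hT m'))) _ (ih _ ?_)
        have h1 := hlead2 T hT m' hm''.2 hm''.1
        simp only [wt, Finsupp.add_apply, add_mul, Finset.sum_add_distrib] at hm h1 ⊢
        omega
  refine ⟨c.roots.toFinset, ?_, ?_⟩
  · have h1 : c.roots.toFinset.card ≤ δ :=
      (Multiset.toFinset_card_le _).trans ((Polynomial.card_roots' c).trans hcd)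
    have h2 : 1 ≤ (2 ^ Fintype.card κ * (D + 1) ^ Fintype.card κ) * (ws + 2) ^ n :=
      Nat.succ_le_of_lt (by positivity)
    rw [mul_assoc]
    nlinarith
  · intro E ι _ G P hG hP hli
    set W : ℕ := ws * E + 1 with hW
    set V := Submodule.span L (rankGens u v n D δ W : Set (𝒮 → L)) with hV
    have hmem : ∀ t, (fun Q => c.eval (v Q) ^ W * eval (u Q) (G t)) ∈ V := by
      intro t
      have : (fun Q => c.eval (v Q) ^ W * eval (u Q) (G t)) = ∑ m ∈ (G t).support,
          (G t).coeff m • fun Q => c.eval (v Q) ^ W * ∏ j, u Q j ^ m j := by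
        ext Q
        rw [eval_eq', Finset.mul_sum, Finset.sum_apply]
        refine Finset.sum_congr rfl fun m _ => ?_
        simp only [Pi.smul_apply, smul_eq_mul]
        ring
      rw [this]
      refine Submodule.sum_mem _ fun m hm => Submodule.smul_mem _ _ (key W m ?_)
      have h1 := (le_totalDegree hm).trans (hG t)
      rw [Finsupp.sum_fintype _ _ (fun _ => rfl)] at h1
      have h2 : wt m ≤ ∑ j, m j * ws := Finset.sum_le_sum fun j _ => Nat.mul_le_mul_left _
        (Finset.single_le_sum (f := w) (fun _ _ => Nat.zero_le _) (Finset.mem_univ j))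
      rw [← Finset.sum_mul] at h2
      have h3 := Nat.mul_le_mul_right ws h1
      rw [hW, mul_comm ws]
      omega
    have hli2 : LinearIndependent L fun t : ι => (⟨_, hmem t⟩ : V) := by
      rw [Fintype.linearIndependent_iff] at hli ⊢
      intro a ha
      apply hli a
      ext t'
      have h1 := congrFun (congrArg Subtype.val ha) (P t')
      simp only [AddSubmonoidClass.coe_finsetSum, SetLike.mk_smul_mk, Finset.sum_apply,
        Pi.smul_apply, smul_eq_mul, ZeroMemClass.coe_zero, Pi.zero_apply] at h1 ⊢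
      have h2 : c.eval (v (P t')) ≠ 0 := fun h => hP t' (by
        rw [Multiset.mem_toFinset, Polynomial.mem_roots hc0]; exact h)
      have h3 : c.eval (v (P t')) ^ W * ∑ t, a t * eval (u (P t')) (G t) = 0 := by
        rw [← h1, Finset.mul_sum]
        exact Finset.sum_congr rfl fun t _ => by ring
      exact (mul_eq_zero.1 h3).resolve_left (pow_ne_zero _ h2)
    have hfin : Module.Finite L V := Module.Finite.span_of_finite L (Finset.finite_toSet _)
    have h1 := hli2.fintype_card_le_finrank
    have h2 : Module.finrank L V ≤ (rankGens u v n D δ W).card := finrank_span_finset_le_card _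
    have h3 : (rankGens u v n D δ W).card ≤ (W * δ + 1) * (stdExp κ n D W).card := by
      unfold rankGens
      refine Finset.card_image_le.trans ?_
      rw [Finset.card_product, Finset.card_range]
    have h4 := card_stdExp κ n D W
    have h5 : W * δ + 1 ≤ (δ + 1) * (W + 1) := by nlinarith
    have h6 : W + 1 ≤ (ws + 2) * (E + 1) := by rw [hW]; nlinarith
    calc Fintype.card ι ≤ (W * δ + 1) * (stdExp κ n D W).card := h1.trans (h2.trans h3)
      _ ≤ ((δ + 1) * (W + 1)) *
          (2 ^ Fintype.card κ * ((D + 1) ^ Fintype.card κ * (W + 1) ^ (n - 1))) :=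
        Nat.mul_le_mul h5 h4
      _ = (δ + 1) * (2 ^ Fintype.card κ * (D + 1) ^ Fintype.card κ) * (W + 1) ^ n := by
        obtain ⟨n', rfl⟩ := Nat.exists_eq_add_of_le' hn
        rw [Nat.add_sub_cancel, pow_succ]
        ring
      _ ≤ (δ + 1) * (2 ^ Fintype.card κ * (D + 1) ^ Fintype.card κ) * ((ws + 2) * (E + 1)) ^ n :=
        Nat.mul_le_mul_left _ (Nat.pow_le_pow_left h6 n)
      _ = _ := by rw [mul_pow]; ring

end Vale.Agent.P018
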