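import Vale.Agent.P018.Setup
import Vale.Agent.P018.Rank

namespace Vale.Agent.P018

open Finset

theorem linearIndependent_of_diag {L ι : Type} [Field L] (f : ι → ι → L) (h1 : ∀ t, f t t ≠ 0)
    (h2 : ∀ t t', t ≠ t' → f t t' = 0) : LinearIndependent L f := by
  rw [linearIndependent_iff']
  intro s c hc t ht
  have := congrFun hc t
  simp only [Finset.sum_apply, Pi.smul_apply, smul_eq_mul, Pi.zero_apply] at this
  rw [sum_eq_single t (fun t' _ h => by rw [h2 t' t h, mul_zero]) (fun h => absurd ht h)] at this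
  exact (mul_eq_zero.mp this).resolve_right (h1 t)

theorem exists_vinv {L : Type} [Field L] {d : ℕ} (θ : Fin d → L) (hθ : Function.Injective θ) :
    ∃ W : Matrix (Fin d) (Fin d) L, ∀ (b : Fin d → ℤ) i,
      (b i : L) = ∑ j, W i j * bev b (θ j) := by
  have hdet : IsUnit (Matrix.vandermonde θ).det :=
    (Matrix.det_vandermonde_ne_zero_iff.mpr hθ).isUnit
  refine ⟨(Matrix.vandermonde θ)⁻¹, fun b i => ?_⟩
  have h1 : (fun j => bev b (θ j)) = (Matrix.vandermonde θ).mulVec (fun i => (b i : L)) := by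
    funext j
    simp [bev, Matrix.mulVec, dotProduct, Matrix.vandermonde_apply, mul_comm]
  have h2 : ((Matrix.vandermonde θ)⁻¹).mulVec (fun j => bev b (θ j)) = fun i => (b i : L) := by
    rw [h1, Matrix.mulVec_mulVec, Matrix.nonsing_inv_mul _ hdet, Matrix.one_mulVec]
  exact (congrFun h2 i).symm

/-- Lagrange interpolation on a slice of the integer grid. -/
theorem slice_polys {L : Type} [Field L] [CharZero L] {d : ℕ} (θ : Fin d → L)
    (hθ : Function.Injective θ) (j₀ i₀ : Fin d) (ι : Type) (b : ι → Fin d → ℤ)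
    (hb : Function.Injective b) (t₀ : ℤ) (ht₀ : t₀ ≠ 0) (hbt : ∀ t, b t i₀ = t₀) (Λ : ℕ)
    (hΛ : ∀ t t' i, |b t i - b t' i| ≤ Λ) (hne : ∀ t, bev (b t) (θ j₀) ≠ 0) :
    ∃ G : ι → MvPolynomial (Fin d) L, (∀ t, (G t).totalDegree ≤ d * (2 * Λ + 1)) ∧
      LinearIndependent L (fun t : ι => fun t' : ι =>
        MvPolynomial.eval (fun j => bev (b t') (θ j) / bev (b t') (θ j₀)) (G t)) := by
  classical
  obtain ⟨W, hW⟩ := exists_vinv θ hθ
  let ℓ : Fin d → MvPolynomial (Fin d) L := fun i => ∑ j, MvPolynomial.C (W i j) * MvPolynomial.X j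
  have hℓ : ∀ t i, MvPolynomial.eval (fun j => bev (b t) (θ j) / bev (b t) (θ j₀)) (ℓ i) =
      (b t i : L) / bev (b t) (θ j₀) := by
    intro t i
    simp only [ℓ, map_sum, map_mul, MvPolynomial.eval_C, MvPolynomial.eval_X]
    rw [hW (b t) i, sum_div]
    exact sum_congr rfl fun j _ => by ring
  have hℓd : ∀ i, (ℓ i).totalDegree ≤ 1 := by
    intro i
    refine MvPolynomial.totalDegree_finsetSum_le fun j _ => ?_
    refine (MvPolynomial.totalDegree_mul _ _).trans ?_
    simp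
  let J : ι → Fin d → Finset ℤ := fun t i => (Icc (b t i - Λ) (b t i + Λ)).erase (b t i)
  let G : ι → MvPolynomial (Fin d) L := fun t => ∏ i, ∏ n ∈ J t i,
    (ℓ i - MvPolynomial.C ((n : L) / t₀) * ℓ i₀)
  have ht₀' : (t₀ : L) ≠ 0 := by exact_mod_cast ht₀
  have hev : ∀ t t', MvPolynomial.eval (fun j => bev (b t') (θ j) / bev (b t') (θ j₀)) (G t) =
      ∏ i, ∏ n ∈ J t i, (((b t' i : L) - n) / bev (b t') (θ j₀)) := by
    intro t t'
    simp only [G, map_prod, map_sub, map_mul, MvPolynomial.eval_C, hℓ, hbt]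
    refine prod_congr rfl fun i _ => prod_congr rfl fun n _ => ?_
    field_simp
  refine ⟨G, fun t => ?_, linearIndependent_of_diag _ (fun t => ?_) (fun t t' htt' => ?_)⟩
  · refine (MvPolynomial.totalDegree_finsetProd _ _).trans ?_
    have : ∀ i, (∏ n ∈ J t i, (ℓ i - MvPolynomial.C ((n : L) / t₀) * ℓ i₀)).totalDegree ≤
        2 * Λ + 1 := by
      intro i
      refine (MvPolynomial.totalDegree_finsetProd _ _).trans ?_
      have h1 : ∀ n ∈ J t i, (ℓ i - MvPolynomial.C ((n : L) / t₀) * ℓ i₀).totalDegree ≤ 1 := by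
        intro n _
        refine (MvPolynomial.totalDegree_sub _ _).trans (max_le (hℓd i) ?_)
        refine (MvPolynomial.totalDegree_mul _ _).trans ?_
        simpa using hℓd i₀
      refine (sum_le_card_nsmul _ _ 1 h1).trans ?_
      have h2 : (J t i).card ≤ (Icc (b t i - Λ) (b t i + Λ)).card := card_erase_le
      rw [Int.card_Icc] at h2
      simp only [smul_eq_mul, mul_one]
      omega
    refine (sum_le_card_nsmul _ _ _ fun i _ => this i).trans ?_
    simp
  · rw [hev]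
    refine prod_ne_zero_iff.mpr fun i _ => prod_ne_zero_iff.mpr fun n hn => ?_
    refine div_ne_zero (sub_ne_zero.mpr ?_) (hne t)
    exact_mod_cast (ne_of_mem_erase hn).symm
  · rw [hev]
    have : ∃ i, b t' i ≠ b t i := by
      by_contra h
      push Not at h
      exact htt' (hb (funext h)).symm
    obtain ⟨i, hi⟩ := this
    refine prod_eq_zero (mem_univ i) (prod_eq_zero (i := b t' i) ?_ (by simp))
    have := abs_le.mp (hΛ t' t i)
    simp only [J, mem_erase, mem_Icc]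
    omega

/-- Counting the points of one box from the algebraic relations. -/
theorem count_of_relations (d n D : ℕ) (hn : 1 ≤ n) :
    ∃ C₀ : ℕ, ∀ (L : Type) [Field L] [CharZero L] (θ : Fin d → L), Function.Injective θ →
      ∀ (j₀ i₀ : Fin d) (Pts : Type) [Fintype Pts] (x : Pts → ℤ), Function.Injective x →
      ∀ (b : Pts → Fin d → ℤ) (m Bn Λ : ℕ), (∀ t, bev (b t) (θ j₀) ≠ 0) → (∀ t, b t i₀ ≠ 0) →
      (∀ t, |b t i₀| ≤ Bn) → (∀ t t', b t i₀ = b t' i₀ → ∀ i, |b t i - b t' i| ≤ Λ) →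
      (∀ (S : Finset Pts) (b₀ : Fin d → ℤ), (∀ t ∈ S, b t = b₀) → S.card ≤ m) →
      (∀ T : Finset (Fin d), T.card = n → ∃ F : MvPolynomial (Fin d) (Polynomial L), F ≠ 0 ∧
          (∀ m ∈ F.support, ∀ j, (j ∉ T → m j = 0) ∧ m j ≤ D) ∧
          (∀ m, (F.coeff m).natDegree ≤ D) ∧
          ∀ t, MvPolynomial.eval₂ (Polynomial.evalRingHom ((x t : L)⁻¹))
            (fun j => bev (b t) (θ j) / bev (b t) (θ j₀)) F = 0) →
      Fintype.card Pts ≤ C₀ + m * ((2 * Bn + 1) * (C₀ * (d * (2 * Λ + 1) + 1) ^ n)) := by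
  classical
  obtain ⟨C₀, hC₀⟩ := rank_bound (Fin d) n D hn
  refine ⟨C₀, fun L _ _ θ hθ j₀ i₀ Pts _ x hx b m Bn Λ hne hb0 hBn hΛ hm hrel => ?_⟩
  obtain ⟨Z, hZ, hrank⟩ := hC₀ L Pts (fun t j => bev (b t) (θ j) / bev (b t) (θ j₀))
    (fun t => (x t : L)⁻¹) hrel
  set S₁ : Finset Pts := univ.filter (fun t => (x t : L)⁻¹ ∈ Z) with hS₁
  set S₂ : Finset Pts := univ.filter (fun t => ¬ (x t : L)⁻¹ ∈ Z) with hS₂
  have h1 : S₁.card ≤ C₀ := by
    refine le_trans (card_le_card_of_injOn (fun t => (x t : L)⁻¹) (fun t ht => ?_)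
      (fun t _ t' _ h => ?_)) hZ
    · simpa [hS₁] using ht
    · apply hx
      have : (x t : L) = x t' := inv_injective h
      exact_mod_cast this
  have h2 : S₂.card ≤ m * (S₂.image b).card :=
    card_le_mul_card_image S₂ m fun b₀ _ => hm _ b₀ fun t ht => (mem_filter.mp ht).2
  have h3 : (S₂.image b).card ≤
      (C₀ * (d * (2 * Λ + 1) + 1) ^ n) * ((S₂.image b).image (fun c => c i₀)).card := by
    refine card_le_mul_card_image _ _ fun t₀ ht₀ => ?_
    set S₃ := (S₂.image b).filter (fun c => c i₀ = t₀) with hS₃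
    have h4 : ∀ c : S₃, ∃ t, t ∈ S₂ ∧ b t = c.1 := fun c => by
      have := (mem_filter.mp c.2).1
      simpa using this
    choose P hP hPb using h4
    have h5 : ∀ c : S₃, b (P c) i₀ = t₀ := fun c => by
      rw [hPb]; exact (mem_filter.mp c.2).2
    have ht₀' : t₀ ≠ 0 := by
      obtain ⟨c, hc, rfl⟩ := mem_image.mp ht₀
      obtain ⟨t, -, rfl⟩ := mem_image.mp hc
      exact hb0 t
    obtain ⟨G, hG, hli⟩ := slice_polys θ hθ j₀ i₀ S₃ (fun c => b (P c))
      (fun c c' h => Subtype.ext (by rw [← hPb, ← hPb]; exact h)) t₀ ht₀' h5 Λ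
      (fun c c' i => hΛ _ _ (by rw [h5, h5]) i) (fun c => hne _)
    have := hrank _ S₃ G P hG (fun c => (mem_filter.mp (hP c)).2) hli
    rwa [Fintype.card_coe] at this
  have h6 : ((S₂.image b).image (fun c => c i₀)).card ≤ 2 * Bn + 1 := by
    have : (S₂.image b).image (fun c => c i₀) ⊆ Icc (-(Bn : ℤ)) Bn := by
      intro y hy
      obtain ⟨c, hc, rfl⟩ := mem_image.mp hy
      obtain ⟨t, -, rfl⟩ := mem_image.mp hc
      exact mem_Icc.mpr (abs_le.mp (hBn t))
    refine (card_le_card this).trans ?_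
    rw [Int.card_Icc]
    omega
  have h7 : Fintype.card Pts = S₁.card + S₂.card := by
    rw [hS₁, hS₂, card_filter_add_card_filter_not, card_univ]
  rw [h7]
  refine add_le_add h1 (h2.trans (Nat.mul_le_mul_left _ (h3.trans ?_)))
  rw [mul_comm]
  exact Nat.mul_le_mul_right _ h6

end Vale.Agent.P018
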