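import Vale.Agent.P018.Relation
import Vale.Agent.P018.Slice
import Vale.Agent.P018.Box

namespace Vale.Agent.P018

open Polynomial NumberField Finset

theorem exists_index (d r : ℕ) (hr : 2 ≤ r) (j₀ : Fin d) (T : Finset (Fin d)) (hT : T.card = r - 1)
    (hj : j₀ ∉ T) : ∃ (ε : Fin r → Fin d) (i₀ : Fin r), Function.Injective ε ∧ ε i₀ = j₀ ∧
      (univ.erase i₀).image ε ⊆ T := by
  have hc : Fintype.card (insert j₀ T : Finset (Fin d)) = r := by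
    rw [Fintype.card_coe, card_insert_of_notMem hj, hT]; omega
  let e := (Fintype.equivFinOfCardEq hc).symm
  refine ⟨fun i => (e i).1, e.symm ⟨j₀, mem_insert_self _ _⟩,
    fun i j h => e.injective (Subtype.ext h), by simp, fun j hj' => ?_⟩
  obtain ⟨i, hi, rfl⟩ := mem_image.mp hj'
  rcases mem_insert.mp (e i).2 with h | h
  · exfalso
    apply ne_of_mem_erase hi
    apply e.injective
    rw [Equiv.apply_symm_apply]
    exact Subtype.ext h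
  · exact h

theorem trivial_relation {L : Type} [Field L] (d D : ℕ) (hD : 1 ≤ D) (j₀ : Fin d)
    (T : Finset (Fin d)) (hj : j₀ ∈ T) :
    ∃ F : MvPolynomial (Fin d) (Polynomial L), F ≠ 0 ∧
      (∀ m ∈ F.support, ∀ j, (j ∉ T → m j = 0) ∧ m j ≤ D) ∧
      (∀ m, (F.coeff m).natDegree ≤ D) ∧
      ∀ (v : L) (u : Fin d → L), u j₀ = 1 → MvPolynomial.eval₂ (Polynomial.evalRingHom v) u F = 0 := by
  classical
  refine ⟨MvPolynomial.X j₀ - 1, ?_, ?_, ?_, ?_⟩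
  · intro h
    have := congrArg (MvPolynomial.eval (fun _ => (0 : Polynomial L))) h
    simp at this
  · intro m hm j
    have h1 := MvPolynomial.support_sub _ _ _ hm
    rw [mem_union, MvPolynomial.support_X, MvPolynomial.support_one, mem_singleton,
      mem_singleton] at h1
    rcases h1 with rfl | rfl
    · rw [Finsupp.single_apply]
      split_ifs with h
      · subst h; exact ⟨fun h => absurd hj h, hD⟩
      · simp
    · simp
  · intro m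
    rw [MvPolynomial.coeff_sub, MvPolynomial.coeff_X, MvPolynomial.coeff_one]
    split_ifs <;> simp
  · intro v u hu
    simp [MvPolynomial.eval₂_sub, hu]

variable {d : ℕ} {L : Type} [Field L] [NumberField L] {g : ℤ[X]} {θ : Fin d → 𝓞 L}

theorem Pt.alpha_le {k : ℕ} {C₁ R : ℝ} {x : ℤ} {p : ℕ} (P : Pt θ k C₁ x p) (hC₁ : 1 ≤ C₁)
    (hRθ : ∀ (σ : L →+* ℂ) j, ‖em σ (θ j)‖ ≤ R) (σ : L →+* ℂ) (j : Fin d) :
    ‖em σ (P.α j)‖ * ((p : ℝ) ^ ((d : ℝ)⁻¹)) ^ k ≤ C₁ ^ (2 * d * k) * (|(x : ℝ)| + R) := by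
  have h1 := congrArg (fun z => ‖em σ z‖) (P.alpha_eq j)
  simp only [map_mul, map_pow, map_sub, map_intCast, norm_mul, norm_pow, Complex.norm_intCast] at h1
  have h2 : ‖(x : ℂ) - em σ (θ j)‖ ≤ |(x : ℝ)| + R := by
    refine (norm_sub_le _ _).trans ?_
    rw [Complex.norm_intCast]
    exact add_le_add le_rfl (hRθ σ j)
  have h3 : ((p : ℝ) ^ ((d : ℝ)⁻¹)) ^ k ≤ (C₁ ^ d * ‖em σ (bev P.b (θ j))‖) ^ k :=
    pow_le_pow_left₀ (by positivity) (P.lo σ j) k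
  have h4 : |(P.c : ℝ)| ^ k ≤ (C₁ ^ d) ^ k := pow_le_pow_left₀ (abs_nonneg _) P.c_le k
  calc ‖em σ (P.α j)‖ * ((p : ℝ) ^ ((d : ℝ)⁻¹)) ^ k
      ≤ ‖em σ (P.α j)‖ * (C₁ ^ d * ‖em σ (bev P.b (θ j))‖) ^ k :=
        mul_le_mul_of_nonneg_left h3 (norm_nonneg _)
    _ = (C₁ ^ d) ^ k * (|(P.c : ℝ)| ^ k * ‖(x : ℂ) - em σ (θ j)‖) := by
        rw [← h1, mul_pow]; ring
    _ ≤ (C₁ ^ d) ^ k * ((C₁ ^ d) ^ k * (|(x : ℝ)| + R)) := by gcongr
    _ = _ := by ring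

theorem core (hθ : Roots g θ) (hm : g.Monic) (hdeg : g.natDegree = d) (k r a b : ℕ) (hk : 1 ≤ k)
    (hr2 : 2 ≤ r) (hrd : r ≤ d) (α β μ τ y₁ y₂ : ℝ) (hμ : 0 < μ) (hτ : 0 ≤ τ)
    (hα : 1 - k * y₁ / d ≤ α) (hβ : y₂ / d ≤ β) (hβ0 : 0 ≤ β)
    (hnum : ((fam r a b k).card : ℝ) * (a * α + b * β) < ((fam r a b k).card : ℝ) * τ -
        (τ + (((r : ℝ) - 1) * μ + 1)) ^ (r + 1) / (((r + 1).factorial : ℝ) * μ ^ (r - 1)))
    (c : ℕ) (c₁ : ℝ) (hc₁ : 0 < c₁) :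
    ∃ C₀ Y₀ : ℝ, ∀ Y, Y₀ ≤ Y → ∀ S : Finset ℤ,
      (∀ x ∈ S, c₁ * Y ≤ |(x : ℝ)| ∧ |(x : ℝ)| ≤ c * Y ∧ ∃ p : ℕ, p.Prime ∧ Y ≤ p ∧
        Y ^ y₁ ≤ p ∧ p ≤ Y ^ y₂ ∧ (p : ℤ) ^ k ∣ g.eval x) →
      (S.card : ℝ) ≤ C₀ * ((Y ^ μ) ^ (d - 1) * Y ^ β * (Y ^ (β - μ) + 1) ^ (r - 1)) := by
  classical
  obtain ⟨R, hR, hRθ⟩ := exists_bound θ
  have hd : 1 ≤ d := by omega
  have hd' : (1 : ℝ) ≤ d := by exact_mod_cast hd
  set C₁ : ℝ := d * R ^ d with hC₁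
  have hC : 1 ≤ C₁ := one_le_mul_of_one_le_of_one_le hd' (one_le_pow₀ hR)
  obtain ⟨K, hK1, hKR, hKr, hKc, hKA, hKcl, hKC⟩ : ∃ K : ℝ, 1 ≤ K ∧ R ≤ K ∧ C₁ ^ (d + 1) ≤ K ∧
      c₁⁻¹ ≤ K ∧ C₁ ^ (2 * d * k) * (c + R) ≤ K ∧ 2 * C₁ ^ (2 * d + 2) ≤ K ∧ C₁ ≤ K := by
    have e1 : 0 ≤ C₁ ^ (d + 1) := by positivity
    have e2 : 0 ≤ c₁⁻¹ := by positivity
    have e3 : 0 ≤ C₁ ^ (2 * d * k) * (c + R) := by positivity
    have e4 : 0 ≤ 2 * C₁ ^ (2 * d + 2) := by positivity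
    refine ⟨R + C₁ ^ (d + 1) + c₁⁻¹ + C₁ ^ (2 * d * k) * (c + R) + 2 * C₁ ^ (2 * d + 2) + C₁,
      ?_, ?_, ?_, ?_, ?_, ?_, ?_⟩ <;> linarith
  choose Y₁ hY₁ using fun i₀ : Fin r => relation_exists r a b k i₀ α β μ τ K hμ hτ hK1 hnum
  obtain ⟨C₀, hC₀⟩ := count_of_relations d (r - 1) (b + k * a + 1) (by omega)
  set m : ℕ := d * (2 * c + 1) with hmdef
  refine ⟨d * 5 ^ (d - 1) * (C₀ + m * (3 * (C₀ * (2 * d + 1) ^ (r - 1)))),
    C₁ ^ d + 1 + ∑ i, |Y₁ i|, fun Y hY S hS => ?_⟩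
  have hsum0 : 0 ≤ ∑ i, |Y₁ i| := sum_nonneg fun _ _ => abs_nonneg _
  have hCd : 1 ≤ C₁ ^ d := one_le_pow₀ hC
  have hY1 : 1 ≤ Y := by linarith
  have hY0 : 0 < Y := by linarith
  have hYC : C₁ ^ d < Y := by linarith
  have hYi : ∀ i, Y₁ i ≤ Y := fun i => by
    have h1 := single_le_sum (f := fun i => |Y₁ i|) (fun _ _ => abs_nonneg _) (mem_univ i)
    have h2 := le_abs_self (Y₁ i)
    linarith
  have hS' : ∀ t : S, ∃ p : ℕ, p.Prime ∧ Y ≤ p ∧ Y ^ y₁ ≤ p ∧ p ≤ Y ^ y₂ ∧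
      (p : ℤ) ^ k ∣ g.eval t.1 := fun t => (hS t.1 t.2).2.2
  choose p hpp hpY hp1 hp2 hpk using hS'
  have hP : ∀ t : S, Nonempty (Pt θ k C₁ t.1 (p t)) := fun t =>
    exists_pt hθ hd R hR hRθ k hk t.1 (p t) (hpp t).pos (hpk t)
  let P : ∀ t : S, Pt θ k C₁ t.1 (p t) := fun t => Classical.choice (hP t)
  choose ix hix0 hixm using fun t : S => exists_max_index (P t).b (P t).b_ne
  set M : ℝ := Y ^ μ with hM
  have hM1 : 1 ≤ M := Real.one_le_rpow hY1 hμ.le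
  have hM0 : 0 < M := by linarith
  let key : S → Fin d × (Fin d → ℤ) := fun t =>
    (ix t, fun i => ⌊M * (((P t).b i : ℝ) / (P t).b (ix t))⌋)
  set Bn : ℕ := ⌊Y ^ β⌋₊ with hBn
  set Λ : ℕ := ⌊Y ^ (β - μ)⌋₊ with hΛ
  have hq : ∀ t : S, ((p t : ℝ)) ^ ((d : ℝ)⁻¹) ≤ Y ^ β := by
    intro t
    calc ((p t : ℝ)) ^ ((d : ℝ)⁻¹) ≤ (Y ^ y₂) ^ ((d : ℝ)⁻¹) :=
          Real.rpow_le_rpow (by positivity) (hp2 t) (by positivity)
      _ = Y ^ (y₂ / d) := by rw [← Real.rpow_mul hY0.le, div_eq_mul_inv]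
      _ ≤ Y ^ β := Real.rpow_le_rpow_of_exponent_le hY1 hβ
  have hq' : ∀ t : S, Y ^ (k * y₁ / d) ≤ (((p t : ℝ)) ^ ((d : ℝ)⁻¹)) ^ k := by
    intro t
    calc Y ^ (k * y₁ / d) = ((Y ^ y₁) ^ ((d : ℝ)⁻¹)) ^ k := by
          rw [← Real.rpow_natCast, ← Real.rpow_mul hY0.le, ← Real.rpow_mul hY0.le]
          congr 1; ring
      _ ≤ _ := pow_le_pow_left₀ (by positivity)
          (Real.rpow_le_rpow (by positivity) (hp1 t) (by positivity)) k
  have hAle : ∀ (σ : L →+* ℂ) (t : S) j, ‖em σ ((P t).α j)‖ ≤ K * Y ^ α := by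
    intro σ t j
    have h1 := (P t).alpha_le hC hRθ σ j
    have h2 : |(t.1 : ℝ)| + R ≤ (c + R) * Y := by
      have := (hS t.1 t.2).2.1
      nlinarith
    have h3 : 0 < Y ^ (k * y₁ / d) := by positivity
    have h4 : ‖em σ ((P t).α j)‖ * Y ^ (k * y₁ / d) ≤ K * Y := by
      calc ‖em σ ((P t).α j)‖ * Y ^ (k * y₁ / d)
          ≤ ‖em σ ((P t).α j)‖ * (((p t : ℝ)) ^ ((d : ℝ)⁻¹)) ^ k :=
            mul_le_mul_of_nonneg_left (hq' t) (norm_nonneg _)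
        _ ≤ C₁ ^ (2 * d * k) * ((c + R) * Y) :=
            h1.trans (mul_le_mul_of_nonneg_left h2 (by positivity))
        _ ≤ K * Y := by rw [← mul_assoc]; exact mul_le_mul_of_nonneg_right hKA hY0.le
    have h5 : ‖em σ ((P t).α j)‖ ≤ K * Y ^ (1 - k * y₁ / d) := by
      rw [Real.rpow_sub hY0, Real.rpow_one, ← mul_div_assoc, le_div_iff₀ h3]
      exact h4
    exact h5.trans (mul_le_mul_of_nonneg_left (Real.rpow_le_rpow_of_exponent_le hY1 hα)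
      (by linarith))
  have hBle : ∀ (σ : L →+* ℂ) (t : S) j, ‖em σ (bev (P t).b (θ j))‖ ≤ K * Y ^ β := fun σ t j =>
    ((P t).up σ j).trans (mul_le_mul hKC (hq t) (by positivity) (by linarith))
  have hrat : ∀ (σ : L →+* ℂ) (t : S) i j,
      ‖em σ (bev (P t).b (θ i))‖ ≤ K * ‖em σ (bev (P t).b (θ j))‖ := by
    intro σ t i j
    calc ‖em σ (bev (P t).b (θ i))‖ ≤ C₁ * (C₁ ^ d * ‖em σ (bev (P t).b (θ j))‖) :=
          ((P t).up σ i).trans (mul_le_mul_of_nonneg_left ((P t).lo σ j) (by linarith))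
      _ = C₁ ^ (d + 1) * ‖em σ (bev (P t).b (θ j))‖ := by ring
      _ ≤ _ := mul_le_mul_of_nonneg_right hKr (norm_nonneg _)
  have hxle : ∀ t : S, Y ≤ K * |(t.1 : ℝ)| := by
    intro t
    have h1 := (hS t.1 t.2).1
    calc Y = c₁⁻¹ * (c₁ * Y) := by field_simp
      _ ≤ K * |(t.1 : ℝ)| := mul_le_mul hKc h1 (by positivity) (by linarith)
  have hinjO : Function.Injective (algebraMap (𝓞 L) L) := RingOfIntegers.coe_injective
  have hcoe : ∀ (b' : Fin d → ℤ) (j : Fin d), ((bev b' (θ j) : 𝓞 L) : L) = bev b' (θ j : L) :=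
    fun b' j => map_bev (algebraMap (𝓞 L) L) b' (θ j)
  have hθL : Function.Injective (fun j => (θ j : L)) := hinjO.comp hθ.inj
  have hneL : ∀ (t : S) j, bev (P t).b (θ j : L) ≠ 0 := fun t j => by
    rw [← hcoe]; exact (map_ne_zero_iff _ hinjO).mpr (hθ.ne _ (P t).b_ne j)
  have hfib : ∀ κ ∈ cells d M, (univ.filter (fun t : S => key t = κ)).card ≤
      C₀ + m * ((2 * Bn + 1) * (C₀ * (d * (2 * Λ + 1) + 1) ^ (r - 1))) := by
    rintro ⟨i₀, n⟩ -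
    let j₀ : Fin d := ⟨0, hd⟩
    have hix : ∀ t : {t : S // key t = (i₀, n)}, ix t.1 = i₀ := fun t => congrArg Prod.fst t.2
    have hcell : ∀ (t t' : {t : S // key t = (i₀, n)}) i,
        |((P t.1).b i : ℝ) / (P t.1).b i₀ - ((P t'.1).b i : ℝ) / (P t'.1).b i₀| ≤ M⁻¹ := by
      intro t t' i
      apply abs_sub_le_of_floor_eq M _ _ hM0
      have h1 := congrFun (congrArg Prod.snd t.2) i
      have h2 := congrFun (congrArg Prod.snd t'.2) i
      simp only [key, hix] at h1 h2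
      rw [h1, h2]
    have hb0 : ∀ t : {t : S // key t = (i₀, n)}, (P t.1).b i₀ ≠ 0 := fun t => by
      have := hix0 t.1; rwa [hix] at this
    have hbm : ∀ (t : {t : S // key t = (i₀, n)}) i, |(P t.1).b i| ≤ |(P t.1).b i₀| := fun t => by
      have := hixm t.1; rwa [hix] at this
    have h := hC₀ L (fun j => (θ j : L)) hθL j₀ i₀ {t : S // key t = (i₀, n)} (fun t => t.1.1)
      (fun t t' h => Subtype.ext (Subtype.ext h)) (fun t => (P t.1).b) m Bn Λ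
      (fun t => hneL _ _) hb0 ?_ ?_ ?_ ?_
    · rwa [Fintype.card_subtype] at h
    · intro t
      have h1 := ((P t.1).b_le i₀).trans (hq t.1)
      have h2 : (((P t.1).b i₀).natAbs : ℝ) ≤ Y ^ β := by
        rw [Nat.cast_natAbs]; exact_mod_cast h1
      have h3 := Nat.le_floor h2
      rw [Int.abs_eq_natAbs]
      exact_mod_cast h3
    · intro t t' htt i
      have h1 := hcell t t' i
      have h0 : (0 : ℝ) < |((P t'.1).b i₀ : ℝ)| := abs_pos.mpr (by exact_mod_cast hb0 t')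
      rw [htt, ← sub_div, abs_div, div_le_iff₀ h0] at h1
      have h2 : M⁻¹ * |((P t'.1).b i₀ : ℝ)| ≤ Y ^ (β - μ) := by
        rw [Real.rpow_sub hY0, div_eq_mul_inv, mul_comm]
        exact mul_le_mul_of_nonneg_right (((P t'.1).b_le i₀).trans (hq t'.1)) (by positivity)
      have h3 : (((P t.1).b i - (P t'.1).b i).natAbs : ℝ) ≤ Y ^ (β - μ) := by
        rw [Nat.cast_natAbs]; push_cast; exact h1.trans h2
      have h4 := Nat.le_floor h3
      rw [Int.abs_eq_natAbs]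
      exact_mod_cast h4
    · intro S' b₀ hb₀
      rcases S'.eq_empty_or_nonempty with rfl | ⟨t₀, ht₀⟩
      · simp
      have hpe : ∀ t ∈ S', p t₀.1 = p t.1 := by
        intro t ht
        have h1 := (P t.1).norm_eq
        have h2 := (P t₀.1).norm_eq
        rw [hb₀ t ht] at h1
        rw [hb₀ t₀ ht₀, ← h1] at h2
        have h3 : (p t₀.1 : ℤ) * (P t₀.1).c = p t.1 * (P t.1).c := by exact_mod_cast h2
        refine prime_eq_of_mul_eq _ _ (hpp _) (hpp _) _ _ (P t.1).c_ne h3 ?_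
        have h4 : |((P t.1).c : ℝ)| < p t₀.1 := lt_of_le_of_lt (P t.1).c_le (hYC.trans_le (hpY _))
        exact_mod_cast h4
      have h5 := card_roots_le d g hm hdeg (p t₀.1) (hpp _) c (S'.image fun t => t.1.1) (by
        intro x hx
        obtain ⟨t, ht, rfl⟩ := mem_image.mp hx
        rw [hpe t ht]
        refine ⟨?_, (dvd_pow_self _ (by omega)).trans (hpk t.1)⟩
        have h6 : |(t.1.1 : ℝ)| ≤ c * p t.1 :=
          (hS t.1.1 t.1.2).2.1.trans (mul_le_mul_of_nonneg_left (hpY _) (by positivity))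
        exact_mod_cast h6)
      rwa [card_image_of_injective _ (fun t t' h => Subtype.ext (Subtype.ext h))] at h5
    · intro T hT
      by_cases hj : j₀ ∈ T
      · obtain ⟨F, hF0, hF1, hF2, hF3⟩ := trivial_relation (L := L) d (b + k * a + 1) (by omega)
          j₀ T hj
        exact ⟨F, hF0, hF1, hF2, fun t => hF3 _ _ (div_self (hneL _ _))⟩
      · obtain ⟨ε, i₁, hε, hεi, hεT⟩ := exists_index d r hr2 j₀ T hT hj
        obtain ⟨cf, hcf, hrel⟩ := hY₁ i₁ Y (hYi i₁) L (fun i => θ (ε i))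
          {t : S // key t = (i₀, n)} (fun t => t.1.1) (fun t => (P t.1).c)
          (fun t i => (P t.1).α (ε i)) (fun t i => bev (P t.1).b (θ (ε i)))
          (fun σ i => (hRθ σ _).trans hKR) (fun t i => (P t.1).alpha_eq _)
          (fun t => (P t.1).c_ne) (fun t i => hθ.ne _ (P t.1).b_ne _) (fun t => hxle _)
          (fun σ t => hAle σ _ _) (fun σ t => hBle σ _ _) (fun σ t i => hrat σ _ _ _)
          (fun σ t i => hrat σ _ _ _) (by
            intro σ t t' i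
            simp only [map_bev]
            have h1 := ratio_close R C₁ hR hC₁ (em σ (θ (ε i))) (em σ (θ (ε i₁))) (hRθ σ _)
              (hRθ σ _) (P t.1).b (P t'.1).b i₀ (hb0 t) (hb0 t') (hbm t) (hbm t')
              (by rw [← map_bev]; exact ((P t.1).b_le i₀).trans ((P t.1).lo σ _))
              (by rw [← map_bev]; exact ((P t'.1).b_le i₀).trans ((P t'.1).lo σ _))
              M⁻¹ (hcell t t')
            refine h1.trans ?_
            rw [Real.rpow_neg hY0.le]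
            exact mul_le_mul_of_nonneg_right hKcl (by positivity))
        obtain ⟨F, hF0, hF1, hF2, hF3⟩ := fam_relation r a b k hr2 hk (fun i => (θ (ε i) : L))
          (hθL.comp hε) ε hε i₁ cf hcf
        refine ⟨F, hF0, fun m hm j => ⟨fun hjT => (hF1 m hm j).1 fun h => hjT (hεT h),
          (hF1 m hm j).2.trans (Nat.le_succ _)⟩, fun m => (hF2 m).trans (Nat.le_succ _),
          fun t => ?_⟩
        rw [hF3, ← hrel t]
        simp only [hcoe, hεi]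
  have h1 : (univ : Finset S).card ≤
      (C₀ + m * ((2 * Bn + 1) * (C₀ * (d * (2 * Λ + 1) + 1) ^ (r - 1)))) * (cells d M).card :=
    card_le_mul_card_image_of_maps_to (f := key)
      (fun t _ => mem_cells M hM0 (P t).b (ix t) (hix0 t) (hixm t)) _ hfib
  rw [card_univ, Fintype.card_coe] at h1
  have hB1 : 1 ≤ Y ^ β := Real.one_le_rpow hY1 hβ0
  have hρ0 : 0 ≤ Y ^ (β - μ) := by positivity
  have h2 : ((2 * Bn + 1 : ℕ) : ℝ) ≤ 3 * Y ^ β := by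
    have : (Bn : ℝ) ≤ Y ^ β := Nat.floor_le (by positivity)
    push_cast; linarith
  have h3 : ((d * (2 * Λ + 1) + 1 : ℕ) : ℝ) ≤ (2 * d + 1) * (Y ^ (β - μ) + 1) := by
    have : (Λ : ℝ) ≤ Y ^ (β - μ) := Nat.floor_le hρ0
    push_cast; nlinarith
  have h4 : 1 ≤ (Y ^ (β - μ) + 1) ^ (r - 1) := one_le_pow₀ (by linarith)
  have h5 : ((C₀ + m * ((2 * Bn + 1) * (C₀ * (d * (2 * Λ + 1) + 1) ^ (r - 1))) : ℕ) : ℝ) ≤
      (C₀ + m * (3 * (C₀ * (2 * d + 1) ^ (r - 1)))) * (Y ^ β * (Y ^ (β - μ) + 1) ^ (r - 1)) := by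
    rw [Nat.cast_add, Nat.cast_mul m, Nat.cast_mul (2 * Bn + 1), Nat.cast_mul C₀, Nat.cast_pow,
      add_mul]
    refine add_le_add (le_mul_of_one_le_right (by positivity)
      (one_le_mul_of_one_le_of_one_le hB1 h4)) ?_
    calc (m : ℝ) * (((2 * Bn + 1 : ℕ) : ℝ) * (C₀ * ((d * (2 * Λ + 1) + 1 : ℕ) : ℝ) ^ (r - 1)))
        ≤ m * ((3 * Y ^ β) * (C₀ * ((2 * d + 1) * (Y ^ (β - μ) + 1)) ^ (r - 1))) := by gcongr
      _ = _ := by rw [mul_pow]; ring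
  calc (S.card : ℝ) ≤ ((C₀ + m * ((2 * Bn + 1) * (C₀ * (d * (2 * Λ + 1) + 1) ^ (r - 1))) : ℕ) : ℝ) *
        ((cells d M).card : ℝ) := by exact_mod_cast h1
    _ ≤ ((C₀ + m * (3 * (C₀ * (2 * d + 1) ^ (r - 1)))) * (Y ^ β * (Y ^ (β - μ) + 1) ^ (r - 1))) *
        (d * (5 * M) ^ (d - 1)) :=
        mul_le_mul h5 (card_cells d M hM1) (by positivity) (by positivity)
    _ = _ := by rw [mul_pow]; ring

end Vale.Agent.P018
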