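import Vale.Agent.P018.Cfg

/-!
The algebra of two lines: `β` moves on a line, `α` moves on a line, `α i β i ^ 2 = m (n - θ i)`.

Put `f i = ∏ j ∈ univ.erase i, (θ i - θ j)` and `cc i j = p' i j (θ j - θ i) / (f i f j)`, which is
symmetric in `(i, j)`.

Proof of `dbl_quartic`. `∑ i, (n - θ i) / f i = 0` and `∑ i, θ i (n - θ i) / f i = 0` (four distinct
nodes, degree at most 2: `Fin.sum_univ_four`, `field_simp`, `ring`). With `w i = β i ^ 2 / f i` the
nonzero vector `(s, t)` solves `s ∑ U i w i + t ∑ V i w i = 0`,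
`s ∑ θ i U i w i + t ∑ θ i V i w i = 0`, so the determinant of this system vanishes, and it equals
the sum over `i < j` of `w i w j (θ j - θ i) (U i V j - U j V i)`, which is half of the stated sum.

Proof of `dbl_coeff`. Let `R β = ∑ i, ∑ j, cc i j * β i ^ 2 * β j ^ 2`, homogeneous of degree 4.
For `β = s U + t V` one has `p i k * β a = β i * p a k - β k * p a i` for every `a` (`ring`), so
`β r` is proportional to `fun a => p a k + τ r * p a i` with `τ r = -β r k / β r i`, and the `τ r`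
are distinct since `β r i β r' k - β r k β r' i = (s t' - t s') p i k ≠ 0`. The polynomial
`τ ↦ R (fun a => p a k + τ p a i)` of degree at most 4 has five roots, so it is zero
(`Polynomial.eq_zero_of_natDegree_lt_card_of_eval_eq_zero`); its coefficients of `τ ^ 0` and
`τ ^ 1` give (with `p k k = 0`, `p i i = 0`, `cc a a = 0`)
`E0 : cc i j p i k ^ 2 p j k ^ 2 + cc i l p i k ^ 2 p l k ^ 2 + cc j l p j k ^ 2 p l k ^ 2 = 0`,
`E1 : cc i j p i k ^ 2 p j k p j i + cc i l p i k ^ 2 p l k p l i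
       + cc j l p j k p l k (p j i p l k + p j k p l i) = 0`,
and `E0 * (p j i p l k + p j k p l i) - E1 * p j k p l k` is `p i k ^ 2` times the second claim.
(One may reduce the sum over `Fin 4` to the four distinct indices with
`Finset.univ = {i, j, k, l}`.)

Proof of `dbl_special`. Use the second claim of `dbl_coeff` for the orderings
`(i, j, k, l) = (0, 1, 3, 2), (3, 2, 0, 1), (0, 1, 2, 3), (2, 3, 0, 1)`...: they give
`cc 0 1 cc 2 3 (p 0 2 p 1 3) ^ 4 = cc 0 2 cc 1 3 (p 0 1 p 2 3) ^ 4` and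
`cc 0 1 cc 2 3 (p 0 3 p 1 2) ^ 4 = cc 0 3 cc 1 2 (p 0 1 p 2 3) ^ 4`; all `cc i j`, `i ≠ j`, are
nonzero (if one vanishes then all vanish, as the `p i j` are nonzero, but `p' ≠ 0`). The Pluecker
relation `p' 0 1 p' 2 3 - p' 0 2 p' 1 3 + p' 0 3 p' 1 2 = 0` with `p' i j = cc i j f i f j / (θ j - θ i)`
gives `Quart θ p` after multiplying by `(p 0 1 p 2 3) ^ 4` and cancelling `cc 0 1 cc 2 3 ∏ f i`.

Proof of `dbl_degenerate`: `E0` with `p l k = 0`.
-/

namespace Vale.Agent.P018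

open Finset

variable {L : Type} [Field L] [CharZero L]

/-- The coefficients of the quartic satisfied by `β`. -/
def dblC (θ U V : Fin 4 → L) (i j : Fin 4) : L :=
  (U i * V j - U j * V i) * (θ j - θ i) /
    ((∏ a ∈ univ.erase i, (θ i - θ a)) * ∏ a ∈ univ.erase j, (θ j - θ a))

theorem dbl_sum4 {M : Type} [AddCommMonoid M] (F : Fin 4 → M) {i j k l : Fin 4} (hij : i ≠ j)
    (hik : i ≠ k) (hil : i ≠ l) (hjk : j ≠ k) (hjl : j ≠ l) (hkl : k ≠ l) :
    ∑ a, F a = F i + F j + F k + F l := by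
  have h : (univ : Finset (Fin 4)) = {i, j, k, l} := by
    revert i j k l; decide
  rw [h, sum_insert (by simp [*]), sum_insert (by simp [*]), sum_pair hkl, add_assoc, add_assoc]

omit [CharZero L] in
theorem dbl_f_ne {θ : Fin 4 → L} (hθ : Function.Injective θ) (i : Fin 4) :
    ∏ a ∈ univ.erase i, (θ i - θ a) ≠ 0 :=
  prod_ne_zero_iff.2 fun _ ha => sub_ne_zero.2 fun h => (mem_erase.1 ha).1 (hθ h).symm

omit [CharZero L] in
theorem dblC_symm (θ U V : Fin 4 → L) (i j : Fin 4) : dblC θ U V i j = dblC θ U V j i := by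
  simp only [dblC]; ring

omit [CharZero L] in
theorem dblC_diag (θ U V : Fin 4 → L) (i : Fin 4) : dblC θ U V i i = 0 := by
  simp [dblC]

omit [CharZero L] in
theorem dblC_eq_zero {θ : Fin 4 → L} (hθ : Function.Injective θ) (U V : Fin 4 → L) {i j : Fin 4}
    (hij : i ≠ j) : dblC θ U V i j = 0 ↔ U i * V j = U j * V i := by
  have h : θ j - θ i ≠ 0 := sub_ne_zero.2 fun h => hij (hθ h).symm
  simp only [dblC, div_eq_zero_iff, mul_eq_zero, dbl_f_ne hθ, h, or_false, sub_eq_zero]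

omit [CharZero L] in
theorem dbl_lagrange {θ : Fin 4 → L} (hθ : Function.Injective θ) (n : L) :
    ∑ i, (n - θ i) / ∏ a ∈ univ.erase i, (θ i - θ a) = 0 ∧
      ∑ i, θ i * (n - θ i) / ∏ a ∈ univ.erase i, (θ i - θ a) = 0 := by
  have h : ∀ i j, i ≠ j → θ i - θ j ≠ 0 := fun i j hij => sub_ne_zero.2 fun h => hij (hθ h)
  have h01 := h 0 1 (by decide)
  have h02 := h 0 2 (by decide)
  have h03 := h 0 3 (by decide)
  have h12 := h 1 2 (by decide)
  have h13 := h 1 3 (by decide)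
  have h23 := h 2 3 (by decide)
  have e0 : ∏ a ∈ univ.erase 0, (θ 0 - θ a) = (θ 0 - θ 1) * (θ 0 - θ 2) * (θ 0 - θ 3) := by
    rw [show univ.erase (0 : Fin 4) = {1, 2, 3} by decide, prod_insert (by decide),
      prod_pair (by decide)]; ring
  have e1 : ∏ a ∈ univ.erase 1, (θ 1 - θ a) = -((θ 0 - θ 1) * (θ 1 - θ 2) * (θ 1 - θ 3)) := by
    rw [show univ.erase (1 : Fin 4) = {0, 2, 3} by decide, prod_insert (by decide),
      prod_pair (by decide)]; ring
  have e2 : ∏ a ∈ univ.erase 2, (θ 2 - θ a) = (θ 0 - θ 2) * (θ 1 - θ 2) * (θ 2 - θ 3) := by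
    rw [show univ.erase (2 : Fin 4) = {0, 1, 3} by decide, prod_insert (by decide),
      prod_pair (by decide)]; ring
  have e3 : ∏ a ∈ univ.erase 3, (θ 3 - θ a) = -((θ 0 - θ 3) * (θ 1 - θ 3) * (θ 2 - θ 3)) := by
    rw [show univ.erase (3 : Fin 4) = {0, 1, 2} by decide, prod_insert (by decide),
      prod_pair (by decide)]; ring
  simp only [Fin.sum_univ_four, e0, e1, e2, e3]
  constructor <;> field_simp <;> ring

theorem dbl_quartic (θ : Fin 4 → L) (hθ : Function.Injective θ) (U V α β : Fin 4 → L) (m n s t : L)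
    (hst : s ≠ 0 ∨ t ≠ 0) (hα : ∀ i, α i = s * U i + t * V i)
    (h : ∀ i, α i * β i ^ 2 = m * (n - θ i)) :
    ∑ i, ∑ j, dblC θ U V i j * β i ^ 2 * β j ^ 2 = 0 := by
  obtain ⟨h1, h2⟩ := dbl_lagrange hθ n
  set f : Fin 4 → L := fun i => ∏ a ∈ univ.erase i, (θ i - θ a) with hf
  set w : Fin 4 → L := fun i => β i ^ 2 / f i with hw
  have h3 : ∀ i, m * ((n - θ i) / f i) = s * (U i * w i) + t * (V i * w i) := fun i => by
    rw [← mul_div_assoc, ← h, hα, hw]; ring
  have h4 : s * ∑ i, U i * w i + t * ∑ i, V i * w i = 0 := by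
    rw [mul_sum, mul_sum, ← sum_add_distrib, ← sum_congr rfl fun i _ => h3 i, ← mul_sum, h1,
      mul_zero]
  have h5 : s * ∑ i, θ i * U i * w i + t * ∑ i, θ i * V i * w i = 0 := by
    rw [mul_sum, mul_sum, ← sum_add_distrib, ← mul_zero m, ← h2, mul_sum]
    exact sum_congr rfl fun i _ => by linear_combination -θ i * h3 i
  have h6 : (∑ i, U i * w i) * (∑ i, θ i * V i * w i) -
      (∑ i, V i * w i) * (∑ i, θ i * U i * w i) = 0 := by
    rcases hst with h0 | h0
    · exact (mul_eq_zero.1 (by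
        linear_combination (∑ i, θ i * V i * w i) * h4 - (∑ i, V i * w i) * h5)).resolve_left h0
    · exact (mul_eq_zero.1 (by
        linear_combination (∑ i, U i * w i) * h5 - (∑ i, θ i * U i * w i) * h4)).resolve_left h0
  have h7 : ∀ i j, dblC θ U V i j * β i ^ 2 * β j ^ 2 =
      (U i * V j - U j * V i) * (θ j - θ i) * w i * w j := fun i j => by
    simp only [dblC, hw, hf]; ring
  simp only [h7, Fin.sum_univ_four] at h6 ⊢
  linear_combination 2 * h6

theorem dbl_coeff (cc : Fin 4 → Fin 4 → L) (hsymm : ∀ i j, cc i j = cc j i) (hdiag : ∀ i, cc i i = 0)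
    (U V : Fin 4 → L) (p : Fin 4 → Fin 4 → L) (hp : ∀ i j, p i j = U i * V j - U j * V i)
    (β : Fin 5 → Fin 4 → L) (s t : Fin 5 → L) (hβ : ∀ r i, β r i = s r * U i + t r * V i)
    (h0 : ∀ r i, β r i ≠ 0) (hst : ∀ r r', r ≠ r' → s r * t r' ≠ t r * s r')
    (hR : ∀ r, ∑ i, ∑ j, cc i j * β r i ^ 2 * β r j ^ 2 = 0)
    (i j k l : Fin 4) (hij : i ≠ j) (hik : i ≠ k) (hil : i ≠ l) (hjk : j ≠ k) (hjl : j ≠ l)
    (hkl : k ≠ l) (hpik : p i k ≠ 0) :
    cc i j * p i k ^ 2 * p j k ^ 2 + cc i l * p i k ^ 2 * p l k ^ 2 +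
        cc j l * p j k ^ 2 * p l k ^ 2 = 0 ∧
      cc i j * p j k ^ 3 * p l i + cc i l * p l k ^ 3 * p j i = 0 := by
  set τ : Fin 5 → L := fun r => -β r k / β r i with hτ
  have hinj : Function.Injective τ := fun r r' h => by
    by_contra hne
    have h1 : -β r k / β r i = -β r' k / β r' i := h
    rw [div_eq_div_iff (h0 r i) (h0 r' i), hβ, hβ, hβ, hβ] at h1
    refine hst r r' hne (sub_eq_zero.1 ((mul_eq_zero.1 ?_).resolve_left hpik))
    rw [hp]; linear_combination h1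
  have hb : ∀ r a, β r a = β r i / p i k * (p a k + τ r * p a i) := fun r a => by
    have h1 : p i k * β r a = β r i * p a k - β r k * p a i := by
      simp only [hp, hβ]; ring
    have := h0 r i
    simp only [hτ]
    field_simp
    linear_combination h1
  have hii : p i i = 0 := by rw [hp, sub_self]
  have hkk : p k k = 0 := by rw [hp, sub_self]
  have hki : p k i = -p i k := by rw [hp, hp]; ring
  have hv := Matrix.eq_zero_of_forall_index_sum_mul_pow_eq_zero (f := τ)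
    (v := ![cc i j * p i k ^ 2 * p j k ^ 2 + cc i l * p i k ^ 2 * p l k ^ 2 +
        cc j l * p j k ^ 2 * p l k ^ 2,
      2 * (cc i j * p i k ^ 2 * p j k * p j i + cc i l * p i k ^ 2 * p l k * p l i +
        cc j l * p j k * p l k * (p j i * p l k + p j k * p l i)),
      cc i j * p i k ^ 2 * p j i ^ 2 + cc i k * p i k ^ 4 + cc i l * p i k ^ 2 * p l i ^ 2 +
        cc j k * p i k ^ 2 * p j k ^ 2 + cc j l * (p j k ^ 2 * p l i ^ 2 +
          4 * p j k * p j i * p l k * p l i + p j i ^ 2 * p l k ^ 2) +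
        cc k l * p i k ^ 2 * p l k ^ 2,
      2 * (cc j k * p i k ^ 2 * p j k * p j i + cc j l * (p j k * p j i * p l i ^ 2 +
        p l k * p l i * p j i ^ 2) + cc k l * p i k ^ 2 * p l k * p l i),
      cc j k * p i k ^ 2 * p j i ^ 2 + cc j l * p j i ^ 2 * p l i ^ 2 +
        cc k l * p i k ^ 2 * p l i ^ 2]) hinj fun r => by
    have h1 := hR r
    have h2 : 2 * (β r i / p i k) ^ 4 ≠ 0 :=
      mul_ne_zero two_ne_zero (pow_ne_zero _ (div_ne_zero (h0 r i) hpik))
    refine (mul_eq_zero.1 ?_).resolve_left h2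
    have hb' := hb r
    generalize β r i / p i k = u at hb' ⊢
    simp only [dbl_sum4 _ hij hik hil hjk hjl hkl, hdiag, hb', hii, hkk, hki, hsymm j i,
      hsymm k i, hsymm l i, hsymm k j, hsymm l j, hsymm l k] at h1
    simp only [Fin.sum_univ_five, Matrix.cons_val, Fin.val_zero, Fin.val_one, Fin.val_two,
      show ((3 : Fin 5) : ℕ) = 3 from rfl, show ((4 : Fin 5) : ℕ) = 4 from rfl]
    linear_combination h1
  have E0 := congrFun hv 0
  have E1 := congrFun hv 1
  simp only [Matrix.cons_val, Pi.zero_apply] at E0 E1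
  refine ⟨E0, (mul_eq_zero.1 ?_).resolve_left (mul_ne_zero two_ne_zero (pow_ne_zero 2 hpik))⟩
  linear_combination 2 * (p j i * p l k + p j k * p l i) * E0 - p j k * p l k * E1

theorem dbl_special (θ : Fin 4 → L) (hθ : Function.Injective θ) (U V U' V' : Fin 4 → L)
    (p : Fin 4 → Fin 4 → L) (hp : ∀ i j, p i j = U i * V j - U j * V i)
    (hp0 : ∀ i j, i ≠ j → p i j ≠ 0) (hp' : ∃ i j, U' i * V' j ≠ U' j * V' i)
    (β : Fin 5 → Fin 4 → L) (s t : Fin 5 → L) (hβ : ∀ r i, β r i = s r * U i + t r * V i)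
    (h0 : ∀ r i, β r i ≠ 0) (hst : ∀ r r', r ≠ r' → s r * t r' ≠ t r * s r')
    (hR : ∀ r, ∑ i, ∑ j, dblC θ U' V' i j * β r i ^ 2 * β r j ^ 2 = 0) : Quart θ p := by
  have G := fun i j k l hij hik hil hjk hjl hkl =>
    (dbl_coeff _ (dblC_symm θ U' V') (dblC_diag θ U' V') U V p hp β s t hβ h0 hst hR i j k l
      hij hik hil hjk hjl hkl (hp0 i k hik)).2
  have hz : ∀ i j l, i ≠ j → dblC θ U' V' i j = 0 → dblC θ U' V' i l = 0 := by
    intro i j l hij h
    by_cases hil : i = l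
    · rw [← hil, dblC_diag]
    by_cases hjl : j = l
    · rw [← hjl, h]
    obtain ⟨k, hik, hjk, hkl⟩ : ∃ k, i ≠ k ∧ j ≠ k ∧ k ≠ l := by
      clear h; revert i j l; decide
    have h1 := G i j k l hij hik hil hjk hjl hkl
    rw [h, zero_mul, zero_mul, zero_add] at h1
    exact (mul_eq_zero.1 ((mul_eq_zero.1 h1).resolve_right (hp0 _ _ hij.symm))).resolve_right
      (pow_ne_zero _ (hp0 _ _ hkl.symm))
  have hn : ∀ i j, i ≠ j → U' i * V' j - U' j * V' i ≠ 0 := by
    intro i j hij h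
    obtain ⟨a, b, hab⟩ := hp'
    have hab' : a ≠ b := by rintro rfl; exact hab rfl
    have h1 := (dblC_eq_zero hθ U' V' hij).2 (sub_eq_zero.1 h)
    refine hab ((dblC_eq_zero hθ U' V' hab').1 ?_)
    by_cases hai : a = i
    · rw [hai]; exact hz i j b hij h1
    · exact hz a i b hai (by rw [dblC_symm]; exact hz i j a hij h1)
  have G1 := G 0 1 3 2 (by decide) (by decide) (by decide) (by decide) (by decide) (by decide)
  have G2 := G 3 2 0 1 (by decide) (by decide) (by decide) (by decide) (by decide) (by decide)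
  have G3 := G 0 1 2 3 (by decide) (by decide) (by decide) (by decide) (by decide) (by decide)
  have G4 := G 2 3 0 1 (by decide) (by decide) (by decide) (by decide) (by decide) (by decide)
  have ha : ∀ i j, p j i = -p i j := fun i j => by rw [hp, hp]; ring
  rw [ha 0 2, ha 0 1] at G1
  rw [ha 0 2, ha 0 1, dblC_symm θ U' V' 3 2, dblC_symm θ U' V' 3 1] at G2
  rw [ha 0 3, ha 0 1, ha 2 3] at G3
  rw [ha 0 3, ha 0 1, ha 2 3, dblC_symm θ U' V' 2 1] at G4
  have R1 : dblC θ U' V' 0 1 * dblC θ U' V' 2 3 * (p 0 2 * p 1 3) ^ 4 =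
      dblC θ U' V' 0 2 * dblC θ U' V' 1 3 * (p 0 1 * p 2 3) ^ 4 := by
    linear_combination (-(dblC θ U' V' 2 3 * p 0 2 ^ 3 * p 1 3)) * G1 +
      dblC θ U' V' 0 2 * p 2 3 ^ 3 * p 0 1 * G2
  have R2 : dblC θ U' V' 0 1 * dblC θ U' V' 2 3 * (p 0 3 * p 1 2) ^ 4 =
      dblC θ U' V' 0 3 * dblC θ U' V' 1 2 * (p 0 1 * p 2 3) ^ 4 := by
    linear_combination (-(dblC θ U' V' 2 3 * p 0 3 ^ 3 * p 1 2)) * G3 -
      dblC θ U' V' 0 3 * p 2 3 ^ 3 * p 0 1 * G4
  simp only [dblC] at R1 R2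
  have f0 := dbl_f_ne hθ 0
  have f1 := dbl_f_ne hθ 1
  have f2 := dbl_f_ne hθ 2
  have f3 := dbl_f_ne hθ 3
  generalize ∏ a ∈ univ.erase 0, (θ 0 - θ a) = g0 at *
  generalize ∏ a ∈ univ.erase 1, (θ 1 - θ a) = g1 at *
  generalize ∏ a ∈ univ.erase 2, (θ 2 - θ a) = g2 at *
  generalize ∏ a ∈ univ.erase 3, (θ 3 - θ a) = g3 at *
  refine (mul_eq_zero.1 ?_).resolve_left
    (div_ne_zero (mul_ne_zero (hn 0 1 (by decide)) (hn 2 3 (by decide)))
      (mul_ne_zero (mul_ne_zero f0 f1) (mul_ne_zero f2 f3)))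
  linear_combination (θ 2 - θ 0) * (θ 3 - θ 1) * R2 - (θ 3 - θ 0) * (θ 2 - θ 1) * R1

theorem dbl_degenerate (θ : Fin 4 → L) (hθ : Function.Injective θ) (U V U' V' : Fin 4 → L)
    (p : Fin 4 → Fin 4 → L) (hp : ∀ i j, p i j = U i * V j - U j * V i)
    (β : Fin 5 → Fin 4 → L) (s t : Fin 5 → L) (hβ : ∀ r i, β r i = s r * U i + t r * V i)
    (h0 : ∀ r i, β r i ≠ 0) (hst : ∀ r r', r ≠ r' → s r * t r' ≠ t r * s r')
    (hR : ∀ r, ∑ i, ∑ j, dblC θ U' V' i j * β r i ^ 2 * β r j ^ 2 = 0)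
    (i j k l : Fin 4) (hij : i ≠ j) (hik : i ≠ k) (hil : i ≠ l) (hjk : j ≠ k) (hjl : j ≠ l)
    (hkl : k ≠ l) (hpik : p i k ≠ 0) (hpjk : p j k ≠ 0) (hplk : p l k = 0) :
    U' i * V' j = U' j * V' i := by
  have h := (dbl_coeff _ (dblC_symm θ U' V') (dblC_diag θ U' V') U V p hp β s t hβ h0 hst hR
    i j k l hij hik hil hjk hjl hkl hpik).1
  rw [hplk] at h
  simp only [ne_eq, OfNat.ofNat_ne_zero, not_false_eq_true, zero_pow, mul_zero, add_zero,
    mul_eq_zero, pow_eq_zero_iff, hpik, hpjk, or_false] at h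
  exact (dblC_eq_zero hθ U' V' hij).1 h

end Vale.Agent.P018
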