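import Mathlib

namespace Vale.Agent.P018

open Polynomial Filter Topology

/-- An integer `a` is `k`-power-free if no prime `k`-th power divides it. -/
def PowerFree (k : ℕ) (a : ℤ) : Prop := ∀ p : ℕ, p.Prime → ¬ ((p : ℤ) ^ k ∣ a)

/-- Number of roots of `f` in `ℤ / q ℤ`. -/
noncomputable def rho (f : ℤ[X]) (q : ℕ) : ℕ :=
  Nat.card {a : ZMod q // Polynomial.aeval a f = 0}

open Classical in
/-- Number of `1 ≤ n ≤ N` such that `f n` is `k`-power-free. -/
noncomputable def countFree (f : ℤ[X]) (k N : ℕ) : ℕ :=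
  ((Finset.Icc 1 N).filter (fun n : ℕ => PowerFree k (f.eval (n : ℤ)))).card

/-- The predicted asymptotic holds for every irreducible `f` of degree `d` satisfying the local
condition at exponent `k`. -/
def Asymptotic (d k : ℕ) : Prop :=
  ∀ f : ℤ[X], Irreducible (f.map (Int.castRingHom ℚ)) → f.natDegree = d →
    (∀ p : ℕ, p.Prime → rho f (p ^ k) < p ^ k) →
    ∃ c : ℝ, 0 < c ∧
      HasProd (fun p : Nat.Primes => 1 - (rho f ((p : ℕ) ^ k) : ℝ) / ((p : ℕ) : ℝ) ^ k) c ∧
      Tendsto (fun N : ℕ => (countFree f k N : ℝ) / (N : ℝ)) atTop (𝓝 c)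

end Vale.Agent.P018
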