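import Mathlib

namespace Vale.Agent.P018

open MvPolynomial

/-- The sum of the absolute values of the coefficients. -/
noncomputable def lone {ν : Type} (P : MvPolynomial ν ℂ) : ℝ := ∑ m ∈ P.support, ‖P.coeff m‖

theorem lone_nonneg {ν : Type} (P : MvPolynomial ν ℂ) : 0 ≤ lone P :=
  Finset.sum_nonneg fun _ _ => norm_nonneg _

theorem lone_eq_of_subset {ν : Type} (P : MvPolynomial ν ℂ) {A : Finset (ν →₀ ℕ)}
    (h : P.support ⊆ A) : lone P = ∑ m ∈ A, ‖P.coeff m‖ := by
  apply Finset.sum_subset h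
  intro m _ hm
  rw [notMem_support_iff.1 hm, norm_zero]

theorem lone_add_le {ν : Type} (P Q : MvPolynomial ν ℂ) : lone (P + Q) ≤ lone P + lone Q := by
  classical
  rw [lone_eq_of_subset (P + Q) support_add, lone_eq_of_subset P Finset.subset_union_left,
    lone_eq_of_subset Q Finset.subset_union_right, ← Finset.sum_add_distrib]
  exact Finset.sum_le_sum fun m _ => by rw [coeff_add]; exact norm_add_le _ _

theorem lone_sum_le {ν ι : Type} (s : Finset ι) (P : ι → MvPolynomial ν ℂ) :
    lone (∑ i ∈ s, P i) ≤ ∑ i ∈ s, lone (P i) := by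
  classical
  induction s using Finset.induction_on with
  | empty => simp [lone]
  | insert a s ha ih =>
    rw [Finset.sum_insert ha, Finset.sum_insert ha]
    exact (lone_add_le _ _).trans (by linarith)

theorem lone_monomial {ν : Type} (m : ν →₀ ℕ) (a : ℂ) : lone (monomial m a) = ‖a‖ := by
  classical
  rw [lone_eq_of_subset _ support_monomial_subset]
  simp

theorem lone_mul_le {ν : Type} (P Q : MvPolynomial ν ℂ) : lone (P * Q) ≤ lone P * lone Q := by
  classical
  have h : P * Q = ∑ m ∈ P.support, ∑ n ∈ Q.support, monomial (m + n) (P.coeff m * Q.coeff n) := by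
    conv_lhs => rw [P.as_sum, Q.as_sum]
    rw [Finset.sum_mul_sum]
    simp only [monomial_mul]
  rw [h]
  refine (lone_sum_le _ _).trans ?_
  unfold lone
  rw [Finset.sum_mul_sum]
  refine Finset.sum_le_sum fun m _ => (lone_sum_le _ _).trans (le_of_eq ?_)
  exact Finset.sum_congr rfl fun n _ => by rw [lone_monomial, norm_mul]

theorem lone_one {ν : Type} : lone (1 : MvPolynomial ν ℂ) = 1 := by
  have := lone_monomial (0 : ν →₀ ℕ) 1
  rwa [norm_one] at this

theorem lone_pow_le {ν : Type} (P : MvPolynomial ν ℂ) (n : ℕ) : lone (P ^ n) ≤ lone P ^ n := by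
  induction n with
  | zero => simp [lone_one]
  | succ n ih =>
    rw [pow_succ, pow_succ]
    exact (lone_mul_le _ _).trans (mul_le_mul_of_nonneg_right ih (lone_nonneg P))

theorem lone_prod_le {ν ι : Type} (s : Finset ι) (P : ι → MvPolynomial ν ℂ) :
    lone (∏ i ∈ s, P i) ≤ ∏ i ∈ s, lone (P i) := by
  classical
  induction s using Finset.induction_on with
  | empty => simp [lone_one]
  | insert a s ha ih =>
    rw [Finset.prod_insert ha, Finset.prod_insert ha]
    exact (lone_mul_le _ _).trans (mul_le_mul_of_nonneg_left ih (lone_nonneg _))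

theorem lone_lin_le {ν : Type} (a b : ℂ) (i : ν) :
    lone (C a + C b * X i : MvPolynomial ν ℂ) ≤ ‖a‖ + ‖b‖ := by
  refine (lone_add_le _ _).trans (le_of_eq ?_)
  rw [C_mul_X_eq_monomial, C_apply, lone_monomial, lone_monomial]

theorem telescope_bound (t h : ℝ) (hh : 0 < h) (j : ℕ) (hj : 1 ≤ j) (R : ℕ) :
    ∑ n ∈ Finset.range R, max (t - h * n) 0 ^ j ≤ max (t + h) 0 ^ (j + 1) / ((j + 1) * h) := by
  have key : ∀ x : ℝ, max x 0 ^ j * ((j + 1) * h) ≤ max (x + h) 0 ^ (j + 1) - max x 0 ^ (j + 1) := by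
    intro x
    rcases le_total x 0 with hx | hx
    · rw [max_eq_right hx, zero_pow (by omega), zero_pow (by omega), zero_mul, sub_zero]
      positivity
    · rw [max_eq_left hx, max_eq_left (by linarith)]
      have := pow_add_mul_le_add_pow hx (by linarith : 0 ≤ 2 * x + h) (j + 1)
      simp only [Nat.add_sub_cancel] at this
      push_cast at this
      linarith
  rw [le_div_iff₀ (by positivity), Finset.sum_mul]
  have h2 := Finset.sum_range_sub' (fun n : ℕ => max (t + h - h * n) 0 ^ (j + 1)) R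
  have h3 : ∑ n ∈ Finset.range R, max (t - h * n) 0 ^ j * ((j + 1) * h)
      ≤ ∑ n ∈ Finset.range R, (max (t + h - h * n) 0 ^ (j + 1)
        - max (t + h - h * ((n + 1 : ℕ) : ℝ)) 0 ^ (j + 1)) := by
    refine Finset.sum_le_sum fun n _ => ?_
    have := key (t - h * n)
    have e1 : t - h * n + h = t + h - h * n := by ring
    have e2 : t + h - h * ((n + 1 : ℕ) : ℝ) = t - h * n := by push_cast; ring
    rw [e2, ← e1]
    exact this
  rw [h2] at h3
  have h4 : 0 ≤ max (t + h - h * R) 0 ^ (j + 1) := by positivity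
  simp only [Nat.cast_zero, mul_zero, sub_zero] at h3
  linarith

theorem simplex_bound (R N : ℕ) : ∀ (w : Fin N → ℝ), (∀ i, 0 < w i) → ∀ (τ : ℝ) (j : ℕ), 1 ≤ j →
    ∑ m : Fin N → Fin R, max (τ - ∑ i, w i * (m i : ℕ)) 0 ^ j
      ≤ j.factorial * max (τ + ∑ i, w i) 0 ^ (j + N) / ((j + N).factorial * ∏ i, w i) := by
  induction N with
  | zero =>
    intro w _ τ j _
    have : (0 : ℝ) < j.factorial := by positivity
    simp
    rw [mul_div_cancel_left₀ _ this.ne']
  | succ N ih =>
    intro w hw τ j hj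
    rw [← (Fin.consEquiv fun _ : Fin (N + 1) => Fin R).sum_comp, Fintype.sum_prod_type_right]
    have h1 : ∀ m : Fin N → Fin R, ∑ a : Fin R, max (τ - ∑ i, w i *
        (((Fin.consEquiv fun _ : Fin (N + 1) => Fin R) (a, m) i : Fin R) : ℕ)) 0 ^ j
        ≤ max (τ + w 0 - ∑ i, w (Fin.succ i) * (m i : ℕ)) 0 ^ (j + 1) / ((j + 1) * w 0) := by
      intro m
      have := telescope_bound (τ - ∑ i, w (Fin.succ i) * (m i : ℕ)) (w 0) (hw 0) j hj R
      rw [Finset.sum_range] at this
      have e : τ - ∑ i, w (Fin.succ i) * (m i : ℕ) + w 0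
          = τ + w 0 - ∑ i, w (Fin.succ i) * (m i : ℕ) := by ring
      rw [e] at this
      refine le_trans (le_of_eq ?_) this
      refine Finset.sum_congr rfl fun a _ => ?_
      rw [Fin.sum_univ_succ]
      simp only [Fin.consEquiv_apply, Fin.cons_zero, Fin.cons_succ]
      congr 2
      ring
    refine (Finset.sum_le_sum fun m _ => h1 m).trans ?_
    rw [← Finset.sum_div]
    have h2 := ih (fun i => w i.succ) (fun i => hw _) (τ + w 0) (j + 1) (by omega)
    have hw0 := hw 0
    refine (div_le_div_of_nonneg_right h2 (by positivity)).trans (le_of_eq ?_)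
    have hp : 0 < ∏ i : Fin N, w i.succ := Finset.prod_pos fun i _ => hw _
    rw [Fin.sum_univ_succ, Fin.prod_univ_succ, add_assoc τ, Nat.factorial_succ j,
      show j + 1 + N = j + (N + 1) by ring]
    push_cast
    field_simp

theorem weight_sum_bound {ν ι : Type} [Fintype ν] [Fintype ι] (w : ν → ℝ) (hw : ∀ i, 0 < w i)
    (D : ℕ) (n : ι → ν →₀ ℕ) (hn : Function.Injective n) (hD : ∀ s i, n s i ≤ D) (τ : ℝ)
    (hτ : 0 ≤ τ) :
    (Fintype.card ι : ℝ) * τ - (τ + ∑ i, w i) ^ (Fintype.card ν + 1) /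
      (((Fintype.card ν + 1).factorial : ℝ) * ∏ i, w i) ≤ ∑ s, ∑ i, w i * n s i := by
  classical
  let e := (Fintype.equivFin ν).symm
  let g : ι → (Fin (Fintype.card ν) → Fin (D + 1)) :=
    fun s k => ⟨n s (e k), Nat.lt_succ_of_le (hD _ _)⟩
  have hg : Function.Injective g := by
    intro s s' h
    apply hn
    ext i
    have := congrArg Fin.val (congrFun h (e.symm i))
    simpa [g] using this
  have h1 := simplex_bound (D + 1) _ (fun k => w (e k)) (fun k => hw _) τ 1 le_rfl
  have hs : 0 ≤ ∑ i, w i := Finset.sum_nonneg fun i _ => (hw i).le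
  rw [e.sum_comp w, e.prod_comp w, max_eq_left (by linarith), add_comm 1] at h1
  simp only [pow_one, Nat.factorial_one, Nat.cast_one, one_mul] at h1
  have h2 : ∑ s, max (τ - ∑ k, w (e k) * (g s k : ℕ)) 0
      ≤ ∑ m : Fin (Fintype.card ν) → Fin (D + 1), max (τ - ∑ k, w (e k) * (m k : ℕ)) 0 := by
    have := Finset.sum_map Finset.univ ⟨g, hg⟩
      (fun m : Fin (Fintype.card ν) → Fin (D + 1) => max (τ - ∑ k, w (e k) * (m k : ℕ)) 0)
    simp only [Function.Embedding.coeFn_mk] at this
    rw [← this]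
    exact Finset.sum_le_sum_of_subset_of_nonneg (Finset.subset_univ _)
      fun _ _ _ => le_max_right _ _
  have h3 : ∑ s, (τ - ∑ i, w i * n s i) ≤ ∑ s, max (τ - ∑ k, w (e k) * (g s k : ℕ)) 0 := by
    refine Finset.sum_le_sum fun s _ => le_trans (le_of_eq ?_) (le_max_left _ _)
    rw [← e.sum_comp fun i => w i * n s i]
  rw [Finset.sum_sub_distrib] at h3
  simp only [Finset.sum_const, Finset.card_univ, nsmul_eq_mul] at h3
  linarith

/-- Interpolation determinant bound: polynomials evaluated at points of a small polydisc. -/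
theorem det_bound {ν ι : Type} [Fintype ν] [DecidableEq ν] [Fintype ι] [DecidableEq ι]
    (ψ : ι → MvPolynomial ν ℂ) (C₀ : ℝ) (hC : ∀ s, lone (ψ s) ≤ C₀)
    (D : ℕ) (hD : ∀ s, (ψ s).totalDegree ≤ D)
    (w : ν → ℝ) (hw : ∀ i, 0 < w i) (K Y : ℝ) (hK : 1 ≤ K) (hY : 1 ≤ Y)
    (δ : ι → ν → ℂ) (hδ : ∀ t i, ‖δ t i‖ ≤ K * Y ^ (-w i)) (τ : ℝ) (hτ : 0 ≤ τ) :
    ‖(Matrix.of fun t s => eval (δ t) (ψ s)).det‖ ≤
      ((Fintype.card ι).factorial : ℝ) * (C₀ * K ^ D) ^ Fintype.card ι *
        Y ^ (-((Fintype.card ι : ℝ) * τ - (τ + ∑ i, w i) ^ (Fintype.card ν + 1) /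
          (((Fintype.card ν + 1).factorial : ℝ) * ∏ i, w i))) := by
  classical
  set Z : ℝ := -((Fintype.card ι : ℝ) * τ - (τ + ∑ i, w i) ^ (Fintype.card ν + 1) /
          (((Fintype.card ν + 1).factorial : ℝ) * ∏ i, w i)) with hZ
  have hY0 : 0 < Y := by linarith
  set E : ι → (ν →₀ ℕ) → ℂ := fun t m => ∏ i, δ t i ^ m i with hE
  have hexp : (Matrix.of fun t s => eval (δ t) (ψ s)).det
      = ∑ n ∈ Fintype.piFinset fun s => (ψ s).support,
        (∏ s, (ψ s).coeff (n s)) * (Matrix.of fun t s => E t (n s)).det := by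
    simp only [Matrix.det_apply', Matrix.of_apply, eval_eq', Finset.prod_univ_sum,
      Finset.mul_sum]
    rw [Finset.sum_comm]
    refine Finset.sum_congr rfl fun n _ => Finset.sum_congr rfl fun σ _ => ?_
    rw [Finset.prod_mul_distrib]
    ring
  have hdeg : ∀ s, ∀ m ∈ (ψ s).support, ∑ i, m i ≤ D := by
    intro s m hm
    have := (le_totalDegree hm).trans (hD s)
    rwa [Finsupp.sum_fintype _ _ (fun _ => rfl)] at this
  have hEb : ∀ t (m : ν →₀ ℕ), ∑ i, m i ≤ D → ‖E t m‖ ≤ K ^ D * Y ^ (-∑ i, w i * m i) := by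
    intro t m hm
    simp only [hE, norm_prod, norm_pow]
    calc ∏ i, ‖δ t i‖ ^ m i ≤ ∏ i, (K * Y ^ (-w i)) ^ m i :=
          Finset.prod_le_prod (fun i _ => by positivity) fun i _ => by
            gcongr; exact hδ t i
      _ = K ^ (∑ i, m i) * Y ^ (-∑ i, w i * m i) := by
          simp only [mul_pow]
          rw [Finset.prod_mul_distrib, Finset.prod_pow_eq_pow_sum, ← Finset.sum_neg_distrib,
            Real.rpow_sum_of_pos hY0]
          congr 1
          refine Finset.prod_congr rfl fun i _ => ?_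
          rw [← Real.rpow_natCast, ← Real.rpow_mul hY0.le, neg_mul]
      _ ≤ K ^ D * Y ^ (-∑ i, w i * m i) := by
          gcongr
  have hminor : ∀ n ∈ Fintype.piFinset fun s => (ψ s).support,
      ‖(Matrix.of fun t s => E t (n s)).det‖
        ≤ ((Fintype.card ι).factorial : ℝ) * (K ^ D) ^ Fintype.card ι * Y ^ Z := by
    intro n hn
    have hn' : ∀ s, ∑ i, n s i ≤ D := fun s => hdeg s _ (Fintype.mem_piFinset.1 hn s)
    by_cases hinj : Function.Injective n
    · have hw' := weight_sum_bound w hw D n hinj (fun s i => (Finset.single_le_sum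
        (f := fun i => n s i) (fun _ _ => Nat.zero_le _) (Finset.mem_univ i)).trans (hn' s)) τ hτ
      rw [Matrix.det_apply']
      refine (norm_sum_le _ _).trans ?_
      have hterm : ∀ σ : Equiv.Perm ι, ‖((Equiv.Perm.sign σ : ℤ) : ℂ) *
          ∏ s, (Matrix.of fun t s => E t (n s)) (σ s) s‖ ≤ (K ^ D) ^ Fintype.card ι * Y ^ Z := by
        intro σ
        have hs : ‖((Equiv.Perm.sign σ : ℤ) : ℂ)‖ = 1 := by
          rcases Int.units_eq_one_or (Equiv.Perm.sign σ) with h | h <;> simp [h]
        rw [norm_mul, hs, one_mul, norm_prod]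
        calc ∏ s, ‖(Matrix.of fun t s => E t (n s)) (σ s) s‖
            ≤ ∏ s, (K ^ D * Y ^ (-∑ i, w i * n s i)) :=
              Finset.prod_le_prod (fun _ _ => norm_nonneg _) fun s _ => hEb _ _ (hn' s)
          _ = (K ^ D) ^ Fintype.card ι * Y ^ (-∑ s, ∑ i, w i * n s i) := by
              rw [Finset.prod_mul_distrib, Finset.prod_const, Finset.card_univ,
                ← Real.rpow_sum_of_pos hY0, Finset.sum_neg_distrib]
          _ ≤ (K ^ D) ^ Fintype.card ι * Y ^ Z := by
              gcongr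
              rw [hZ]
              linarith
      refine (Finset.sum_le_sum fun σ _ => hterm σ).trans (le_of_eq ?_)
      rw [Finset.sum_const, Finset.card_univ, Fintype.card_perm, nsmul_eq_mul, mul_assoc]
    · obtain ⟨s, s', h1, h2⟩ := Function.not_injective_iff.1 hinj
      rw [Matrix.det_zero_of_column_eq h2 fun t => by simp only [Matrix.of_apply, h1], norm_zero]
      positivity
  rw [hexp]
  refine (norm_sum_le _ _).trans ?_
  calc ∑ n ∈ Fintype.piFinset fun s => (ψ s).support,
        ‖(∏ s, (ψ s).coeff (n s)) * (Matrix.of fun t s => E t (n s)).det‖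
      ≤ ∑ n ∈ Fintype.piFinset fun s => (ψ s).support, (∏ s, ‖(ψ s).coeff (n s)‖) *
        (((Fintype.card ι).factorial : ℝ) * (K ^ D) ^ Fintype.card ι * Y ^ Z) := by
        refine Finset.sum_le_sum fun n hn => ?_
        rw [norm_mul, norm_prod]
        exact mul_le_mul_of_nonneg_left (hminor n hn) (by positivity)
    _ = (∏ s, lone (ψ s)) *
        (((Fintype.card ι).factorial : ℝ) * (K ^ D) ^ Fintype.card ι * Y ^ Z) := by
        rw [← Finset.sum_mul]
        unfold lone
        rw [Finset.prod_univ_sum]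
    _ ≤ C₀ ^ Fintype.card ι *
        (((Fintype.card ι).factorial : ℝ) * (K ^ D) ^ Fintype.card ι * Y ^ Z) := by
        refine mul_le_mul_of_nonneg_right ?_ (by positivity)
        rw [← Finset.card_univ, ← Finset.prod_const]
        exact Finset.prod_le_prod (fun s _ => lone_nonneg _) fun s _ => hC s
    _ = _ := by rw [mul_pow]; ring

/-- If all maximal minors vanish, there is a nontrivial linear relation. -/
theorem exists_relation {L : Type} [Field L] {ι 𝒮 : Type} [Fintype ι] [DecidableEq ι]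
    (w : 𝒮 → ι → L) (h : ∀ t : ι → 𝒮, (Matrix.of fun s' s => w (t s') s).det = 0) :
    ∃ c : ι → L, c ≠ 0 ∧ ∀ P, ∑ s, c s * w P s = 0 := by
  classical
  have hlt : Submodule.span L (Set.range w) < ⊤ := by
    rw [lt_top_iff_ne_top]
    intro htop
    obtain ⟨κ, a, -, hspan, hli⟩ := exists_linearIndependent' L w
    rw [htop] at hspan
    let b : Module.Basis κ L (ι → L) := Module.Basis.mk hli hspan.ge
    let e : ι ≃ κ := (Pi.basisFun L ι).indexEquiv b
    have hli' : LinearIndependent L (Matrix.of fun s' s => w (a (e s')) s).row :=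
      hli.comp e e.injective
    have hu := Matrix.linearIndependent_rows_iff_isUnit.1 hli'
    rw [Matrix.isUnit_iff_isUnit_det, h fun s' => a (e s')] at hu
    exact not_isUnit_zero hu
  obtain ⟨f, hf, hle⟩ := Submodule.exists_le_ker_of_lt_top _ hlt
  refine ⟨fun s => f (Pi.single s 1), fun h0 => hf ?_, fun P => ?_⟩
  · apply (Pi.basisFun L ι).ext
    intro s
    simpa using congrFun h0 s
  · have h1 : f (w P) = 0 := hle (Submodule.subset_span ⟨P, rfl⟩)
    rw [← h1]
    conv_rhs => rw [← (Pi.basisFun L ι).sum_repr (w P), map_sum]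
    simp [mul_comm]

end Vale.Agent.P018
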