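import Mathlib

/-!
Divisor bounds.

Proof of `nat_divisor_bound`: `Nat.card_divisors` gives `∏ p ∈ n.primeFactors, (v p + 1)` and
`n = ∏ p ^ v p`. For `p ≥ 2 ^ (1 / ε)` one has `v + 1 ≤ 2 ^ v ≤ (p ^ v) ^ ε`. For each of the
finitely many smaller primes, `v + 1 ≤ M * (2 ^ ε) ^ v ≤ M * (p ^ v) ^ ε` with `M = 1 + 1 / (2 ^ ε - 1)`
(Bernoulli, `one_add_mul_le_pow`). So `C = M ^ ⌈2 ^ (1 / ε)⌉` works.

Proof of `ideal_divisor_bound`: the same with the factorisation of `I` into prime ideals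
(`UniqueFactorizationMonoid.normalizedFactors`): a divisor `J` of `I` is determined by the multiset
`normalizedFactors J ≤ normalizedFactors I` (`dvd_iff_normalizedFactors_le_normalizedFactors`,
`prod_normalizedFactors_eq_self` or `Ideal.prod_normalizedFactors_eq_self`); the number of
submultisets is `∏ (count + 1)` (`Multiset.card_Iic`); `absNorm` is multiplicative, `absNorm P ≥ 2`
for a nonzero prime `P` (`Ideal.absNorm_eq_one_iff`, `Ideal.absNorm_eq_zero_iff`), and there are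
finitely many ideals of norm at most `2 ^ (1 / ε)` (`Ideal.finite_setOf_absNorm_le`).
One abstract lemma can serve both: for a finite set `s` of indices, weights `N i ≥ 2`, exponents
`v i`, and at most `m` indices with `N i < 2 ^ (1 / ε)`,
`∏ (v i + 1) ≤ M ^ m * (∏ N i ^ v i) ^ ε`.
-/

namespace Vale.Agent.P018

open NumberField

theorem divIdeal_abs (ε : ℝ) (hε : 0 < ε) : ∃ M : ℝ, 1 ≤ M ∧ ∀ (ι : Type) (s : Finset ι)
    (N v : ι → ℕ) (m : ℕ), (∀ i ∈ s, 2 ≤ N i) →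
    (s.filter fun i => N i < ⌈(2 : ℝ) ^ (1 / ε)⌉₊).card ≤ m →
    ((∏ i ∈ s, (v i + 1) : ℕ) : ℝ) ≤ M ^ m * ((∏ i ∈ s, N i ^ v i : ℕ) : ℝ) ^ ε := by
  have ha : (1 : ℝ) < 2 ^ ε := Real.one_lt_rpow one_lt_two hε
  have ha' : (0 : ℝ) < 2 ^ ε - 1 := sub_pos.2 ha
  have hM : (1 : ℝ) ≤ 1 + 1 / (2 ^ ε - 1) := le_add_of_nonneg_right (by positivity)
  refine ⟨1 + 1 / (2 ^ ε - 1), hM, fun ι s N v m h2 hm => ?_⟩
  have key : ∀ i ∈ s, ((v i : ℝ) + 1) ≤
      (if N i < ⌈(2 : ℝ) ^ (1 / ε)⌉₊ then 1 + 1 / (2 ^ ε - 1) else 1) * ((N i : ℝ) ^ v i) ^ ε := by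
    intro i hi
    have h3 : (2 : ℝ) ≤ N i := by exact_mod_cast h2 i hi
    have h4 : (0 : ℝ) ≤ N i := Nat.cast_nonneg _
    rw [← Real.rpow_natCast, ← Real.rpow_mul h4, mul_comm (v i : ℝ), Real.rpow_mul h4,
      Real.rpow_natCast]
    split_ifs with h
    · have h5 : (2 : ℝ) ^ ε ≤ (N i : ℝ) ^ ε := Real.rpow_le_rpow zero_le_two h3 hε.le
      have h6 := one_add_mul_le_pow (a := (2 : ℝ) ^ ε - 1) (by linarith) (v i)
      rw [add_sub_cancel] at h6
      have h7 := h6.trans (pow_le_pow_left₀ (by positivity) h5 (v i))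
      refine le_trans ?_ (mul_le_mul_of_nonneg_left h7 (by positivity))
      have h8 : 1 / ((2 : ℝ) ^ ε - 1) * (v i * (2 ^ ε - 1)) = (v i : ℝ) := by field_simp
      have h9 : 0 ≤ (v i : ℝ) * (2 ^ ε - 1) := by positivity
      have h10 : (0 : ℝ) ≤ 1 / (2 ^ ε - 1) := by positivity
      nlinarith
    · have h5 : (2 : ℝ) ^ (1 / ε) ≤ N i := Nat.ceil_le.1 (not_lt.1 h)
      have h6 : (2 : ℝ) ≤ (N i : ℝ) ^ ε := by
        have := Real.rpow_le_rpow (by positivity) h5 hε.le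
        rwa [← Real.rpow_mul zero_le_two, one_div_mul_cancel hε.ne', Real.rpow_one] at this
      have h7 := one_add_mul_le_pow (a := (1 : ℝ)) (by norm_num) (v i)
      have h8 := pow_le_pow_left₀ zero_le_two h6 (v i)
      rw [one_add_one_eq_two] at h7
      linarith
  push_cast
  refine (Finset.prod_le_prod (fun i _ => by positivity) key).trans ?_
  rw [Finset.prod_mul_distrib, Real.finset_prod_rpow _ _ (fun i _ => by positivity),
    Finset.prod_ite, Finset.prod_const, Finset.prod_const_one, mul_one]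
  exact mul_le_mul_of_nonneg_right (pow_le_pow_right₀ hM hm) (by positivity)

theorem nat_divisor_bound (ε : ℝ) (hε : 0 < ε) :
    ∃ C : ℝ, 1 ≤ C ∧ ∀ n : ℕ, n ≠ 0 → (n.divisors.card : ℝ) ≤ C * (n : ℝ) ^ ε := by
  obtain ⟨M, hM, h⟩ := divIdeal_abs ε hε
  refine ⟨M ^ ⌈(2 : ℝ) ^ (1 / ε)⌉₊, one_le_pow₀ hM, fun n hn => ?_⟩
  have h1 := h ℕ n.primeFactors (fun p => p) n.factorization ⌈(2 : ℝ) ^ (1 / ε)⌉₊
    (fun p hp => (Nat.prime_of_mem_primeFactors hp).two_le)
    ((Finset.card_le_card fun p hp =>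
      Finset.mem_range.2 (Finset.mem_filter.1 hp).2).trans_eq (Finset.card_range _))
  have h2 : ∏ p ∈ n.primeFactors, p ^ n.factorization p = n :=
    Nat.factorization_prod_pow_eq_self hn
  rwa [h2, ← Nat.card_divisors hn] at h1

theorem ideal_divisor_bound (L : Type) [Field L] [NumberField L] (ε : ℝ) (hε : 0 < ε) :
    ∃ C : ℝ, 1 ≤ C ∧ ∀ I : Ideal (𝓞 L), I ≠ ⊥ → ∀ F : Finset (Ideal (𝓞 L)),
      (∀ J ∈ F, J ∣ I) → (F.card : ℝ) ≤ C * (Ideal.absNorm I : ℝ) ^ ε := by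
  classical
  obtain ⟨M, hM, h⟩ := divIdeal_abs ε hε
  have hfin := Ideal.finite_setOfPred_absNorm_le (S := 𝓞 L) ⌈(2 : ℝ) ^ (1 / ε)⌉₊
  refine ⟨M ^ hfin.toFinset.card, one_le_pow₀ hM, fun I hI F hF => ?_⟩
  have h1 := h _ (UniqueFactorizationMonoid.normalizedFactors I).toFinset Ideal.absNorm
    (fun P => (UniqueFactorizationMonoid.normalizedFactors I).count P) hfin.toFinset.card
    (fun P hP => by
      have hp := UniqueFactorizationMonoid.prime_of_normalized_factor P (Multiset.mem_toFinset.1 hP)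
      have h0 : Ideal.absNorm P ≠ 0 := Ideal.absNorm_eq_zero_iff.not.2 hp.ne_zero
      have h1 : Ideal.absNorm P ≠ 1 := Ideal.absNorm_eq_one_iff.not.2
        (Ideal.isPrime_of_prime hp).ne_top
      omega)
    (Finset.card_le_card fun P hP => hfin.mem_toFinset.2 (Finset.mem_filter.1 hP).2.le)
  have h2 : ∏ P ∈ (UniqueFactorizationMonoid.normalizedFactors I).toFinset, Ideal.absNorm P ^
      (UniqueFactorizationMonoid.normalizedFactors I).count P = Ideal.absNorm I := by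
    simp only [← map_pow]
    rw [← map_prod, ← Finset.prod_multiset_count, Ideal.prod_normalizedFactors_eq_self hI]
  rw [h2, ← Multiset.card_Iic] at h1
  refine le_trans ?_ h1
  have hJ : ∀ J ∈ F, J ≠ ⊥ := fun J hJ => ne_zero_of_dvd_ne_zero hI (hF J hJ)
  exact_mod_cast Finset.card_le_card_of_injOn UniqueFactorizationMonoid.normalizedFactors
    (fun J hJ' => Finset.mem_coe.2 (Finset.mem_Iic.2
      ((UniqueFactorizationMonoid.dvd_iff_normalizedFactors_le_normalizedFactors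
        (hJ J hJ') hI).1 (hF J hJ'))))
    (fun J hJ' K hK e => by
      rw [← Ideal.prod_normalizedFactors_eq_self (hJ J hJ'), e,
        Ideal.prod_normalizedFactors_eq_self (hJ K hK)])

end Vale.Agent.P018
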