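import Vale.Agent.P018.Point
import Vale.Agent.P018.DivIdeal

/-!
The number of divisors of bounded size of an algebraic integer.

Proof. Let `n` be the number of embeddings `σ : L →+* ℂ` (`= finrank ℚ L`,
`NumberField.Embeddings.card`). For `z ≠ 0` in `𝓞 L`, `∏ σ, ‖em σ z‖ = |Algebra.norm ℤ z| ≥ 1`
(`Algebra.norm_eq_prod_embeddings`, `RingHom.equivRatAlgHom`; `Ideal.absNorm_span_singleton`).
So `absNorm (span {w}) ≤ H ^ n`, and `ideal_divisor_bound` with `ε / (2 n)` bounds the number of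
ideals `span {z}`, `z ∈ F`, by `C H ^ (ε / 2)`. For `z ∈ F` (nonzero as `z ∣ w`) each
`‖em σ z‖` lies in `[H ^ (-(n-1)), H]`, so `⌊log ‖em σ z‖⌋` takes at most `n log H + 2` values.
If `z, z'` generate the same ideal and have the same vector of these integers then `z' = z u` with
`u ∈ 𝓞 L` and `‖em σ u‖ ≤ exp 1` for all `σ`; the set of such `u` is finite
(`NumberField.Embeddings.finite_of_norm_le`), of size `m` say. So
`F.card ≤ C H ^ (ε / 2) * (n log H + 2) ^ n * m`, and `log H ≤ H ^ δ / δ` (`Real.log_le_rpow_div`)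
with `δ = ε / (2 n)` finishes the proof.
-/

namespace Vale.Agent.P018

open NumberField

theorem divElem_norm {L : Type} [Field L] [NumberField L] (z : 𝓞 L) :
    ∏ σ : L →+* ℂ, ‖em σ z‖ = (Ideal.absNorm (Ideal.span {z}) : ℝ) := by
  have h1 := congrArg (fun t : ℂ => ‖t‖) (Algebra.norm_eq_prod_embeddings ℚ ℂ (z : L))
  simp only [norm_prod] at h1
  rw [← Algebra.coe_norm_int, eq_ratCast, Rat.cast_intCast, Complex.norm_intCast] at h1
  rw [Ideal.absNorm_span_singleton, Nat.cast_natAbs, Int.cast_abs, h1]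
  exact Fintype.prod_equiv (RingHom.equivRatAlgHom L ℂ) _ _ fun σ => rfl

theorem divElem_one_le {L : Type} [Field L] [NumberField L] {z : 𝓞 L} (hz : z ≠ 0) :
    1 ≤ ∏ σ : L →+* ℂ, ‖em σ z‖ := by
  rw [divElem_norm]
  exact_mod_cast Nat.one_le_iff_ne_zero.2
    (Ideal.absNorm_eq_zero_iff.not.2 (Ideal.span_singleton_eq_bot.not.2 hz))

theorem divElem_prod_le {ι : Type} (s : Finset ι) (f : ι → ℝ) {H : ℝ} (h0 : ∀ i, 0 ≤ f i)
    (h : ∀ i, f i ≤ H) : ∏ i ∈ s, f i ≤ H ^ s.card := by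
  rw [← Finset.prod_const]
  exact Finset.prod_le_prod (fun i _ => h0 i) fun i _ => h i

theorem divElem_log {L : Type} [Field L] [NumberField L] {z : 𝓞 L} (hz : z ≠ 0) {H : ℝ}
    (hH : 1 ≤ H) (h : ∀ σ : L →+* ℂ, ‖em σ z‖ ≤ H) (σ : L →+* ℂ) :
    |Real.log ‖em σ z‖| ≤ Fintype.card (L →+* ℂ) * Real.log H := by
  classical
  have h0 : 0 < ‖em σ z‖ := norm_pos_iff.2 fun e => hz (em_injective σ (by rw [e, map_zero]))
  have hl : 0 ≤ Real.log H := Real.log_nonneg hH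
  have hc : (1 : ℝ) ≤ Fintype.card (L →+* ℂ) := by
    exact_mod_cast Fintype.card_pos_iff.2 ⟨σ⟩
  have h1 := divElem_one_le hz
  rw [← Finset.mul_prod_erase _ _ (Finset.mem_univ σ)] at h1
  have h2 := (divElem_prod_le (Finset.univ.erase σ) (fun τ => ‖em τ z‖)
    (fun _ => norm_nonneg _) h).trans (pow_le_pow_right₀ hH (Finset.card_le_univ _))
  have h3 := Real.log_nonneg (h1.trans (mul_le_mul_of_nonneg_left h2 h0.le))
  rw [Real.log_mul h0.ne' (by positivity), Real.log_pow] at h3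
  have h4 := Real.log_le_log h0 (h σ)
  rw [abs_le]
  constructor
  · linarith
  · nlinarith

theorem divElem_fiber (L : Type) [Field L] [NumberField L] : ∃ m : ℕ, ∀ F : Finset (𝓞 L),
    (∀ z ∈ F, z ≠ 0) → (∀ z ∈ F, ∀ z' ∈ F, Ideal.span {z} = Ideal.span {z'} ∧
      ∀ σ : L →+* ℂ, ⌊Real.log ‖em σ z‖⌋ = ⌊Real.log ‖em σ z'‖⌋) → F.card ≤ m := by
  have hfin := Embeddings.finite_of_norm_le L ℂ (Real.exp 1)
  refine ⟨hfin.toFinset.card, fun F h0 h => ?_⟩
  rcases F.eq_empty_or_nonempty with rfl | ⟨z₀, hz₀⟩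
  · simp
  have hne : (z₀ : L) ≠ 0 := by exact_mod_cast h0 z₀ hz₀
  refine Finset.card_le_card_of_injOn (fun z => (z : L) / z₀) (fun z hz => ?_)
    fun z _ z' _ e => RingOfIntegers.ext ((div_left_inj' hne).1 e)
  obtain ⟨h1, h2⟩ := h z₀ hz₀ z hz
  obtain ⟨u, hu⟩ := (Ideal.span_singleton_eq_span_singleton.1 h1).dvd
  have e : (z : L) / z₀ = u := by
    rw [div_eq_iff hne, hu]
    push_cast
    ring
  refine Finset.mem_coe.2 (hfin.mem_toFinset.2 ⟨?_, fun σ => ?_⟩)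
  · change IsIntegral ℤ ((z : L) / z₀)
    rw [e]
    exact u.isIntegral_coe
  · have a0 : ∀ y ∈ F, 0 < ‖em σ y‖ := fun y hy =>
      norm_pos_iff.2 fun e => h0 y hy (em_injective σ (by rw [e, map_zero]))
    change ‖σ ((z : L) / z₀)‖ ≤ _
    rw [map_div₀, norm_div]
    change ‖em σ z‖ / ‖em σ z₀‖ ≤ _
    rw [← Real.log_le_iff_le_exp (div_pos (a0 z hz) (a0 z₀ hz₀)),
      Real.log_div (a0 z hz).ne' (a0 z₀ hz₀).ne']
    have a1 := Int.floor_le (Real.log ‖em σ z₀‖)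
    have a2 := Int.lt_floor_add_one (Real.log ‖em σ z‖)
    rw [← h2 σ] at a2
    linarith

theorem divisor_bound (L : Type) [Field L] [NumberField L] (ε : ℝ) (hε : 0 < ε) :
    ∃ C : ℝ, 1 ≤ C ∧ ∀ H : ℝ, 1 ≤ H → ∀ w : 𝓞 L, w ≠ 0 → (∀ σ : L →+* ℂ, ‖em σ w‖ ≤ H) →
      ∀ F : Finset (𝓞 L), (∀ z ∈ F, z ∣ w ∧ ∀ σ : L →+* ℂ, ‖em σ z‖ ≤ H) →
        (F.card : ℝ) ≤ C * H ^ ε := by
  classical
  obtain ⟨m, hm⟩ := divElem_fiber L
  obtain ⟨n, hn⟩ : ∃ n, n = Fintype.card (L →+* ℂ) := ⟨_, rfl⟩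
  have hn0 : (0 : ℝ) < n := by
    rw [hn, Embeddings.card]
    exact_mod_cast Module.finrank_pos
  have hδ : 0 < ε / (2 * n) := by positivity
  obtain ⟨C, hC, hI⟩ := ideal_divisor_bound L _ hδ
  refine ⟨1 + m * (C * (2 * n / (ε / (2 * n)) + 3) ^ n), le_add_of_nonneg_right (by positivity),
    fun H hH w hw hwH F hF => ?_⟩
  have hH0 : 0 ≤ H := zero_le_one.trans hH
  have hl : 0 ≤ Real.log H := Real.log_nonneg hH
  have h0 : ∀ z ∈ F, z ≠ 0 := fun z hz => ne_zero_of_dvd_ne_zero hw (hF z hz).1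
  let K : ℕ := ⌈n * Real.log H⌉₊
  let t : Finset (Ideal (𝓞 L) × ((L →+* ℂ) → ℤ)) := (F.image fun z => Ideal.span {z}) ×ˢ
    Fintype.piFinset fun _ => Finset.Icc (-(K : ℤ)) K
  have h1 : F.card ≤ m * t.card := by
    refine Finset.card_le_mul_card_image_of_maps_to
      (f := fun z => (Ideal.span {z}, fun σ => ⌊Real.log ‖em σ z‖⌋)) (fun z hz => ?_) m
      fun b _ => hm _ (fun z hz => h0 z (Finset.mem_filter.1 hz).1) fun z hz z' hz' => ?_
    · refine Finset.mem_product.2 ⟨Finset.mem_image_of_mem _ hz, Fintype.mem_piFinset.2 fun σ => ?_⟩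
      have a1 := abs_le.1 (divElem_log (h0 z hz) hH (hF z hz).2 σ)
      rw [← hn] at a1
      have a2 : n * Real.log H ≤ K := Nat.le_ceil _
      refine Finset.mem_Icc.2 ⟨Int.le_floor.2 ?_, ?_⟩
      · push_cast
        linarith [a1.1]
      · have a3 := Int.floor_le (Real.log ‖em σ z‖)
        exact_mod_cast (a3.trans (a1.2.trans a2) : (⌊Real.log ‖em σ z‖⌋ : ℝ) ≤ K)
    · have e := (Finset.mem_filter.1 hz).2.trans (Finset.mem_filter.1 hz').2.symm
      exact ⟨congrArg Prod.fst e, congrFun (congrArg Prod.snd e)⟩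
  have hpow : (H ^ (ε / (2 * n))) ^ n = H ^ (ε / 2) := by
    rw [← Real.rpow_natCast, ← Real.rpow_mul hH0]
    congr 1
    field_simp
  have h2 : ((F.image fun z => Ideal.span {z}).card : ℝ) ≤ C * H ^ (ε / 2) := by
    refine (hI (Ideal.span {w}) (Ideal.span_singleton_eq_bot.not.2 hw) _ fun J hJ => ?_).trans ?_
    · obtain ⟨z, hz, rfl⟩ := Finset.mem_image.1 hJ
      exact Ideal.dvd_iff_le.2 (Ideal.span_singleton_le_span_singleton.2 (hF z hz).1)
    · refine mul_le_mul_of_nonneg_left ?_ (by positivity)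
      have a1 := divElem_prod_le Finset.univ (fun σ => ‖em σ w‖) (fun _ => norm_nonneg _) hwH
      rw [divElem_norm, Finset.card_univ, ← hn] at a1
      refine (Real.rpow_le_rpow (Nat.cast_nonneg _) a1 hδ.le).trans (le_of_eq ?_)
      rw [← hpow, Real.rpow_pow_comm hH0]
  have h3 : ((Finset.Icc (-(K : ℤ)) K).card : ℝ) ≤
      (2 * n / (ε / (2 * n)) + 3) * H ^ (ε / (2 * n)) := by
    have a1 : (Finset.Icc (-(K : ℤ)) K).card = 2 * K + 1 := by
      rw [Int.card_Icc]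
      omega
    have a2 : (K : ℝ) < n * Real.log H + 1 := Nat.ceil_lt_add_one (by positivity)
    have a3 := Real.log_le_rpow_div hH0 hδ
    have a4 : 1 ≤ H ^ (ε / (2 * n)) := Real.one_le_rpow hH hδ.le
    have a5 := mul_le_mul_of_nonneg_left a3 hn0.le
    rw [a1]
    push_cast
    have a6 : (2 * n / (ε / (2 * n)) + 3) * H ^ (ε / (2 * n)) =
        2 * (n * (H ^ (ε / (2 * n)) / (ε / (2 * n)))) + 3 * H ^ (ε / (2 * n)) := by ring
    linarith
  have h4 : (t.card : ℝ) ≤ C * (2 * n / (ε / (2 * n)) + 3) ^ n * H ^ ε := by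
    rw [Finset.card_product, Fintype.card_piFinset, Finset.prod_const, Finset.card_univ, ← hn]
    push_cast
    have a1 := pow_le_pow_left₀ (Nat.cast_nonneg _) h3 n
    rw [mul_pow, hpow] at a1
    refine (mul_le_mul h2 a1 (by positivity) (by positivity)).trans (le_of_eq ?_)
    have a2 : H ^ ε = H ^ (ε / 2) * H ^ (ε / 2) := by
      rw [← Real.rpow_add' hH0 (by rw [add_halves]; exact hε.ne'), add_halves]
    rw [a2]
    ring
  have h5 : (F.card : ℝ) ≤ m * t.card := by exact_mod_cast h1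
  have h6 := mul_le_mul_of_nonneg_left h4 (Nat.cast_nonneg m : (0 : ℝ) ≤ m)
  have h7 : 0 ≤ H ^ ε := Real.rpow_nonneg hH0 _
  rw [add_mul, one_mul, mul_assoc (m : ℝ)]
  linarith

end Vale.Agent.P018
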