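import Vale.Agent.P018.FatCountAux

/-!
Counting the vertices of nondegenerate triangles.

Write `T = 1 + B ^ 3 ρ ^ 2`, `T' = 1 + A ^ 3 ρ ^ 2`, `A = X / B ^ 2`.

Proof of `cramer_count`. Choose `i` with `xi u v w i ≠ 0`. The map
`z ↦ (xi z v w i, xi u z w i, xi u v z i)` is injective on the vectors with `det (z, u, v, w) = 0`:
the matrix `M` with rows `Pi.single i 1, u, v, w` has nonzero determinant `xi u v w i`, and up to
sign the four numbers `det (z, u, v, w), xi z v w i, xi u z w i, xi u v z i` are the determinants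
of `M` with one row replaced by `z` (`Matrix.cramer`, `Matrix.vecMul_cramer_transpose` or
`Matrix.mulVec_cramer`; apply to the difference of two vectors).

Proof of `fat_pair`. Fix `σ`. By `sym_minor` for the triple `(x, x', x'')`:
`σ ξ i * β i = u * Mβ i` and `σ ξ' i * α i = u' * Mα i` with `u, u'` independent of `i`,
`‖u‖ ≤ C B ^ 4`. `xi_norm_le` gives `‖σ ξ i‖ ≤ C T`, `xi_lower` gives `‖σ ξ i‖ ≥ (C T)⁻¹ ^ 3`, so
`‖Mβ i‖ ≥ (C T ^ 3 B ^ 3)⁻¹` and `Mα i = 4 Mβ i (1 + ε i)` with `‖ε i‖ ≤ C B ^ 3 ρ ^ 3 T ^ 3 ≤ 1 / 2`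
(`B ^ 3 ρ ^ 3 T ^ 3 ≤ 4 (B ρ) ^ 3 + 4 (B ^ 4 ρ ^ 3) ^ 3`, `(B ρ) ^ 3 ≤ B ^ 4 ρ ^ 3`). In particular
`ξ' i ≠ 0`. With `α i β i ^ 2 = c ^ 2 (x - θ i)` we get
`(β j / β i) ^ 3 * (ξ' i ξ j) / (ξ' j ξ i) = ((1 + ε i) / (1 + ε j)) * (x - θ j) / (x - θ i)`, and
`(x - θ j) / (x - θ i) = 1 + O (1 / X)`, `1 / X ≤ ρ ^ 2`. The same holds for the second triple with
the same `ξ, ξ'` (`xi_vec_inj`). Dividing, `(β i γ j / (β j γ i)) ^ 3 = 1 + O (B ^ 3 ρ ^ 3 T ^ 3 + ρ ^ 2)`,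
and `B ^ 3 ρ ^ 3 T ^ 3 + ρ ^ 2 ≤ 2 ρ T ^ 4`.

Proof of `fat_count`. For each fat `x` choose its triple; `Ξ x = xi (b x) (b x') (b x'')` and
`Ξ' x = xi (a x) (a x') (a x'')` are integer vectors bounded by `C T` and `C T'` (`xi_le`,
`xi_norm_le`, `sym_minor`), so the pair takes at most `(3 C T) ^ 4 (3 C T') ^ 4` values. Fix the
pair. Use `exists_key` (for `K ^ 2`, `Cfg.good`, `Good.close`) at a constant scale to split into
boundedly many classes of points which are `Close c₀` with `c₀` from `close_of_pow_close 3`; by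
`fat_pair` the points of a class are `Close (2 C ρ T ^ 4)`. Use the key at scale `ρ`: at most
`C (1 + 2 C T ^ 4) ^ 3` keys. In a class with equal keys fix `x₁` with its triple
`(x₁, x₂, x₃)`; every `x` of the class is `Close (C ρ)` to `x₁`, so with base point `x₁`
`det_four_le` (rows `x₁, x₂, x₃, x`), `det_vec` and integrality give
`det (b x, b x₁, b x₂, b x₃) = 0` (the determinant of the `vec`s is an algebraic integer with
conjugates `< 1`), and the cofactors `xi (b x) (b x₂) (b x₃)` and so on are at most `C T` (use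
`Close.trans3` to move the base point). `cramer_count` bounds the number of vectors `b x` by
`(3 C T) ^ 3` and `Cfg.mult` the number of `x` for each vector. Total exponent of `T`:
`4 + 12 + 3 = 19`.
-/

namespace Vale.Agent.P018

open Polynomial NumberField Finset

variable {L : Type} [Field L] [NumberField L] {g : ℤ[X]} {θ : Fin 4 → 𝓞 L}

theorem cramer_count (u v w : Fin 4 → ℤ) (h : xi u v w ≠ 0) (M : ℝ) (hM : 0 ≤ M)
    (F : Finset (Fin 4 → ℤ))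
    (hF : ∀ z ∈ F, (Matrix.of ![z, u, v, w]).det = 0 ∧ ∀ i, |((xi z v w i : ℤ) : ℝ)| ≤ M ∧
      |((xi u z w i : ℤ) : ℝ)| ≤ M ∧ |((xi u v z i : ℤ) : ℝ)| ≤ M) :
    (F.card : ℝ) ≤ (2 * M + 1) ^ 3 := by
  obtain ⟨i, hi⟩ := Function.ne_iff.1 h
  obtain ⟨A, hA⟩ : ∃ A : Matrix (Fin 4) (Fin 4) ℤ, A = Matrix.of ![Pi.single i 1, u, v, w] :=
    ⟨_, rfl⟩
  have hd : A.transpose.det ≠ 0 := by
    rw [Matrix.det_transpose, hA]
    exact hi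
  have hc : ∀ z, Matrix.cramer A.transpose z =
      ![(Matrix.of ![z, u, v, w]).det, xi z v w i, xi u z w i, xi u v z i] := fun z => by
    funext r
    rw [Matrix.cramer_transpose_apply, hA]
    fin_cases r <;> refine congrArg Matrix.det ?_ <;> ext s t <;> fin_cases s <;> rfl
  have h1 := fatCount_image F (fun z => ![xi z v w i, xi u z w i, xi u v z i]) hM fun z hz r => by
    obtain ⟨h1, h2, h3⟩ := (hF z hz).2 i
    fin_cases r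
    exacts [h1, h2, h3]
  rwa [card_image_of_injOn] at h1
  intro z hz z' hz' hzz
  have h2 : Matrix.cramer A.transpose z = Matrix.cramer A.transpose z' := by
    have e0 := congrFun hzz 0
    have e1 := congrFun hzz 1
    have e2 := congrFun hzz 2
    simp only [Matrix.cons_val_zero, Matrix.cons_val_one, Matrix.cons_val] at e0 e1 e2
    rw [hc, hc, (hF z hz).1, (hF z' hz').1, e0, e1, e2]
  have h3 := Matrix.mulVec_cramer A.transpose z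
  rw [h2, Matrix.mulVec_cramer] at h3
  exact (smul_right_injective _ hd h3).symm

theorem fat_pair (hθ : GalRoots g θ) (K : ℝ) : ∃ C : ℝ, 1 ≤ C ∧ ∀ (X B : ℝ) (S : Finset ℤ)
    (a b : ℤ → Fin 4 → ℤ) (c : ℤ) (ρ : ℝ), Cfg θ 2 K X B S a b c → 0 < ρ → 1 ≤ X * ρ ^ 2 →
    C * B ^ 4 * ρ ^ 3 ≤ 1 → ∀ x ∈ S, ∀ x' ∈ S, ∀ x'' ∈ S, ∀ z ∈ S, ∀ z' ∈ S, ∀ z'' ∈ S,
    Close ρ (vec θ (b x)) (vec θ (b x')) → Close ρ (vec θ (b x)) (vec θ (b x'')) →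
    Close ρ (vec θ (b z)) (vec θ (b z')) → Close ρ (vec θ (b z)) (vec θ (b z'')) →
    xi (b x) (b x') (b x'') ≠ 0 → xi (b x) (b x') (b x'') = xi (b z) (b z') (b z'') →
    xi (a x) (a x') (a x'') = xi (a z) (a z') (a z'') →
    Close (C * ρ * (1 + B ^ 3 * ρ ^ 2) ^ 4) (fun j => vec θ (b x) j ^ 3)
      (fun j => vec θ (b z) j ^ 3) := by
  by_cases hK : 1 ≤ K
  swap
  · exact ⟨1, le_rfl, fun X B S a b c ρ h => absurd h.one_le_K hK⟩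
  obtain ⟨C, hC, H⟩ := fatCount_triple hθ K hK
  refine ⟨C, hC, fun X B S a b c ρ h hρ hX hs x hx x' hx' x'' hx'' z hz z' hz' z'' hz'' c1 c2 c3 c4
    hne hb ha σ i j => ?_⟩
  obtain ⟨η, hη, hη', H⟩ := H X B S a b c ρ h hρ hX hs
  obtain ⟨w, e, hw, he⟩ := H ![x, x', x''] (fun s => by fin_cases s; exacts [hx, hx', hx''])
    (fun s => by fin_cases s; exacts [Close.refl hρ.le _, c1, c2]) hne σ
  obtain ⟨w', e', hw', he'⟩ := H ![z, z', z''] (fun s => by fin_cases s; exacts [hz, hz', hz''])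
    (fun s => by fin_cases s; exacts [Close.refl hρ.le _, c3, c4]) (by
      change xi (b z) (b z') (b z'') ≠ 0
      rwa [← hb]) σ
  simp only [Matrix.cons_val_zero, Matrix.cons_val_one, Matrix.cons_val] at he he'
  rw [← xi_vec_inj hθ.toRoots hb, ← xi_vec_inj hθ.toRoots ha] at he'
  obtain ⟨hi, pi, qi⟩ := he i
  obtain ⟨hj, pj, qj⟩ := he j
  obtain ⟨-, pi', qi'⟩ := he' i
  obtain ⟨-, pj', qj'⟩ := he' j
  have h1 := fatCount_ratio hη qi qj qi' qj'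
  simp only [map_sub, map_mul, map_pow]
  generalize σ (xi (vec θ (b x)) (vec θ (b x')) (vec θ (b x'')) i) = s at *
  generalize σ (xi (vec θ (b x)) (vec θ (b x')) (vec θ (b x'')) j) = t at *
  generalize σ (xi (vec θ (a x)) (vec θ (a x')) (vec θ (a x'')) i) = s' at *
  generalize σ (xi (vec θ (a x)) (vec θ (a x')) (vec θ (a x'')) j) = t' at *
  have h0 : 0 < ‖s * t * w * w'‖ :=
    norm_pos_iff.2 (mul_ne_zero (mul_ne_zero (mul_ne_zero hi hj) hw) hw')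
  have h2 : (σ (vec θ (b x) i) ^ 3 * σ (vec θ (b z) j) ^ 3 -
      σ (vec θ (b x) j) ^ 3 * σ (vec θ (b z) i) ^ 3) * (s * t * w * w') =
      s' * t' * (e i * e' j - e j * e' i) := by
    linear_combination (σ (vec θ (b z) j) ^ 3 * t * w') * pi + (s' * e i) * pj' -
      (σ (vec θ (b z) i) ^ 3 * s * w') * pj - (t' * e j) * pi'
  have h3 : (σ (vec θ (b x) j) ^ 3 * σ (vec θ (b z) i) ^ 3) * (s * t * w * w') =
      s' * t' * (e j * e' i) := by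
    linear_combination (σ (vec θ (b z) i) ^ 3 * s * w') * pj + (t' * e j) * pi'
  refine le_trans ?_ (mul_le_mul_of_nonneg_right hη' (norm_nonneg _))
  refine le_of_mul_le_mul_right ?_ h0
  rw [← norm_mul, h2, mul_assoc (24 * η), ← norm_mul, h3, norm_mul (s' * t'), norm_mul (s' * t'),
    mul_left_comm]
  exact mul_le_mul_of_nonneg_left h1 (norm_nonneg _)

theorem fatCount_lin {Q s : ℝ} (hQ : 0 ≤ Q) (hs : 0 ≤ s) (n : ℕ) :
    (2 * (Q * s) + 1) ^ n ≤ (2 * Q + 1) ^ n * (1 + s) ^ n := by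
  rw [← mul_pow]
  exact pow_le_pow_left₀ (by positivity) (by nlinarith) n

theorem fatCount_cell (hθ : Roots g θ) {K X B : ℝ} {S : Finset ℤ} {a b : ℤ → Fin 4 → ℤ} {c : ℤ}
    (h : Cfg θ 2 K X B S a b c) {C r : ℝ} (hC : 1 ≤ C)
    (H : ∀ (σ : L →+* ℂ) (b b' b'' : Fin 4 → ℤ) (M : ℝ),
      (∀ j, ‖σ (xi (vec θ b) (vec θ b') (vec θ b'') j)‖ ≤ M) →
      ∀ a, |((xi b b' b'' a : ℤ) : ℝ)| ≤ C * M)
    (hr : 0 ≤ r) (hr1 : r ≤ 1) (hs : 24 * K ^ 10 * (B ^ 4 * (3 * r) ^ 3) < 1) {x y z : ℤ}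
    (hx : x ∈ S) (hy : y ∈ S) (hz : z ∈ S) (cy : Close r (vec θ (b x)) (vec θ (b y)))
    (cz : Close r (vec θ (b x)) (vec θ (b z))) (hne : xi (b x) (b y) (b z) ≠ 0) {F : Finset ℤ}
    (hF : F ⊆ S) (hc : ∀ t ∈ F, Close r (vec θ (b t)) (vec θ (b x))) :
    (F.card : ℝ) ≤ (2 * (C * (6 * K ^ 7 * (B ^ 3 * (3 * r) ^ 2))) + 1) ^ 3 * K := by
  obtain ⟨σ⟩ : Nonempty (L →+* ℂ) := inferInstance
  have hK := h.one_le_K
  have hB := h.one_le_B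
  have h3 : r ≤ 3 * r := by linarith
  have h0 : 0 ≤ 3 * r := by linarith
  refine fatCount_fibre F b (by linarith) (cramer_count _ _ _ hne _ (by positivity) _
    fun v hv => ?_) fun F' hF' hn hb => ?_
  · obtain ⟨t, ht, rfl⟩ := mem_image.1 hv
    have c1 := hc t ht
    have c2 := c1.trans3 cy hr hr1 (h.b_ne hx)
    have c3 := c1.trans3 cz hr hr1 (h.b_ne hx)
    refine ⟨fatCount_det hθ h h0 ![t, x, y, z]
      (fun s => by fin_cases s; exacts [hF ht, hx, hy, hz])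
      (fun s => by fin_cases s; exacts [Close.refl h0 _, c1.mono h3, c2, c3]) hs, fun i =>
      ⟨H σ _ _ _ _ (fatCount_xi h h0 ![t, y, z] (fun s => by fin_cases s; exacts [hF ht, hy, hz])
        (fun s => by fin_cases s; exacts [Close.refl h0 _, c2, c3]) σ) i,
      H σ _ _ _ _ (fatCount_xi h h0 ![x, t, z] (fun s => by fin_cases s; exacts [hx, hF ht, hz])
        (fun s => by fin_cases s; exacts [Close.refl h0 _, c1.symm.mono h3, cz.mono h3]) σ) i,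
      H σ _ _ _ _ (fatCount_xi h h0 ![x, y, t] (fun s => by fin_cases s; exacts [hx, hy, hF ht])
        (fun s => by fin_cases s; exacts [Close.refl h0 _, cy.mono h3, c1.symm.mono h3]) σ) i⟩⟩
  · obtain ⟨t, ht⟩ := hn
    refine le_trans (Nat.cast_le.2 (card_le_card fun u hu => mem_filter.2 ⟨hF (hF' hu), ?_⟩))
      (h.mult t (hF (hF' ht)))
    funext i j
    simp [wedge, hb t ht u hu, mul_comm]

theorem fatCount_key {K X B : ℝ} {S : Finset ℤ} {a b : ℤ → Fin 4 → ℤ} {c : ℤ}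
    (h : Cfg θ 2 K X B S a b c) {key : (Fin 4 → L) → Fin 4 × (Fin 4 → ℤ)} {C δ r : ℝ}
    (H : ∀ (β₀ : Fin 4 → L) (ρ : ℝ) (T : Finset (Fin 4 → L)), 0 ≤ ρ → Good θ (K ^ 2) β₀ →
      (∀ β ∈ T, Good θ (K ^ 2) β ∧ Close ρ β β₀) →
      ((T.image key).card : ℝ) ≤ C * (1 + ρ / δ) ^ (4 - 1)) (hr : 0 ≤ r) {F : Finset ℤ}
    (hF : F ⊆ S) (hn : F.Nonempty)
    (hc : ∀ x ∈ F, ∀ y ∈ F, Close r (vec θ (b x)) (vec θ (b y))) :
    ((F.image fun x => key (vec θ (b x))).card : ℝ) ≤ C * (1 + r / δ) ^ 3 := by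
  classical
  obtain ⟨t, ht⟩ := hn
  have h1 := H (vec θ (b t)) r (F.image fun x => vec θ (b x)) hr (h.good (hF ht)) fun β hβ => by
    obtain ⟨x, hx, rfl⟩ := mem_image.1 hβ
    exact ⟨h.good (hF hx), hc x hx t ht⟩
  rwa [image_image] at h1

theorem fatCount_main (hθ : GalRoots g θ) (K : ℝ) (hK : 1 ≤ K) : ∃ Cp Cs Ck Q : ℝ, 1 ≤ Cp ∧
    1 ≤ Cs ∧ 1 ≤ Ck ∧ 0 ≤ Q ∧ ∀ (X B : ℝ) (S : Finset ℤ) (a b : ℤ → Fin 4 → ℤ) (c : ℤ) (ρ : ℝ),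
    Cfg θ 2 K X B S a b c → 0 < ρ → 1 ≤ X * ρ ^ 2 → Cp * B ^ 4 * ρ ^ 3 ≤ 1 → Cs * ρ ≤ 1 →
    Ck * ρ ≤ 1 → 24 * K ^ 10 * (B ^ 4 * (3 * (Ck * ρ)) ^ 3) < 1 →
    ∀ F ⊆ S, (∀ x ∈ F, Fat θ S b ρ x) →
    (F.card : ℝ) ≤ Q * ((1 + B ^ 3 * ρ ^ 2) ^ 19 * (1 + (X / B ^ 2) ^ 3 * ρ ^ 2) ^ 4) := by
  obtain ⟨Cp, hCp, Hp⟩ := fat_pair hθ K
  obtain ⟨Cs, hCs, Hs⟩ := fatCount_sym (θ := θ) K hK
  obtain ⟨Cx, hCx, Hx⟩ := xi_le hθ.toRoots
  obtain ⟨Ck, hCk, Hk⟩ := exists_key hθ.toRoots (by norm_num) (K ^ 2) (one_le_pow₀ hK)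
  obtain ⟨e, he, He⟩ := close_of_pow_close 3 (by norm_num)
  obtain ⟨σ⟩ : Nonempty (L →+* ℂ) := inferInstance
  have hK0 : 0 < K := one_pos.trans_le hK
  have hCp0 : 0 < Cp := one_pos.trans_le hCp
  have hCs0 : 0 < Cs := one_pos.trans_le hCs
  have hCx0 : 0 < Cx := one_pos.trans_le hCx
  have hCk0 : 0 < Ck := one_pos.trans_le hCk
  obtain ⟨N, hN⟩ : ∃ N, N = Ck * (1 + ((K ^ 2) ^ 2 + 1) / (e / Ck)) ^ 3 := ⟨_, rfl⟩
  obtain ⟨Q₁, hQ₁⟩ : ∃ Q, Q = Cx * (6 * K ^ 7) := ⟨_, rfl⟩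
  obtain ⟨Q₂, hQ₂⟩ : ∃ Q, Q = Cx * (K ^ 9 * Cs) := ⟨_, rfl⟩
  obtain ⟨Q₃, hQ₃⟩ : ∃ Q, Q = Cx * (54 * K ^ 7 * Ck ^ 2) := ⟨_, rfl⟩
  have hN0 : 0 ≤ N := by rw [hN]; positivity
  have p₁ : 0 ≤ Q₁ := by rw [hQ₁]; positivity
  have p₂ : 0 ≤ Q₂ := by rw [hQ₂]; positivity
  have p₃ : 0 ≤ Q₃ := by rw [hQ₃]; positivity
  refine ⟨Cp, Cs, Ck, (2 * Q₁ + 1) ^ 4 * (2 * Q₂ + 1) ^ 4 * N * (Ck * (1 + 2 * Cp) ^ 3) *
    ((2 * Q₃ + 1) ^ 3 * K), hCp, hCs, hCk, by positivity,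
    fun X B S a b c ρ h hρ hX hρp hρs hρk hρd F hF hfat => ?_⟩
  have hB : 0 < B := one_pos.trans_le h.one_le_B
  have hX1 : 0 < X := one_pos.trans_le h.one_le_X
  have hρρ : ρ ≤ Ck * ρ := le_mul_of_one_le_left hρ.le hCk
  obtain ⟨s, hs0⟩ : ∃ s, s = B ^ 3 * ρ ^ 2 := ⟨_, rfl⟩
  obtain ⟨s', hs1⟩ : ∃ s', s' = (X / B ^ 2) ^ 3 * ρ ^ 2 := ⟨_, rfl⟩
  have hs2 : 0 ≤ s := by rw [hs0]; positivity
  have hs4 : 0 ≤ s' := by rw [hs1]; positivity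
  have h2 : Ck * (1 + 2 * (Cp * ρ * (1 + s) ^ 4) / ρ) ^ 3 ≤
      Ck * (1 + 2 * Cp) ^ 3 * (1 + s) ^ 12 := by
    have h1 : 1 ≤ (1 + s) ^ 4 := one_le_pow₀ (le_add_of_nonneg_right hs2)
    have h3 : 2 * (Cp * ρ * (1 + s) ^ 4) / ρ = 2 * Cp * (1 + s) ^ 4 := by field_simp
    have h4 : 1 + 2 * Cp * (1 + s) ^ 4 ≤ (1 + 2 * Cp) * (1 + s) ^ 4 := by
      rw [add_mul 1, one_mul]
      exact add_le_add_left h1 _
    rw [h3]
    calc _ ≤ Ck * ((1 + 2 * Cp) * (1 + s) ^ 4) ^ 3 := by gcongr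
      _ = _ := by ring
  choose! p hp q hq cp cq hne using hfat
  have hn : ∀ x ∈ F, ∀ r, (![x, p x, q x] : Fin 3 → ℤ) r ∈ S := fun x hx r => by
    fin_cases r
    exacts [hF hx, hp x hx, hq x hx]
  have hcl : ∀ x ∈ F, ∀ r, Close ρ (vec θ (b x)) (vec θ (b ((![x, p x, q x] : Fin 3 → ℤ) r))) :=
    fun x hx r => by
      fin_cases r
      exacts [Close.refl hρ.le _, cp x hx, cq x hx]
  obtain ⟨k1, hk1, hk1'⟩ := Hk (e / Ck) (div_pos he hCk0)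
  obtain ⟨k2, hk2, hk2'⟩ := Hk ρ hρ
  rw [mul_div_cancel₀ _ hCk0.ne'] at hk1
  rw [← hs0, ← hs1]
  refine le_of_le_of_eq (b := (2 * Q₁ + 1) ^ 4 * (1 + s) ^ 4 * ((2 * Q₂ + 1) ^ 4 * (1 + s') ^ 4 *
    (N * (Ck * (1 + 2 * Cp) ^ 3 * (1 + s) ^ 12 * ((2 * Q₃ + 1) ^ 3 * (1 + s) ^ 3 * K))))) ?_ (by
      generalize (2 * Q₁ + 1) ^ 4 = t₁
      generalize (2 * Q₂ + 1) ^ 4 = t₂
      generalize (2 * Q₃ + 1) ^ 3 = t₃
      generalize (1 + 2 * Cp) ^ 3 = t₄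
      generalize 1 + s = T
      generalize 1 + s' = T'
      ring)
  refine fatCount_fibre F (fun x => xi (b x) (b (p x)) (b (q x))) (by positivity)
    ((fatCount_image F _ (mul_nonneg p₁ hs2) fun x hx i => ?_).trans (fatCount_lin p₁ hs2 4))
    fun F₁ hF₁ _ e₁ => ?_
  · rw [hQ₁, mul_assoc, hs0]
    exact Hx σ _ _ _ _ (fatCount_xi h hρ.le _ (hn x hx) (hcl x hx) σ) i
  refine fatCount_fibre F₁ (fun x => xi (a x) (a (p x)) (a (q x))) (by positivity)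
    ((fatCount_image F₁ _ (mul_nonneg p₂ hs4) fun x hx i => ?_).trans (fatCount_lin p₂ hs4 4))
    fun F₂ hF₂ n₂ e₂ => ?_
  · obtain ⟨_, _, _, _, -, hM⟩ := Hs X B S a b c ρ h hρ hX hρs _ (hn x (hF₁ hx))
      (hcl x (hF₁ hx)) σ
    rw [hQ₂, mul_assoc, hs1]
    exact Hx σ _ _ _ _ (fun j => (hM j).2.2.2.1) i
  have g₂ : F₂ ⊆ F := hF₂.trans hF₁
  refine fatCount_fibre F₂ (fun x => k1 (vec θ (b x))) (by positivity)
    (hN ▸ fatCount_key h hk1' (by positivity) (g₂.trans hF) n₂ fun x hx y hy =>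
      (h.good (hF (g₂ hx))).close (h.good (hF (g₂ hy))) (sq_nonneg _)) fun F₃ hF₃ n₃ e₃ => ?_
  have g₃ : F₃ ⊆ F := hF₃.trans g₂
  have c₃ : ∀ x ∈ F₃, ∀ y ∈ F₃, Close (2 * (Cp * ρ * (1 + s) ^ 4)) (vec θ (b x)) (vec θ (b y)) :=
    fun x hx y hy => by
      have hx' := g₃ hx
      have hy' := g₃ hy
      rw [hs0]
      exact He 4 L _ _ _ (h.b_ne (hF hx')) (h.b_ne (hF hy'))
        (hk1 _ _ (h.good (hF hx')) (h.good (hF hy')) (e₃ x hx y hy))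
        (Hp X B S a b c ρ h hρ hX hρp x (hF hx') _ (hp x hx') _ (hq x hx') y (hF hy') _
          (hp y hy') _ (hq y hy') (cp x hx') (cq x hx') (cp y hy') (cq y hy') (hne x hx')
          (e₁ x (hF₂ (hF₃ hx)) y (hF₂ (hF₃ hy))) (e₂ x (hF₃ hx) y (hF₃ hy)))
  refine fatCount_fibre F₃ (fun x => k2 (vec θ (b x))) (by positivity)
    ((fatCount_key h hk2' (by positivity) (g₃.trans hF) n₃ c₃).trans h2) fun F₄ hF₄ n₄ e₄ => ?_
  have g₄ : F₄ ⊆ F := hF₄.trans g₃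
  obtain ⟨x, hx⟩ := n₄
  have hx' := g₄ hx
  refine (fatCount_cell hθ.toRoots h hCx Hx (hρ.le.trans hρρ) hρk hρd (hF hx') (hp x hx')
    (hq x hx') ((cp x hx').mono hρρ) ((cq x hx').mono hρρ) (hne x hx') (g₄.trans hF)
    fun t ht => hk2 _ _ (h.good (hF (g₄ ht))) (h.good (hF hx')) (e₄ t ht x hx)).trans ?_
  refine mul_le_mul_of_nonneg_right (le_of_eq_of_le ?_ (fatCount_lin p₃ hs2 3)) hK0.le
  rw [hs0, hQ₃]
  ring

theorem fat_count (hθ : GalRoots g θ) (K : ℝ) : ∃ C : ℝ, 1 ≤ C ∧ ∀ (X B : ℝ) (S : Finset ℤ)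
    (a b : ℤ → Fin 4 → ℤ) (c : ℤ) (ρ : ℝ), Cfg θ 2 K X B S a b c → 0 < ρ → 1 ≤ X * ρ ^ 2 →
    C * B ^ 4 * ρ ^ 3 ≤ 1 → ∀ F ⊆ S, (∀ x ∈ F, Fat θ S b ρ x) →
    (F.card : ℝ) ≤ C * (1 + B ^ 3 * ρ ^ 2) ^ 19 * (1 + (X / B ^ 2) ^ 3 * ρ ^ 2) ^ 4 := by
  by_cases hK : 1 ≤ K
  swap
  · exact ⟨1, le_rfl, fun X B S a b c ρ h => absurd h.one_le_K hK⟩
  obtain ⟨Cp, Cs, Ck, Q, hCp, hCs, hCk, hQ, H⟩ := fatCount_main hθ K hK
  have hs3 : 0 < Cs ^ 3 := by positivity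
  have hk3 : 0 < Ck ^ 3 := by positivity
  have hk4 : 0 < 648 * K ^ 10 * Ck ^ 3 := by positivity
  refine ⟨Cp + Cs ^ 3 + Ck ^ 3 + 648 * K ^ 10 * Ck ^ 3 + Q, by linarith,
    fun X B S a b c ρ h hρ hX hs F hF hfat => ?_⟩
  have hB := h.one_le_B
  have hX1 := h.one_le_X
  have hρs : Cs * ρ ≤ 1 := fatCount_small hB hρ (by linarith) hs (by linarith)
  have hρk : Ck * ρ ≤ 1 := fatCount_small hB hρ (by linarith) hs (by linarith)
  have hp : 0 < B ^ 4 * ρ ^ 3 := by positivity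
  rw [mul_assoc] at hs
  have hρp : Cp * B ^ 4 * ρ ^ 3 ≤ 1 := by
    rw [mul_assoc]
    exact (mul_le_mul_of_nonneg_right (by linarith) hp.le).trans hs
  have hρd : 24 * K ^ 10 * (B ^ 4 * (3 * (Ck * ρ)) ^ 3) < 1 := by
    refine lt_of_lt_of_le (lt_of_eq_of_lt (b := 648 * K ^ 10 * Ck ^ 3 * (B ^ 4 * ρ ^ 3))
      (by ring) (mul_lt_mul_of_pos_right (by linarith) hp)) hs
  refine (H X B S a b c ρ h hρ hX hρp hρs hρk hρd F hF hfat).trans ?_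
  rw [mul_assoc _ (_ ^ 19)]
  exact mul_le_mul_of_nonneg_right (by linarith) (by positivity)

end Vale.Agent.P018
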