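import Vale.Agent.P018.Vander
import Vale.Agent.P018.DivElem

/-!
Counting Pluecker vectors.

Proof of `pl_count`. `P` is determined by `P 0 1, P 2 3, P 0 2, P 1 3, P 0 3, P 1 2`
(antisymmetry, `P i i = 0`). For `m ≠ 0`, `|m| ≤ 2 H ^ 2`, the number of pairs `(u, v)` with
`u v = m` is at most `2 * (m.natAbs).divisors.card ≤ C H ^ ε` (`nat_divisor_bound`); for `m = 0` the
number of pairs with `|u|, |v| ≤ H` is at most `2 (2 H + 1)`. Vectors with `P 0 1 * P 2 3 ≠ 0`: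
choose the four other entries, then `(P 0 1, P 2 3)`: at most `(3 H) ^ 4 C H ^ ε`. Vectors with
`P 0 1 * P 2 3 = 0`: at most `6 H` choices for this pair; then `P 0 2 P 1 3 = P 0 3 P 1 2`, which
has at most `(3 H) ^ 2 C H ^ ε + (6 H) ^ 2` solutions.

Proof of `special_count`. Put `p = pw θ P`, `u₁ = p 0 1 p 2 3`, `u₂ = p 0 2 p 1 3`,
`u₃ = p 0 3 p 1 2`, all nonzero, `u₁ - u₂ + u₃ = 0`. The ratio `ϱ = u₁ / u₂ ∈ L` is a root of the
polynomial `Y ^ 4 t₂ t₃ - t₁ t₃ + (1 - Y) ^ 4 t₁ t₂` (with `t₁ = (θ 1 - θ 0) (θ 3 - θ 2)`,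
`t₂ = (θ 2 - θ 0) (θ 3 - θ 1)`, `t₃ = (θ 3 - θ 0) (θ 2 - θ 1)`), which is nonzero (the coefficient of
`Y ^ 3` is `-4 t₁ t₂`), so `ϱ` lies in a finite set depending only on `θ`. It suffices to bound, for
each `ϱ`, the special vectors with this ratio (a constant for each `ϱ` in the finite set; if there
is no special vector with this ratio the count is 0). Fix one, `P⁰`. For another one `P` put
`q = u₂ / u₂⁰`; then `u₁ = q u₁⁰`, `u₃ = q u₃⁰`, and so `p i j p k l = q p⁰ i j p⁰ k l` for all distinct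
`i j k l` (`fin_cases`, antisymmetry). For an automorphism `τ` of `L` with `τ (θ a) = θ (π a)`
(`GalRoots.perm`), `τ (p a b) = p (π a) (π b)`, so `τ q = q`; as `L / ℚ` is Galois, `q` is rational
(`IsGalois.mem_bot_iff_fixed` or `IsGalois.fixedField_top`). Fix a nonzero integer `m = u₂⁰ z` with
`z ∈ 𝓞 L` (norm). Then `q m = u₂ z` is a rational algebraic integer, so an integer, of absolute
value at most `C H ^ 2` (`pw_le`). Given this integer, `q` and `u₁, u₂, u₃ ∈ 𝓞 L` are determined,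
`p 0 1 ∣ u₁`, `p 0 2 ∣ u₂`, `p 0 3 ∣ u₃` have at most `C H ^ (ε / 3)` values each
(`divisor_bound` with the bound `(C H) ^ 2` and `ε / 6`), these determine `p 2 3, p 1 3, p 1 2`,
hence `p` and `P` (`pw_inj`).
-/

namespace Vale.Agent.P018

open Polynomial NumberField Finset

variable {L : Type} [Field L] [NumberField L] {g : ℤ[X]} {θ : Fin 4 → 𝓞 L}

theorem specCount_fiber {α β : Type} [DecidableEq β] (F : Finset α) (f : α → β) (T : Finset β)
    (hf : ∀ a ∈ F, f a ∈ T) (w : β → ℝ)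
    (h : ∀ b ∈ T, ((F.filter fun a => f a = b).card : ℝ) ≤ w b) : (F.card : ℝ) ≤ ∑ b ∈ T, w b := by
  rw [Finset.card_eq_sum_card_fiberwise (f := f) (t := T) fun a ha => hf a ha]
  push_cast
  exact Finset.sum_le_sum h

theorem specCount_zero (I : Finset ℤ) :
    ((I ×ˢ I).filter fun p => p.1 * p.2 = 0).card ≤ 2 * I.card := by
  have h : ((I ×ˢ I).filter fun p => p.1 * p.2 = 0) ⊆
      I.image (fun u => (u, (0 : ℤ))) ∪ I.image (fun u => ((0 : ℤ), u)) := by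
    rintro ⟨u, v⟩ hp
    simp only [mem_filter, mem_product, mul_eq_zero] at hp
    rcases hp.2 with h | h
    · exact mem_union_right _ (mem_image.2 ⟨v, hp.1.2, by rw [h]⟩)
    · exact mem_union_left _ (mem_image.2 ⟨u, hp.1.1, by rw [h]⟩)
  have h1 := card_image_le (s := I) (f := fun u => (u, (0 : ℤ)))
  have h2 := card_image_le (s := I) (f := fun u => ((0 : ℤ), u))
  have h3 := (card_le_card h).trans (card_union_le _ _)
  omega

theorem specCount_ne (I : Finset ℤ) {m : ℤ} (hm : m ≠ 0) :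
    ((I ×ˢ I).filter fun p => p.1 * p.2 = m).card ≤ 2 * m.natAbs.divisors.card := by
  have h := card_le_card_of_injOn (s := (I ×ˢ I).filter fun p => p.1 * p.2 = m)
    (t := (univ : Finset Bool) ×ˢ m.natAbs.divisors)
    (fun p => (decide (0 ≤ p.1), p.1.natAbs)) (fun p hp => by
      simp only [coe_filter, mem_product, Set.mem_ofPred_eq] at hp
      simp only [coe_product, coe_univ, Set.mem_prod, Set.mem_univ, mem_coe, Nat.mem_divisors,
        true_and]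
      exact ⟨Int.natAbs_dvd_natAbs.2 ⟨p.2, hp.2.symm⟩, by simpa using hm⟩)
    (fun p hp q hq e => by
      simp only [coe_filter, mem_product, Set.mem_ofPred_eq] at hp hq
      simp only [Prod.mk.injEq, decide_eq_decide] at e
      have h1 : p.1 = q.1 := by omega
      have h0 : q.1 ≠ 0 := fun h => hm (by rw [← hq.2, h, zero_mul])
      refine Prod.ext h1 (mul_left_cancel₀ h0 ?_)
      rw [hq.2, ← h1, hp.2])
  simpa using h

theorem specCount_ite {β : Type} (T : Finset β) (p : β → Prop) [DecidablePred p] (D n : ℝ) :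
    ∑ b ∈ T, (D + if p b then n else 0) = T.card * D + (T.filter p).card * n := by
  rw [sum_add_distrib, ← sum_filter]
  simp

theorem pl_count (ε : ℝ) (hε : 0 < ε) : ∃ C : ℝ, 1 ≤ C ∧ ∀ H : ℝ, 1 ≤ H →
    ∀ F : Finset (Fin 4 → Fin 4 → ℤ), (∀ P ∈ F, Pl P ∧ ∀ i j, |(P i j : ℝ)| ≤ H) →
      (F.card : ℝ) ≤ C * H ^ (4 + ε) := by
  obtain ⟨C, hC, hd⟩ := nat_divisor_bound (ε / 2) (by positivity)
  have h2 : (1 : ℝ) ≤ 2 ^ (ε / 2) := Real.one_le_rpow (by norm_num) (by positivity)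
  refine ⟨270 * (C * 2 ^ (ε / 2)) + 216, by nlinarith, fun H hH F hF => ?_⟩
  obtain ⟨I, hI⟩ : ∃ I : Finset ℤ, I = Icc (-⌊H⌋) ⌊H⌋ := ⟨_, rfl⟩
  have hfl : (1 : ℤ) ≤ ⌊H⌋ := Int.le_floor.2 (by simpa using hH)
  have hn : (I.card : ℝ) ≤ 3 * H := by
    have h1 : (I.card : ℤ) = 2 * ⌊H⌋ + 1 := by
      rw [hI, Int.card_Icc, Int.toNat_of_nonneg (by omega)]
      ring
    have h3 : (I.card : ℝ) = 2 * (⌊H⌋ : ℝ) + 1 := by exact_mod_cast h1
    have := Int.floor_le H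
    linarith
  have hmem : ∀ z : ℤ, z ∈ I ↔ |(z : ℝ)| ≤ H := fun z => by
    rw [hI, mem_Icc, ← abs_le, Int.le_floor, Int.cast_abs]
  obtain ⟨D, hD⟩ : ∃ D : ℝ, D = 2 * (C * 2 ^ (ε / 2)) * H ^ ε := ⟨_, rfl⟩
  have hHε : 1 ≤ H ^ ε := Real.one_le_rpow hH hε.le
  have hD0 : 0 ≤ D := by rw [hD]; positivity
  have pc : ∀ m : ℤ, |(m : ℝ)| ≤ 2 * H ^ 2 →
      (((I ×ˢ I).filter fun p => p.1 * p.2 = m).card : ℝ) ≤
        D + if m = 0 then 2 * (I.card : ℝ) else 0 := by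
    intro m hm
    split_ifs with h0
    · have : (((I ×ˢ I).filter fun p => p.1 * p.2 = 0).card : ℝ) ≤ 2 * I.card := by
        exact_mod_cast specCount_zero I
      rw [h0]
      linarith
    · have h1 : (((I ×ˢ I).filter fun p => p.1 * p.2 = m).card : ℝ) ≤
          2 * m.natAbs.divisors.card := by exact_mod_cast specCount_ne I h0
      have h3 := hd m.natAbs (by simpa using h0)
      have h4 : (m.natAbs : ℝ) ^ (ε / 2) ≤ (2 * H ^ 2) ^ (ε / 2) :=
        Real.rpow_le_rpow (by positivity) (by rwa [Nat.cast_natAbs, Int.cast_abs]) (by positivity)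
      have h5 : (2 * H ^ 2) ^ (ε / 2) = 2 ^ (ε / 2) * H ^ ε := by
        rw [Real.mul_rpow (by norm_num) (by positivity), ← Real.rpow_natCast,
          ← Real.rpow_mul (by linarith)]
        congr 2
        push_cast
        ring
      have h6 : C * (m.natAbs : ℝ) ^ (ε / 2) ≤ C * (2 ^ (ε / 2) * H ^ ε) :=
        mul_le_mul_of_nonneg_left (h5 ▸ h4) (by linarith)
      rw [hD]
      linarith
  have hprod : ∀ p ∈ I ×ˢ I, |((p.1 * p.2 : ℤ) : ℝ)| ≤ H ^ 2 := fun p hp => by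
    rw [Int.cast_mul, abs_mul, sq]
    exact mul_le_mul ((hmem _).1 (mem_product.1 hp).1) ((hmem _).1 (mem_product.1 hp).2)
      (abs_nonneg _) (by linarith)
  have hE : ((((I ×ˢ I) ×ˢ (I ×ˢ I)).filter
      fun q => q.1.1 * q.1.2 - q.2.1 * q.2.2 = 0).card : ℝ) ≤
      (I.card : ℝ) ^ 2 * D + 2 * I.card * (2 * I.card) := by
    refine (specCount_fiber _ (fun q => q.2) (I ×ˢ I)
      (fun q hq => (mem_product.1 (mem_filter.1 hq).1).2)
      (fun b => D + if b.1 * b.2 = 0 then 2 * (I.card : ℝ) else 0) fun b hb => ?_).trans ?_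
    · refine le_trans ?_ (pc (b.1 * b.2) ((hprod b hb).trans (by nlinarith)))
      refine Nat.cast_le.2 (card_le_card_of_injOn (fun q => q.1) (fun q hq => ?_)
        fun q hq q' hq' e => ?_)
      · simp only [coe_filter, mem_filter, Set.mem_ofPred_eq] at hq ⊢
        refine ⟨(mem_product.1 hq.1.1).1, ?_⟩
        rw [← hq.2]
        linarith [hq.1.2]
      · simp only [coe_filter, mem_filter, Set.mem_ofPred_eq] at hq hq'
        exact Prod.ext e (hq.2.trans hq'.2.symm)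
    · rw [specCount_ite, card_product]
      have : (((I ×ˢ I).filter fun p => p.1 * p.2 = 0).card : ℝ) ≤ 2 * I.card := by
        exact_mod_cast specCount_zero I
      push_cast
      nlinarith [mul_le_mul_of_nonneg_right this (show (0 : ℝ) ≤ 2 * I.card by positivity)]
  have hmain : (F.card : ℝ) ≤ (I.card : ℝ) ^ 4 * D +
      ((I.card : ℝ) ^ 2 * D + 2 * I.card * (2 * I.card)) * (2 * I.card) := by
    refine (specCount_fiber F (fun P => ((P 0 2, P 1 3), (P 0 3, P 1 2))) ((I ×ˢ I) ×ˢ (I ×ˢ I))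
      (fun P hP => by simp only [mem_product, hmem, (hF P hP).2, and_self])
      (fun q => D + if q.1.1 * q.1.2 - q.2.1 * q.2.2 = 0 then 2 * (I.card : ℝ) else 0)
      fun q hq => ?_).trans ?_
    · refine le_trans ?_ (pc (q.1.1 * q.1.2 - q.2.1 * q.2.2) ?_)
      · refine Nat.cast_le.2 (card_le_card_of_injOn (fun P => (P 0 1, P 2 3)) (fun P hP => ?_)
          fun P hP P' hP' e => ?_)
        · simp only [coe_filter, mem_product, Set.mem_ofPred_eq] at hP ⊢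
          refine ⟨by simp only [hmem, (hF P hP.1).2, and_self], ?_⟩
          rw [← hP.2]
          linarith [(hF P hP.1).1.2]
        · simp only [coe_filter, Set.mem_ofPred_eq] at hP hP'
          have e1 := hP.2.trans hP'.2.symm
          simp only [Prod.mk.injEq] at e e1
          have a := (hF P hP.1).1.1
          have a' := (hF P' hP'.1).1.1
          have d : ∀ i, P i i = P' i i := fun i => by
            have := a i i
            have := a' i i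
            omega
          funext i j
          fin_cases i <;> fin_cases j <;> first
            | exact d _
            | (simp only [Fin.zero_eta, Fin.mk_one, Fin.reduceFinMk]; omega)
            | (simp only [Fin.zero_eta, Fin.mk_one, Fin.reduceFinMk]; rw [a, a']; omega)
      · have h1 := hprod _ (mem_product.1 hq).1
        have h3 := hprod _ (mem_product.1 hq).2
        rw [Int.cast_sub]
        exact (abs_sub _ _).trans (by linarith)
    · rw [specCount_ite, card_product, card_product]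
      push_cast
      nlinarith [mul_le_mul_of_nonneg_right hE (show (0 : ℝ) ≤ 2 * I.card by positivity)]
  have hn0 : (0 : ℝ) ≤ I.card := by positivity
  have e4 : (I.card : ℝ) ^ 4 ≤ 81 * H ^ 4 := by
    have := pow_le_pow_left₀ hn0 hn 4
    linarith [show (3 * H) ^ 4 = 81 * H ^ 4 by ring]
  have e3 : (I.card : ℝ) ^ 3 ≤ 27 * H ^ 4 := by
    have := pow_le_pow_left₀ hn0 hn 3
    have h3 : H ^ 3 ≤ H ^ 4 := pow_le_pow_right₀ hH (by norm_num)
    linarith [show (3 * H) ^ 3 = 27 * H ^ 3 by ring]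
  have e5 : H ^ (4 + ε) = H ^ 4 * H ^ ε := by
    rw [Real.rpow_add (by linarith)]
    norm_cast
  have e6 : H ^ 4 ≤ H ^ 4 * H ^ ε := le_mul_of_one_le_right (by positivity) hHε
  have e7 := mul_le_mul_of_nonneg_right e4 hD0
  have e8 := mul_le_mul_of_nonneg_right e3 hD0
  calc (F.card : ℝ) ≤ (I.card : ℝ) ^ 4 * D + 2 * ((I.card : ℝ) ^ 3 * D) + 8 * (I.card : ℝ) ^ 3 :=
        hmain.trans (le_of_eq (by ring))
    _ ≤ 135 * H ^ 4 * D + 216 * (H ^ 4 * H ^ ε) := by linarith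
    _ = _ := by rw [e5, hD]; ring

omit [NumberField L] in
theorem specCount_anti {P : Fin 4 → Fin 4 → ℤ} (h : ∀ i j, P i j = -P j i) (i j : Fin 4) :
    pw θ P i j = -pw θ P j i := by
  unfold pw
  rw [Finset.sum_comm, ← Finset.sum_neg_distrib]
  refine Finset.sum_congr rfl fun a _ => ?_
  rw [← Finset.sum_neg_distrib]
  refine Finset.sum_congr rfl fun b _ => ?_
  rw [h b a]
  push_cast
  ring

theorem specCount_all {K : Type} [CommRing K] {p r : Fin 4 → Fin 4 → K} {q : K}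
    (hp : ∀ i j, p i j = -p j i) (hr : ∀ i j, r i j = -r j i)
    (h1 : p 0 1 * p 2 3 = q * (r 0 1 * r 2 3)) (h2 : p 0 2 * p 1 3 = q * (r 0 2 * r 1 3))
    (h3 : p 0 3 * p 1 2 = q * (r 0 3 * r 1 2)) : ∀ (i j k l : Fin 4), i ≠ j → i ≠ k →
    i ≠ l → j ≠ k → j ≠ l → k ≠ l → p i j * p k l = q * (r i j * r k l) := by
  have s1 : ∀ {i j k l}, p i j * p k l = q * (r i j * r k l) →
      p j i * p k l = q * (r j i * r k l) := fun {i j k l} h => by
    rw [hp j i, hr j i]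
    linear_combination -h
  have s2 : ∀ {i j k l}, p i j * p k l = q * (r i j * r k l) →
      p k l * p i j = q * (r k l * r i j) := fun {i j k l} h => by
    linear_combination h
  have key : ∀ {a b c e : Fin 4}, p a b * p c e = q * (r a b * r c e) → ∀ i j k l : Fin 4,
      (i, j, k, l) ∈ [(a, b, c, e), (a, b, e, c), (b, a, c, e), (b, a, e, c), (c, e, a, b),
        (e, c, a, b), (c, e, b, a), (e, c, b, a)] → p i j * p k l = q * (r i j * r k l) := by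
    intro a b c e h i j k l hm
    simp only [List.mem_cons, Prod.mk.injEq, List.not_mem_nil, or_false] at hm
    rcases hm with ⟨rfl, rfl, rfl, rfl⟩ | ⟨rfl, rfl, rfl, rfl⟩ | ⟨rfl, rfl, rfl, rfl⟩ |
      ⟨rfl, rfl, rfl, rfl⟩ | ⟨rfl, rfl, rfl, rfl⟩ | ⟨rfl, rfl, rfl, rfl⟩ | ⟨rfl, rfl, rfl, rfl⟩ |
      ⟨rfl, rfl, rfl, rfl⟩
    · exact h
    · exact s2 (s1 (s2 h))
    · exact s1 h
    · exact s1 (s2 (s1 (s2 h)))
    · exact s2 h
    · exact s1 (s2 h)
    · exact s2 (s1 h)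
    · exact s1 (s2 (s1 h))
  have cases : ∀ i j k l : Fin 4, [i, j, k, l].Nodup → ∃ x ∈ [((1 : Fin 4), (2 : Fin 4), (3 : Fin 4)),
      (2, 1, 3), (3, 1, 2)], (i, j, k, l) ∈ [(0, x.1, x.2.1, x.2.2), (0, x.1, x.2.2, x.2.1),
      (x.1, 0, x.2.1, x.2.2), (x.1, 0, x.2.2, x.2.1), (x.2.1, x.2.2, 0, x.1),
      (x.2.2, x.2.1, 0, x.1), (x.2.1, x.2.2, x.1, 0), (x.2.2, x.2.1, x.1, 0)] := by
    decide
  intro i j k l hij hik hil hjk hjl hkl
  obtain ⟨x, hx, h⟩ := cases i j k l (by simp [*])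
  simp only [List.mem_cons, List.not_mem_nil, or_false] at hx
  rcases hx with rfl | rfl | rfl
  · exact key h1 _ _ _ _ h
  · exact key h2 _ _ _ _ h
  · exact key h3 _ _ _ _ h

theorem specCount_ext {K : Type} [CommRing K] {p r : Fin 4 → Fin 4 → K}
    (hp : ∀ i j, p i j = -p j i) (hr : ∀ i j, r i j = -r j i) (d : ∀ i, p i i = r i i)
    (h1 : p 0 1 = r 0 1) (h2 : p 0 2 = r 0 2) (h3 : p 0 3 = r 0 3) (h4 : p 1 2 = r 1 2)
    (h5 : p 1 3 = r 1 3) (h6 : p 2 3 = r 2 3) : p = r := by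
  have s : ∀ i j, p i j = r i j → p j i = r j i := fun i j h => by rw [hp j i, hr j i, h]
  funext i j
  revert i j
  simp only [Fin.forall_fin_succ, IsEmpty.forall_iff, and_true]
  exact ⟨⟨d _, h1, h2, h3⟩, ⟨s _ _ h1, d _, h4, h5⟩, ⟨s _ _ h2, s _ _ h4, d _, h6⟩,
    s _ _ h3, s _ _ h5, s _ _ h6, d _⟩

theorem specCount_aut {τ : L ≃ₐ[ℚ] L} {π : Equiv.Perm (Fin 4)}
    (h : ∀ j, τ (θ j : L) = (θ (π j) : L)) (P : Fin 4 → Fin 4 → ℤ) (i j : Fin 4) :
    τ (pw θ P i j : L) = (pw θ P (π i) (π j) : L) := by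
  have e : ∀ i j, (pw θ P i j : L) =
      ∑ a, ∑ b, (P a b : L) * (θ i : L) ^ (a : ℕ) * (θ j : L) ^ (b : ℕ) := fun i j => by
    show algebraMap (𝓞 L) L (pw θ P i j) = _
    simp only [pw, map_sum, map_mul, map_pow, map_intCast]
  simp only [e, map_sum, map_mul, map_pow, map_intCast, h]

/-- two special vectors with the same ratio -/
theorem specCount_int (hθ : GalRoots g θ) {P R : Fin 4 → Fin 4 → ℤ} (hP : Special θ P)
    (hR : Special θ R)
    (e : pw θ P 0 1 * pw θ P 2 3 * (pw θ R 0 2 * pw θ R 1 3) =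
      pw θ R 0 1 * pw θ R 2 3 * (pw θ P 0 2 * pw θ P 1 3)) {m : ℤ} {z : 𝓞 L}
    (hz : (m : 𝓞 L) = pw θ R 0 2 * pw θ R 1 3 * z) :
    ∃ n : ℤ, (n : 𝓞 L) = pw θ P 0 2 * pw θ P 1 3 * z := by
  have := hθ.gal
  have inj : Function.Injective (algebraMap (𝓞 L) L) := RingOfIntegers.coe_injective
  have ne : ∀ i j, i ≠ j → (pw θ R i j : L) ≠ 0 := fun i j hij h =>
    hR.2.1 i j hij (inj (h.trans (map_zero _).symm))
  have r0 : (pw θ R 0 2 : L) * (pw θ R 1 3 : L) ≠ 0 :=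
    mul_ne_zero (ne _ _ (by decide)) (ne _ _ (by decide))
  obtain ⟨q, hq⟩ : ∃ q : L, (pw θ P 0 2 : L) * (pw θ P 1 3 : L) =
      q * ((pw θ R 0 2 : L) * (pw θ R 1 3 : L)) := ⟨_, (div_mul_cancel₀ _ r0).symm⟩
  have e' := congrArg (algebraMap (𝓞 L) L) e
  have p' := congrArg (algebraMap (𝓞 L) L) hP.2.2.1
  have r' := congrArg (algebraMap (𝓞 L) L) hR.2.2.1
  have z' := congrArg (algebraMap (𝓞 L) L) hz
  simp only [map_mul, map_sub, map_add, map_zero, map_intCast] at e' p' r' z'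
  have hq1 : (pw θ P 0 1 : L) * (pw θ P 2 3 : L) = q * ((pw θ R 0 1 : L) * (pw θ R 2 3 : L)) := by
    refine mul_right_cancel₀ r0 ?_
    linear_combination e' + ((pw θ R 0 1 : L) * (pw θ R 2 3 : L)) * hq
  have hq3 : (pw θ P 0 3 : L) * (pw θ P 1 2 : L) = q * ((pw θ R 0 3 : L) * (pw θ R 1 2 : L)) := by
    linear_combination p' - q * r' - hq1 + hq
  have all := specCount_all (p := fun i j => (pw θ P i j : L)) (r := fun i j => (pw θ R i j : L))
    (fun i j => by rw [specCount_anti hP.1 i j]; exact map_neg (algebraMap (𝓞 L) L) _)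
    (fun i j => by rw [specCount_anti hR.1 i j]; exact map_neg (algebraMap (𝓞 L) L) _) hq1 hq hq3
  have fix : ∀ τ : L ≃ₐ[ℚ] L, τ q = q := fun τ => by
    obtain ⟨π, hπ⟩ := hθ.perm τ
    have d : ∀ a b : Fin 4, a ≠ b → π a ≠ π b := fun a b h => π.injective.ne h
    have h1 := congrArg τ hq
    simp only [map_mul, specCount_aut hπ] at h1
    have h2 := all (π 0) (π 2) (π 1) (π 3) (d _ _ (by decide)) (d _ _ (by decide))
      (d _ _ (by decide)) (d _ _ (by decide)) (d _ _ (by decide)) (d _ _ (by decide))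
    exact mul_right_cancel₀ (mul_ne_zero (ne _ _ (d 0 2 (by decide))) (ne _ _ (d 1 3 (by decide))))
      (h1.symm.trans h2)
  obtain ⟨r, hr⟩ := IntermediateField.mem_bot.1 ((IsGalois.mem_bot_iff_fixed (F := ℚ) q).2 fix)
  have h3 : algebraMap ℚ L (r * m) = algebraMap (𝓞 L) L (pw θ P 0 2 * pw θ P 1 3 * z) := by
    simp only [map_mul, map_intCast, hr]
    linear_combination q * z' - algebraMap (𝓞 L) L z * hq
  have h4 : IsIntegral ℤ (r * m) := by
    rw [← isIntegral_algebraMap_iff (algebraMap ℚ L).injective, h3]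
    exact RingOfIntegers.isIntegral_coe _
  obtain ⟨n, hn⟩ := IsIntegrallyClosed.isIntegral_iff.1 h4
  refine ⟨n, inj ?_⟩
  rw [← h3, ← hn]
  simp

/-- special vectors with prescribed products -/
theorem specCount_prod (hθ : Roots g θ) (ε : ℝ) (hε : 0 < ε) : ∃ C : ℝ, 1 ≤ C ∧ ∀ H : ℝ, 1 ≤ H →
    ∀ F : Finset (Fin 4 → Fin 4 → ℤ), (∀ P ∈ F, Special θ P ∧ ∀ i j, |(P i j : ℝ)| ≤ H) →
      (∀ P ∈ F, ∀ R ∈ F, pw θ P 0 1 * pw θ P 2 3 = pw θ R 0 1 * pw θ R 2 3 ∧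
        pw θ P 0 2 * pw θ P 1 3 = pw θ R 0 2 * pw θ R 1 3) → (F.card : ℝ) ≤ C * H ^ ε := by
  classical
  obtain ⟨C, hC, hd⟩ := divisor_bound L (ε / 6) (by positivity)
  obtain ⟨A, hA, hp⟩ := pw_le θ
  have hA' : 1 ≤ A ^ ε := Real.one_le_rpow hA hε.le
  refine ⟨C ^ 3 * A ^ ε, one_le_mul_of_one_le_of_one_le (one_le_pow₀ hC) hA', fun H hH F hF he => ?_⟩
  rcases F.eq_empty_or_nonempty with rfl | ⟨R, hR⟩
  · simp only [card_empty, Nat.cast_zero]
    positivity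
  have hAH : 1 ≤ A * H := one_le_mul_of_one_le_of_one_le hA hH
  have h3 : ∀ P ∈ F, pw θ P 0 3 * pw θ P 1 2 = pw θ R 0 3 * pw θ R 1 2 := fun P hP => by
    linear_combination (hF P hP).1.2.2.1 - (hF R hR).1.2.2.1 - (he P hP R hR).1 + (he P hP R hR).2
  have key : ∀ i j k l : Fin 4, i ≠ j → k ≠ l →
      (∀ P ∈ F, pw θ P i j * pw θ P k l = pw θ R i j * pw θ R k l) →
      ((F.image fun P => pw θ P i j).card : ℝ) ≤ C * (A * H) ^ (ε / 3) := by
    intro i j k l hij hkl h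
    have h1 := hd ((A * H) ^ 2) (one_le_pow₀ hAH) (pw θ R i j * pw θ R k l)
      (mul_ne_zero ((hF R hR).1.2.1 _ _ hij) ((hF R hR).1.2.1 _ _ hkl)) (fun σ => by
        rw [map_mul, norm_mul, sq]
        exact mul_le_mul (hp σ R H (hF R hR).2 _ _) (hp σ R H (hF R hR).2 _ _) (norm_nonneg _)
          (by linarith)) (F.image fun P => pw θ P i j) (fun z hz => by
        obtain ⟨P, hP, rfl⟩ := mem_image.1 hz
        exact ⟨⟨_, (h P hP).symm⟩, fun σ => (hp σ P H (hF P hP).2 _ _).trans (by nlinarith)⟩)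
    rw [← Real.rpow_natCast, ← Real.rpow_mul (by linarith)] at h1
    convert h1 using 3
    push_cast
    ring
  have k1 := key 0 1 2 3 (by decide) (by decide) fun P hP => (he P hP R hR).1
  have k2 := key 0 2 1 3 (by decide) (by decide) fun P hP => (he P hP R hR).2
  have k3 := key 0 3 1 2 (by decide) (by decide) h3
  have hc := card_le_card_of_injOn (s := F) (t := (F.image fun P => pw θ P 0 1) ×ˢ
    (F.image fun P => pw θ P 0 2) ×ˢ (F.image fun P => pw θ P 0 3))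
    (fun P => (pw θ P 0 1, pw θ P 0 2, pw θ P 0 3)) (fun P hP => by
      simp only [coe_product, Set.mem_prod, mem_coe]
      exact ⟨mem_image_of_mem _ hP, mem_image_of_mem _ hP, mem_image_of_mem _ hP⟩)
    (fun P hP Q hQ e => by
      simp only [Prod.mk.injEq] at e
      obtain ⟨e1, e2, e3⟩ := e
      have ne := (hF Q hQ).1.2.1
      have e4 : pw θ P 2 3 = pw θ Q 2 3 :=
        mul_left_cancel₀ (ne 0 1 (by decide)) (by rw [← (he P hP Q hQ).1, e1])
      have e5 : pw θ P 1 3 = pw θ Q 1 3 :=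
        mul_left_cancel₀ (ne 0 2 (by decide)) (by rw [← (he P hP Q hQ).2, e2])
      have e6 : pw θ P 1 2 = pw θ Q 1 2 :=
        mul_left_cancel₀ (ne 0 3 (by decide)) (by rw [h3 Q hQ, ← h3 P hP, e3])
      have a := specCount_anti (θ := θ) (hF P hP).1.1
      have a' := specCount_anti (θ := θ) (hF Q hQ).1.1
      have d : ∀ i, pw θ P i i = pw θ Q i i := fun i => by
        refine mul_left_cancel₀ (two_ne_zero (α := 𝓞 L)) ?_
        linear_combination a i i - a' i i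
      exact pw_inj hθ (specCount_ext a a' d e1 e2 e3 e6 e5 e4))
  rw [card_product, card_product] at hc
  have hc' : (F.card : ℝ) ≤ (F.image fun P => pw θ P 0 1).card *
      ((F.image fun P => pw θ P 0 2).card * (F.image fun P => pw θ P 0 3).card) := by
    exact_mod_cast hc
  have h0 : 0 ≤ C * (A * H) ^ (ε / 3) := by positivity
  refine (hc'.trans (mul_le_mul k1 (mul_le_mul k2 k3 (by positivity) h0) (by positivity) h0)).trans
    (le_of_eq ?_)
  have : (A * H) ^ (ε / 3) * ((A * H) ^ (ε / 3) * (A * H) ^ (ε / 3)) = A ^ ε * H ^ ε := by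
    rw [← Real.rpow_add (by linarith), ← Real.rpow_add (by linarith),
      ← Real.mul_rpow (by linarith) (by linarith)]
    congr 1
    ring
  linear_combination C ^ 3 * this

/-- special vectors with a prescribed ratio -/
theorem specCount_ratio (hθ : GalRoots g θ) (ε : ℝ) (hε : 0 < ε) (ϱ : L) : ∃ C : ℝ, 0 ≤ C ∧
    ∀ H : ℝ, 1 ≤ H → ∀ F : Finset (Fin 4 → Fin 4 → ℤ),
      (∀ P ∈ F, Special θ P ∧ ∀ i j, |(P i j : ℝ)| ≤ H) →
      (∀ P ∈ F, ((pw θ P 0 1 * pw θ P 2 3 : 𝓞 L) : L) = ϱ * (pw θ P 0 2 * pw θ P 1 3 : 𝓞 L)) →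
      (F.card : ℝ) ≤ C * H ^ (2 + ε) := by
  classical
  have inj : Function.Injective (algebraMap (𝓞 L) L) := RingOfIntegers.coe_injective
  by_cases hex : ∃ R, Special θ R ∧
      ((pw θ R 0 1 * pw θ R 2 3 : 𝓞 L) : L) = ϱ * (pw θ R 0 2 * pw θ R 1 3 : 𝓞 L)
  swap
  · refine ⟨0, le_rfl, fun H _ F hF hr => ?_⟩
    rcases F.eq_empty_or_nonempty with rfl | ⟨R, hR⟩
    · simp
    · exact absurd ⟨R, (hF R hR).1, hr R hR⟩ hex
  obtain ⟨R, hR, hRr⟩ := hex
  have r0 : pw θ R 0 2 * pw θ R 1 3 ≠ 0 :=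
    mul_ne_zero (hR.2.1 _ _ (by decide)) (hR.2.1 _ _ (by decide))
  obtain ⟨z, hz⟩ := Ideal.mem_span_singleton.1
    (Ideal.absNorm_mem (Ideal.span {pw θ R 0 2 * pw θ R 1 3}))
  have z0 : z ≠ 0 := by
    rintro rfl
    rw [mul_zero, Nat.cast_eq_zero, Ideal.absNorm_eq_zero_iff, Ideal.span_singleton_eq_bot] at hz
    exact r0 hz
  obtain ⟨σ⟩ : Nonempty (L →+* ℂ) := inferInstance
  obtain ⟨A, hA, hp⟩ := pw_le θ
  obtain ⟨C, hC, hc⟩ := specCount_prod hθ.toRoots ε hε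
  refine ⟨(2 * (A ^ 2 * ‖em σ z‖) + 1) * C, by positivity, fun H hH F hF hr => ?_⟩
  have hn : ∀ P ∈ F, ∃ n : ℤ, (n : 𝓞 L) = pw θ P 0 2 * pw θ P 1 3 * z := fun P hP =>
    specCount_int hθ (hF P hP).1 hR (m := (Ideal.absNorm (Ideal.span {pw θ R 0 2 * pw θ R 1 3}) : ℕ))
      (inj (by
        have h1 := hr P hP
        rw [map_mul (algebraMap (𝓞 L) L) (pw θ P 0 1 * pw θ P 2 3),
          map_mul (algebraMap (𝓞 L) L) (pw θ R 0 1 * pw θ R 2 3)]
        linear_combination (algebraMap (𝓞 L) L (pw θ R 0 2 * pw θ R 1 3)) * h1 -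
          (algebraMap (𝓞 L) L (pw θ P 0 2 * pw θ P 1 3)) * hRr)) (by exact_mod_cast hz)
  choose! n hn using hn
  obtain ⟨N, hN⟩ : ∃ N : ℝ, N = A ^ 2 * ‖em σ z‖ * H ^ 2 := ⟨_, rfl⟩
  have hN0 : 0 ≤ N := by rw [hN]; positivity
  have hfl : (0 : ℤ) ≤ ⌊N⌋ := Int.floor_nonneg.2 hN0
  refine (specCount_fiber F n (Icc (-⌊N⌋) ⌊N⌋) (fun P hP => ?_) (fun _ => C * H ^ ε)
    fun b _ => hc H hH _ (fun P hP => hF P (mem_filter.1 hP).1) fun P hP Q hQ => ?_).trans ?_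
  · rw [mem_Icc, ← abs_le, Int.le_floor, Int.cast_abs]
    have h1 := congrArg (fun w => ‖em σ w‖) (hn P hP)
    simp only [map_intCast, Complex.norm_intCast, map_mul, norm_mul] at h1
    have h2 : ‖em σ (pw θ P 0 2)‖ * ‖em σ (pw θ P 1 3)‖ ≤ A * H * (A * H) :=
      mul_le_mul (hp σ P H (hF P hP).2 _ _) (hp σ P H (hF P hP).2 _ _) (norm_nonneg _)
        (by positivity)
    rw [h1, hN]
    exact (mul_le_mul_of_nonneg_right h2 (norm_nonneg _)).trans (le_of_eq (by ring))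
  · obtain ⟨hP, eP⟩ := mem_filter.1 hP
    obtain ⟨hQ, eQ⟩ := mem_filter.1 hQ
    have h2 : pw θ P 0 2 * pw θ P 1 3 = pw θ Q 0 2 * pw θ Q 1 3 :=
      mul_right_cancel₀ z0 (by rw [← hn P hP, ← hn Q hQ, eP, eQ])
    exact ⟨inj ((hr P hP).trans (h2 ▸ (hr Q hQ).symm)), h2⟩
  · rw [sum_const, nsmul_eq_mul]
    have h1 : ((Icc (-⌊N⌋) ⌊N⌋).card : ℤ) = 2 * ⌊N⌋ + 1 := by
      rw [Int.card_Icc, Int.toNat_of_nonneg (by omega)]
      ring
    have h3 : ((Icc (-⌊N⌋) ⌊N⌋).card : ℝ) = 2 * (⌊N⌋ : ℝ) + 1 := by exact_mod_cast h1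
    have h4 := Int.floor_le N
    have h5 : 1 ≤ H ^ 2 := one_le_pow₀ hH
    have e5 : H ^ (2 + ε) = H ^ 2 * H ^ ε := by
      rw [Real.rpow_add (by linarith)]
      norm_cast
    have h6 : ((Icc (-⌊N⌋) ⌊N⌋).card : ℝ) ≤ (2 * (A ^ 2 * ‖em σ z‖) + 1) * H ^ 2 := by
      rw [h3, add_mul, mul_assoc, ← hN]
      linarith
    refine (mul_le_mul_of_nonneg_right h6 (by positivity)).trans (le_of_eq ?_)
    rw [e5]
    ring

theorem special_count (hθ : GalRoots g θ) (ε : ℝ) (hε : 0 < ε) : ∃ C : ℝ, 1 ≤ C ∧ ∀ H : ℝ, 1 ≤ H →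
    ∀ F : Finset (Fin 4 → Fin 4 → ℤ), (∀ P ∈ F, Special θ P ∧ ∀ i j, |(P i j : ℝ)| ≤ H) →
      (F.card : ℝ) ≤ C * H ^ (2 + ε) := by
  classical
  have inj : Function.Injective (algebraMap (𝓞 L) L) := RingOfIntegers.coe_injective
  choose C hC0 hC using specCount_ratio hθ ε hε
  obtain ⟨t₁, h₁⟩ : ∃ t : L, t = algebraMap (𝓞 L) L ((θ 1 - θ 0) * (θ 3 - θ 2)) := ⟨_, rfl⟩
  obtain ⟨t₂, h₂⟩ : ∃ t : L, t = algebraMap (𝓞 L) L ((θ 2 - θ 0) * (θ 3 - θ 1)) := ⟨_, rfl⟩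
  obtain ⟨t₃, h₃⟩ : ∃ t : L, t = algebraMap (𝓞 L) L ((θ 3 - θ 0) * (θ 2 - θ 1)) := ⟨_, rfl⟩
  have hne : ∀ a b c e : Fin 4, a ≠ b → c ≠ e →
      algebraMap (𝓞 L) L ((θ a - θ b) * (θ c - θ e)) ≠ 0 := fun a b c e hab hce =>
    (map_ne_zero_iff _ inj).2 (mul_ne_zero (sub_ne_zero.2 (hθ.inj.ne hab))
      (sub_ne_zero.2 (hθ.inj.ne hce)))
  have n₁ : t₁ ≠ 0 := h₁ ▸ hne _ _ _ _ (by decide) (by decide)
  have n₂ : t₂ ≠ 0 := h₂ ▸ hne _ _ _ _ (by decide) (by decide)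
  obtain ⟨Q, hQ⟩ : ∃ Q : L[X], Q = Polynomial.C (t₂ * t₃ + t₁ * t₂) * X ^ 4 +
      Polynomial.C (-4 * (t₁ * t₂)) * X ^ 3 + Polynomial.C (6 * (t₁ * t₂)) * X ^ 2 +
      Polynomial.C (-4 * (t₁ * t₂)) * X + Polynomial.C (t₁ * t₂ - t₁ * t₃) := ⟨_, rfl⟩
  have Q0 : Q ≠ 0 := fun h => by
    have h3 : Q.coeff 3 = -4 * (t₁ * t₂) := by
      rw [hQ]
      simp only [coeff_add, coeff_C_mul, coeff_X_pow, coeff_X, coeff_C]
      simp
    rw [h, coeff_zero] at h3
    exact mul_ne_zero (by norm_num) (mul_ne_zero n₁ n₂) h3.symm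
  have hsum : 0 ≤ ∑ ϱ ∈ Q.roots.toFinset, C ϱ := sum_nonneg fun ϱ _ => hC0 ϱ
  refine ⟨1 + ∑ ϱ ∈ Q.roots.toFinset, C ϱ, by linarith, fun H hH F hF => ?_⟩
  have u0 : ∀ P ∈ F, algebraMap (𝓞 L) L (pw θ P 0 2 * pw θ P 1 3) ≠ 0 := fun P hP =>
    (map_ne_zero_iff _ inj).2
      (mul_ne_zero ((hF P hP).1.2.1 _ _ (by decide)) ((hF P hP).1.2.1 _ _ (by decide)))
  refine (specCount_fiber F (fun P => algebraMap (𝓞 L) L (pw θ P 0 1 * pw θ P 2 3) /
    algebraMap (𝓞 L) L (pw θ P 0 2 * pw θ P 1 3)) Q.roots.toFinset (fun P hP => ?_)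
    (fun ϱ => C ϱ * H ^ (2 + ε)) fun ϱ _ => hC ϱ H hH _ (fun P hP => hF P (mem_filter.1 hP).1)
      fun P hP => ?_).trans ?_
  · rw [Multiset.mem_toFinset, mem_roots Q0, IsRoot.def, hQ]
    have e1 := congrArg (algebraMap (𝓞 L) L) (hF P hP).1.2.2.1
    have e2 := congrArg (algebraMap (𝓞 L) L) (hF P hP).1.2.2.2
    have e0 := u0 P hP
    rw [map_add, map_sub, map_zero] at e1 e2
    rw [map_mul _ (_ ^ 4), map_mul _ (_ ^ 4), map_mul _ (_ ^ 4), map_pow, map_pow, map_pow,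
      map_mul _ ((θ 2 - θ 0) * (θ 3 - θ 1)), map_mul _ ((θ 1 - θ 0) * (θ 3 - θ 2)),
      map_mul _ ((θ 1 - θ 0) * (θ 3 - θ 2)), ← h₁, ← h₂, ← h₃] at e2
    generalize algebraMap (𝓞 L) L (pw θ P 0 1 * pw θ P 2 3) = u₁ at *
    generalize algebraMap (𝓞 L) L (pw θ P 0 2 * pw θ P 1 3) = u₂ at *
    generalize algebraMap (𝓞 L) L (pw θ P 0 3 * pw θ P 1 2) = u₃ at *
    obtain rfl : u₃ = u₂ - u₁ := by linear_combination e1
    simp only [eval_add, eval_mul, eval_C, eval_pow, eval_X]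
    field_simp
    linear_combination e2
  · obtain ⟨hP, e⟩ := mem_filter.1 hP
    exact (div_eq_iff (u0 P hP)).1 e
  · rw [← sum_mul]
    exact mul_le_mul_of_nonneg_right (by linarith) (by positivity)

theorem pl_wedge (u v : Fin 4 → ℤ) : Pl (wedge u v) := by
  refine ⟨fun i j => ?_, ?_⟩ <;> simp only [wedge] <;> ring

theorem Pl.of_smul {P P' : Fin 4 → Fin 4 → ℤ} {m n : ℤ} (hm : m ≠ 0)
    (h : ∀ i j, m * P' i j = n * P i j) (hP : Pl P) : Pl P' := by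
  refine ⟨fun i j => mul_left_cancel₀ hm ?_, mul_left_cancel₀ (mul_ne_zero hm hm) ?_⟩
  · rw [mul_neg, h, h, hP.1 i j, mul_neg]
  · linear_combination (m * P' 2 3) * h 0 1 + (n * P 0 1) * h 2 3 - (m * P' 1 3) * h 0 2 -
      (n * P 0 2) * h 1 3 + (m * P' 1 2) * h 0 3 + (n * P 0 3) * h 1 2 + n ^ 2 * hP.2

theorem Special.of_smul {P P' : Fin 4 → Fin 4 → ℤ} {m n : ℤ} (hm : m ≠ 0) (hn : n ≠ 0)
    (h : ∀ i j, m * P' i j = n * P i j) (hP : Special θ P) : Special θ P' := by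
  have hm' : (m : 𝓞 L) ≠ 0 := Int.cast_ne_zero.2 hm
  have hn' : (n : 𝓞 L) ≠ 0 := Int.cast_ne_zero.2 hn
  have e : ∀ i j, (m : 𝓞 L) * pw θ P' i j = n * pw θ P i j := fun i j => by
    simp only [pw, Finset.mul_sum, ← mul_assoc, ← Int.cast_mul, h]
  have e2 : ∀ i j k l, (m : 𝓞 L) ^ 2 * (pw θ P' i j * pw θ P' k l) =
      n ^ 2 * (pw θ P i j * pw θ P k l) := fun i j k l => by
    linear_combination (m * pw θ P' k l) * e i j + (n * pw θ P i j) * e k l
  have e4 : ∀ i j k l, (m : 𝓞 L) ^ 8 * (pw θ P' i j * pw θ P' k l) ^ 4 =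
      n ^ 8 * (pw θ P i j * pw θ P k l) ^ 4 := fun i j k l => by
    have := congrArg (· ^ 4) (e2 i j k l)
    simp only [mul_pow _ (_ * _), ← pow_mul] at this
    exact this
  refine ⟨fun i j => mul_left_cancel₀ hm ?_, fun i j hij h0 => ?_,
    mul_left_cancel₀ (pow_ne_zero 2 hm') ?_, mul_left_cancel₀ (pow_ne_zero 8 hm') ?_⟩
  · rw [mul_neg, h, h, hP.1 i j, mul_neg]
  · have := e i j
    rw [h0, mul_zero] at this
    exact mul_ne_zero hn' (hP.2.1 i j hij) this.symm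
  · linear_combination e2 0 1 2 3 - e2 0 2 1 3 + e2 0 3 1 2 + (n : 𝓞 L) ^ 2 * hP.2.2.1
  · have hq := hP.2.2.2
    unfold Quart at hq
    generalize (θ 1 - θ 0) * (θ 3 - θ 2) = t₁ at *
    generalize (θ 2 - θ 0) * (θ 3 - θ 1) = t₂ at *
    generalize (θ 3 - θ 0) * (θ 2 - θ 1) = t₃ at *
    linear_combination (t₂ * t₃) * e4 0 1 2 3 - (t₁ * t₃) * e4 0 2 1 3 + (t₁ * t₂) * e4 0 3 1 2 +
      (n : 𝓞 L) ^ 8 * hq

end Vale.Agent.P018
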