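import Vale.Agent.P018.LineCount
import Vale.Agent.P018.SpecCount
import Vale.Agent.P018.FatCount

/-!
The endgame for `(d, k) = (4, 2)`. Here `B ≈ X ^ (y / 4)`, `A = X / B ^ 2 ≈ X ^ (1 - y / 2)`.

Common set-up. Take `η, e, C` from `Covered`; shrink `η` so that all the strict inequalities of the
hypotheses still hold, with room, when `y / 4` is replaced by `β = (y + η) / 4` and `1 - y / 2` by
`α = 1 - (y - η) / 2` (then `B ≤ X ^ β`, `A ≤ X ^ α`; a smaller window is contained in the larger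
one as `1 ≤ X`). Put `ρ = C X ^ (-μ)`, which is `≤ 1` for large `X`, and for `t ∈ T`
`ball t = S.filter (fun x => Close ρ (vec θ (b x)) (vec θ (b t)) ∧ ¬ Fat θ S b (3 ρ) x)`.
Every `x ∈ S` is uncovered (at most `C X ^ e` such), or `Fat θ S b (3 ρ)`, or in `T.biUnion ball`.
Two points of a ball are `Close (3 ρ)` (`Close.trans3`, `Close.symm`), so
`|wedge| ≤ C' ρ (K B) ^ 2` (`wedge_le_of_close`). If a ball has more than `4 K` points, take `x₁` in
it and `x₂` in it with `wedge (b x₁) (b x₂) ≠ 0` (`Cfg.mult`); since `x₁` is not fat,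
`xi (b x₁) (b x₂) (b x) = 0` for all `x` in the ball. Apply `line_count` with `M = 4 K`,
`h₀ = X ^ h`, and `log (X ^ h) ≤ C X ^ ε` (`Real.log_le_rpow_div`).

`cfgNegl_four_lines`: no point is fat (`not_fat_one`); take `Q = {P | Pl P}` (`pl_wedge`,
`Pl.of_smul`, `pl_count`), `e = 4 + ε`.

`cfgNegl_four_special`: take `Q = {P | Special θ P}` (`thin_special` with `3 ρ`, `Special.of_smul`,
`special_count`), `e = 2 + ε`. The condition `1 ≤ X (3 ρ) ^ 2` follows from `μ ≤ 1 / 2`. The fat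
points are handled by `not_fat_one`, `not_fat_two` or `fat_count` according to the three cases of
`hfat`; in the last case `1 + B ^ 3 (3 ρ) ^ 2 ≤ C X ^ u'` when `u' ≥ 0` and `u' ≥ 3 β - 2 μ`.
-/

namespace Vale.Agent.P018

open Polynomial NumberField Finset Filter Topology

variable {L : Type} [Field L] [NumberField L] {g : ℤ[X]} {θ : Fin 4 → 𝓞 L}

theorem end42_room {a b : ℝ} (c : ℝ) (h : a < b) : ∀ᶠ η in 𝓝[>] (0 : ℝ), a + c * η < b := by
  have h1 : Tendsto (fun η : ℝ => a + c * η) (𝓝 0) (𝓝 (a + c * 0)) :=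
    Continuous.tendsto (by fun_prop) 0
  rw [mul_zero, add_zero] at h1
  exact (h1.eventually (gt_mem_nhds h)).filter_mono nhdsWithin_le_nhds

theorem end42_mono {X B D β μ : ℝ} (hX : 0 < X) (hB : 0 ≤ B) (hD : 0 ≤ D) (h : B ≤ X ^ β)
    (m k : ℕ) : B ^ m * (D * X ^ (-μ)) ^ k ≤ D ^ k * X ^ (m * β - k * μ) := by
  refine (mul_le_mul_of_nonneg_right (pow_le_pow_left₀ hB h m) (by positivity)).trans (le_of_eq ?_)
  rw [mul_pow, ← Real.rpow_mul_natCast hX.le, ← Real.rpow_mul_natCast hX.le, mul_left_comm,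
    ← Real.rpow_add hX]
  congr 2
  ring

theorem end42_ev {C D β μ : ℝ} (hC : 0 ≤ C) (hD : 0 ≤ D) (m k : ℕ) (h : m * β < k * μ) :
    ∀ᶠ X : ℝ in atTop, ∀ B : ℝ, 0 ≤ B → B ≤ X ^ β → C * B ^ m * (D * X ^ (-μ)) ^ k < 1 := by
  have h1 := (tendsto_rpow_neg_atTop (sub_pos.2 h)).const_mul (C * D ^ k)
  rw [mul_zero, neg_sub] at h1
  filter_upwards [h1.eventually (gt_mem_nhds one_pos), eventually_gt_atTop 0] with X h2 hX B hB h3
  rw [mul_assoc] at h2 ⊢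
  exact (mul_le_mul_of_nonneg_left (end42_mono hX hB hD h3 m k) hC).trans_lt h2

theorem end42_one {X B D β μ u : ℝ} (hX : 1 ≤ X) (hB : 0 ≤ B) (hD : 0 ≤ D) (h : B ≤ X ^ β)
    (hu : 0 ≤ u) (h1 : 3 * β - 2 * μ ≤ u) :
    1 + B ^ 3 * (D * X ^ (-μ)) ^ 2 ≤ (1 + D ^ 2) * X ^ u := by
  have h2 := end42_mono (μ := μ) (by linarith) hB hD h 3 2
  have h3 : X ^ ((3 : ℕ) * β - (2 : ℕ) * μ) ≤ X ^ u :=
    Real.rpow_le_rpow_of_exponent_le hX (by push_cast; exact h1)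
  have h4 := Real.one_le_rpow hX hu
  nlinarith [mul_le_mul_of_nonneg_left h3 (sq_nonneg D)]

theorem end42_big {X D μ : ℝ} (hX : 1 ≤ X) (hD : 1 ≤ D) (hμ : μ ≤ 1 / 2) :
    1 ≤ X * (D * X ^ (-μ)) ^ 2 := by
  have h1 : X * (D * X ^ (-μ)) ^ 2 = D ^ 2 * X ^ (1 - 2 * μ) := by
    rw [mul_pow, ← Real.rpow_mul_natCast (by linarith), mul_left_comm, sub_eq_add_neg,
      Real.rpow_add (by linarith), Real.rpow_one]
    congr 3
    push_cast
    ring
  rw [h1]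
  exact one_le_mul_of_one_le_of_one_le (one_le_pow₀ hD) (Real.one_le_rpow hX (by linarith))

theorem end42_common (hθ : Roots g θ) (y μ ν h e₀ : ℝ) (hcov : Covered θ 2 y μ ν)
    (hμ : 0 < μ) (hν : ν < 1) (hh : 0 ≤ h) (he₀ : 1 ≤ e₀) (h2 : ν + 2 * (y / 4) - μ - h < 1)
    (h3 : e₀ * h < 1) (h4 : 2 * (y / 4) + (e₀ - 1) * h < 1) (Q : Set (Fin 4 → Fin 4 → ℤ))
    (hcl : ∀ (P P' : Fin 4 → Fin 4 → ℤ) (m n : ℤ), m ≠ 0 → n ≠ 0 →
      (∀ i j, m * P' i j = n * P i j) → P ∈ Q → P' ∈ Q)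
    (hct : ∀ ε : ℝ, 0 < ε → ∃ C : ℝ, 1 ≤ C ∧ ∀ H : ℝ, 1 ≤ H → ∀ F : Finset (Fin 4 → Fin 4 → ℤ),
      (∀ P ∈ F, P ∈ Q ∧ ∀ i j, |(P i j : ℝ)| ≤ H) → (F.card : ℝ) ≤ C * H ^ (e₀ + ε))
    (hF : ∀ᶠ η in 𝓝[>] (0 : ℝ), ∃ e : ℝ, e < 1 ∧ ∀ K D : ℝ, 1 ≤ D → ∃ C : ℝ, 0 ≤ C ∧
      ∀ᶠ X : ℝ in atTop, ∀ (B : ℝ) (S : Finset ℤ) (a b : ℤ → Fin 4 → ℤ) (c : ℤ),
        Cfg θ 2 K X B S a b c → B ≤ X ^ (y / 4 + η / 4) → X / B ^ 2 ≤ X ^ (1 - y / 2 + η / 2) →
        ∀ F ⊆ S, (∀ x ∈ F, Fat θ S b (D * X ^ (-μ)) x) → (F.card : ℝ) ≤ C * X ^ e)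
    (hQ : ∀ᶠ η in 𝓝[>] (0 : ℝ), ∀ K D : ℝ, 1 ≤ D →
      ∀ᶠ X : ℝ in atTop, ∀ (B : ℝ) (S : Finset ℤ) (a b : ℤ → Fin 4 → ℤ) (c : ℤ),
        Cfg θ 2 K X B S a b c → B ≤ X ^ (y / 4 + η / 4) → X / B ^ 2 ≤ X ^ (1 - y / 2 + η / 2) →
        ∀ Z ⊆ S, (∀ x ∈ Z, ∀ x' ∈ Z, Close (D * X ^ (-μ)) (vec θ (b x)) (vec θ (b x'))) →
        4 * K < Z.card → ∀ x₁ ∈ Z, ∀ x₂ ∈ Z, wedge (b x₁) (b x₂) ≠ 0 →
        (∀ x ∈ Z, xi (b x₁) (b x₂) (b x) = 0) → wedge (b x₁) (b x₂) ∈ Q) :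
    CfgNegl θ 2 y := by
  classical
  obtain ⟨η₀, hη₀, e₁, he₁, hcov⟩ := hcov
  obtain ⟨η, ⟨e₂, he₂, hF⟩, hQ, r1, r2, r3, r4, hη⟩ := (hF.and (hQ.and ((end42_room 1 hη₀).and
    ((end42_room (1 / 2) h2).and ((end42_room (h + 1) h3).and ((end42_room (h + 3 / 2) h4).and
    self_mem_nhdsWithin)))))).exists
  replace hη : 0 < η := hη
  obtain ⟨e, he, l1, l2, l3, l4, l5, l6⟩ : ∃ e : ℝ, e < 1 ∧ e₁ ≤ e ∧ e₂ ≤ e ∧ ν ≤ e ∧
      ν + 2 * (y / 4) - μ - h + 1 / 2 * η ≤ e ∧ e₀ * h + (h + 1) * η ≤ e ∧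
      2 * (y / 4) + (e₀ - 1) * h + (h + 3 / 2) * η ≤ e :=
    ⟨max e₁ (max e₂ (max ν (max (ν + 2 * (y / 4) - μ - h + 1 / 2 * η) (max (e₀ * h + (h + 1) * η)
      (2 * (y / 4) + (e₀ - 1) * h + (h + 3 / 2) * η))))), by simp only [max_lt_iff]; tauto,
      by simp only [le_max_iff, le_refl, true_or, or_true, and_self]⟩
  refine ⟨η, hη, e, he, fun K => ?_⟩
  by_cases hK : 1 ≤ K
  swap
  · exact ⟨0, 0, fun X _ B S a b c hc => absurd hc.one_le_K hK⟩
  obtain ⟨C₀, X₀, hC₀, hcov⟩ := hcov K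
  obtain ⟨C₁, hC₁, hct⟩ := hct η hη
  obtain ⟨C₂, hC₂, hF⟩ := hF K (3 * C₀) (by linarith)
  obtain ⟨C₃, hC₃, hw⟩ := wedge_le_of_close hθ
  obtain ⟨C₄, hC₄, hl⟩ := line_count K (e₀ + η) hK (by linarith)
  obtain ⟨X₁, hX₁⟩ := eventually_atTop.1 (hF.and ((hQ K (3 * C₀) (by linarith)).and
    ((end42_ev (β := 0) (μ := μ) zero_le_one (by linarith : 0 ≤ C₀) 0 1 (by simpa using hμ)).and
    (eventually_ge_atTop X₀))))
  refine ⟨C₀ + C₂ + (4 * K * C₀ + C₄ * (C₀ + C₀ * (C₃ * K ^ 2 * (3 * C₀))) +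
    C₄ * C₁ * (2 * (1 + h / η))), X₁, fun X hX B S a b c hc hlo hhi => ?_⟩
  obtain ⟨hF, hQ, hρ1, hX₀⟩ := hX₁ X hX
  have hX1 := hc.one_le_X
  have hB1 := hc.one_le_B
  have hX0 : 0 < X := by linarith
  have mono : ∀ {s t : ℝ}, s ≤ t → X ^ s ≤ X ^ t := Real.rpow_le_rpow_of_exponent_le hX1
  push_cast at hcov hlo hhi
  obtain ⟨T, hTS, hT, hunc⟩ := hcov X hX₀ B S a b c hc ((mono (by linarith)).trans hlo)
    (hhi.trans (mono (by linarith)))
  replace hρ1 : C₀ * X ^ (-μ) ≤ 1 := by simpa using (hρ1 0 le_rfl (by positivity)).le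
  rw [add_div] at hhi
  have hA : X / B ^ 2 ≤ X ^ (1 - y / 2 + η / 2) := by
    rw [div_le_iff₀ (by positivity)]
    refine le_trans (le_of_eq ?_)
      (mul_le_mul_of_nonneg_left (pow_le_pow_left₀ (by positivity) hlo 2) (by positivity))
    rw [← Real.rpow_mul_natCast hX0.le, ← Real.rpow_add hX0]
    convert (Real.rpow_one X).symm using 2
    push_cast
    ring
  obtain ⟨ball, hball⟩ : ∃ ball : ℤ → Finset ℤ, ∀ t x, x ∈ ball t ↔ x ∈ S ∧
      Close (C₀ * X ^ (-μ)) (vec θ (b x)) (vec θ (b t)) ∧ ¬ Fat θ S b (3 * C₀ * X ^ (-μ)) x :=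
    ⟨fun t => S.filter _, fun t x => mem_filter⟩
  have hsub : ∀ t, ball t ⊆ S := fun t x hx => ((hball t x).1 hx).1
  have hcl3 : ∀ t ∈ T, ∀ x ∈ ball t, ∀ x' ∈ ball t,
      Close (3 * C₀ * X ^ (-μ)) (vec θ (b x)) (vec θ (b x')) := fun t ht x hx x' hx' => by
    rw [mul_assoc]
    exact ((hball t x).1 hx).2.1.trans3 ((hball t x').1 hx').2.1.symm (by positivity) hρ1
      (hc.b_ne (hTS ht))
  have hh₀ : 1 ≤ X ^ h := Real.one_le_rpow hX1 hh
  have h5 := hl S b B (C₃ * K ^ 2 * (3 * C₀ * X ^ (-μ))) (X ^ h) (4 * K) C₁ Q T ball hB1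
    (by positivity) hh₀ (by positivity) (by positivity) hc.b_crd hc.b_big hc.mult hcl hct
    (fun t _ => hsub t) (fun t ht x hx x' hx' i j => (hw (b x) (b x') _ (K * B) (by positivity)
      (hcl3 t ht x hx x' hx') (hc.b_hi x (hsub t hx)) (hc.b_hi x' (hsub t hx')) i j).trans
      (le_of_eq (by ring))) fun t ht => by
      refine or_iff_not_imp_left.2 fun hn => ?_
      rw [not_le] at hn
      obtain ⟨x₁, h₁⟩ : (ball t).Nonempty := card_pos.1 (by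
        exact_mod_cast (show (0 : ℝ) < (ball t).card by linarith))
      obtain ⟨x₂, h₂, h0⟩ : ∃ x₂ ∈ ball t, wedge (b x₁) (b x₂) ≠ 0 := by
        by_contra h0
        push Not at h0
        have h6 : ((ball t).card : ℝ) ≤ (S.filter fun x' => wedge (b x₁) (b x') = 0).card :=
          Nat.cast_le.2 (card_le_card fun x hx => mem_filter.2 ⟨hsub t hx, h0 x hx⟩)
        linarith [hc.mult x₁ (hsub t h₁)]
      have hx : ∀ x ∈ ball t, xi (b x₁) (b x₂) (b x) = 0 := fun x hx => by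
        by_contra h6
        exact ((hball t x₁).1 h₁).2.2 ⟨x₂, hsub t h₂, x, hsub t hx, hcl3 t ht _ h₁ _ h₂,
          hcl3 t ht _ h₁ _ hx, h6⟩
      exact ⟨x₁, hsub t h₁, x₂, hsub t h₂, h0,
        hQ B S a b c hc hhi hA _ (hsub t) (hcl3 t ht) hn x₁ h₁ x₂ h₂ h0 hx, hx⟩
  have h6 := hF B S a b c hc hhi hA (S.filter fun x => Fat θ S b (3 * C₀ * X ^ (-μ)) x)
    (filter_subset _ _) fun x hx => (mem_filter.1 hx).2
  have h7 : S ⊆ (S.filter fun x => ∀ t ∈ T, ¬ Close (C₀ * X ^ (-μ)) (vec θ (b x)) (vec θ (b t))) ∪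
      (S.filter fun x => Fat θ S b (3 * C₀ * X ^ (-μ)) x) ∪ T.biUnion ball := fun x hx => by
    simp only [mem_union, mem_filter, mem_biUnion, hball, hx, true_and]
    by_contra h8
    push Not at h8
    obtain ⟨⟨⟨t, ht, h9⟩, h10⟩, h11⟩ := h8
    exact h10 (h11 t ht h9)
  have h8 := Nat.cast_le (α := ℝ).2 ((card_le_card h7).trans ((card_union_le _ _).trans
    (add_le_add (card_union_le _ _) le_rfl)))
  rw [Nat.cast_add, Nat.cast_add] at h8
  have t1 : (T.card : ℝ) ≤ C₀ * X ^ e := hT.trans (mul_le_mul_of_nonneg_left (mono l3) (by linarith))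
  have hB2 : B ^ 2 ≤ X ^ (2 * (y / 4 + η / 4)) := by
    rw [mul_comm, show (2 : ℝ) = (2 : ℕ) by norm_num, Real.rpow_mul_natCast hX0.le]
    exact pow_le_pow_left₀ (by positivity) hhi 2
  have t2 : T.card * (C₃ * K ^ 2 * (3 * C₀ * X ^ (-μ)) * B ^ 2 / X ^ h) ≤
      C₀ * (C₃ * K ^ 2 * (3 * C₀)) * X ^ e := by
    refine (mul_le_mul hT (div_le_div_of_nonneg_right (mul_le_mul_of_nonneg_left hB2
      (by positivity)) (by positivity)) (by positivity) (by positivity)).trans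
      (le_trans (le_of_eq ?_) (mul_le_mul_of_nonneg_left (mono (show
        ν + -μ + 2 * (y / 4 + η / 4) - h ≤ e by linarith)) (by positivity)))
    rw [Real.rpow_sub hX0, Real.rpow_add hX0 (ν + -μ), Real.rpow_add hX0 ν]
    ring
  have hlog : 1 + Real.log (X ^ h) ≤ (1 + h / η) * X ^ η := by
    have a1 := mul_le_mul_of_nonneg_left (Real.log_le_rpow_div hX0.le hη) hh
    have a2 := Real.one_le_rpow hX1 hη.le
    rw [Real.log_rpow hX0, add_mul, div_mul_eq_mul_div, mul_div_assoc]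
    linarith
  have t3 : (1 + Real.log (X ^ h)) * ((X ^ h) ^ (e₀ + η) + B ^ 2 * (X ^ h) ^ (e₀ + η - 1)) ≤
      2 * (1 + h / η) * X ^ e := by
    refine (mul_le_mul hlog (add_le_add le_rfl (mul_le_mul_of_nonneg_right hB2 (by positivity)))
      (by positivity) (by positivity)).trans ?_
    rw [← Real.rpow_mul hX0.le, ← Real.rpow_mul hX0.le, ← Real.rpow_add hX0, mul_assoc, mul_add,
      ← Real.rpow_add hX0, ← Real.rpow_add hX0, mul_comm 2 (1 + h / η), mul_assoc, two_mul (X ^ e)]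
    exact mul_le_mul_of_nonneg_left (add_le_add (mono (by linarith)) (mono (by linarith)))
      (by positivity)
  have u1 := mul_le_mul_of_nonneg_left (mono l1) (show 0 ≤ C₀ by linarith)
  have u2 := mul_le_mul_of_nonneg_left (mono l2) hC₂
  have u3 := mul_le_mul_of_nonneg_left t1 (show 0 ≤ 4 * K by linarith)
  have u4 := mul_le_mul_of_nonneg_left (add_le_add t1 t2) (show 0 ≤ C₄ by linarith)
  have u5 := mul_le_mul_of_nonneg_left t3 (show 0 ≤ C₄ * C₁ by positivity)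
  have hunc' : ((S.filter fun x => ∀ t ∈ T,
      ¬ Close (C₀ * X ^ (-μ)) (vec θ (b x)) (vec θ (b t))).card : ℝ) ≤ C₀ * X ^ e₁ := by
    convert hunc
  linarith

theorem end42_fat_one (hθ : Roots g θ) {y μ : ℝ} (h1 : 3 * (y / 4) < 2 * μ) :
    ∀ᶠ η in 𝓝[>] (0 : ℝ), ∃ e : ℝ, e < 1 ∧ ∀ K D : ℝ, 1 ≤ D → ∃ C : ℝ, 0 ≤ C ∧
      ∀ᶠ X : ℝ in atTop, ∀ (B : ℝ) (S : Finset ℤ) (a b : ℤ → Fin 4 → ℤ) (c : ℤ),
        Cfg θ 2 K X B S a b c → B ≤ X ^ (y / 4 + η / 4) → X / B ^ 2 ≤ X ^ (1 - y / 2 + η / 2) →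
        ∀ F ⊆ S, (∀ x ∈ F, Fat θ S b (D * X ^ (-μ)) x) → (F.card : ℝ) ≤ C * X ^ e := by
  filter_upwards [end42_room (3 / 4) h1] with η hη
  refine ⟨0, one_pos, fun K D hD => ⟨0, le_rfl, ?_⟩⟩
  obtain ⟨C, hC, hn⟩ := not_fat_one hθ K
  filter_upwards [end42_ev (β := y / 4 + η / 4) (μ := μ) (by linarith : 0 ≤ C) (by linarith : 0 ≤ D)
    3 2 (by push_cast; linarith)] with X hX B S a b c hc hB _ F hF h
  have hX1 := hc.one_le_X
  rw [eq_empty_of_forall_notMem fun x hx => hn X B S a b c _ hc (by positivity)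
    (hX B (by linarith [hc.one_le_B]) hB) x (hF hx) (h x hx)]
  simp

theorem cfgNegl_four_lines (hθ : GalRoots g θ) (y μ ν h : ℝ) (hcov : Covered θ 2 y μ ν)
    (hμ : 0 < μ) (hν : ν < 1) (h1 : 3 * (y / 4) < 2 * μ) (hh : 0 ≤ h)
    (h2 : ν + 2 * (y / 4) - μ - h < 1) (h3 : 4 * h < 1) (h4 : 2 * (y / 4) + 3 * h < 1) :
    CfgNegl θ 2 y := by
  refine end42_common hθ.toRoots y μ ν h 4 hcov hμ hν hh (by norm_num) h2 h3 (by linarith)
    {P | Pl P} (fun P P' m n hm _ e hP => Pl.of_smul hm e hP) pl_count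
    (end42_fat_one hθ.toRoots h1) (Eventually.of_forall fun η K D _ => Eventually.of_forall ?_)
  intro X B S a b c _ _ _ Z _ _ _ x₁ _ x₂ _ _ _
  exact pl_wedge _ _

theorem cfgNegl_four_special (hθ : GalRoots g θ) (y μ ν h : ℝ) (hcov : Covered θ 2 y μ ν)
    (hμ : 0 < μ) (hν : ν < 1) (hμ1 : μ ≤ 1 / 2) (hb : y / 4 < μ) (ha : 1 - y / 2 < μ) (hh : 0 ≤ h)
    (h2 : ν + 2 * (y / 4) - μ - h < 1) (h3 : 2 * h < 1) (h4 : 2 * (y / 4) + h < 1)
    (hfat : 3 * (y / 4) < 2 * μ ∨ 3 * (1 - y / 2) < 2 * μ ∨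
      ∃ u v : ℝ, 0 ≤ u ∧ 0 ≤ v ∧ 3 * (y / 4) - 2 * μ ≤ u ∧ 3 * (1 - y / 2) - 2 * μ ≤ v ∧
        4 * (y / 4) < 3 * μ ∧ 19 * u + 4 * v < 1) :
    CfgNegl θ 2 y := by
  refine end42_common hθ.toRoots y μ ν h 2 hcov hμ hν hh (by norm_num) h2 h3 (by linarith)
    {P | Special θ P} (fun P P' m n hm hn e hP => Special.of_smul hm hn e hP) (special_count hθ)
    ?_ ?_
  · rcases hfat with h1 | h1 | ⟨u, v, hu, hv, h5, h6, h7, h8⟩
    · exact end42_fat_one hθ.toRoots h1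
    · filter_upwards [end42_room (3 / 2) h1, end42_room (1 / 4) hb] with η hη hη'
      refine ⟨0, one_pos, fun K D hD => ⟨0, le_rfl, ?_⟩⟩
      obtain ⟨C, hC, hn⟩ := not_fat_two hθ.toRoots K
      filter_upwards [end42_ev (β := 1 - y / 2 + η / 2) (μ := μ) (by linarith : 0 ≤ C)
        (by linarith : 0 ≤ D) 3 2 (by push_cast; linarith), end42_ev (β := y / 4 + η / 4) (μ := μ)
        (by linarith : 0 ≤ C) (by linarith : 0 ≤ D) 1 1 (by push_cast; linarith)]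
        with X hX hX' B S a b c hc hB hA F hF h
      have hX1 := hc.one_le_X
      have hB1 := hc.one_le_B
      rw [eq_empty_of_forall_notMem fun x hx => hn X B S a b c _ hc (by positivity)
        (end42_big hX1 hD hμ1) (hX _ (by positivity) hA)
        (by simpa only [pow_one] using (hX' B (by positivity) hB).le) x (hF hx) (h x hx)]
      simp
    · filter_upwards [end42_room 1 h7, end42_room (81 / 4) h8, self_mem_nhdsWithin] with η hη hη' h0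
      replace h0 : 0 < η := h0
      refine ⟨19 * u + 4 * v + 81 / 4 * η, hη', fun K D hD => ?_⟩
      obtain ⟨C, hC, hn⟩ := fat_count hθ K
      refine ⟨C * (1 + D ^ 2) ^ 19 * (1 + D ^ 2) ^ 4, by positivity, ?_⟩
      filter_upwards [end42_ev (β := y / 4 + η / 4) (μ := μ) (by linarith : 0 ≤ C)
        (by linarith : 0 ≤ D) 4 3 (by push_cast; linarith)] with X hX B S a b c hc hB hA F hF h
      have hX1 := hc.one_le_X
      have hB1 := hc.one_le_B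
      have a1 := end42_one (μ := μ) (u := u + 3 / 4 * η) hX1 (by positivity) (by linarith : 0 ≤ D)
        hB (by positivity) (by linarith)
      have a2 := end42_one (μ := μ) (u := v + 3 / 2 * η) hX1 (by positivity) (by linarith : 0 ≤ D)
        hA (by positivity) (by linarith)
      refine (hn X B S a b c _ hc (by positivity) (end42_big hX1 hD hμ1)
        (hX B (by positivity) hB).le F hF h).trans ((mul_le_mul (mul_le_mul_of_nonneg_left
        (pow_le_pow_left₀ (by positivity) a1 19) (by positivity))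
        (pow_le_pow_left₀ (by positivity) a2 4) (by positivity) (by positivity)).trans
        (le_of_eq ?_))
      rw [mul_pow, mul_pow, ← Real.rpow_mul_natCast (by positivity),
        ← Real.rpow_mul_natCast (by positivity), show 19 * u + 4 * v + 81 / 4 * η =
          (u + 3 / 4 * η) * (19 : ℕ) + (v + 3 / 2 * η) * (4 : ℕ) by push_cast; ring,
        Real.rpow_add (by positivity)]
      ac_rfl
  · filter_upwards [end42_room (1 / 4) hb, end42_room (1 / 2) ha] with η hη hη' K D hD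
    obtain ⟨C, hC, hn⟩ := thin_special hθ K
    filter_upwards [end42_ev (β := 1 - y / 2 + η / 2) (μ := μ) (by linarith : 0 ≤ C)
      (by linarith : 0 ≤ D) 1 1 (by push_cast; linarith), end42_ev (β := y / 4 + η / 4) (μ := μ)
      (by linarith : 0 ≤ C) (by linarith : 0 ≤ D) 1 1 (by push_cast; linarith)]
      with X hX hX' B S a b c hc hB hA
    have hX1 := hc.one_le_X
    have hB1 := hc.one_le_B
    exact hn X B S a b c _ hc (by positivity) (end42_big hX1 hD hμ1)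
      (by simpa only [pow_one] using (hX' B (by positivity) hB).le)
      (by simpa only [pow_one] using (hX _ (by positivity) hA).le)

end Vale.Agent.P018
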