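import Vale.Agent.P018.Unram
import Vale.Agent.P018.DivElem

/-!
The multiplicative energy bound for a nontrivial character of the torus.

Proof of `card_sq_mul_le`. Write `M = u ^ 2 * t` with `t` squarefree (`Nat.sq_mul_squarefree`).
A prime `q ∣ t` divides `u`, or else it divides `M` exactly once and so divides `R`. So `t ∣ R * u`
(`t` squarefree; `Squarefree.dvd_of_...`, `Nat.prod_primeFactors_of_squarefree` and
`Finset.prod_primes_dvd`, or `Squarefree.dvd_of_isRelPrime...`), `1 ≤ u ≤ Y`, and the number of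
pairs `(u, t)` is at most `∑ u ≤ Y, (R u).divisors.card ≤ Y * C * (R Y) ^ ε`
(`nat_divisor_bound`).

Proof of `energy`. If `d = 0` then `w = 0`. If the set is empty there is nothing to prove.
Otherwise fix a solution `(x₀, y₀)`. For `γ ∈ Γ` let `N γ ∈ ℤ` be the norm
(`Roots.norm`, nonzero by `Roots.ne`), `|N γ| ≤ (K G) ^ d`. For a solution `(x, y)` put
`M = |∏ r, N (x r) * ∏ r, N (y r)| ≤ Y ^ 2` with `Y = (K G) ^ (d ℓ)`, and `R = Δ * M₀ ≤ Δ Y ^ 2`.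
By `prime_dvd_of_char_eq` and `card_sq_mul_le` the number of values of `M` is at most
`C Y (Δ Y ^ 3) ^ ε`. Given `M`, each `bev (x r) (θ 0)` and `bev (y r) (θ 0)` divides `M` in `𝓞 L`,
has conjugates bounded by `K G ≤ H := K G Y ^ 2`, and determines the integer vector
(`Roots.ne`, `bev_sub`), so there are at most `(C H ^ ε) ^ (2 ℓ)` solutions with this `M`
(`divisor_bound`, `Fintype.card_piFinset`). Choose `ε` so small that
`ε (3 d ℓ + 2 ℓ (2 d ℓ + 1)) ≤ 1`.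
-/

namespace Vale.Agent.P018

open Polynomial NumberField Finset

variable {d : ℕ} {L : Type} [Field L] [NumberField L] {g : ℤ[X]} {θ : Fin d → 𝓞 L}

theorem card_sq_mul_le (ε : ℝ) (hε : 0 < ε) : ∃ C : ℝ, 1 ≤ C ∧ ∀ (R : ℕ) (Y : ℝ), R ≠ 0 → 1 ≤ Y →
    ∀ F : Finset ℕ, (∀ M ∈ F, M ≠ 0 ∧ (M : ℝ) ≤ Y ^ 2 ∧
      ∀ q : ℕ, q.Prime → q ∣ M → ¬ q ^ 2 ∣ M → q ∣ R) →
      (F.card : ℝ) ≤ C * Y * (R * Y) ^ ε := by
  obtain ⟨C, hC, h⟩ := nat_divisor_bound ε hε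
  refine ⟨C, hC, fun R Y hR hY F hF => ?_⟩
  have hsub : F ⊆ (Icc 1 ⌊Y⌋₊).biUnion fun u => (R * u).divisors.image fun t => u ^ 2 * t := by
    intro M hM
    obtain ⟨h0, h1, h2⟩ := hF M hM
    obtain ⟨t, u, rfl, ht⟩ := Nat.sq_mul_squarefree M
    have hu : u ≠ 0 := fun h => h0 (by simp [h])
    have ht0 : t ≠ 0 := ht.ne_zero
    simp only [mem_biUnion, mem_Icc, mem_image, Nat.mem_divisors]
    refine ⟨u, ⟨Nat.pos_of_ne_zero hu, Nat.le_floor ?_⟩, t, ⟨?_, mul_ne_zero hR hu⟩, rfl⟩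
    · have h3 : (1 : ℝ) ≤ t := by exact_mod_cast Nat.pos_of_ne_zero ht0
      push_cast at h1
      have h4 : (u : ℝ) ^ 2 ≤ Y ^ 2 := le_trans (le_mul_of_one_le_right (by positivity) h3) h1
      exact (pow_le_pow_iff_left₀ (Nat.cast_nonneg _) (by linarith) two_ne_zero).mp h4
    · rw [← Nat.prod_primeFactors_of_squarefree ht]
      refine Finset.prod_primes_dvd _ (fun q hq => (Nat.prime_of_mem_primeFactors hq).prime)
        fun q hq => ?_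
      have hp := Nat.prime_of_mem_primeFactors hq
      have hqt := Nat.dvd_of_mem_primeFactors hq
      by_cases hqu : q ∣ u
      · exact hqu.mul_left _
      · refine (h2 q hp (hqt.mul_left _) fun h3 => ?_).mul_right _
        have h4 : Nat.Coprime (q ^ 2) (u ^ 2) :=
          Nat.Coprime.pow _ _ ((Nat.Prime.coprime_iff_not_dvd hp).mpr hqu)
        have h5 := h4.dvd_of_dvd_mul_left h3
        rw [sq] at h5
        exact hp.not_isUnit (ht q h5)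
  have h1 : ∀ u ∈ Icc 1 ⌊Y⌋₊,
      ((((R * u).divisors.image fun t => u ^ 2 * t).card : ℕ) : ℝ) ≤ C * (R * Y) ^ ε := by
    intro u hu
    rw [mem_Icc] at hu
    have h2 : (u : ℝ) ≤ Y := (Nat.le_floor_iff (by linarith)).mp hu.2
    refine le_trans (by exact_mod_cast card_image_le)
      ((h (R * u) (mul_ne_zero hR (by omega))).trans ?_)
    push_cast
    gcongr
  calc (F.card : ℝ) ≤ (((Icc 1 ⌊Y⌋₊).biUnion fun u =>
        (R * u).divisors.image fun t => u ^ 2 * t).card : ℝ) := by exact_mod_cast card_le_card hsub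
    _ ≤ ∑ u ∈ Icc 1 ⌊Y⌋₊, ((((R * u).divisors.image fun t => u ^ 2 * t).card : ℕ) : ℝ) := by
        exact_mod_cast card_biUnion_le
    _ ≤ ∑ _u ∈ Icc 1 ⌊Y⌋₊, C * (R * Y) ^ ε := sum_le_sum h1
    _ = ⌊Y⌋₊ * (C * (R * Y) ^ ε) := by simp
    _ ≤ Y * (C * (R * Y) ^ ε) :=
        mul_le_mul_of_nonneg_right (Nat.floor_le (by linarith)) (by positivity)
    _ = C * Y * (R * Y) ^ ε := by ring

theorem Energy_num {Z D R ε : ℝ} {a b : ℕ} (hZ : 1 ≤ Z) (hD : 1 ≤ D) (hR : 0 ≤ R)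
    (hRD : R ≤ D * (Z ^ a) ^ 2) (hε : ε = ((3 * a + (2 * a + 1) * b + 1 : ℕ) : ℝ)⁻¹) :
    (R * Z ^ a) ^ ε * ((Z * (Z ^ a) ^ 2) ^ ε) ^ b ≤ D * Z := by
  have hε0 : 0 ≤ ε := by rw [hε]; positivity
  rw [Real.rpow_pow_comm (by positivity), ← Real.mul_rpow (by positivity) (by positivity)]
  have h1 : R * Z ^ a * (Z * (Z ^ a) ^ 2) ^ b ≤ (D * Z) ^ (3 * a + (2 * a + 1) * b + 1) := by
    calc R * Z ^ a * (Z * (Z ^ a) ^ 2) ^ b ≤ D * (Z ^ a) ^ 2 * Z ^ a * (Z * (Z ^ a) ^ 2) ^ b := by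
          gcongr
      _ = D * Z ^ (3 * a + (2 * a + 1) * b) := by ring
      _ ≤ D ^ (3 * a + (2 * a + 1) * b + 1) * Z ^ (3 * a + (2 * a + 1) * b + 1) :=
          mul_le_mul (le_self_pow₀ hD (by omega)) (pow_le_pow_right₀ hZ (by omega))
            (by positivity) (by positivity)
      _ = _ := (mul_pow _ _ _).symm
  refine (Real.rpow_le_rpow (by positivity) h1 hε0).trans (le_of_eq ?_)
  rw [hε]
  exact Real.pow_rpow_inv_natCast (by positivity) (by omega)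

open Classical in
theorem energy (hθ : GalRoots g θ) (ℓ : ℕ) (K : ℝ) (hK : 1 ≤ K) :
    ∃ C : ℝ, 1 ≤ C ∧ ∀ G : ℝ, 1 ≤ G → ∀ Γ : Finset (Fin d → ℤ),
      (∀ γ ∈ Γ, γ ≠ 0 ∧ ∀ (σ : L →+* ℂ) j, ‖σ (vec θ γ j)‖ ≤ K * G) →
      ∀ w : Fin d → ℤ, w ≠ 0 → ∀ z : L,
        ((((Fintype.piFinset fun _ : Fin ℓ => Γ) ×ˢ (Fintype.piFinset fun _ : Fin ℓ => Γ)).filter
          fun xy => ∏ i, ((∏ r, vec θ (xy.1 r) i) / ∏ r, vec θ (xy.2 r) i) ^ w i = z).card : ℝ) ≤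
          C * G ^ (d * ℓ + 1) := by
  set ε : ℝ := ((3 * (d * ℓ) + (2 * (d * ℓ) + 1) * (2 * ℓ) + 1 : ℕ) : ℝ)⁻¹ with hε
  have hε0 : 0 < ε := by rw [hε]; positivity
  obtain ⟨C₁, hC₁, h₁⟩ := card_sq_mul_le ε hε0
  obtain ⟨C₂, hC₂, h₂⟩ := divisor_bound L ε hε0
  obtain ⟨Δ, hΔ, h₃⟩ := prime_dvd_of_char_eq hθ
  have hΔ1 : (1 : ℝ) ≤ Δ := by exact_mod_cast Nat.pos_of_ne_zero hΔ
  choose N hN _ using hθ.norm
  obtain ⟨σ₀⟩ : Nonempty (L →+* ℂ) := inferInstance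
  have hC : 1 ≤ C₁ * C₂ ^ (2 * ℓ) * Δ * K ^ (d * ℓ + 1) :=
    one_le_mul_of_one_le_of_one_le (one_le_mul_of_one_le_of_one_le
      (one_le_mul_of_one_le_of_one_le hC₁ (one_le_pow₀ hC₂)) hΔ1) (one_le_pow₀ hK)
  refine ⟨C₁ * C₂ ^ (2 * ℓ) * Δ * K ^ (d * ℓ + 1), hC, fun G hG Γ hΓ w hw z => ?_⟩
  obtain ⟨i₀, -⟩ := Function.ne_iff.mp hw
  set S := ((Fintype.piFinset fun _ : Fin ℓ => Γ) ×ˢ (Fintype.piFinset fun _ : Fin ℓ => Γ)).filter
    fun xy => ∏ i, ((∏ r, vec θ (xy.1 r) i) / ∏ r, vec θ (xy.2 r) i) ^ w i = z with hS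
  rcases S.eq_empty_or_nonempty with h0 | ⟨xy₀, hxy₀⟩
  · rw [h0, card_empty, Nat.cast_zero]
    positivity
  set Z := K * G with hZ
  have hZ1 : 1 ≤ Z := one_le_mul_of_one_le_of_one_le hK hG
  have hY1 : 1 ≤ Z ^ (d * ℓ) := one_le_pow₀ hZ1
  have hN0 : ∀ γ ∈ Γ, N γ ≠ 0 := fun γ hγ h => by
    have h1 := hN γ
    rw [h, Int.cast_zero, eq_comm, Finset.prod_eq_zero_iff] at h1
    obtain ⟨j, -, hj⟩ := h1
    exact hθ.ne γ (hΓ γ hγ).1 j hj
  have hNle : ∀ γ ∈ Γ, |(N γ : ℝ)| ≤ Z ^ d := fun γ hγ => by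
    have h1 := congrArg (fun x => ‖em σ₀ x‖) (hN γ)
    simp only [map_intCast, map_prod, norm_prod, em_bev, Complex.norm_intCast] at h1
    rw [h1]
    refine (prod_le_prod (fun _ _ => norm_nonneg _) fun j _ => (hΓ γ hγ).2 σ₀ j).trans ?_
    simp
  set NN : (Fin ℓ → Fin d → ℤ) × (Fin ℓ → Fin d → ℤ) → ℤ :=
    fun xy => (∏ r, N (xy.1 r)) * ∏ r, N (xy.2 r) with hNN
  have hmem : ∀ xy ∈ S, (∀ r, xy.1 r ∈ Γ) ∧ (∀ r, xy.2 r ∈ Γ) ∧
      ∏ i, ((∏ r, vec θ (xy.1 r) i) / ∏ r, vec θ (xy.2 r) i) ^ w i = z := fun xy h => by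
    simp only [hS, mem_filter, mem_product, Fintype.mem_piFinset] at h
    exact ⟨h.1.1, h.1.2, h.2⟩
  have hcast : ∀ xy, (NN xy : 𝓞 L) =
      (∏ r, ∏ i, bev (xy.1 r) (θ i)) * ∏ r, ∏ i, bev (xy.2 r) (θ i) := fun xy => by
    simp only [hNN, Int.cast_mul, Int.cast_prod, hN]
  have hNN0 : ∀ xy ∈ S, (NN xy).natAbs ≠ 0 := fun xy h => by
    obtain ⟨a1, a2, -⟩ := hmem xy h
    rw [Int.natAbs_ne_zero]
    exact mul_ne_zero (prod_ne_zero_iff.mpr fun r _ => hN0 _ (a1 r))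
      (prod_ne_zero_iff.mpr fun r _ => hN0 _ (a2 r))
  have hNNle : ∀ xy ∈ S, ((NN xy).natAbs : ℝ) ≤ (Z ^ (d * ℓ)) ^ 2 := fun xy h => by
    obtain ⟨a1, a2, -⟩ := hmem xy h
    have b : ∀ x : Fin ℓ → Fin d → ℤ, (∀ r, x r ∈ Γ) → |∏ r, (N (x r) : ℝ)| ≤ Z ^ (d * ℓ) :=
      fun x hx => by
        rw [Finset.abs_prod, pow_mul]
        refine (prod_le_prod (fun _ _ => abs_nonneg _) fun r _ => hNle _ (hx r)).trans ?_
        simp
    rw [Nat.cast_natAbs, hNN]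
    push_cast
    rw [abs_mul, sq]
    exact mul_le_mul (b _ a1) (b _ a2) (abs_nonneg _) (by positivity)
  have hF := h₁ (Δ * (NN xy₀).natAbs) (Z ^ (d * ℓ)) (mul_ne_zero hΔ (hNN0 _ hxy₀)) hY1
    (S.image fun xy => (NN xy).natAbs) fun M hM => by
      obtain ⟨xy, hxy, rfl⟩ := mem_image.mp hM
      refine ⟨hNN0 _ hxy, hNNle _ hxy, fun q hq a1 a2 => ?_⟩
      rcases h₃ ℓ xy.1 xy.2 xy₀.1 xy₀.2 (NN xy) (NN xy₀) w hw (hcast xy) (hcast xy₀)
        ((hmem xy hxy).2.2.trans (hmem xy₀ hxy₀).2.2.symm) q hq (Int.natCast_dvd.mpr a1)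
        (fun a3 => a2 (Int.natCast_dvd.mp (by exact_mod_cast a3))) with a4 | a4
      · exact a4.mul_right _
      · exact (Int.natCast_dvd.mp a4).mul_left _
  set H := Z * (Z ^ (d * ℓ)) ^ 2 with hH
  have hY2 : 1 ≤ (Z ^ (d * ℓ)) ^ 2 := one_le_pow₀ hY1
  have hfib : ∀ M ∈ S.image fun xy => (NN xy).natAbs,
      ((S.filter fun xy => (NN xy).natAbs = M).card : ℝ) ≤ (C₂ * H ^ ε) ^ (2 * ℓ) := by
    intro M hM
    obtain ⟨xy₁, hxy₁, hM1⟩ := mem_image.mp hM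
    have hM0 : M ≠ 0 := hM1 ▸ hNN0 _ hxy₁
    have hMle : (M : ℝ) ≤ (Z ^ (d * ℓ)) ^ 2 := hM1 ▸ hNNle _ hxy₁
    set ΓM := Γ.filter fun γ => bev γ (θ i₀) ∣ (M : 𝓞 L) with hΓM
    have c1 : (ΓM.card : ℝ) ≤ C₂ * H ^ ε := by
      have inj : Function.Injective fun γ : Fin d → ℤ => bev γ (θ i₀) := fun γ γ' h => by
        by_contra hne
        refine hθ.ne (γ - γ') (sub_ne_zero.mpr hne) i₀ ?_
        rw [bev_sub]
        exact sub_eq_zero.mpr h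
      rw [← card_image_of_injective ΓM inj]
      refine h₂ H (one_le_mul_of_one_le_of_one_le hZ1 hY2) (M : 𝓞 L) (by exact_mod_cast hM0)
        (fun σ => ?_) _ fun y hy => ?_
      · rw [map_natCast, Complex.norm_natCast]
        exact hMle.trans (le_mul_of_one_le_left (by positivity) hZ1)
      · obtain ⟨γ, hγ, rfl⟩ := mem_image.mp hy
        rw [hΓM, mem_filter] at hγ
        refine ⟨hγ.2, fun σ => ?_⟩
        rw [em_bev]
        exact ((hΓ γ hγ.1).2 σ i₀).trans (le_mul_of_one_le_right (by positivity) hY2)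
    have c2 : (S.filter fun xy => (NN xy).natAbs = M) ⊆
        (Fintype.piFinset fun _ : Fin ℓ => ΓM) ×ˢ (Fintype.piFinset fun _ : Fin ℓ => ΓM) := by
      intro xy hxy
      rw [mem_filter] at hxy
      obtain ⟨a1, a2, -⟩ := hmem xy hxy.1
      have a3 : (NN xy : 𝓞 L) ∣ (M : 𝓞 L) := by
        have : NN xy ∣ (M : ℤ) := by
          rw [← hxy.2]
          exact Int.dvd_natAbs.mpr dvd_rfl
        simpa using Int.cast_dvd_cast (α := 𝓞 L) _ _ this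
      rw [hcast] at a3
      have a4 : ∀ (x : Fin ℓ → Fin d → ℤ) r, bev (x r) (θ i₀) ∣ ∏ r, ∏ i, bev (x r) (θ i) :=
        fun x r => (dvd_prod_of_mem (fun i => bev (x r) (θ i)) (mem_univ i₀)).trans
          (dvd_prod_of_mem (fun r => ∏ i, bev (x r) (θ i)) (mem_univ r))
      simp only [mem_product, Fintype.mem_piFinset, hΓM, mem_filter]
      exact ⟨fun r => ⟨a1 r, ((a4 _ r).mul_right _).trans a3⟩,
        fun r => ⟨a2 r, ((a4 _ r).mul_left _).trans a3⟩⟩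
    calc ((S.filter fun xy => (NN xy).natAbs = M).card : ℝ) ≤
          (((Fintype.piFinset fun _ : Fin ℓ => ΓM) ×ˢ
            (Fintype.piFinset fun _ : Fin ℓ => ΓM)).card : ℝ) := by exact_mod_cast card_le_card c2
      _ = (ΓM.card : ℝ) ^ (2 * ℓ) := by
          rw [card_product, Fintype.card_piFinset, prod_const, card_univ, Fintype.card_fin]
          push_cast
          ring
      _ ≤ _ := pow_le_pow_left₀ (Nat.cast_nonneg _) c1 _
  have hnum := Energy_num (b := 2 * ℓ) hZ1 hΔ1 (R := (Δ * (NN xy₀).natAbs : ℕ)) (Nat.cast_nonneg _)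
    (by rw [Nat.cast_mul]
        exact mul_le_mul_of_nonneg_left (hNNle _ hxy₀) (by positivity)) hε
  calc (S.card : ℝ) = ∑ M ∈ S.image fun xy => (NN xy).natAbs,
        ((S.filter fun xy => (NN xy).natAbs = M).card : ℝ) := by
        exact_mod_cast card_eq_sum_card_image (fun xy => (NN xy).natAbs) S
    _ ≤ ∑ _M ∈ S.image fun xy => (NN xy).natAbs, (C₂ * H ^ ε) ^ (2 * ℓ) := sum_le_sum hfib
    _ = ((S.image fun xy => (NN xy).natAbs).card : ℝ) * (C₂ * H ^ ε) ^ (2 * ℓ) := by simp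
    _ ≤ C₁ * Z ^ (d * ℓ) * (((Δ * (NN xy₀).natAbs : ℕ) : ℝ) * Z ^ (d * ℓ)) ^ ε *
          (C₂ * H ^ ε) ^ (2 * ℓ) := mul_le_mul_of_nonneg_right hF (by positivity)
    _ = C₁ * C₂ ^ (2 * ℓ) * Z ^ (d * ℓ) *
          ((((Δ * (NN xy₀).natAbs : ℕ) : ℝ) * Z ^ (d * ℓ)) ^ ε * (H ^ ε) ^ (2 * ℓ)) := by
        rw [mul_pow]; ring
    _ ≤ C₁ * C₂ ^ (2 * ℓ) * Z ^ (d * ℓ) * (Δ * Z) := mul_le_mul_of_nonneg_left hnum (by positivity)
    _ = _ := by rw [hZ]; ring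

end Vale.Agent.P018
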