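import Mathlib

namespace Vale.Agent.P018

open Finset

/-- Exponent pairs `(e, f)` of the monomials `∏ α i ^ e i * β i ^ f i` of bidegree `(a, b)` that
are reduced in the indices `i ≥ 2`. -/
def fam (r a b k : ℕ) : Finset ((Fin r → ℕ) × (Fin r → ℕ)) :=
  ((piAntidiag univ a) ×ˢ (piAntidiag univ b)).filter
    (fun ef => ∀ i : Fin r, 2 ≤ (i : ℕ) → ef.1 i = 0 ∨ ef.2 i < k)

theorem mem_fam {r a b k : ℕ} {ef : (Fin r → ℕ) × (Fin r → ℕ)} :
    ef ∈ fam r a b k ↔ ∑ i, ef.1 i = a ∧ ∑ i, ef.2 i = b ∧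
      ∀ i : Fin r, 2 ≤ (i : ℕ) → ef.1 i = 0 ∨ ef.2 i < k := by
  simp [fam, and_assoc]

theorem card_piAntidiag_ge {ι : Type} [DecidableEq ι] (S : Finset ι) (n m : ℕ)
    (hS : S.card = m + 1) (x : ℝ) (hx0 : 0 ≤ x) (hx : x ≤ n) :
    x ^ m / (m.factorial : ℝ) ≤ ((piAntidiag S n).card : ℝ) := by
  have h1 : (piAntidiag S n).card = (finsuppAntidiag S n).card := by
    simp [finsuppAntidiag]
  rw [h1, card_finsuppAntidiag_nat_eq_choose, hS, show m + 1 + n - 1 = n + m by omega,
    Nat.choose_symm_add]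
  refine le_trans ?_ (Nat.pow_le_choose m (n + m))
  gcongr
  rw [show n + m + 1 - m = n + 1 by omega]
  push_cast
  linarith

theorem card_E_ge {ι : Type} [Fintype ι] [DecidableEq ι] (I J : Finset ι) (hJ : J ⊆ I)
    (hI : Iᶜ.card = 2) (a : ℕ) (x : ℝ) (hx0 : 0 ≤ x) (hx : x + J.card ≤ a) :
    x ^ (J.card + 1) / ((J.card + 1).factorial : ℝ)
      ≤ (((piAntidiag univ a).filter fun e => I.filter (fun i => e i ≠ 0) = J).card : ℝ) := by
  have hJa : J.card ≤ a := by
    have : (J.card : ℝ) ≤ a := by linarith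
    exact_mod_cast this
  have hd : Disjoint J Iᶜ := disjoint_compl_right.mono_left hJ
  refine (card_piAntidiag_ge (J ∪ Iᶜ) (a - J.card) (J.card + 1)
    (by rw [card_union_of_disjoint hd, hI]) x hx0 (by rw [Nat.cast_sub hJa]; linarith)).trans ?_
  rw [Nat.cast_le]
  refine card_le_card_of_injOn (fun e i => e i + if i ∈ J then 1 else 0) ?_ ?_
  · intro e he
    rw [mem_coe, mem_piAntidiag] at he
    rw [mem_coe, mem_filter, mem_piAntidiag]
    refine ⟨⟨?_, fun i _ => mem_univ i⟩, ?_⟩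
    · have h1 : ∑ i, e i = ∑ i ∈ J ∪ Iᶜ, e i :=
        (sum_subset (subset_univ _) fun i _ hi => by_contra fun h => hi (he.2 i h)).symm
      rw [sum_add_distrib, h1, he.1]
      simp [Nat.sub_add_cancel hJa]
    · ext i
      rw [mem_filter]
      constructor
      · rintro ⟨hi, h⟩
        by_contra hiJ
        simp only [hiJ, if_false, add_zero] at h
        have := he.2 i h
        simp [hiJ, hi] at this
      · intro hi
        exact ⟨hJ hi, by simp [hi]⟩
  · intro e _ e' _ h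
    ext i
    exact add_right_cancel (congrFun h i)

theorem card_F_ge {ι : Type} [Fintype ι] [DecidableEq ι] (J : Finset ι) (m : ℕ)
    (hJ : Jᶜ.card = m + 1) (b k : ℕ) (x : ℝ) (hx0 : 0 ≤ x) (hx : x + J.card * k ≤ b) :
    (k : ℝ) ^ J.card * (x ^ m / (m.factorial : ℝ))
      ≤ (((piAntidiag univ b).filter fun f => ∀ i ∈ J, f i < k).card : ℝ) := by
  set G : Finset (ι → ℕ) := Fintype.piFinset fun i => if i ∈ J then range k else {0} with hG
  have hG1 : ∀ g ∈ G, ∀ i ∈ J, g i < k := by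
    intro g hg i hi
    simpa [hi] using Fintype.mem_piFinset.1 hg i
  have hG2 : ∀ g ∈ G, ∀ i, i ∉ J → g i = 0 := by
    intro g hg i hi
    simpa [hi] using Fintype.mem_piFinset.1 hg i
  have hG3 : ∀ g ∈ G, ∑ i, g i ≤ J.card * k := by
    intro g hg
    rw [← sum_subset (subset_univ J) fun i _ hi => hG2 g hg i hi]
    exact sum_le_card_nsmul _ _ _ fun i hi => (hG1 g hg i hi).le
  have hkb : J.card * k ≤ b := by
    have : (J.card : ℝ) * k ≤ b := by linarith
    exact_mod_cast this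
  have hGc : G.card = k ^ J.card := by
    rw [hG, Fintype.card_piFinset]
    simp [apply_ite Finset.card, prod_ite_mem]
  have h1 : (G.sigma fun g => piAntidiag Jᶜ (b - ∑ i, g i)).card
      ≤ ((piAntidiag univ b).filter fun f => ∀ i ∈ J, f i < k).card := by
    refine card_le_card_of_injOn (fun z => z.1 + z.2) ?_ ?_
    · intro z hz
      rw [mem_coe, mem_sigma, mem_piAntidiag] at hz
      rw [mem_coe, mem_filter, mem_piAntidiag]
      refine ⟨⟨?_, fun i _ => mem_univ i⟩, fun i hi => ?_⟩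
      · have h1 : ∑ i, z.2 i = ∑ i ∈ Jᶜ, z.2 i :=
          (sum_subset (subset_univ _) fun i _ hi => by_contra fun h => hi (hz.2.2 i h)).symm
        have h2 := (hG3 _ hz.1).trans hkb
        simp only [Pi.add_apply]
        rw [sum_add_distrib, h1, hz.2.1]
        omega
      · have h2 : z.2 i = 0 := by_contra fun h => by simpa [hi] using hz.2.2 i h
        simp only [Pi.add_apply, h2, add_zero]
        exact hG1 _ hz.1 i hi
    · rintro ⟨g, h⟩ hz ⟨g', h'⟩ hz' e
      rw [mem_coe, mem_sigma, mem_piAntidiag] at hz hz'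
      have e1 : g = g' := by
        ext i
        by_cases hi : i ∈ J
        · have h2 : h i = 0 := by_contra fun h0 => by simpa [hi] using hz.2.2 i h0
          have h3 : h' i = 0 := by_contra fun h0 => by simpa [hi] using hz'.2.2 i h0
          simpa [h2, h3] using congrFun e i
        · rw [hG2 g hz.1 i hi, hG2 g' hz'.1 i hi]
      subst e1
      have e2 : h = h' := add_left_cancel e
      rw [e2]
  refine le_trans ?_ (Nat.cast_le.2 h1)
  rw [card_sigma, Nat.cast_sum]
  refine le_trans (le_of_eq ?_) (card_nsmul_le_sum G _ (x ^ m / (m.factorial : ℝ)) fun g hg =>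
    card_piAntidiag_ge _ _ m hJ x hx0 ?_)
  · rw [hGc, nsmul_eq_mul, Nat.cast_pow]
  · have h2 := hG3 g hg
    rw [Nat.cast_sub (h2.trans hkb)]
    have : ((∑ i, g i : ℕ) : ℝ) ≤ J.card * k := by exact_mod_cast h2
    linarith

theorem fam_card_ge (r a b k : ℕ) (hr : 2 ≤ r) (ha : r ≤ a) (hb : r * k ≤ b) :
    ∑ s ∈ range (r - 1), ((r - 2).choose s : ℝ) * (k : ℝ) ^ s *
        (((a : ℝ) - r) ^ (s + 1) / ((s + 1).factorial : ℝ)) *
        (((b : ℝ) - r * k) ^ (r - 1 - s) / ((r - 1 - s).factorial : ℝ)) ≤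
      ((fam r a b k).card : ℝ) := by
  set I : Finset (Fin r) := univ.filter fun i => 2 ≤ (i : ℕ) with hI
  have hIc : Iᶜ.card = 2 := by
    have : Iᶜ = Finset.Iio (⟨1, by omega⟩ : Fin r) ∪ {⟨1, by omega⟩} := by
      ext i
      simp only [hI, mem_compl, mem_filter, mem_univ, true_and, mem_union, mem_Iio, mem_singleton,
        Fin.lt_def, Fin.ext_iff]
      omega
    rw [this, card_union_of_disjoint (by simp), Fin.card_Iio]
    simp
  have hIcard : I.card = r - 2 := by
    have := card_add_card_compl I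
    rw [Fintype.card_fin] at this
    omega
  have ha' : (r : ℝ) ≤ a := by exact_mod_cast ha
  have hb' : (r : ℝ) * k ≤ b := by exact_mod_cast hb
  have h1 : (I.powerset.sigma fun J =>
      ((piAntidiag univ a).filter fun e => I.filter (fun i => e i ≠ 0) = J) ×ˢ
        ((piAntidiag univ b).filter fun f => ∀ i ∈ J, f i < k)).card ≤ (fam r a b k).card := by
    refine card_le_card_of_injOn (fun z => z.2) ?_ ?_
    · intro z hz
      simp only [mem_coe, mem_sigma, mem_product, mem_filter, mem_piAntidiag] at hz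
      rw [mem_coe, mem_fam]
      refine ⟨hz.2.1.1.1, hz.2.2.1.1, fun i hi => ?_⟩
      by_cases h : z.2.1 i = 0
      · exact Or.inl h
      · refine Or.inr (hz.2.2.2 i ?_)
        rw [← hz.2.1.2, mem_filter]
        exact ⟨by simp [hI, hi], h⟩
    · rintro ⟨J, z⟩ hz ⟨J', z'⟩ hz' e
      simp only [mem_coe, mem_sigma, mem_product, mem_filter] at hz hz' e
      subst e
      rw [← hz.2.1.2, ← hz'.2.1.2]
  refine le_trans ?_ (Nat.cast_le.2 h1)
  rw [card_sigma, Nat.cast_sum]
  have h2 := sum_powerset_apply_card (fun s => (k : ℝ) ^ s *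
        (((a : ℝ) - r) ^ (s + 1) / ((s + 1).factorial : ℝ)) *
        (((b : ℝ) - r * k) ^ (r - 1 - s) / ((r - 1 - s).factorial : ℝ))) (x := I)
  rw [hIcard, show r - 2 + 1 = r - 1 by omega] at h2
  simp only [nsmul_eq_mul, ← mul_assoc] at h2
  rw [← h2]
  refine sum_le_sum fun J hJ => ?_
  have hJI := mem_powerset.1 hJ
  have hJc : J.card ≤ r - 2 := hIcard ▸ card_le_card hJI
  have hJr : (J.card : ℝ) ≤ r := by exact_mod_cast (by omega : J.card ≤ r)
  have hE := card_E_ge I J hJI hIc a ((a : ℝ) - r) (by linarith) (by linarith)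
  have hF := card_F_ge J (r - 1 - J.card) (by rw [card_compl, Fintype.card_fin]; omega) b k
    ((b : ℝ) - r * k) (by linarith) (by nlinarith [Nat.cast_nonneg (α := ℝ) k])
  rw [card_product, Nat.cast_mul, mul_comm ((k : ℝ) ^ J.card), mul_assoc]
  have hb0 : 0 ≤ (b : ℝ) - r * k := by linarith
  refine mul_le_mul hE (hF.trans (le_of_eq ?_)) (by positivity) (Nat.cast_nonneg _)
  congr!

theorem eq_of_sum_eq {ι : Type} [Fintype ι] [DecidableEq ι] {g g' : ι → ℕ} (q : ι)
    (hs : ∑ i, g i = ∑ i, g' i) (h : ∀ i, i ≠ q → g i = g' i) : g = g' := by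
  ext i
  by_cases hi : i = q
  · subst hi
    rw [← add_sum_erase _ _ (mem_univ i), ← add_sum_erase _ g' (mem_univ i),
      sum_congr rfl fun j hj => h j (ne_of_mem_erase hj)] at hs
    exact add_right_cancel hs
  · exact h i hi

theorem fam_determined {r a b k : ℕ} (i₀ p q : Fin r) (hpq : ∀ i : Fin r, i ≠ p → i ≠ q → 2 ≤ (i : ℕ))
    {s t : (Fin r → ℕ) × (Fin r → ℕ)} (hs : s ∈ fam r a b k) (ht : t ∈ fam r a b k)
    (h : ∀ i, i ≠ i₀ → s.2 i + k * (a - s.1 i) = t.2 i + k * (a - t.1 i))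
    (hp : s.1 p = t.1 p) : s = t := by
  rw [mem_fam] at hs ht
  have hle : ∀ {e : Fin r → ℕ}, ∑ i, e i = a → ∀ i, e i ≤ a := fun {e} he i =>
    he ▸ single_le_sum (f := e) (fun _ _ => Nat.zero_le _) (mem_univ i)
  have hsum : ∀ {e : Fin r → ℕ}, ∑ i, e i = a → ∑ i, (a - e i) = r * a - a := by
    intro e he
    have : ∑ i, (a - e i) + ∑ i, e i = r * a := by
      rw [← sum_add_distrib, sum_congr rfl fun i _ => Nat.sub_add_cancel (hle he i)]
      simp
    omega
  have hall := eq_of_sum_eq (g := fun i => s.2 i + k * (a - s.1 i))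
    (g' := fun i => t.2 i + k * (a - t.1 i)) i₀ (by
      rw [sum_add_distrib, sum_add_distrib, ← mul_sum, ← mul_sum, hsum hs.1, hsum ht.1, hs.2.1,
        ht.2.1]) h
  have key : ∀ {e e' f f' : ℕ}, e' ≤ a → f + k * (a - e) = f' + k * (a - e') →
      (e' = 0 ∨ f' < k) → ¬ e < e' := by
    intro e e' f f' h1 h2 h3 h4
    have h5 : k * (a - e' + 1) ≤ k * (a - e) := Nat.mul_le_mul_left k (by omega)
    rw [mul_add] at h5
    omega
  have h1 : s.1 = t.1 := by
    refine eq_of_sum_eq q (hs.1.trans ht.1.symm) fun i hi => ?_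
    by_cases hip : i = p
    · rw [hip, hp]
    · have h2 := hpq i hip hi
      have h3 := congrFun hall i
      exact le_antisymm (not_lt.1 (key (hle hs.1 i) h3.symm (hs.2.2 i h2)))
        (not_lt.1 (key (hle ht.1 i) h3 (ht.2.2 i h2)))
  refine Prod.ext h1 (funext fun i => ?_)
  have h3 := congrFun hall i
  simp only [h1] at h3
  omega

open Polynomial in
theorem sum_ne_zero_of_determined {L : Type} [Field L] {r : ℕ} {σ : Type} (A : Finset σ)
    (θ : Fin r → L) (hθ : Function.Injective θ) (p : Fin r) (hp : θ p ≠ 0) (e : σ → Fin r → ℕ)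
    (c : σ → L) (hA : ∃ s ∈ A, c s ≠ 0) (hdet : ∀ s ∈ A, ∀ t ∈ A, e s p = e t p → s = t) :
    ∑ s ∈ A, C (c s) * ∏ i, (1 - C (θ i) * X) ^ e s i ≠ 0 := by
  classical
  obtain ⟨s₀, hs₀, hmin⟩ := exists_min_image (A.filter fun s => c s ≠ 0) (fun s => e s p)
    (by obtain ⟨s, h1, h2⟩ := hA; exact ⟨s, mem_filter.2 ⟨h1, h2⟩⟩)
  rw [mem_filter] at hs₀
  have hfac : ∑ s ∈ A, C (c s) * ∏ i, (1 - C (θ i) * X) ^ e s i
      = (1 - C (θ p) * X) ^ e s₀ p * ∑ s ∈ A, C (c s) * ((1 - C (θ p) * X) ^ (e s p - e s₀ p)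
        * ∏ i ∈ univ.erase p, (1 - C (θ i) * X) ^ e s i) := by
    rw [mul_sum]
    refine sum_congr rfl fun s hs => ?_
    by_cases hc : c s = 0
    · simp [hc]
    · have h1 := hmin s (mem_filter.2 ⟨hs, hc⟩)
      rw [← mul_prod_erase _ _ (mem_univ p), ← Nat.add_sub_cancel' h1, pow_add,
        Nat.add_sub_cancel_left]
      ring
  rw [hfac]
  refine mul_ne_zero (pow_ne_zero _ fun h => ?_) fun h => ?_
  · have := congrArg (eval 0) h
    simp at this
  · have h1 := congrArg (eval (θ p)⁻¹) h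
    rw [eval_finsetSum, sum_eq_single s₀] at h1
    · simp only [eval_mul, eval_C, eval_pow, eval_prod, eval_sub, eval_one, eval_X, Nat.sub_self,
        pow_zero, one_mul, eval_zero] at h1
      refine mul_ne_zero hs₀.2 (prod_ne_zero_iff.2 fun i hi => pow_ne_zero _ fun h2 => ?_) h1
      apply ne_of_mem_erase hi
      apply hθ
      field_simp at h2
      rw [mul_zero, sub_eq_zero] at h2
      exact h2.symm
    · intro s hs hne
      by_cases hc : c s = 0
      · simp [hc]
      · have h2 := hmin s (mem_filter.2 ⟨hs, hc⟩)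
        have h3 : e s p - e s₀ p ≠ 0 := fun h4 => hne (hdet s hs s₀ hs₀.1 (by omega))
        simp [mul_inv_cancel₀ hp, h3]
    · intro h2
      exact absurd hs₀.1 h2

/-- The functions `∏ (1 - θ i v) ^ e i * ∏_{i ≠ i₀} u i ^ (f i + k (a - e i))` attached to the
family are linearly independent: a nontrivial combination is a nonzero polynomial in the
variables `u (ε i)`, `i ≠ i₀`, with coefficients polynomials in `v`. -/
theorem fam_relation {L : Type} [Field L] {κ : Type} [DecidableEq κ] (r a b k : ℕ) (hr : 2 ≤ r)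
    (hk : 1 ≤ k) (θ : Fin r → L) (hθ : Function.Injective θ) (ε : Fin r → κ)
    (hε : Function.Injective ε) (i₀ : Fin r) (c : fam r a b k → L) (hc : c ≠ 0) :
    ∃ F : MvPolynomial κ (Polynomial L), F ≠ 0 ∧
      (∀ m ∈ F.support, ∀ j, (j ∉ (univ.erase i₀).image ε → m j = 0) ∧ m j ≤ b + k * a) ∧
      (∀ m, (F.coeff m).natDegree ≤ b + k * a) ∧
      ∀ (u : κ → L) (v : L), MvPolynomial.eval₂ (Polynomial.evalRingHom v) u F =
        ∑ s : fam r a b k, c s * ((∏ i, (1 - θ i * v) ^ s.1.1 i) *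
          ∏ i ∈ univ.erase i₀, u (ε i) ^ (s.1.2 i + k * (a - s.1.1 i))) := by
  classical
  set mm : fam r a b k → κ →₀ ℕ := fun s =>
    ∑ i ∈ univ.erase i₀, Finsupp.single (ε i) (s.1.2 i + k * (a - s.1.1 i)) with hmm
  set q : fam r a b k → Polynomial L := fun s =>
    Polynomial.C (c s) * ∏ i, (1 - Polynomial.C (θ i) * Polynomial.X) ^ s.1.1 i with hq
  have hmm1 : ∀ s i, i ≠ i₀ → mm s (ε i) = s.1.2 i + k * (a - s.1.1 i) := by
    intro s i hi
    simp only [hmm, Finsupp.finsetSum_apply]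
    rw [sum_eq_single i]
    · simp
    · intro j _ hj
      exact Finsupp.single_eq_of_ne fun h => hj (hε h).symm
    · intro h
      exact absurd (mem_erase.2 ⟨hi, mem_univ i⟩) h
  have hmm2 : ∀ s j, j ∉ (univ.erase i₀).image ε → mm s j = 0 := by
    intro s j hj
    simp only [hmm, Finsupp.finsetSum_apply]
    exact sum_eq_zero fun i hi => Finsupp.single_eq_of_ne fun h => hj (h ▸ mem_image_of_mem ε hi)
  have hcoeff : ∀ m, (∑ s, MvPolynomial.monomial (mm s) (q s)).coeff m
      = ∑ s ∈ univ.filter fun s => mm s = m, q s := by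
    intro m
    rw [MvPolynomial.coeff_sum, sum_filter]
    simp only [MvPolynomial.coeff_monomial]
  refine ⟨∑ s, MvPolynomial.monomial (mm s) (q s), ?_, ?_, ?_, ?_⟩
  · obtain ⟨s₀, hs₀⟩ := Function.ne_iff.1 hc
    intro h0
    have h1 := hcoeff (mm s₀)
    rw [h0, MvPolynomial.coeff_zero] at h1
    obtain ⟨p, p', hp, hpq⟩ : ∃ p p' : Fin r, θ p ≠ 0 ∧
        ∀ i : Fin r, i ≠ p → i ≠ p' → 2 ≤ (i : ℕ) := by
      by_cases h : θ ⟨0, by omega⟩ = 0
      · refine ⟨⟨1, by omega⟩, ⟨0, by omega⟩, fun h' => ?_, fun i h2 h3 => ?_⟩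
        · have := hθ (h.trans h'.symm)
          simp at this
        · simp only [ne_eq, Fin.ext_iff] at h2 h3
          omega
      · refine ⟨⟨0, by omega⟩, ⟨1, by omega⟩, h, fun i h2 h3 => ?_⟩
        simp only [ne_eq, Fin.ext_iff] at h2 h3
        omega
    refine sum_ne_zero_of_determined (univ.filter fun s => mm s = mm s₀) θ hθ p hp
      (fun s : fam r a b k => s.1.1) c ⟨s₀, by simp, hs₀⟩ ?_ h1.symm
    intro s hs t ht hst
    refine Subtype.ext (fam_determined i₀ p p' hpq s.2 t.2 (fun i hi => ?_) hst)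
    rw [← hmm1 s i hi, ← hmm1 t i hi, (mem_filter.1 hs).2, (mem_filter.1 ht).2]
  · intro m hm j
    rw [MvPolynomial.mem_support_iff, hcoeff] at hm
    obtain ⟨s, hs, -⟩ := exists_ne_zero_of_sum_ne_zero hm
    rw [← (mem_filter.1 hs).2]
    refine ⟨hmm2 s j, ?_⟩
    by_cases hj : j ∈ (univ.erase i₀).image ε
    · obtain ⟨i, hi, rfl⟩ := mem_image.1 hj
      rw [hmm1 s i (ne_of_mem_erase hi)]
      have h1 : s.1.2 i ≤ b := (single_le_sum (f := s.1.2) (fun _ _ => Nat.zero_le _)
        (mem_univ i)).trans (mem_fam.1 s.2).2.1.le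
      exact add_le_add h1 (Nat.mul_le_mul_left k (Nat.sub_le _ _))
    · rw [hmm2 s j hj]; exact Nat.zero_le _
  · intro m
    rw [hcoeff]
    refine Polynomial.natDegree_sum_le_of_forall_le _ _ fun s _ => ?_
    refine (Polynomial.natDegree_C_mul_le _ _).trans ((Polynomial.natDegree_prod_le _ _).trans ?_)
    have h1 : ∀ i, ((1 - Polynomial.C (θ i) * Polynomial.X) ^ s.1.1 i).natDegree ≤ s.1.1 i := by
      intro i
      refine Polynomial.natDegree_pow_le.trans ?_
      have : (1 - Polynomial.C (θ i) * Polynomial.X : Polynomial L).natDegree ≤ 1 := by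
        compute_degree
      simpa using Nat.mul_le_mul_left (s.1.1 i) this
    refine (sum_le_sum fun i _ => h1 i).trans ?_
    rw [(mem_fam.1 s.2).1]
    nlinarith
  · intro u v
    rw [MvPolynomial.eval₂_sum]
    refine sum_congr rfl fun s _ => ?_
    simp only [hmm]
    rw [MvPolynomial.monomial_sum_index, MvPolynomial.eval₂_mul, MvPolynomial.eval₂_C,
      MvPolynomial.eval₂_prod]
    simp only [← MvPolynomial.X_pow_eq_monomial, MvPolynomial.eval₂_pow, MvPolynomial.eval₂_X, hq,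
      Polynomial.coe_evalRingHom, Polynomial.eval_mul, Polynomial.eval_C, Polynomial.eval_prod,
      Polynomial.eval_pow, Polynomial.eval_sub, Polynomial.eval_one, Polynomial.eval_X, mul_assoc]

end Vale.Agent.P018
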