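import Vale.Agent.P018.FatEmpty
import Vale.Agent.P018.Alpha

/-! Auxiliary lemmas for the count of vertices of nondegenerate triangles. -/

namespace Vale.Agent.P018

open Polynomial NumberField Finset

theorem fatCount_image {α : Type} {n : ℕ} (F : Finset α) (f : α → Fin n → ℤ) {M : ℝ} (hM : 0 ≤ M)
    (h : ∀ z ∈ F, ∀ i, |((f z i : ℤ) : ℝ)| ≤ M) : ((F.image f).card : ℝ) ≤ (2 * M + 1) ^ n := by
  have h1 : F.image f ⊆ Fintype.piFinset fun _ => Finset.Icc (-⌊M⌋) ⌊M⌋ := by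
    intro y hy
    obtain ⟨z, hz, rfl⟩ := mem_image.1 hy
    refine Fintype.mem_piFinset.2 fun i => mem_Icc.2 (abs_le.1 (Int.le_floor.2 ?_))
    simpa using h z hz i
  have h2 : (0 : ℤ) ≤ ⌊M⌋ := Int.floor_nonneg.2 hM
  have h3 : ((Finset.Icc (-⌊M⌋) ⌊M⌋).card : ℝ) ≤ 2 * M + 1 := by
    have h4 : ((Finset.Icc (-⌊M⌋) ⌊M⌋).card : ℤ) = 2 * ⌊M⌋ + 1 := by
      rw [Int.card_Icc, Int.toNat_of_nonneg (by omega)]; ring
    have h5 : ((Finset.Icc (-⌊M⌋) ⌊M⌋).card : ℝ) = 2 * (⌊M⌋ : ℝ) + 1 := by exact_mod_cast h4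
    linarith [Int.floor_le M]
  refine (Nat.cast_le.2 (card_le_card h1)).trans ?_
  rw [Fintype.card_piFinset_const, Nat.cast_pow]
  exact pow_le_pow_left₀ (Nat.cast_nonneg _) h3 n

theorem fatCount_fibre {α β : Type} [DecidableEq β] (F : Finset α) (f : α → β) {N M : ℝ}
    (hM : 0 ≤ M) (h1 : ((F.image f).card : ℝ) ≤ N)
    (h2 : ∀ F' ⊆ F, F'.Nonempty → (∀ x ∈ F', ∀ y ∈ F', f x = f y) → (F'.card : ℝ) ≤ M) :
    (F.card : ℝ) ≤ N * M := by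
  rw [card_eq_sum_card_image f F, Nat.cast_sum]
  refine (sum_le_card_nsmul _ _ M fun y hy => h2 _ (filter_subset _ _) ?_ ?_).trans ?_
  · obtain ⟨z, hz, rfl⟩ := mem_image.1 hy
    exact ⟨z, mem_filter.2 ⟨hz, rfl⟩⟩
  · intro u hu v hv
    rw [(mem_filter.1 hu).2, (mem_filter.1 hv).2]
  · rw [nsmul_eq_mul]
    exact mul_le_mul_of_nonneg_right h1 hM

theorem fatCount_small {C D B ρ : ℝ} (hB : 1 ≤ B) (hρ : 0 < ρ) (hD : 0 ≤ D)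
    (h : C * B ^ 4 * ρ ^ 3 ≤ 1) (hC : D ^ 3 ≤ C) : D * ρ ≤ 1 := by
  have h1 : 1 ≤ B ^ 4 := one_le_pow₀ hB
  have h2 : 0 ≤ C := (by positivity : 0 ≤ D ^ 3).trans hC
  have h3 : (D * ρ) ^ 3 ≤ 1 := by
    rw [mul_pow]
    refine le_trans (mul_le_mul_of_nonneg_right (hC.trans ?_) (by positivity)) h
    exact le_mul_of_one_le_right h2 h1
  exact (pow_le_one_iff_of_nonneg (by positivity) three_ne_zero).1 h3

theorem fatCount_cube {B ρ : ℝ} (hB : 1 ≤ B) (hρ : 0 < ρ) (h : B ^ 4 * ρ ^ 3 ≤ 1) :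
    B ^ 3 * ρ ^ 3 * (1 + B ^ 3 * ρ ^ 2) ^ 3 ≤ 8 * (B ^ 4 * ρ ^ 3) := by
  have h1 : ∀ s : ℝ, 0 ≤ s → (1 + s) ^ 3 ≤ 4 * (1 + s ^ 3) := fun s hs => by
    nlinarith [mul_nonneg (add_nonneg zero_le_one hs) (sq_nonneg (s - 1))]
  have h2 := mul_le_mul_of_nonneg_left (h1 (B ^ 3 * ρ ^ 2) (by positivity))
    (by positivity : 0 ≤ B ^ 3 * ρ ^ 3)
  have h3 : B ^ 3 * ρ ^ 3 ≤ B ^ 4 * ρ ^ 3 :=
    mul_le_mul_of_nonneg_right (pow_le_pow_right₀ hB (by norm_num)) (by positivity)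
  have h4 : (B ^ 4 * ρ ^ 3) ^ 3 ≤ B ^ 4 * ρ ^ 3 :=
    pow_le_of_le_one (by positivity) h three_ne_zero
  have h5 : B ^ 3 * ρ ^ 3 * (4 * (1 + (B ^ 3 * ρ ^ 2) ^ 3)) =
      4 * (B ^ 3 * ρ ^ 3) + 4 * (B ^ 4 * ρ ^ 3) ^ 3 := by ring
  linarith

/-- comparing the two sides of the identities of `sym_minor` -/
theorem fatCount_cmp {K B : ℝ} (hK : 1 ≤ K) (hB : 0 < B) {β : Fin 3 → Fin 4 → ℂ} {ξ M : ℂ}
    {i : Fin 4} (hhi : ∀ r j, ‖β r j‖ ≤ K * B) (hlo : ∀ r j, B ≤ K * ‖β r j‖)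
    (h : ξ * β 0 i * β 0 0 ^ 2 = (∏ j, β 0 j) * β 1 0 * β 2 0 * M) :
    ‖ξ‖ ≤ K ^ 9 * B ^ 3 * ‖M‖ := by
  have h1 := congrArg norm h
  simp only [norm_mul, norm_pow, norm_prod] at h1
  have h2 : ∏ j, ‖β 0 j‖ ≤ (K * B) ^ 4 := by
    simpa using prod_le_prod (fun j (_ : j ∈ univ) => norm_nonneg (β 0 j)) fun j _ => hhi 0 j
  have h3 : (∏ j, ‖β 0 j‖) * ‖β 1 0‖ * ‖β 2 0‖ * ‖M‖ ≤ (K * B) ^ 4 * (K * B) * (K * B) * ‖M‖ := by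
    have := hhi 1 0
    have := hhi 2 0
    gcongr
  have h4 : ‖ξ‖ * B * B ^ 2 ≤ ‖ξ‖ * (K * ‖β 0 i‖) * (K * ‖β 0 0‖) ^ 2 := by
    have := hlo 0 i
    have := hlo 0 0
    gcongr
  have h5 : ‖ξ‖ * (K * ‖β 0 i‖) * (K * ‖β 0 0‖) ^ 2 = K ^ 3 * (‖ξ‖ * ‖β 0 i‖ * ‖β 0 0‖ ^ 2) := by
    ring
  rw [h5, h1] at h4
  have h6 := mul_le_mul_of_nonneg_left h3 (by positivity : 0 ≤ K ^ 3)
  refine le_of_mul_le_mul_right ?_ (pow_pos hB 3)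
  nlinarith

theorem fatCount_ratio {η : ℝ} (hη : η ≤ 1 / 2) {p q p' q' : ℂ} (hp : ‖p - 1‖ ≤ η)
    (hq : ‖q - 1‖ ≤ η) (hp' : ‖p' - 1‖ ≤ η) (hq' : ‖q' - 1‖ ≤ η) :
    ‖p * q' - q * p'‖ ≤ 24 * η * ‖q * p'‖ := by
  have h0 : 0 ≤ η := (norm_nonneg _).trans hp
  have lo : ∀ u : ℂ, ‖u - 1‖ ≤ η → 1 / 2 ≤ ‖u‖ ∧ ‖u‖ ≤ 3 / 2 := fun u hu => by
    have h1 := norm_sub_norm_le u 1
    have h2 := norm_sub_norm_le 1 u
    rw [norm_sub_rev] at h2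
    rw [norm_one] at h1 h2
    constructor <;> linarith
  have df : ∀ u v : ℂ, ‖u - 1‖ ≤ η → ‖v - 1‖ ≤ η → ‖u - v‖ ≤ 2 * η := fun u v hu hv => by
    have := norm_sub_le (u - 1) (v - 1)
    rw [sub_sub_sub_cancel_right] at this
    linarith
  have h1 : p * q' - q * p' = (p - q) * q' + q * (q' - p') := by ring
  have h2 := norm_add_le ((p - q) * q') (q * (q' - p'))
  rw [norm_mul, norm_mul] at h2
  have h3 := mul_le_mul (df p q hp hq) (lo q' hq').2 (norm_nonneg _) (by linarith)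
  have h4 := mul_le_mul (lo q hq).2 (df q' p' hq' hp') (norm_nonneg _) (by norm_num)
  have h5 := mul_le_mul (lo q hq).1 (lo p' hp').1 (by norm_num) (norm_nonneg _)
  rw [h1, norm_mul]
  nlinarith

variable {L : Type} [Field L] [NumberField L] {g : ℤ[X]} {θ : Fin 4 → 𝓞 L} {K X B : ℝ}
  {S : Finset ℤ} {a b : ℤ → Fin 4 → ℤ} {c : ℤ}

theorem fatCount_xi (h : Cfg θ 2 K X B S a b c) {r : ℝ} (hr : 0 ≤ r) (n : Fin 3 → ℤ)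
    (hn : ∀ s, n s ∈ S) (hcl : ∀ s, Close r (vec θ (b (n 0))) (vec θ (b (n s))))
    (σ : L →+* ℂ) (i : Fin 4) :
    ‖σ (xi (vec θ (b (n 0))) (vec θ (b (n 1))) (vec θ (b (n 2))) i)‖ ≤
      6 * K ^ 7 * (B ^ 3 * r ^ 2) := by
  have hK := h.one_le_K
  have hB := h.one_le_B
  rw [map_xi]
  refine (xi_norm_le r (K * B) (B / K) hr (by positivity) (fun s j => σ (vec θ (b (n s)) j))
    (fun s j => h.b_hi _ (hn s) σ j) (fun s j => ?_) (fun s i j => ?_) i).trans (le_of_eq ?_)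
  · rw [div_le_iff₀' (by linarith)]
    exact h.b_lo _ (hn s) σ j
  · simpa using hcl s σ i j
  · field_simp

theorem fatCount_det (hθ : Roots g θ) (h : Cfg θ 2 K X B S a b c) {r : ℝ} (hr : 0 ≤ r)
    (n : Fin 4 → ℤ) (hn : ∀ s, n s ∈ S) (hcl : ∀ s, Close r (vec θ (b (n 0))) (vec θ (b (n s))))
    (hs : 24 * K ^ 10 * (B ^ 4 * r ^ 3) < 1) :
    (Matrix.of ![b (n 0), b (n 1), b (n 2), b (n 3)]).det = 0 := by
  have hK := h.one_le_K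
  have hB := h.one_le_B
  have h1 : (Matrix.of fun s j => bev (b (n s)) (θ j)).det = 0 := by
    refine eq_zero_of_em_lt _ fun σ => ?_
    rw [RingHom.map_det]
    refine lt_of_le_of_lt ((det_four_le r (K * B) (B / K) hr (by positivity)
      (fun s j => σ (vec θ (b (n s)) j)) (fun s j => h.b_hi _ (hn s) σ j) (fun s j => ?_)
      (fun s i j => ?_)).trans (le_of_eq ?_)) hs
    · rw [div_le_iff₀' (by linarith)]
      exact h.b_lo _ (hn s) σ j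
    · simpa using hcl s σ i j
    · field_simp
  have h2 := congrArg (algebraMap (𝓞 L) L) h1
  rw [RingHom.map_det, map_zero] at h2
  have h3 : (algebraMap (𝓞 L) L).mapMatrix (Matrix.of fun s j => bev (b (n s)) (θ j)) =
      Matrix.of ![vec θ (b (n 0)), vec θ (b (n 1)), vec θ (b (n 2)), vec θ (b (n 3))] := by
    ext s j
    fin_cases s <;> rfl
  rw [h3, det_vec] at h2
  refine Int.cast_eq_zero.1 ((mul_eq_zero.1 h2).resolve_right ?_)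
  exact Matrix.det_vandermonde_ne_zero_iff.2 (RingOfIntegers.coe_injective.comp hθ.inj)

theorem fatCount_sym (K : ℝ) (hK : 1 ≤ K) : ∃ C : ℝ, 1 ≤ C ∧ ∀ (X B : ℝ) (S : Finset ℤ)
    (a b : ℤ → Fin 4 → ℤ) (c : ℤ) (ρ : ℝ), Cfg θ 2 K X B S a b c → 0 < ρ → 1 ≤ X * ρ ^ 2 →
    C * ρ ≤ 1 → ∀ n : Fin 3 → ℤ, (∀ s, n s ∈ S) →
    (∀ s, Close ρ (vec θ (b (n 0))) (vec θ (b (n s)))) → ∀ σ : L →+* ℂ,
    ∃ (Mα Mβ : Fin 4 → ℂ) (u u' : ℂ), u' ≠ 0 ∧ ∀ i,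
      σ (xi (vec θ (b (n 0))) (vec θ (b (n 1))) (vec θ (b (n 2))) i) * σ (vec θ (b (n 0)) i) =
        u * Mβ i ∧
      σ (xi (vec θ (a (n 0))) (vec θ (a (n 1))) (vec θ (a (n 2))) i) * σ (vec θ (a (n 0)) i) =
        u' * Mα i ∧
      ‖σ (xi (vec θ (b (n 0))) (vec θ (b (n 1))) (vec θ (b (n 2))) i)‖ ≤ K ^ 9 * B ^ 3 * ‖Mβ i‖ ∧
      ‖σ (xi (vec θ (a (n 0))) (vec θ (a (n 1))) (vec θ (a (n 2))) i)‖ ≤
        K ^ 9 * C * ((X / B ^ 2) ^ 3 * ρ ^ 2) ∧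
      ‖Mα i - 4 * Mβ i‖ ≤ C * ρ ^ 3 := by
  obtain ⟨C, hC, H⟩ := sym_minor K hK
  refine ⟨C, hC, fun X B S a b c ρ h hρ hX hs n hn hcl σ => ?_⟩
  have hB := h.one_le_B
  have hX1 := h.one_le_X
  have ha : ∀ s j, σ (vec θ (a (n s)) j) ≠ 0 := fun s j => (map_ne_zero σ).2 (h.a_ne (hn s) j)
  have hb : ∀ s j, σ (vec θ (b (n s)) j) ≠ 0 := fun s j => (map_ne_zero σ).2 (h.b_ne (hn s) j)
  obtain ⟨Mα, Mβ, hM⟩ := H X ρ (fun i => σ (θ i : L)) ((c : ℂ) ^ 2) (fun s => (n s : ℂ))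
    (fun s j => σ (vec θ (a (n s)) j)) (fun s j => σ (vec θ (b (n s)) j)) hρ hs hX
    (h.th_le σ) (fun s => by simpa using h.x_lo _ (hn s))
    (pow_ne_zero _ (Int.cast_ne_zero.2 h.c_ne)) hb
    (fun s i => by simpa using congrArg σ (h.eqnL (hn s) i))
    (fun s i j => by simpa using hcl s σ i j)
  refine ⟨Mα, Mβ, (∏ j, σ (vec θ (b (n 0)) j)) * σ (vec θ (b (n 1)) 0) * σ (vec θ (b (n 2)) 0) /
    σ (vec θ (b (n 0)) 0) ^ 2, (∏ j, σ (vec θ (a (n 0)) j)) * σ (vec θ (a (n 1)) 0) *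
      σ (vec θ (a (n 2)) 0) / σ (vec θ (a (n 0)) 0) ^ 2, ?_, fun i => ?_⟩
  · exact div_ne_zero (mul_ne_zero (mul_ne_zero (prod_ne_zero_iff.2 fun j _ => ha 0 j) (ha 1 0))
      (ha 2 0)) (pow_ne_zero _ (ha 0 0))
  obtain ⟨h1, h2, -, h4, h5⟩ := hM i
  rw [map_xi, map_xi]
  refine ⟨?_, ?_, fatCount_cmp hK (by linarith) (fun s j => h.b_hi _ (hn s) σ j)
    (fun s j => h.b_lo _ (hn s) σ j) h1, ?_, h5⟩
  · rw [div_mul_eq_mul_div, eq_div_iff (pow_ne_zero _ (hb 0 0))]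
    exact h1
  · rw [div_mul_eq_mul_div, eq_div_iff (pow_ne_zero _ (ha 0 0))]
    exact h2
  · refine (fatCount_cmp hK (by positivity) (fun s j => h.a_hi _ (hn s) σ j)
      (fun s j => h.a_lo _ (hn s) σ j) h2).trans ?_
    calc K ^ 9 * (X / B ^ 2) ^ 3 * ‖Mα i‖ ≤ K ^ 9 * (X / B ^ 2) ^ 3 * (C * ρ ^ 2) := by gcongr
      _ = _ := by ring

theorem fatCount_alg {ξ ξ' α β u u' Mα Mβ m n t : ℂ} {D E : ℝ} (h1 : ξ * β = u * Mβ)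
    (h2 : ξ' * α = u' * Mα) (h3 : α * β ^ 2 = m * (n - t)) (hu : u ≠ 0) (hm : m ≠ 0) (hn : n ≠ 0)
    (hM : Mβ ≠ 0) (hD : ‖Mα - 4 * Mβ‖ ≤ D * ‖4 * Mβ‖) (hD' : D ≤ 1 / 2) (hE : ‖t‖ ≤ E * ‖n‖) :
    Mα ≠ 0 ∧ ∃ e : ℂ, β ^ 3 * ξ * (4 * u' / (u * m * n)) = ξ' * e ∧ ‖e - 1‖ ≤ 2 * (D + E) := by
  have h4 : 0 < ‖4 * Mβ‖ := norm_pos_iff.2 (mul_ne_zero (by norm_num) hM)
  have h5 : ‖4 * Mβ‖ ≤ 2 * ‖Mα‖ := by
    have h6 := norm_sub_norm_le (4 * Mβ) Mα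
    rw [norm_sub_rev] at h6
    nlinarith
  have h6 : Mα ≠ 0 := norm_pos_iff.1 (by linarith)
  have h7 : 0 < ‖n‖ := norm_pos_iff.2 hn
  have hD0 : 0 ≤ D := nonneg_of_mul_nonneg_left ((norm_nonneg _).trans hD) h4
  have hE0 : 0 ≤ E := nonneg_of_mul_nonneg_left ((norm_nonneg _).trans hE) h7
  refine ⟨h6, (n - t) * (4 * Mβ) / (n * Mα), ?_, ?_⟩
  · field_simp
    linear_combination (β ^ 2 * u' * Mα) * h1 - (β ^ 2 * u * Mβ) * h2 + (ξ' * u * Mβ) * h3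
  · have h8 : (n - t) * (4 * Mβ) / (n * Mα) - 1 =
        (-(n * (Mα - 4 * Mβ)) - t * (4 * Mβ)) / (n * Mα) := by
      field_simp
      ring
    rw [h8, norm_div, div_le_iff₀ (norm_pos_iff.2 (mul_ne_zero hn h6))]
    refine (norm_sub_le _ _).trans ?_
    rw [norm_neg, norm_mul n, norm_mul t, norm_mul n]
    have h9 := mul_le_mul_of_nonneg_left hD h7.le
    have h10 := mul_le_mul_of_nonneg_right hE h4.le
    have h11 := mul_le_mul_of_nonneg_left h5 (mul_nonneg (add_nonneg hD0 hE0) h7.le)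
    nlinarith

theorem fatCount_triple (hθ : GalRoots g θ) (K : ℝ) (hK : 1 ≤ K) : ∃ C : ℝ, 1 ≤ C ∧
    ∀ (X B : ℝ) (S : Finset ℤ) (a b : ℤ → Fin 4 → ℤ) (c : ℤ) (ρ : ℝ), Cfg θ 2 K X B S a b c →
    0 < ρ → 1 ≤ X * ρ ^ 2 → C * B ^ 4 * ρ ^ 3 ≤ 1 → ∃ η : ℝ, η ≤ 1 / 2 ∧
    24 * η ≤ C * ρ * (1 + B ^ 3 * ρ ^ 2) ^ 4 ∧ ∀ n : Fin 3 → ℤ, (∀ s, n s ∈ S) →
    (∀ s, Close ρ (vec θ (b (n 0))) (vec θ (b (n s)))) →
    xi (b (n 0)) (b (n 1)) (b (n 2)) ≠ 0 → ∀ σ : L →+* ℂ, ∃ (w : ℂ) (e : Fin 4 → ℂ), w ≠ 0 ∧ ∀ i,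
      σ (xi (vec θ (b (n 0))) (vec θ (b (n 1))) (vec θ (b (n 2))) i) ≠ 0 ∧
      σ (vec θ (b (n 0)) i) ^ 3 *
        σ (xi (vec θ (b (n 0))) (vec θ (b (n 1))) (vec θ (b (n 2))) i) * w =
        σ (xi (vec θ (a (n 0))) (vec θ (a (n 1))) (vec θ (a (n 2))) i) * e i ∧ ‖e i - 1‖ ≤ η := by
  obtain ⟨C, hC, H⟩ := fatCount_sym (θ := θ) K hK
  obtain ⟨Q, hQ⟩ : ∃ Q, Q = 54 * K ^ 30 * C := ⟨_, rfl⟩
  have hQ0 : 0 ≤ Q := by rw [hQ]; positivity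
  have hC3 : 1 ≤ C ^ 3 := one_le_pow₀ hC
  have hK2 : 1 ≤ K ^ 2 := one_le_pow₀ hK
  have hK3 : 0 ≤ (8 * K ^ 2) ^ 3 := by positivity
  refine ⟨C ^ 3 + (8 * K ^ 2) ^ 3 + 64 * Q + 48 * K ^ 2, by linarith,
    fun X B S a b c ρ h hρ hX hs => ?_⟩
  have hB := h.one_le_B
  have hX1 := h.one_le_X
  obtain ⟨T, hT⟩ : ∃ T, T = 1 + B ^ 3 * ρ ^ 2 := ⟨_, rfl⟩
  have hs0 : 0 ≤ B ^ 3 * ρ ^ 2 := by positivity
  have hT1 : 1 ≤ T := by linarith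
  have hρ1 : C * ρ ≤ 1 := fatCount_small hB hρ (by linarith) hs (by linarith)
  have hρ2 : 8 * K ^ 2 * ρ ≤ 1 := fatCount_small hB hρ (by positivity) hs (by linarith)
  have hρ3 : ρ ≤ 1 := by nlinarith
  have hp : 0 ≤ B ^ 4 * ρ ^ 3 := by positivity
  rw [mul_assoc] at hs
  have hp1 : B ^ 4 * ρ ^ 3 ≤ 1 := by nlinarith
  have hp2 : 64 * Q * (B ^ 4 * ρ ^ 3) ≤ 1 := by nlinarith
  have hD : Q * (B ^ 3 * ρ ^ 3 * T ^ 3) ≤ 1 / 8 := by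
    have := mul_le_mul_of_nonneg_left (fatCount_cube hB hρ hp1) hQ0
    rw [← hT] at this
    linarith
  have hE : K ^ 2 * ρ ^ 2 ≤ 1 / 8 := by nlinarith
  rw [← hT]
  refine ⟨2 * (Q * (B ^ 3 * ρ ^ 3 * T ^ 3) + K ^ 2 * ρ ^ 2), by linarith, ?_,
    fun n hn hcl hne σ => ?_⟩
  · have h1 : B ^ 3 * ρ ^ 3 * T ^ 3 ≤ ρ * T ^ 4 := by
      have : B ^ 3 * ρ ^ 2 * (ρ * T ^ 3) ≤ T * (ρ * T ^ 3) :=
        mul_le_mul_of_nonneg_right (by linarith) (by positivity)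
      linarith
    have h2 : ρ ^ 2 ≤ ρ * T ^ 4 := by
      have : 1 ≤ T ^ 4 := one_le_pow₀ hT1
      nlinarith
    have h3 := mul_le_mul_of_nonneg_left h1 hQ0
    have h4 := mul_le_mul_of_nonneg_left h2 (by positivity : 0 ≤ K ^ 2)
    have h5 : 0 ≤ ρ * T ^ 4 := by positivity
    rw [mul_assoc _ ρ]
    nlinarith
  obtain ⟨Mα, Mβ, u, u', hu', hM⟩ := H X B S a b c ρ h hρ hX hρ1 n hn hcl σ
  have hlo := xi_lower hθ _ _ _ hne σ (6 * K ^ 7 * T) fun i =>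
    (fatCount_xi h hρ.le n hn hcl σ i).trans
      (mul_le_mul_of_nonneg_left (by linarith) (by positivity))
  have hξ : ∀ i, σ (xi (vec θ (b (n 0))) (vec θ (b (n 1))) (vec θ (b (n 2))) i) ≠ 0 := fun i h0 => by
    have := hlo i
    rw [h0, norm_zero, zero_mul] at this
    linarith
  have hb : ∀ j, σ (vec θ (b (n 0)) j) ≠ 0 := fun j => (map_ne_zero σ).2 (h.b_ne (hn 0) j)
  have huM : ∀ i, u * Mβ i ≠ 0 := fun i => (hM i).1 ▸ mul_ne_zero (hξ i) (hb i)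
  have hu : u ≠ 0 := left_ne_zero_of_mul (huM 0)
  have hx := h.x_lo _ (hn 0)
  have hn0 : ((n 0 : ℤ) : ℂ) ≠ 0 := by
    intro h0
    rw [Int.cast_eq_zero.1 h0] at hx
    simp at hx
    linarith
  have hc : (c : ℂ) ^ 2 ≠ 0 := pow_ne_zero _ (Int.cast_ne_zero.2 h.c_ne)
  have key := fun i => fatCount_alg (D := Q * (B ^ 3 * ρ ^ 3 * T ^ 3)) (E := K ^ 2 * ρ ^ 2)
    (m := (c : ℂ) ^ 2) (n := (n 0 : ℂ)) (t := σ (θ i : L)) (hM i).1 (hM i).2.1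
    (by simpa using congrArg σ (h.eqnL (hn 0) i)) hu hc hn0 (right_ne_zero_of_mul (huM i))
    (by
      refine (hM i).2.2.2.2.trans ?_
      have h1 := (hlo i).trans (mul_le_mul_of_nonneg_right (hM i).2.2.1 (by positivity))
      have h2 := mul_le_mul_of_nonneg_left h1 (by positivity : 0 ≤ C * ρ ^ 3)
      rw [norm_mul, Complex.norm_ofNat, hQ]
      linarith)
    (by linarith)
    (by
      refine (h.th_le σ i).trans ?_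
      rw [Complex.norm_intCast]
      have h1 := mul_le_mul_of_nonneg_right hx (by positivity : 0 ≤ K * ρ ^ 2)
      nlinarith)
  choose e he1 he2 using fun i => (key i).2
  exact ⟨_, e, div_ne_zero (mul_ne_zero (by norm_num) hu')
    (mul_ne_zero (mul_ne_zero hu hc) hn0), fun i => ⟨hξ i, he1 i, he2 i⟩⟩

end Vale.Agent.P018
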