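import Vale.Agent.P018.Sym

/-!
Nondegenerate triangles do not exist in small cells, and the data attached to a triangle.

Throughout `β = vec θ (b x)`, `α = vec θ (a x)`, `A = X / B ^ 2`, and
`xi (vec θ u) (vec θ v) (vec θ w) i` is the image in `L` of the algebraic integer
`xi (fun j => bev u (θ j)) (fun j => bev v (θ j)) (fun j => bev w (θ j)) i` (`map_xi` with
`algebraMap (𝓞 L) L`); so it vanishes if all its conjugates have absolute value `< 1`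
(`eq_zero_of_em_lt`). Apply `map_xi` with `σ : L →+* ℂ` to use the lemmas of Sym.lean with
`m = σ c ^ 2`, `n r = x r`, `Cfg.eqnL`, and the size bounds `b_hi, b_lo, a_hi, a_lo`.

`not_fat_one`: `xi_norm_le` gives `‖σ ξ i‖ ≤ 6 ρ ^ 2 (K B) ^ 5 / (B / K) ^ 2 < 1`; then
`xi_vec_eq_zero_iff`.
`not_fat_two`: by `sym_minor` `‖σ ξ' i‖ ≤ C A ^ 3 ρ ^ 2 < 1` for the cofactors `ξ'` of the `α`s, so
`ξ' = 0`, so `Mα = 0`, `‖Mβ‖ ≤ C ρ ^ 3`, and `‖σ ξ i‖ ≤ C B ^ 3 ρ ^ 3 < 1`.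
`alpha_flat`: the same with the roles exchanged: `ξ = 0` gives `Mβ = 0`, `‖Mα‖ ≤ C ρ ^ 3`.
`xi_lower` (Liouville): if `xi u v w ≠ 0` then some `ξ i ≠ 0` (`xi_vec_eq_zero_iff`); an
automorphism `τ` with `τ (θ i) = θ j` (`GalRoots.trans`, `GalRoots.perm`) maps `vec θ u m` to
`vec θ u (π m)` (`vec_eq`), so `τ (ξ i) = ± ξ (π i)` (`map_xi`, `xi_perm`) and `π i = j`; hence all
`ξ j ≠ 0`. The product `Z = ∏ j, ξ j` is a nonzero algebraic integer, so `1 ≤ ‖σ' Z‖` for some `σ'`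
(`NumberField.exists_conjugate_one_le_norm`), and `‖σ Z‖ = ‖σ' Z‖` by `GalRoots.emb`, `xi_perm`,
`Equiv.prod_comp`. So `1 ≤ ‖σ ξ i‖ * T ^ 3`.
-/

namespace Vale.Agent.P018

open Polynomial NumberField Finset

variable {L : Type} [Field L] [NumberField L] {g : ℤ[X]} {θ : Fin 4 → 𝓞 L}

omit [NumberField L] in
theorem fatEmpty_coe (θ : Fin 4 → 𝓞 L) (u v w : Fin 4 → ℤ) (i : Fin 4) :
    algebraMap (𝓞 L) L (xi (fun j => bev u (θ j)) (fun j => bev v (θ j)) (fun j => bev w (θ j)) i)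
      = xi (vec θ u) (vec θ v) (vec θ w) i := map_xi _ _ _ _ i

theorem fatEmpty_zero (hθ : Roots g θ) {u v w : Fin 4 → ℤ}
    (h : ∀ (σ : L →+* ℂ) i, ‖σ (xi (vec θ u) (vec θ v) (vec θ w) i)‖ < 1) : xi u v w = 0 := by
  refine (xi_vec_eq_zero_iff hθ u v w).mp (funext fun i => ?_)
  simp only [← fatEmpty_coe] at h
  rw [← fatEmpty_coe, eq_zero_of_em_lt _ fun σ => h σ i, map_zero, Pi.zero_apply]

omit [NumberField L] in
theorem fatEmpty_close {ρ : ℝ} (hρ : 0 ≤ ρ) {b : ℤ → Fin 4 → ℤ} {x x' x'' : ℤ}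
    (h' : Close ρ (vec θ (b x)) (vec θ (b x'))) (h'' : Close ρ (vec θ (b x)) (vec θ (b x'')))
    (σ : L →+* ℂ) (r : Fin 3) (i j : Fin 4) :
    ‖σ (vec θ (b x) i) * σ (vec θ (b (![x, x', x''] r)) j)
      - σ (vec θ (b x) j) * σ (vec θ (b (![x, x', x''] r)) i)‖
      ≤ ρ * ‖σ (vec θ (b x) j) * σ (vec θ (b (![x, x', x''] r)) i)‖ := by
  have h : Close ρ (vec θ (b x)) (vec θ (b (![x, x', x''] r))) := by
    fin_cases r
    exacts [Close.refl hρ _, h', h'']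
  simpa only [map_sub, map_mul] using h σ i j

theorem fatEmpty_mem {S : Finset ℤ} {x x' x'' : ℤ} (h : x ∈ S) (h' : x' ∈ S) (h'' : x'' ∈ S)
    (r : Fin 3) : ![x, x', x''] r ∈ S := by
  fin_cases r
  exacts [h, h', h'']

theorem fatEmpty_lo {K B t : ℝ} (hK : 1 ≤ K) (h : B ≤ K * t) : B / K ≤ t := by
  rw [div_le_iff₀ (by linarith)]; linarith

theorem fatEmpty_pow {K B : ℝ} (hK : 1 ≤ K) (hB : 0 < B) (T : ℝ) :
    T * (K * B) ^ 5 / (B / K) ^ 2 = K ^ 7 * B ^ 3 * T := by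
  have : 0 < K := by linarith
  field_simp

omit [NumberField L] in
theorem fatEmpty_key (θ : Fin 4 → 𝓞 L) (K : ℝ) : ∃ C : ℝ, 1 ≤ C ∧ ∀ (X B : ℝ) (S : Finset ℤ)
    (a b : ℤ → Fin 4 → ℤ) (c : ℤ) (ρ : ℝ), Cfg θ 2 K X B S a b c → 0 < ρ → 1 ≤ X * ρ ^ 2 →
    C * ρ ≤ 1 → ∀ x ∈ S, ∀ x' ∈ S, ∀ x'' ∈ S,
    Close ρ (vec θ (b x)) (vec θ (b x')) → Close ρ (vec θ (b x)) (vec θ (b x'')) →
    ∀ (σ : L →+* ℂ) (i : Fin 4),
      ‖σ (xi (vec θ (a x)) (vec θ (a x')) (vec θ (a x'')) i)‖ ≤ C * (X / B ^ 2) ^ 3 * ρ ^ 2 ∧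
      (xi (vec θ (a x)) (vec θ (a x')) (vec θ (a x'')) i = 0 →
        ‖σ (xi (vec θ (b x)) (vec θ (b x')) (vec θ (b x'')) i)‖ ≤ C * (B * ρ) ^ 3) ∧
      (xi (vec θ (b x)) (vec θ (b x')) (vec θ (b x'')) i = 0 →
        ‖σ (xi (vec θ (a x)) (vec θ (a x')) (vec θ (a x'')) i)‖ ≤ C * (X / B ^ 2 * ρ) ^ 3) := by
  by_cases hK : 1 ≤ K
  swap
  · exact ⟨1, le_rfl, fun X B S a b c ρ h => absurd h.one_le_K hK⟩
  obtain ⟨C, hC, hs⟩ := sym_minor K hK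
  have hK7 : 1 ≤ K ^ 7 := one_le_pow₀ hK
  refine ⟨K ^ 7 * C, one_le_mul_of_one_le_of_one_le hK7 hC,
    fun X B S a b c ρ h hρ hX hCρ x hx x' hx' x'' hx'' h' h'' σ i => ?_⟩
  have hm := fatEmpty_mem hx hx' hx''
  have hB : 0 < B := by linarith [h.one_le_B]
  have hA : 0 < X / B ^ 2 := div_pos (by linarith [h.one_le_X]) (by positivity)
  have hK0 : 0 < K := by linarith
  set α : Fin 3 → Fin 4 → ℂ := fun r i => σ (vec θ (a (![x, x', x''] r)) i) with hα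
  set β : Fin 3 → Fin 4 → ℂ := fun r i => σ (vec θ (b (![x, x', x''] r)) i) with hβ
  have hαlo : ∀ r i, X / B ^ 2 / K ≤ ‖α r i‖ := fun r i => fatEmpty_lo hK (h.a_lo _ (hm r) σ i)
  have hβlo : ∀ r i, B / K ≤ ‖β r i‖ := fun r i => fatEmpty_lo hK (h.b_lo _ (hm r) σ i)
  have hαhi : ∀ r i, ‖α r i‖ ≤ K * (X / B ^ 2) := fun r i => h.a_hi _ (hm r) σ i
  have hβhi : ∀ r i, ‖β r i‖ ≤ K * B := fun r i => h.b_hi _ (hm r) σ i
  have hαne : ∀ r i, α r i ≠ 0 := fun r i =>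
    norm_pos_iff.mp ((div_pos hA hK0).trans_le (hαlo r i))
  have hβne : ∀ r i, β r i ≠ 0 := fun r i =>
    norm_pos_iff.mp ((div_pos hB hK0).trans_le (hβlo r i))
  obtain ⟨Mα, Mβ, hM⟩ := hs X ρ (fun j => σ (θ j : L)) ((c : ℂ) ^ 2)
    (fun r => (![x, x', x''] r : ℤ)) α β hρ (by nlinarith [mul_pos (by linarith : 0 < C) hρ]) hX
    (h.th_le σ) (fun r => by rw [Complex.norm_intCast]; exact h.x_lo _ (hm r))
    (pow_ne_zero _ (Int.cast_ne_zero.mpr h.c_ne)) hβne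
    (fun r i => by
      have h1 := congrArg (em σ) (h.eqn _ (hm r) i)
      simp only [map_mul, map_pow, map_sub, map_intCast] at h1
      exact h1)
    (fatEmpty_close hρ.le h' h'' σ)
  obtain ⟨e1, e2, -, e4, e5⟩ := hM i
  have f1 : σ (xi (vec θ (a x)) (vec θ (a x')) (vec θ (a x'')) i) = xi (α 0) (α 1) (α 2) i :=
    map_xi σ _ _ _ i
  have f2 : σ (xi (vec θ (b x)) (vec θ (b x')) (vec θ (b x'')) i) = xi (β 0) (β 1) (β 2) i :=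
    map_xi σ _ _ _ i
  refine ⟨?_, fun h0 => ?_, fun h0 => ?_⟩
  · rw [f1]
    refine (sym_bound (div_pos hA hK0) hαhi hαlo e2 e4).trans (le_of_eq ?_)
    rw [fatEmpty_pow hK hA]; ring
  · rw [h0, map_zero] at f1
    rw [← f1, zero_mul, zero_mul] at e2
    have h1 : Mα i = 0 := (mul_eq_zero.mp e2.symm).resolve_left (mul_ne_zero (mul_ne_zero
      (prod_ne_zero_iff.mpr fun j _ => hαne 0 j) (hαne 1 0)) (hαne 2 0))
    rw [h1, zero_sub, norm_neg, norm_mul, Complex.norm_ofNat] at e5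
    have h2 : ‖Mβ i‖ ≤ C * ρ ^ 3 := by linarith [norm_nonneg (Mβ i)]
    rw [f2]
    refine (sym_bound (div_pos hB hK0) hβhi hβlo e1 h2).trans (le_of_eq ?_)
    rw [fatEmpty_pow hK hB]; ring
  · rw [h0, map_zero] at f2
    rw [← f2, zero_mul, zero_mul] at e1
    have h1 : Mβ i = 0 := (mul_eq_zero.mp e1.symm).resolve_left (mul_ne_zero (mul_ne_zero
      (prod_ne_zero_iff.mpr fun j _ => hβne 0 j) (hβne 1 0)) (hβne 2 0))
    rw [h1, mul_zero, sub_zero] at e5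
    rw [f1]
    refine (sym_bound (div_pos hA hK0) hαhi hαlo e2 e5).trans (le_of_eq ?_)
    rw [fatEmpty_pow hK hA]; ring

theorem fatEmpty_cube {C t : ℝ} (hC : 1 ≤ C) (ht : 0 ≤ t) (h : 2 * C * t ≤ 1) : C * t ^ 3 < 1 := by
  have h1 : t ≤ 1 := by nlinarith
  have h2 : t ^ 2 ≤ 1 := pow_le_one₀ ht h1
  have h3 : 0 ≤ C * t := by positivity
  nlinarith

theorem not_fat_one (hθ : Roots g θ) (K : ℝ) : ∃ C : ℝ, 1 ≤ C ∧ ∀ (X B : ℝ) (S : Finset ℤ)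
    (a b : ℤ → Fin 4 → ℤ) (c : ℤ) (ρ : ℝ), Cfg θ 2 K X B S a b c → 0 ≤ ρ →
    C * B ^ 3 * ρ ^ 2 < 1 → ∀ x ∈ S, ¬ Fat θ S b ρ x := by
  by_cases hK : 1 ≤ K
  swap
  · exact ⟨1, le_rfl, fun X B S a b c ρ h => absurd h.one_le_K hK⟩
  have hK7 : 1 ≤ K ^ 7 := one_le_pow₀ hK
  refine ⟨6 * K ^ 7, by linarith, fun X B S a b c ρ h hρ hC x hx ⟨x', hx', x'', hx'', h', h'', hne⟩ =>
    hne (fatEmpty_zero hθ fun σ i => ?_)⟩
  have hm := fatEmpty_mem hx hx' hx''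
  have hB : 0 < B := by linarith [h.one_le_B]
  have h1 := xi_norm_le ρ (K * B) (B / K) hρ (div_pos hB (by linarith))
    (fun r i => σ (vec θ (b (![x, x', x''] r)) i)) (fun r i => h.b_hi _ (hm r) σ i)
    (fun r i => fatEmpty_lo hK (h.b_lo _ (hm r) σ i)) (fatEmpty_close hρ h' h'' σ) i
  rw [fatEmpty_pow hK hB] at h1
  rw [map_xi]
  exact lt_of_le_of_lt h1 (by linarith)

theorem not_fat_two (hθ : Roots g θ) (K : ℝ) : ∃ C : ℝ, 1 ≤ C ∧ ∀ (X B : ℝ) (S : Finset ℤ)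
    (a b : ℤ → Fin 4 → ℤ) (c : ℤ) (ρ : ℝ), Cfg θ 2 K X B S a b c → 0 < ρ → 1 ≤ X * ρ ^ 2 →
    C * (X / B ^ 2) ^ 3 * ρ ^ 2 < 1 → C * B * ρ ≤ 1 → ∀ x ∈ S, ¬ Fat θ S b ρ x := by
  obtain ⟨C, hC, hk⟩ := fatEmpty_key θ K
  refine ⟨2 * C, by linarith,
    fun X B S a b c ρ h hρ hX h1 h2 x hx ⟨x', hx', x'', hx'', h', h'', hne⟩ => ?_⟩
  have hB := h.one_le_B
  have hCρ : 0 < C * ρ := by positivity
  have hA : 0 < X / B ^ 2 := div_pos (by linarith [h.one_le_X]) (by positivity)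
  have h3 := hk X B S a b c ρ h hρ hX (by nlinarith) x hx x' hx' x'' hx'' h' h''
  have h4 : 0 ≤ C * (X / B ^ 2) ^ 3 * ρ ^ 2 := by positivity
  have h5 := (xi_vec_eq_zero_iff hθ _ _ _).mpr
    (fatEmpty_zero hθ fun σ i => (h3 σ i).1.trans_lt (by linarith))
  exact hne (fatEmpty_zero hθ fun σ i => ((h3 σ i).2.1 (congrFun h5 i)).trans_lt
    (fatEmpty_cube hC (by positivity) (by linarith)))

theorem alpha_flat (hθ : Roots g θ) (K : ℝ) : ∃ C : ℝ, 1 ≤ C ∧ ∀ (X B : ℝ) (S : Finset ℤ)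
    (a b : ℤ → Fin 4 → ℤ) (c : ℤ) (ρ : ℝ), Cfg θ 2 K X B S a b c → 0 < ρ → 1 ≤ X * ρ ^ 2 →
    C * ρ ≤ 1 → C * (X / B ^ 2) * ρ ≤ 1 → ∀ x ∈ S, ∀ x' ∈ S, ∀ x'' ∈ S,
    Close ρ (vec θ (b x)) (vec θ (b x')) → Close ρ (vec θ (b x)) (vec θ (b x'')) →
    xi (b x) (b x') (b x'') = 0 → xi (a x) (a x') (a x'') = 0 := by
  obtain ⟨C, hC, hk⟩ := fatEmpty_key θ K
  refine ⟨2 * C, by linarith,
    fun X B S a b c ρ h hρ hX h1 h2 x hx x' hx' x'' hx'' h' h'' h0 => ?_⟩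
  have hB := h.one_le_B
  have hCρ : 0 < C * ρ := by positivity
  have hA : 0 < X / B ^ 2 := div_pos (by linarith [h.one_le_X]) (by positivity)
  have h3 := hk X B S a b c ρ h hρ hX (by linarith) x hx x' hx' x'' hx'' h' h''
  have h5 := (xi_vec_eq_zero_iff hθ _ _ _).mpr h0
  exact fatEmpty_zero hθ fun σ i => ((h3 σ i).2.2 (congrFun h5 i)).trans_lt
    (fatEmpty_cube hC (by positivity) (by linarith))

theorem fatEmpty_perm {R : Type} [Field R] [CharZero R] (φ ψ : L →+* R) (π : Equiv.Perm (Fin 4))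
    (h : ∀ j, φ (θ j : L) = ψ (θ (π j) : L)) (u v w : Fin 4 → ℤ) (i : Fin 4) :
    φ (xi (vec θ u) (vec θ v) (vec θ w) i)
      = ((Equiv.Perm.sign π : ℤ) : R) * ψ (xi (vec θ u) (vec θ v) (vec θ w) (π i)) := by
  have h1 : ∀ (u : Fin 4 → ℤ) j, φ (vec θ u j) = ψ (vec θ u (π j)) := fun u j => by
    simp only [vec_eq, map_sum, map_mul, map_pow, map_intCast, h]
  rw [map_xi, map_xi, ← xi_perm]
  simp only [h1]

theorem xi_lower (hθ : GalRoots g θ) (u v w : Fin 4 → ℤ) (h : xi u v w ≠ 0) (σ : L →+* ℂ) (T : ℝ)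
    (hT : ∀ i, ‖σ (xi (vec θ u) (vec θ v) (vec θ w) i)‖ ≤ T) (i : Fin 4) :
    1 ≤ ‖σ (xi (vec θ u) (vec θ v) (vec θ w) i)‖ * T ^ 3 := by
  obtain ⟨i0, hi0⟩ := Function.ne_iff.mp (mt (xi_vec_eq_zero_iff hθ.toRoots u v w).mp h)
  have hne : ∀ j, xi (vec θ u) (vec θ v) (vec θ w) j ≠ 0 := fun j hj => by
    obtain ⟨τ, hτ⟩ := hθ.trans i0 j
    obtain ⟨π, hπ⟩ := hθ.perm τ
    have h1 : π i0 = j := hθ.inj (RingOfIntegers.coe_injective ((hπ i0).symm.trans hτ))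
    have h2 := fatEmpty_perm (θ := θ) (τ : L →+* L) (RingHom.id L) π hπ u v w i0
    rw [h1, hj, map_zero, mul_zero, map_eq_zero] at h2
    exact hi0 h2
  have hZ : (∏ j, xi (fun j => bev u (θ j)) (fun j => bev v (θ j)) (fun j => bev w (θ j)) j) ≠ 0 :=
    prod_ne_zero_iff.mpr fun j _ hj => hne j (by rw [← fatEmpty_coe, hj, map_zero])
  obtain ⟨σ', hσ'⟩ := NumberField.exists_conjugate_one_le_norm hZ
  obtain ⟨π, hπ⟩ := hθ.emb σ' σ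
  have h1 : ∀ j, ‖σ' (xi (vec θ u) (vec θ v) (vec θ w) j)‖
      = ‖σ (xi (vec θ u) (vec θ v) (vec θ w) (π j))‖ := fun j => by
    rw [fatEmpty_perm σ' σ π hπ, norm_mul]
    rcases Int.units_eq_one_or (Equiv.Perm.sign π) with h | h <;> simp [h]
  have h2 : 1 ≤ ∏ j, ‖σ (xi (vec θ u) (vec θ v) (vec θ w) j)‖ := by
    rw [← Equiv.prod_comp π]
    simp only [← h1]
    simp only [← fatEmpty_coe]
    rw [← norm_prod, ← map_prod, ← map_prod]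
    exact hσ'
  rw [Fin.prod_univ_succAbove _ i] at h2
  refine h2.trans (mul_le_mul_of_nonneg_left ?_ (norm_nonneg _))
  refine (prod_le_prod (fun _ _ => norm_nonneg _) fun j _ => hT _).trans ?_
  simp

end Vale.Agent.P018
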