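import Vale.Agent.P018.Cfg

/-!
Galois version of `exists_roots` and of `asymptotic_of_locNegl`.

Proof of `exists_galRoots`. Take `L` the splitting field of `g.map (Int.castRingHom ℚ)` as in
`exists_roots` (Setup.lean) and `θ` from `exists_roots_aux`.
* `g (θ j) = 0` and `g = ∏ (X - θ j)` over `L`: the two polynomials agree at all integers
  (`Roots.prod`), and `L` has characteristic zero (`Polynomial.eq_of_infinite_eval_eq` or
  `Polynomial.funext`-like argument).
* `gal`: `IsGalois.of_separable_splitting_field` (irreducible in characteristic 0 is separable).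
* `trans`: `minpoly ℚ (θ j) = g.map _` (`minpoly.eq_of_irreducible_of_monic`), then
  `minpoly.exists_algEquiv_of_root` (Normal).
* `perm`, `emb`: a ring homomorphism `σ` maps `θ j` to a root of `g`, and the roots of `g` in the
  target are the `σ' (θ i)` since `g = ∏ (X - σ' (θ i))`; so `σ (θ j) = σ' (θ (f j))` for some map
  `f`, injective because `σ` and `θ` are, hence a permutation (`Equiv.ofBijective`,
  `Finite.injective_iff_bijective`).

Proof of `asymptotic_of_locNegl_gal`: copy the proof of `asymptotic_of_locNegl` (Assembly.lean),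
replacing `exists_roots` by `exists_galRoots` and using `hθ.toRoots`.
-/

namespace Vale.Agent.P018

open Polynomial NumberField Finset Filter Topology

theorem galSetup_prod {d : ℕ} {L F : Type} [Field L] [NumberField L] [Field F] [CharZero F]
    {g : ℤ[X]} {θ : Fin d → 𝓞 L} (hθ : Roots g θ) (φ : L →+* F) (z : F) :
    aeval z g = ∏ j, (z - φ (θ j : L)) := by
  have h : g.map (algebraMap ℤ F) = ∏ j, (X - C (φ (θ j : L))) := by
    refine eq_of_infinite_eval_eq _ _
      (Set.infinite_of_injective_forall_mem (f := fun x : ℤ => (x : F)) Int.cast_injective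
        fun x => ?_)
    have h1 := congrArg (φ.comp (algebraMap (𝓞 L) L)) (hθ.prod x)
    simp only [map_prod, map_sub, map_intCast] at h1
    simp only [Set.mem_ofPred_eq, eval_prod, eval_sub, eval_X, eval_C, eval_intCast_map]
    exact h1.symm
  rw [← eval_map_algebraMap, h]
  simp [eval_prod]

theorem galSetup_perm {d : ℕ} {L F : Type} [Field L] [NumberField L] [Field F] [CharZero F]
    {g : ℤ[X]} {θ : Fin d → 𝓞 L} (hθ : Roots g θ) (φ ψ : L →+* F) :
    ∃ π : Equiv.Perm (Fin d), ∀ j, φ (θ j : L) = ψ (θ (π j) : L) := by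
  have h : ∀ j, ∃ i, φ (θ j : L) = ψ (θ i : L) := fun j => by
    have h1 := galSetup_prod hθ ψ (φ (θ j : L))
    rw [galSetup_prod hθ φ, prod_eq_zero (mem_univ j) (sub_self _), eq_comm,
      prod_eq_zero_iff] at h1
    obtain ⟨i, -, hi⟩ := h1
    exact ⟨i, sub_eq_zero.1 hi⟩
  choose f hf using h
  have hinj : Function.Injective f := fun i j hij =>
    hθ.inj (RingOfIntegers.coe_injective (φ.injective (by
      change φ (θ i : L) = φ (θ j : L)
      rw [hf, hf, hij])))
  exact ⟨Equiv.ofBijective f (Finite.injective_iff_bijective.1 hinj), hf⟩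

theorem exists_galRoots (d : ℕ) (hd : 1 ≤ d) (g : ℤ[X]) (hm : g.Monic) (hdeg : g.natDegree = d)
    (hirr : Irreducible (g.map (Int.castRingHom ℚ))) :
    ∃ (L : Type) (_ : Field L) (_ : NumberField L) (θ : Fin d → 𝓞 L), GalRoots g θ := by
  obtain ⟨L, _, _, hG, hspl⟩ : ∃ (L : Type) (_ : Field L) (_ : NumberField L), IsGalois ℚ L ∧
      (g.map (Int.castRingHom L)).Splits := by
    have hN : NumberField (g.map (Int.castRingHom ℚ)).SplittingField :=
      { to_charZero := inferInstance, to_finiteDimensional := inferInstance }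
    refine ⟨(g.map (Int.castRingHom ℚ)).SplittingField, inferInstance, hN, ?_, ?_⟩
    · refine @IsGalois.of_separable_splitting_field _ _ _ _ _ (g.map (Int.castRingHom ℚ)) ?_
        hirr.separable
      convert IsSplittingField.splittingField (g.map (Int.castRingHom ℚ))
      exact Subsingleton.elim _ _
    · have h := SplittingField.splits (g.map (Int.castRingHom ℚ))
      rw [Polynomial.map_map] at h
      convert h using 2
      exact RingHom.ext_int _ _
  obtain ⟨θ, hθ⟩ := exists_roots_aux d hd g hm hdeg hirr L hspl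
  have hroot : ∀ j, aeval (θ j : L) (g.map (Int.castRingHom ℚ)) = 0 := fun j => by
    rw [show Int.castRingHom ℚ = algebraMap ℤ ℚ from rfl, aeval_map_algebraMap,
      galSetup_prod hθ (RingHom.id _)]
    exact prod_eq_zero (mem_univ j) (sub_self _)
  refine ⟨L, inferInstance, inferInstance, θ, hθ, hm, hdeg, hG, fun i j => ?_,
    fun σ => galSetup_perm hθ (σ : L →+* L) (RingHom.id _), galSetup_perm hθ⟩
  refine minpoly.exists_algEquiv_of_root (Algebra.IsAlgebraic.isAlgebraic _) ?_
  rw [← minpoly.eq_of_irreducible_of_monic hirr (hroot j) (hm.map _)]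
  exact hroot i

theorem asymptotic_of_locNegl_gal (d k : ℕ) (hd : 1 ≤ d) (hk : 2 ≤ k)
    (h : ∀ (L : Type) [Field L] [NumberField L] (g : ℤ[X]) (θ : Fin d → 𝓞 L), GalRoots g θ →
      ∀ y : ℝ, 1 ≤ y → k * y ≤ d → LocNegl g k y) :
    Asymptotic d k := by
  classical
  intro f hirr hdeg hloc
  apply sieve_reduction f k hk hirr hloc
  have hf0 : f ≠ 0 := by rintro rfl; simp at hdeg; omega
  have hd' : 1 ≤ f.natDegree := by omega
  have hgm := monic_integralNormalization hf0
  have hgd : f.integralNormalization.natDegree = d := by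
    rw [natDegree_integralNormalization, hdeg]
  obtain ⟨L, _, _, θ, hθ⟩ := exists_galRoots d hd f.integralNormalization hgm hgd
    (irreducible_integralNormalization f hd' hirr)
  have hall : ∀ y : ℝ, 1 ≤ y → LocNegl f.integralNormalization k y := by
    intro y hy
    rcases le_or_gt (k * y) d with h1 | h1
    · exact h L _ θ hθ y hy h1
    · exact locNegl_of_gt hθ.toRoots k (by omega) y h1
  set a := f.leadingCoeff with ha
  have ha0 : a ≠ 0 := leadingCoeff_ne_zero.mpr hf0
  have ha1 : (1 : ℝ) ≤ |(a : ℝ)| := by exact_mod_cast Int.one_le_abs ha0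
  rw [tendsto_order]
  refine ⟨fun b hb => Eventually.of_forall fun N => lt_of_lt_of_le hb (by positivity),
    fun b hb => ?_⟩
  filter_upwards [negl_of_locNegl hθ.toRoots k (by omega) hall a.natAbs (b / 3) (by positivity) (b / 3)
    (by positivity), tendsto_natCast_atTop_atTop.eventually_gt_atTop (0 : ℝ)] with N hN hN0
  set B := (Finset.Icc 1 N).filter
    (fun n : ℕ => ∃ p : ℕ, p.Prime ∧ N < p ∧ (p : ℤ) ^ k ∣ f.eval (n : ℤ)) with hB
  have h1 : ((B.filter fun n : ℕ => (n : ℝ) < b / 3 * N).card : ℝ) ≤ b / 3 * N := by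
    have h2 : (B.filter fun n : ℕ => (n : ℝ) < b / 3 * N) ⊆ Finset.Icc 1 ⌊b / 3 * N⌋₊ := by
      intro n hn
      obtain ⟨h3, h4⟩ := mem_filter.mp hn
      exact mem_Icc.mpr ⟨(mem_Icc.mp (mem_filter.mp h3).1).1, Nat.le_floor h4.le⟩
    have h5 := card_le_card h2
    rw [Nat.card_Icc, Nat.add_sub_cancel] at h5
    exact (Nat.cast_le.mpr h5).trans (Nat.floor_le (by positivity))
  have h6 : ((B.filter fun n : ℕ => ¬ (n : ℝ) < b / 3 * N).card : ℝ) ≤ b / 3 * N := by
    rw [← card_image_of_injective _ (f := fun n : ℕ => a * (n : ℤ))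
      (fun n n' hn => by exact_mod_cast mul_left_cancel₀ ha0 hn)]
    refine hN _ fun x hx => ?_
    obtain ⟨n, hn, rfl⟩ := mem_image.mp hx
    obtain ⟨h3, h4⟩ := mem_filter.mp hn
    obtain ⟨h5, p, hp, h7, h8⟩ := mem_filter.mp h3
    have h9 : (n : ℝ) ≤ N := by exact_mod_cast (mem_Icc.mp h5).2
    have h10 : (0 : ℝ) ≤ n := by positivity
    refine ⟨?_, ?_, p, hp, by exact_mod_cast h7.le, ?_⟩
    · push_cast
      rw [abs_mul, abs_of_nonneg h10]
      nlinarith [not_lt.mp h4]
    · push_cast
      rw [abs_mul, abs_of_nonneg h10, Nat.cast_natAbs, Int.cast_abs]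
      exact mul_le_mul_of_nonneg_left h9 (abs_nonneg _)
    · have h11 := integralNormalization_eval₂_leadingCoeff_mul hd' (RingHom.id ℤ) (n : ℤ)
      simp only [RingHom.id_apply, eval₂_id] at h11
      rw [h11]
      exact h8.mul_left _
  have h12 : (B.card : ℝ) = (B.filter fun n : ℕ => (n : ℝ) < b / 3 * N).card +
      (B.filter fun n : ℕ => ¬ (n : ℝ) < b / 3 * N).card := by
    exact_mod_cast (card_filter_add_card_filter_not (s := B) _).symm
  rw [div_lt_iff₀ hN0, h12]
  nlinarith

end Vale.Agent.P018
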