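import Vale.Agent.P018.Cfg

/-!
Numerical lemmas about `RelGood` and `Crit`.

`relGood_of` is the heart of the proof of `localGood_of` (file LocalGood) with `r = d`: follow that
proof with `P = pvol d k s t`, `w = s α + t β`, `T = (d + 1) / d * w`, the integers
`a = ⌈N s⌉₊ + d`, `b = ⌈N t⌉₊ + d k`, `τ = N T` and `exists_big`, `fam_card_ge`, `pvol_mono`,
`pvol_smul`. (When `w = 0` the argument still works: use a slightly larger `w`, or replace `α` by
a slightly larger positive number first, the inequality being open, and use `RelGood.mono`.)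

`crit_mono`: the base of the `d`-th power is nonnegative and decreases in `y` when `t ≤ k s`.

`crit_interp`: write `n = d - 1`, `P = d! * pvol d k s t`, `f μ = A + B μ ≥ 0` for the base.
The condition is `f μ ^ d < P μ ^ n`, equivalently `f μ < P ^ (1 / d) * μ ^ (n / d)`; the right
side is concave in `μ` (`Real.concaveOn_rpow`), the left side is affine.

`crit_open`: both sides of `Crit` are continuous in the parameters.
-/

namespace Vale.Agent.P018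

open Finset Filter Topology

theorem RelGood.mono {d k : ℕ} {α β α' β' μ : ℝ} (h : RelGood d k α β μ) (hα : α' ≤ α)
    (hβ : β' ≤ β) : RelGood d k α' β' μ := by
  obtain ⟨a, b, τ, hτ, h⟩ := h
  refine ⟨a, b, τ, hτ, lt_of_le_of_lt ?_ h⟩
  gcongr

theorem relGood_core (d k : ℕ) (hd : 2 ≤ d) (α β μ s t w : ℝ) (hα : 0 ≤ α) (hβ : 0 ≤ β)
    (hμ : 0 < μ) (hs : 0 < s) (ht : 0 < t) (hw0 : 0 < w) (hw : s * α + t * β ≤ w)
    (h : (((d : ℝ) + 1) / d * w) ^ d <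
      (d.factorial : ℝ) * μ ^ (d - 1) * pvol d k s t) : RelGood d k α β μ := by
  have hd0 : (0 : ℝ) < d := by exact_mod_cast (by omega : 0 < d)
  have hd2 : (2 : ℝ) ≤ d := by exact_mod_cast hd
  have hk0 : (0 : ℝ) ≤ k := Nat.cast_nonneg k
  obtain ⟨T, hT⟩ : ∃ T : ℝ, T = ((d : ℝ) + 1) / d * w := ⟨_, rfl⟩
  have hT0 : 0 < T := by rw [hT]; positivity
  obtain ⟨P, hP⟩ : ∃ P : ℝ, P = pvol d k s t := ⟨_, rfl⟩
  rw [← hT, ← hP] at h
  have hf0 : (0 : ℝ) < (d.factorial : ℝ) := by exact_mod_cast d.factorial_pos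
  have hP0 : 0 < P := by
    have h4 : 0 < T ^ d := by positivity
    have h5 : 0 < (d.factorial : ℝ) * μ ^ (d - 1) := by positivity
    by_contra hneg
    have := mul_nonpos_of_nonneg_of_nonpos h5.le (not_lt.1 hneg)
    linarith
  obtain ⟨D, hD⟩ : ∃ D : ℝ, D = ((d + 1).factorial : ℝ) * μ ^ (d - 1) := ⟨_, rfl⟩
  have hD0 : 0 < D := by rw [hD]; positivity
  have hTw : T - w = T / (d + 1) := by rw [hT]; field_simp; ring
  have h4 : T ^ (d + 1) / D < P * (T - w) := by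
    rw [div_lt_iff₀ hD0, hTw, hD, Nat.factorial_succ, pow_succ]
    push_cast
    calc T ^ d * T < (d.factorial : ℝ) * μ ^ (d - 1) * P * T := by gcongr
      _ = _ := by field_simp
  obtain ⟨c, hc⟩ : ∃ c : ℝ, c = ((d : ℝ) - 1) * μ + 1 := ⟨_, rfl⟩
  have hc0 : 0 ≤ c := by
    have : 0 ≤ ((d : ℝ) - 1) * μ := mul_nonneg (by linarith) hμ.le
    linarith
  obtain ⟨N, hN⟩ := exists_big P T w (((d : ℝ) + 1) * α + (d * k + 1) * β) c D (d + 1) hP0 h4
    hT0.le hc0 hD0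
  rcases hN with ⟨hN0, hN1, hN2⟩ | hN
  swap
  · omega
  have hNpos : (0 : ℝ) < N := by exact_mod_cast hN0
  refine ⟨⌈N * s⌉₊ + d, ⌈N * t⌉₊ + d * k, N * T, by positivity, ?_⟩
  have hH := fam_card_ge d (⌈N * s⌉₊ + d) (⌈N * t⌉₊ + d * k) k hd (by omega) (by omega)
  have hH2 : (N : ℝ) ^ d * P ≤ ((fam d (⌈N * s⌉₊ + d) (⌈N * t⌉₊ + d * k) k).card : ℝ) := by
    refine le_trans ?_ hH
    rw [hP, ← pvol_smul]
    refine pvol_mono d hk0 (by positivity) (by positivity) ?_ ?_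
    · push_cast
      have := Nat.le_ceil (N * s)
      linarith
    · push_cast
      have := Nat.le_ceil (N * t)
      linarith
  generalize ((fam d (⌈N * s⌉₊ + d) (⌈N * t⌉₊ + d * k) k).card : ℝ) = H at hH2
  rw [← hc, ← hD]
  have hA : ((⌈N * s⌉₊ + d : ℕ) : ℝ) ≤ N * s + (d + 1) := by
    push_cast
    have := (Nat.ceil_lt_add_one (by positivity : 0 ≤ N * s)).le
    linarith
  have hB : ((⌈N * t⌉₊ + d * k : ℕ) : ℝ) ≤ N * t + (d * k + 1) := by
    push_cast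
    have := (Nat.ceil_lt_add_one (by positivity : 0 ≤ N * t)).le
    linarith
  generalize ((⌈N * s⌉₊ + d : ℕ) : ℝ) = A at hA
  generalize ((⌈N * t⌉₊ + d * k : ℕ) : ℝ) = B at hB
  have hS : A * α + B * β ≤ N * w + (((d : ℝ) + 1) * α + (d * k + 1) * β) := by
    have e1 : A * α ≤ (N * s + (d + 1)) * α := by gcongr
    have e2 : B * β ≤ (N * t + (d * k + 1)) * β := by gcongr
    have e3 : N * (s * α + t * β) ≤ N * w := by gcongr
    linarith
  simp only [Nat.add_sub_cancel] at hN2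
  have hS2 : N * (T - w) - (((d : ℝ) + 1) * α + (d * k + 1) * β) ≤
      N * T - (A * α + B * β) := by linarith
  have hH0 : 0 ≤ H := le_trans (by positivity) hH2
  have e6 : (N : ℝ) ^ d * P * (N * (T - w) - (((d : ℝ) + 1) * α + (d * k + 1) * β)) ≤
      H * (N * T - (A * α + B * β)) :=
    mul_le_mul hH2 hS2 hN1.le hH0
  linarith

theorem relGood_of (d k : ℕ) (hd : 2 ≤ d) (α β μ s t : ℝ) (hα : 0 ≤ α) (hβ : 0 ≤ β) (hμ : 0 < μ)
    (hs : 0 < s) (ht : 0 < t)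
    (h : (((d : ℝ) + 1) / d * (s * α + t * β)) ^ d <
      (d.factorial : ℝ) * μ ^ (d - 1) * pvol d k s t) : RelGood d k α β μ := by
  have hc : Continuous fun w : ℝ => (((d : ℝ) + 1) / d * w) ^ d := by fun_prop
  have hev : ∀ᶠ w in 𝓝 (s * α + t * β), (((d : ℝ) + 1) / d * w) ^ d <
      (d.factorial : ℝ) * μ ^ (d - 1) * pvol d k s t :=
    hc.continuousAt.eventually_lt continuousAt_const h
  obtain ⟨w, hw1, hw2⟩ := ((hev.filter_mono nhdsWithin_le_nhds).and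
    (self_mem_nhdsWithin (s := Set.Ioi (s * α + t * β)))).exists
  have hw3 : s * α + t * β < w := hw2
  have hw4 : 0 ≤ s * α + t * β := by positivity
  exact relGood_core d k hd α β μ s t w hα hβ hμ hs ht (by linarith) hw3.le hw1

theorem crit_mono {d k : ℕ} {y y' μ κ κ' s t : ℝ} (h : Crit d k y μ κ s t) (hd : 1 ≤ d)
    (hy : y ≤ y') (hy0 : 0 ≤ y') (hky : k * y' ≤ d) (hκ : κ' ≤ κ) (hκ0 : 0 ≤ κ') (hs : 0 ≤ s)
    (ht : 0 ≤ t) (hts : t ≤ k * s) : Crit d k y' μ κ' s t := by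
  unfold Crit at h ⊢
  refine lt_of_le_of_lt ?_ h
  have hd0 : (0 : ℝ) < d := by exact_mod_cast (by omega : 0 < d)
  have hd1 : (0 : ℝ) ≤ (d : ℝ) - 1 := by
    have : (1 : ℝ) ≤ d := by exact_mod_cast hd
    linarith
  have hk0 : (0 : ℝ) ≤ k := Nat.cast_nonneg k
  have h1 : 0 ≤ 1 - k * y' / d := by rw [sub_nonneg, div_le_one hd0]; exact hky
  refine pow_le_pow_left₀ (by positivity) (mul_le_mul_of_nonneg_left ?_ (by positivity)) d
  have e1 : s * (1 - k * y / d + k * κ / d) + t * (y / d + (d - 1) * κ / d) -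
      (s * (1 - k * y' / d + k * κ' / d) + t * (y' / d + (d - 1) * κ' / d)) =
      ((k * s - t) * (y' - y) + (s * k + t * (d - 1)) * (κ - κ')) / d := by
    field_simp
    ring
  have e2 : 0 ≤ ((k * s - t) * (y' - y) + (s * k + t * (d - 1)) * (κ - κ')) / d := by
    have a1 : 0 ≤ k * s - t := by linarith
    have a2 : 0 ≤ y' - y := by linarith
    have a3 : 0 ≤ κ - κ' := by linarith
    positivity
  linarith

theorem relGood_root (d : ℕ) (hd : 1 ≤ d) {P f m : ℝ} (hP : 0 < P) (hf : 0 ≤ f) (hm : 0 < m) :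
    f ^ d < P * m ^ (d - 1) ↔ f < P ^ ((1 : ℝ) / d) * m ^ (((d : ℝ) - 1) / d) := by
  have hd0 : (0 : ℝ) < d := by exact_mod_cast (by omega : 0 < d)
  have e : (P ^ ((1 : ℝ) / d) * m ^ (((d : ℝ) - 1) / d)) ^ d = P * m ^ (d - 1) := by
    rw [mul_pow, ← Real.rpow_natCast, ← Real.rpow_natCast (m ^ _), ← Real.rpow_mul hP.le,
      ← Real.rpow_mul hm.le, ← Real.rpow_natCast m, Nat.cast_sub hd]
    rw [div_mul_cancel₀ _ hd0.ne', div_mul_cancel₀ _ hd0.ne', Real.rpow_one, Nat.cast_one]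
  rw [← e]
  exact pow_lt_pow_iff_left₀ hf (by positivity) (by omega)

theorem relGood_conc (d : ℕ) (hd : 1 ≤ d) {P A B μ₀ μ₁ μ : ℝ} (hμ₀ : 0 < μ₀) (h1 : μ₀ ≤ μ)
    (h2 : μ ≤ μ₁) (hf0 : 0 ≤ A + B * μ₀) (hB : 0 ≤ B)
    (h₀ : (A + B * μ₀) ^ d < P * μ₀ ^ (d - 1)) (h₁ : (A + B * μ₁) ^ d < P * μ₁ ^ (d - 1)) :
    (A + B * μ) ^ d < P * μ ^ (d - 1) := by
  have hd0 : (0 : ℝ) < d := by exact_mod_cast (by omega : 0 < d)
  have hd1 : (1 : ℝ) ≤ d := by exact_mod_cast hd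
  have hP : 0 < P := by
    have a1 : 0 ≤ (A + B * μ₀) ^ d := by positivity
    have a2 : 0 < μ₀ ^ (d - 1) := by positivity
    exact (mul_pos_iff_of_pos_right a2).1 (lt_of_le_of_lt a1 h₀)
  have hf : 0 ≤ A + B * μ := by nlinarith
  have hf1 : 0 ≤ A + B * μ₁ := by nlinarith
  have hμ : 0 < μ := by linarith
  have hμ₁ : 0 < μ₁ := by linarith
  rw [relGood_root d hd hP hf0 hμ₀] at h₀
  rw [relGood_root d hd hP hf1 hμ₁] at h₁
  rw [relGood_root d hd hP hf hμ]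
  have hp0 : 0 ≤ ((d : ℝ) - 1) / d := div_nonneg (by linarith) hd0.le
  have hp1 : ((d : ℝ) - 1) / d ≤ 1 := by rw [div_le_one hd0]; linarith
  have hcv := Real.concaveOn_rpow hp0 hp1
  obtain ⟨a, b, ha, hb, hab, rfl⟩ := (Convex.mem_Icc (h1.trans h2)).1 ⟨h1, h2⟩
  have h3 := hcv.2 (Set.mem_Ici.2 hμ₀.le) (Set.mem_Ici.2 hμ₁.le) ha hb hab
  simp only [smul_eq_mul] at h3
  have hQ : 0 < P ^ ((1 : ℝ) / d) := by positivity
  generalize P ^ ((1 : ℝ) / d) = Q at *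
  generalize (a * μ₀ + b * μ₁) ^ (((d : ℝ) - 1) / d) = g at *
  generalize μ₀ ^ (((d : ℝ) - 1) / d) = g₀ at *
  generalize μ₁ ^ (((d : ℝ) - 1) / d) = g₁ at *
  have h4 : Q * (a * g₀ + b * g₁) ≤ Q * g := by gcongr
  have h5 : A + B * (a * μ₀ + b * μ₁) = a * (A + B * μ₀) + b * (A + B * μ₁) := by
    have : A = (a + b) * A := by rw [hab, one_mul]
    linarith
  rw [h5]
  refine lt_of_lt_of_le ?_ h4
  have h6 : a * (A + B * μ₀) ≤ a * (Q * g₀) := by gcongr
  have h7 : b * (A + B * μ₁) ≤ b * (Q * g₁) := by gcongr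
  rcases ha.eq_or_lt with h8 | h8
  · have hb1 : 0 < b := by linarith
    have h9 : b * (A + B * μ₁) < b * (Q * g₁) := by gcongr
    linarith
  · have h9 : a * (A + B * μ₀) < a * (Q * g₀) := by gcongr
    linarith

/-- Interpolation along the line `κ = (d - 1) μ - q`. -/
theorem crit_interp {d k : ℕ} {y μ₀ μ₁ μ q s t : ℝ} (hd : 1 ≤ d) (hy0 : 0 ≤ y) (hky : k * y ≤ d)
    (hs : 0 ≤ s) (ht : 0 ≤ t) (hμ₀ : 0 < μ₀) (hq : q ≤ (d - 1) * μ₀)
    (h₀ : Crit d k y μ₀ ((d - 1) * μ₀ - q) s t) (h₁ : Crit d k y μ₁ ((d - 1) * μ₁ - q) s t)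
    (h1 : μ₀ ≤ μ) (h2 : μ ≤ μ₁) : Crit d k y μ ((d - 1) * μ - q) s t := by
  have hd0 : (0 : ℝ) < d := by exact_mod_cast (by omega : 0 < d)
  have hd1 : (0 : ℝ) ≤ (d : ℝ) - 1 := by
    have : (1 : ℝ) ≤ d := by exact_mod_cast hd
    linarith
  have hk0 : (0 : ℝ) ≤ k := Nat.cast_nonneg k
  have key : ∀ m : ℝ, Crit d k y m ((d - 1) * m - q) s t ↔
      (((d : ℝ) + 1) / d * (s * (1 - k * y / d - k * q / d) + t * (y / d - (d - 1) * q / d)) +
        ((d : ℝ) + 1) / d * (s * (k * (d - 1) / d) + t * ((d - 1) * (d - 1) / d)) * m) ^ d <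
        ((d.factorial : ℝ) * pvol d k s t) * m ^ (d - 1) := by
    intro m
    unfold Crit
    rw [mul_right_comm (d.factorial : ℝ)]
    congr! 2
    ring
  rw [key] at h₀ h₁ ⊢
  refine relGood_conc d hd hμ₀ h1 h2 ?_ (by positivity) h₀ h₁
  have a1 : 0 ≤ 1 - k * y / d := by rw [sub_nonneg, div_le_one hd0]; exact hky
  have a2 : 0 ≤ ((d : ℝ) - 1) * μ₀ - q := by linarith
  have a3 : 0 ≤ ((d : ℝ) + 1) / d * (s * (1 - k * y / d + k * ((d - 1) * μ₀ - q) / d) +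
      t * (y / d + (d - 1) * ((d - 1) * μ₀ - q) / d)) := by positivity
  refine a3.trans (le_of_eq ?_)
  ring

/-- A criterion at `y` gives `RelGood` for the sizes attached to a window around `y`, with a
little room in `κ`. -/
theorem crit_open {d k : ℕ} {y μ κ s t : ℝ} (h : Crit d k y μ κ s t) (hd : 2 ≤ d) (hy0 : 0 ≤ y)
    (hky : k * y ≤ d) (hκ0 : 0 ≤ κ) (hμ : 0 < μ) (hs : 0 < s) (ht : 0 < t) :
    ∃ η : ℝ, 0 < η ∧ ∀ η' κ' : ℝ, η' ≤ η → κ' ≤ κ + η →
      RelGood d k ((1 - k * (y - η') / d) + k * κ' / d) ((y + η') / d + (d - 1) * κ' / d) μ := by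
  have hd0 : (0 : ℝ) < d := by exact_mod_cast (by omega : 0 < d)
  have hd1 : (0 : ℝ) ≤ (d : ℝ) - 1 := by
    have : (2 : ℝ) ≤ d := by exact_mod_cast hd
    linarith
  have hk0 : (0 : ℝ) ≤ k := Nat.cast_nonneg k
  have hc : Continuous fun η : ℝ => (((d : ℝ) + 1) / d *
      (s * ((1 - k * (y - η) / d) + k * (κ + η) / d) +
        t * ((y + η) / d + (d - 1) * (κ + η) / d))) ^ d := by fun_prop
  have hev : ∀ᶠ η in 𝓝 (0 : ℝ), (((d : ℝ) + 1) / d *
      (s * ((1 - k * (y - η) / d) + k * (κ + η) / d) +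
        t * ((y + η) / d + (d - 1) * (κ + η) / d))) ^ d <
      (d.factorial : ℝ) * μ ^ (d - 1) * pvol d k s t :=
    hc.continuousAt.eventually_lt continuousAt_const (by
      simp only [sub_zero, add_zero]
      exact h)
  obtain ⟨η, h1, h2⟩ := ((hev.filter_mono nhdsWithin_le_nhds).and
    (self_mem_nhdsWithin (s := Set.Ioi (0 : ℝ)))).exists
  have hη : 0 < η := h2
  refine ⟨η, hη, fun η' κ' h3 h4 => ?_⟩
  have a1 : 0 ≤ 1 - k * (y - η) / d := by
    rw [sub_nonneg, div_le_one hd0]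
    nlinarith
  refine (relGood_of d k hd _ _ μ s t (by positivity) (by positivity) hμ hs ht h1).mono ?_ ?_
  · gcongr
  · gcongr

/-- The criterion is open in `μ`. -/
theorem crit_nhds {d k : ℕ} {y μ κ s t : ℝ} (h : Crit d k y μ κ s t) :
    ∀ᶠ μ' in 𝓝 μ, Crit d k y μ' κ s t := by
  have hc : Continuous fun m : ℝ => (d.factorial : ℝ) * m ^ (d - 1) * pvol d k s t := by fun_prop
  exact continuousAt_const.eventually_lt hc.continuousAt h

end Vale.Agent.P018
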