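import Vale.Agent.P018.Rich
import Vale.Agent.P018.RelGood

/-!
The multi-scale argument.

Proof of `nonrich_count`. Take `C₁` from `exists_key` with `K` and the key at scale `δ / C₁`, so
equal keys imply `Close δ`. Group `Z` by `key (vec θ (b x))`. A fibre containing `x` is contained
in `S.filter (Close δ · x)`, which has at most `D` elements as `x` is not rich. The number of keys
is at most `C₁ (1 + ρ C₁ / δ) ^ (d - 1) ≤ C₁ ^ d (1 + ρ / δ) ^ (d - 1)`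
(`Finset.card_le_mul_card_image`, `Finset.image_image`).

Proof of `covered_of_crit`. Put `n = d - 1`, `ν = n μ - κ < 1`. By `crit_nhds` at `1 / n` there is
`μ₀ < 1 / n`, `0 < μ₀`, `ν ≤ n μ₀ =: q < 1` with `Crit d k y μ₀ 0 s t`. By `crit_mono`
`Crit d k y μ (n μ - q) s t` (as `0 ≤ n μ - q ≤ κ`), so by `crit_interp`
`Crit d k y μ' (n μ' - q) s t` for all `μ' ∈ [μ₀, μ]`. Choose `J ≥ 1` with
`n (μ - μ₀) / J ≤ (1 - q) / 4`, `m j = μ₀ + j (μ - μ₀) / J`, `e = (1 + q) / 2`. For each `j < J`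
get `η j` from `crit_open` and let `η > 0` be below all of them and below the `η` of `crit_open`
for `(μ, κ)`. Apply `rich_cover` at each scale `m j`, `j < J`, with `κ = n (m j) - q`,
`ε = (1 - q) / 4`, and at the scale `μ` with `κ + η` and `ε = η`; here
`α = 1 - k (y - η) / d`, `β = (y + η) / d`, and `X / B ^ k ≤ X ^ α` follows from
`X ^ ((y - η) / d) ≤ B`. Let `D` be the maximum of the `D`s (`Rich` is antitone in `D` and
monotone in `ρ`). A point not close to the final `T` is not rich at scale `m J = μ`. So it is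
either not rich at scale `m 0` (all points are `Close (K ^ 4 + 1)` to each other by `Good.close`,
`Cfg.good`; `nonrich_count` bounds their number by `C D X ^ q`), or rich at scale `m j` and not
rich at scale `m (j + 1)` for some `j < J`; these points lie in the at most `C X ^ (q + ε)` balls
of `rich_cover`, each containing at most `C D (1 + C X ^ (m (j+1) - m j)) ^ n` of them by
`nonrich_count`.
-/

namespace Vale.Agent.P018

open Polynomial NumberField Finset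

variable {d : ℕ} {L : Type} [Field L] [NumberField L] {g : ℤ[X]} {θ : Fin d → 𝓞 L}

theorem nonrich_count (hθ : Roots g θ) (hd : 1 ≤ d) (K : ℝ) (hK : 1 ≤ K) :
    ∃ C : ℝ, 1 ≤ C ∧ ∀ (S Z : Finset ℤ) (b : ℤ → Fin d → ℤ) (δ ρ : ℝ) (D : ℕ) (β₀ : Fin d → L),
      0 < δ → 0 ≤ ρ → Z ⊆ S → Good θ K β₀ →
      (∀ x ∈ Z, Good θ K (vec θ (b x)) ∧ Close ρ (vec θ (b x)) β₀ ∧ ¬ Rich θ S b δ D x) →
      (Z.card : ℝ) ≤ C * D * (1 + ρ / δ) ^ (d - 1) := by
  classical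
  obtain ⟨C, hC, h⟩ := exists_key hθ hd K hK
  have hC0 : 0 < C := by linarith
  refine ⟨C * C ^ (d - 1), one_le_mul_of_one_le_of_one_le hC (one_le_pow₀ hC), ?_⟩
  intro S Z b δ ρ D β₀ hδ hρ hZ hβ₀ hx
  obtain ⟨key, h1, h2⟩ := h (δ / C) (div_pos hδ hC0)
  rw [mul_div_cancel₀ _ hC0.ne'] at h1
  have h3 : Z.card ≤ D * (Z.image fun x => key (vec θ (b x))).card := by
    refine Finset.card_le_mul_card_image _ D fun z hz => ?_
    obtain ⟨x, hxZ, rfl⟩ := Finset.mem_image.1 hz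
    refine le_trans (Finset.card_le_card fun x' hx' => ?_) (not_lt.1 (hx x hxZ).2.2)
    obtain ⟨a1, a2⟩ := Finset.mem_filter.1 hx'
    exact Finset.mem_filter.2 ⟨hZ a1, h1 _ _ (hx x' a1).1 (hx x hxZ).1 a2⟩
  have h4 := h2 β₀ ρ (Z.image fun x => vec θ (b x)) hρ hβ₀ fun β hβ => by
    obtain ⟨x, hxZ, rfl⟩ := Finset.mem_image.1 hβ
    exact ⟨(hx x hxZ).1, (hx x hxZ).2.1⟩
  rw [Finset.image_image] at h4
  have h5 : (1 + ρ / (δ / C)) ^ (d - 1) ≤ C ^ (d - 1) * (1 + ρ / δ) ^ (d - 1) := by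
    rw [← mul_pow]
    refine pow_le_pow_left₀ (by positivity) ?_ _
    rw [div_div_eq_mul_div, mul_add, mul_one, mul_comm ρ C, mul_div_assoc]
    linarith
  have h6 : (Z.card : ℝ) ≤ D * ((Z.image fun x => key (vec θ (b x))).card : ℝ) := by
    exact_mod_cast h3
  calc (Z.card : ℝ) ≤ D * (C * (C ^ (d - 1) * (1 + ρ / δ) ^ (d - 1))) :=
        h6.trans (mul_le_mul_of_nonneg_left (h4.trans (mul_le_mul_of_nonneg_left h5 hC0.le))
          (Nat.cast_nonneg D))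
    _ = _ := by ring

open Classical in
/-- the points which are not rich at scale `X ^ (-m)` are negligible -/
def MultiP (θ : Fin d → 𝓞 L) (k : ℕ) (y m : ℝ) : Prop :=
  ∃ η : ℝ, 0 < η ∧ ∃ e : ℝ, e < 1 ∧ ∀ (D : ℕ) (K : ℝ), ∃ C X₀ : ℝ, 0 ≤ C ∧ ∀ X : ℝ, X₀ ≤ X →
    ∀ (B : ℝ) (S : Finset ℤ) (a b : ℤ → Fin d → ℤ) (c : ℤ), Cfg θ k K X B S a b c →
      X ^ ((y - η) / d) ≤ B → B ≤ X ^ ((y + η) / d) →
      ((S.filter fun x => ¬ Rich θ S b (X ^ (-m)) D x).card : ℝ) ≤ C * X ^ e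

theorem multi_pow (hd : 1 ≤ d) {X R u : ℝ} (hX : 1 ≤ X) (hR : 0 ≤ R) (hu : 0 ≤ u) :
    (1 + R * X ^ u) ^ (d - 1) ≤ (1 + R) ^ (d - 1) * X ^ (((d : ℝ) - 1) * u) := by
  have hX0 : 0 ≤ X := by linarith
  have e : X ^ (((d : ℝ) - 1) * u) = (X ^ u) ^ (d - 1) := by
    rw [← Real.rpow_mul_natCast hX0, Nat.cast_sub hd, Nat.cast_one, mul_comm]
  have h1 : 1 ≤ X ^ u := Real.one_le_rpow hX hu
  rw [e, ← mul_pow]
  refine pow_le_pow_left₀ (by positivity) ?_ _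
  nlinarith

theorem multi_alpha {X B u : ℝ} (k : ℕ) (hX : 1 ≤ X) (h : X ^ (u / d) ≤ B) :
    X / B ^ k ≤ X ^ (1 - k * u / d) := by
  have hX0 : 0 < X := by linarith
  rw [Real.rpow_sub hX0, Real.rpow_one, mul_div_assoc, mul_comm, Real.rpow_mul_natCast hX0.le]
  have h1 : 0 < X ^ (u / d) := Real.rpow_pos_of_pos hX0 _
  exact div_le_div_of_nonneg_left hX0.le (pow_pos h1 k) (pow_le_pow_left₀ h1.le h k)

theorem multi_win {X B y η η' : ℝ} (hX : 1 ≤ X) (hη : η' ≤ η) (h1 : X ^ ((y - η') / d) ≤ B)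
    (h2 : B ≤ X ^ ((y + η') / d)) : X ^ ((y - η) / d) ≤ B ∧ B ≤ X ^ ((y + η) / d) :=
  ⟨(Real.rpow_le_rpow_of_exponent_le hX
      (div_le_div_of_nonneg_right (by linarith) (Nat.cast_nonneg d))).trans h1,
    h2.trans (Real.rpow_le_rpow_of_exponent_le hX
      (div_le_div_of_nonneg_right (by linarith) (Nat.cast_nonneg d)))⟩

theorem multi_base (hθ : Roots g θ) (hd : 1 ≤ d) (k : ℕ) (y m : ℝ) (hm : 0 ≤ m)
    (hm1 : ((d : ℝ) - 1) * m < 1) : MultiP θ k y m := by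
  classical
  refine ⟨1, one_pos, _, hm1, fun D K => ?_⟩
  obtain ⟨C, hC, h⟩ := nonrich_count hθ hd (max 1 (K ^ 2)) (le_max_left _ _)
  refine ⟨C * D * (1 + ((K ^ 2) ^ 2 + 1)) ^ (d - 1), 0, by positivity,
    fun X _ B S a b c hc _ _ => ?_⟩
  have hX := hc.one_le_X
  have hX0 : 0 < X := by linarith
  rcases S.eq_empty_or_nonempty with rfl | ⟨x₀, hx₀⟩
  · simp only [Finset.filter_empty, Finset.card_empty, Nat.cast_zero]
    positivity
  have h1 := h S (S.filter fun x => ¬ Rich θ S b (X ^ (-m)) D x) b (X ^ (-m)) ((K ^ 2) ^ 2 + 1) D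
    (vec θ (b x₀)) (Real.rpow_pos_of_pos hX0 _) (by positivity) (Finset.filter_subset _ _)
    ((hc.good hx₀).mono (le_max_right _ _)) fun x hx => by
      obtain ⟨a1, a2⟩ := Finset.mem_filter.1 hx
      exact ⟨(hc.good a1).mono (le_max_right _ _),
        (hc.good a1).close (hc.good hx₀) (by positivity), a2⟩
  rw [Real.rpow_neg hX0.le, div_inv_eq_mul] at h1
  rw [mul_assoc _ _ (X ^ _)]
  rw [Real.rpow_neg hX0.le]
  exact h1.trans (mul_le_mul_of_nonneg_left (multi_pow hd hX (by positivity) hm) (by positivity))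

theorem multi_step (hθ : GalRoots g θ) (hd : 2 ≤ d) (k : ℕ) (hk : 1 ≤ k) {y m m' q s t : ℝ}
    (hy0 : 0 ≤ y) (hky : k * y ≤ d) (hs : 0 < s) (ht : 0 < t) (hm : 0 < m) (hq : q < 1)
    (hqm : q ≤ (d - 1) * m) (hmm : m ≤ m') (hstep : ((d : ℝ) - 1) * (m' - m) ≤ (1 - q) / 4)
    (hc : Crit d k y m ((d - 1) * m - q) s t) (h : MultiP θ k y m) : MultiP θ k y m' := by
  classical
  obtain ⟨η, hη, e, he, h⟩ := h
  obtain ⟨η₁, hη₁, hr⟩ := crit_open hc hd hy0 hky (by linarith) hm hs ht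
  obtain ⟨D₁, hcov⟩ := rich_cover hθ hd k hk _ _ m ((d - 1) * m - q) ((1 - q) / 4) hm
    (by linarith) (by linarith) (hr η₁ _ le_rfl (by linarith))
  refine ⟨min η η₁, lt_min hη hη₁, max e ((1 + q) / 2), max_lt he (by linarith), fun D K => ?_⟩
  obtain ⟨C₁, X₁, hC₁, h1⟩ := h D₁ K
  obtain ⟨C₂, X₂, hC₂, h2⟩ := hcov K
  obtain ⟨C₃, hC₃, h3⟩ := nonrich_count hθ.toRoots (by omega) (max 1 (K ^ 2)) (le_max_left _ _)
  have hC₂0 : 0 ≤ C₂ := by linarith
  refine ⟨C₁ + C₂ * (C₃ * D * (1 + C₂) ^ (d - 1)), max X₁ X₂, by positivity,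
    fun X hX B S a b c hcf w1 w2 => ?_⟩
  have hX1 := hcf.one_le_X
  have hX0 : 0 < X := by linarith
  obtain ⟨u1, u2⟩ := multi_win hX1 (min_le_left η η₁) w1 w2
  obtain ⟨v1, v2⟩ := multi_win hX1 (min_le_right η η₁) w1 w2
  have a1 := h1 X ((le_max_left _ _).trans hX) B S a b c hcf u1 u2
  obtain ⟨T, hT, a2, a3⟩ := h2 X ((le_max_right _ _).trans hX) B S a b c hcf
    (multi_alpha k hX1 v1) v2
  set F : ℤ → Finset ℤ := fun t => S.filter fun x =>
    Close (C₂ * X ^ (-m)) (vec θ (b x)) (vec θ (b t)) ∧ ¬ Rich θ S b (X ^ (-m')) D x with hF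
  have a4 : ∀ t ∈ T, ((F t).card : ℝ) ≤
      C₃ * D * (1 + C₂) ^ (d - 1) * X ^ ((1 - q) / 4) := fun t ht => by
    have b1 := h3 S (F t) b (X ^ (-m')) (C₂ * X ^ (-m)) D (vec θ (b t))
      (Real.rpow_pos_of_pos hX0 _) (by positivity) (Finset.filter_subset _ _)
      ((hcf.good (hT ht)).mono (le_max_right _ _)) fun x hx => by
        obtain ⟨c1, c2, c3⟩ := Finset.mem_filter.1 hx
        exact ⟨(hcf.good c1).mono (le_max_right _ _), c2, c3⟩
    have e1 : C₂ * X ^ (-m) / X ^ (-m') = C₂ * X ^ (m' - m) := by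
      rw [mul_div_assoc, ← Real.rpow_sub hX0]
      congr 2
      ring
    rw [e1] at b1
    rw [mul_assoc _ _ (X ^ _)]
    refine b1.trans (mul_le_mul_of_nonneg_left ?_ (by positivity))
    refine (multi_pow (by omega) hX1 hC₂0 (by linarith)).trans ?_
    exact mul_le_mul_of_nonneg_left (Real.rpow_le_rpow_of_exponent_le hX1 hstep) (by positivity)
  have a5 : (S.filter fun x => ¬ Rich θ S b (X ^ (-m')) D x) ⊆
      (S.filter fun x => ¬ Rich θ S b (X ^ (-m)) D₁ x) ∪ T.biUnion F := by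
    intro x hx
    obtain ⟨c1, c2⟩ := Finset.mem_filter.1 hx
    by_cases c3 : Rich θ S b (X ^ (-m)) D₁ x
    · obtain ⟨t, ht, c4⟩ := a3 x c1 c3
      exact Finset.mem_union_right _
        (Finset.mem_biUnion.2 ⟨t, ht, Finset.mem_filter.2 ⟨c1, c4, c2⟩⟩)
    · exact Finset.mem_union_left _ (Finset.mem_filter.2 ⟨c1, c3⟩)
  have a6 : (((S.filter fun x => ¬ Rich θ S b (X ^ (-m')) D x).card : ℕ) : ℝ) ≤
      ((S.filter fun x => ¬ Rich θ S b (X ^ (-m)) D₁ x).card : ℝ) + ∑ t ∈ T, ((F t).card : ℝ) := by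
    exact_mod_cast (Finset.card_le_card a5).trans
      ((Finset.card_union_le _ _).trans (Nat.add_le_add_left Finset.card_biUnion_le _))
  have a7 : ∑ t ∈ T, ((F t).card : ℝ) ≤
      C₂ * (C₃ * D * (1 + C₂) ^ (d - 1)) * X ^ ((1 + q) / 2) := by
    refine (Finset.sum_le_card_nsmul _ _ _ a4).trans ?_
    rw [nsmul_eq_mul]
    refine (mul_le_mul_of_nonneg_right a2 (by positivity)).trans (le_of_eq ?_)
    have e1 : X ^ ((1 + q) / 2) =
        X ^ (((d : ℝ) - 1) * m - ((d - 1) * m - q) + (1 - q) / 4) * X ^ ((1 - q) / 4) := by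
      rw [← Real.rpow_add hX0]
      congr 1
      ring
    rw [e1]
    ring
  have a8 : X ^ e ≤ X ^ max e ((1 + q) / 2) :=
    Real.rpow_le_rpow_of_exponent_le hX1 (le_max_left _ _)
  have a9 : X ^ ((1 + q) / 2) ≤ X ^ max e ((1 + q) / 2) :=
    Real.rpow_le_rpow_of_exponent_le hX1 (le_max_right _ _)
  rw [add_mul]
  exact a6.trans (add_le_add (a1.trans (mul_le_mul_of_nonneg_left a8 hC₁))
    (a7.trans (mul_le_mul_of_nonneg_left a9 (by positivity))))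

theorem covered_of_crit (hθ : GalRoots g θ) (hd : 2 ≤ d) (k : ℕ) (hk : 1 ≤ k) (y μ κ s t : ℝ)
    (hy0 : 0 ≤ y) (hky : k * y ≤ d) (hs : 0 < s) (ht : 0 < t) (hts : t ≤ k * s) (hκ : 0 ≤ κ)
    (hμ : 1 / ((d : ℝ) - 1) ≤ μ) (hν : (d - 1) * μ - κ < 1)
    (h₀ : Crit d k y (1 / ((d : ℝ) - 1)) 0 s t) (h₁ : Crit d k y μ κ s t) :
    Covered θ k y μ ((d - 1) * μ - κ) := by
  classical
  have hn : (0 : ℝ) < d - 1 := by
    have : (2 : ℝ) ≤ d := by exact_mod_cast hd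
    linarith
  have hn1 : 0 < 1 / ((d : ℝ) - 1) := by positivity
  have hμ0 : 0 < μ := hn1.trans_le hμ
  obtain ⟨μ₀, hc₀, ⟨b1, b2⟩, b3⟩ : ∃ μ₀ : ℝ, Crit d k y μ₀ 0 s t ∧
      (0 < μ₀ ∧ ((d - 1) * μ - κ) / (d - 1) < μ₀) ∧ μ₀ < 1 / ((d : ℝ) - 1) := by
    have e1 := (crit_nhds h₀).and ((lt_mem_nhds hn1).and
      (lt_mem_nhds (div_lt_div_of_pos_right hν hn)))
    obtain ⟨μ₀, ⟨a1, a2⟩, a3⟩ := ((e1.filter_mono (nhdsWithin_le_nhds (s := Set.Iio _))).and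
      (self_mem_nhdsWithin (s := Set.Iio (1 / ((d : ℝ) - 1))))).exists
    exact ⟨μ₀, a1, a2, a3⟩
  rw [div_lt_iff₀ hn] at b2
  have b4 : μ₀ ≤ μ := b3.le.trans hμ
  rw [lt_div_iff₀ hn] at b3
  have hq : ((d : ℝ) - 1) * μ₀ < 1 := by linarith
  have b5 : ∀ m, μ₀ ≤ m → ((d : ℝ) - 1) * μ₀ ≤ (d - 1) * m := fun m hm =>
    mul_le_mul_of_nonneg_left hm hn.le
  have hcr : ∀ m, μ₀ ≤ m → m ≤ μ → Crit d k y m ((d - 1) * m - (d - 1) * μ₀) s t :=
    fun m h1 h2 => crit_interp (by omega) hy0 hky hs.le ht.le b1 le_rfl (by rwa [sub_self])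
      (crit_mono h₁ (by omega) le_rfl hy0 hky (by linarith) (by linarith [b5 μ b4]) hs.le ht.le
        hts) h1 h2
  set h : ℝ := (1 - (d - 1) * μ₀) / 4 / (d - 1) with hh
  have hh0 : 0 < h := div_pos (by linarith) hn
  have key : ∀ (j : ℕ) (m : ℝ), μ₀ ≤ m → m ≤ μ → m ≤ μ₀ + j * h → MultiP θ k y m := by
    intro j
    induction j with
    | zero =>
      intro m h1 _ h3
      have : m = μ₀ := le_antisymm (by simpa using h3) h1
      rw [this]
      exact multi_base hθ.toRoots (by omega) k y μ₀ b1.le hq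
    | succ j ih =>
      intro m h1 h2 h3
      have c1 : μ₀ ≤ max μ₀ (m - h) := le_max_left _ _
      have c2 : max μ₀ (m - h) ≤ m := max_le h1 (by linarith)
      have c3 : max μ₀ (m - h) ≤ μ₀ + j * h := by
        push_cast at h3
        exact max_le (le_add_of_nonneg_right (by positivity)) (by linarith)
      refine multi_step hθ hd k hk hy0 hky hs ht (b1.trans_le c1) hq (b5 _ c1) c2 ?_
        (hcr _ c1 (c2.trans h2)) (ih _ c1 (c2.trans h2) c3)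
      have c4 : m - max μ₀ (m - h) ≤ h := by linarith [le_max_right μ₀ (m - h)]
      refine (mul_le_mul_of_nonneg_left c4 hn.le).trans (le_of_eq ?_)
      rw [hh]
      field_simp
  obtain ⟨j, hj⟩ := exists_nat_ge ((μ - μ₀) / h)
  rw [div_le_iff₀ hh0] at hj
  obtain ⟨η, hη, e, he, hP⟩ := key j μ b4 le_rfl (by linarith)
  obtain ⟨η₁, hη₁, hr⟩ := crit_open h₁ hd hy0 hky hκ hμ0 hs ht
  obtain ⟨D, hcov⟩ := rich_cover hθ hd k hk _ _ μ (κ + η₁) η₁ hμ0 (by linarith) hη₁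
    (hr η₁ _ le_rfl le_rfl)
  refine ⟨min η η₁, lt_min hη hη₁, e, he, fun K => ?_⟩
  obtain ⟨C₁, X₁, hC₁, h1⟩ := hP D K
  obtain ⟨C₂, X₂, hC₂, h2⟩ := hcov K
  refine ⟨max C₁ C₂, max X₁ X₂, hC₂.trans (le_max_right _ _), fun X hX B S a b c hcf w1 w2 => ?_⟩
  have hX1 := hcf.one_le_X
  have hX0 : 0 < X := by linarith
  obtain ⟨u1, u2⟩ := multi_win hX1 (min_le_left η η₁) w1 w2
  obtain ⟨v1, v2⟩ := multi_win hX1 (min_le_right η η₁) w1 w2
  have a1 := h1 X ((le_max_left _ _).trans hX) B S a b c hcf u1 u2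
  obtain ⟨T, hT, a2, a3⟩ := h2 X ((le_max_right _ _).trans hX) B S a b c hcf
    (multi_alpha k hX1 v1) v2
  refine ⟨T, hT, ?_, ?_⟩
  · have e1 : ((d : ℝ) - 1) * μ - (κ + η₁) + η₁ = (d - 1) * μ - κ := by ring
    rw [e1] at a2
    exact a2.trans (mul_le_mul_of_nonneg_right (le_max_right _ _) (by positivity))
  · refine le_trans ?_ (a1.trans (mul_le_mul_of_nonneg_right (le_max_left _ _) (by positivity)))
    refine Nat.cast_le.2 (Finset.card_le_card fun x hx => ?_)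
    obtain ⟨c1, c2⟩ := Finset.mem_filter.1 hx
    refine Finset.mem_filter.2 ⟨c1, fun c3 => ?_⟩
    obtain ⟨t', ht', c4⟩ := a3 x c1 c3
    exact c2 t' ht' (c4.mono (mul_le_mul_of_nonneg_right (le_max_right _ _) (by positivity)))

end Vale.Agent.P018
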