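import Vale.Agent.P018.End42
import Vale.Agent.P018.Multi

namespace Vale.Agent.P018

open Polynomial NumberField Finset

variable {L : Type} [Field L] [NumberField L] {g : ℤ[X]} {θ : Fin 4 → 𝓞 L}

theorem crit42 {y μ κ t : ℝ}
    (h : (5 / 4 * (1 - y / 2 + κ / 2 + t * (y / 4 + 3 * κ / 4))) ^ 4 <
      μ ^ 3 * (4 * t ^ 3 + 24 * t ^ 2 + 16 * t)) : Crit 4 2 y μ κ 1 t := by
  unfold Crit pvol
  simp only [Finset.sum_range_succ, Finset.range_zero, Finset.sum_empty, Nat.factorial,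
    Nat.choose, Nat.reduceSub, Nat.reduceAdd]
  push_cast
  convert h using 1 <;> ring

theorem cov42 (hθ : GalRoots g θ) (y₁ y μ κ t : ℝ) (h1 : 1 ≤ y₁) (hy : y₁ ≤ y) (hy2 : y ≤ 2)
    (ht : 0 < t) (ht2 : t ≤ 2) (hκ : 0 ≤ κ) (hμ : 1 / 3 ≤ μ) (hν : 3 * μ - κ < 1)
    (c₀ : (5 / 4 * (1 - y₁ / 2 + 0 / 2 + t * (y₁ / 4 + 3 * 0 / 4))) ^ 4 <
      (1 / 3) ^ 3 * (4 * t ^ 3 + 24 * t ^ 2 + 16 * t))
    (c₁ : (5 / 4 * (1 - y₁ / 2 + κ / 2 + t * (y₁ / 4 + 3 * κ / 4))) ^ 4 <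
      μ ^ 3 * (4 * t ^ 3 + 24 * t ^ 2 + 16 * t)) : Covered θ 2 y μ (3 * μ - κ) := by
  have e : ((4 : ℕ) : ℝ) - 1 = 3 := by norm_num
  have hky : ((2 : ℕ) : ℝ) * y ≤ (4 : ℕ) := by push_cast; linarith
  have hts : t ≤ ((2 : ℕ) : ℝ) * 1 := by push_cast; linarith
  have := covered_of_crit hθ (by norm_num) 2 (by norm_num) y μ κ 1 t (by linarith) hky one_pos ht
    hts hκ (by rw [e]; exact hμ) (by rw [e]; exact hν)
    (by rw [e]; exact crit_mono (crit42 c₀) (by norm_num) hy (by linarith) hky le_rfl le_rfl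
          zero_le_one ht.le hts)
    (crit_mono (crit42 c₁) (by norm_num) hy (by linarith) hky le_rfl hκ zero_le_one ht.le hts)
  rwa [e] at this

theorem seg_lines (hθ : GalRoots g θ) (y₁ y₂ μ κ t h : ℝ) {y : ℝ} (hy : y₁ ≤ y) (hy' : y ≤ y₂)
    (H : 1 ≤ y₁ ∧ y₂ ≤ 2 ∧ 0 < t ∧ t ≤ 2 ∧ 0 ≤ κ ∧ 1 / 3 ≤ μ ∧ 3 * μ - κ < 1 ∧
      (5 / 4 * (1 - y₁ / 2 + 0 / 2 + t * (y₁ / 4 + 3 * 0 / 4))) ^ 4 <
        (1 / 3) ^ 3 * (4 * t ^ 3 + 24 * t ^ 2 + 16 * t) ∧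
      (5 / 4 * (1 - y₁ / 2 + κ / 2 + t * (y₁ / 4 + 3 * κ / 4))) ^ 4 <
        μ ^ 3 * (4 * t ^ 3 + 24 * t ^ 2 + 16 * t) ∧
      3 * (y₂ / 4) < 2 * μ ∧ 0 ≤ h ∧ 3 * μ - κ + 2 * (y₂ / 4) - μ - h < 1 ∧ 4 * h < 1 ∧
      2 * (y₂ / 4) + 3 * h < 1) : CfgNegl θ 2 y := by
  obtain ⟨a1, a2, a3, a4, a5, a6, a7, a8, a9, b1, b2, b3, b4, b5⟩ := H
  exact cfgNegl_four_lines hθ y μ (3 * μ - κ) h
    (cov42 hθ y₁ y μ κ t a1 hy (by linarith) a3 a4 a5 a6 a7 a8 a9) (by linarith) a7 (by linarith)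
    b2 (by linarith) b4 (by linarith)

theorem seg_special (hθ : GalRoots g θ) (y₁ y₂ μ κ t h : ℝ) {y : ℝ} (hy : y₁ ≤ y) (hy' : y ≤ y₂)
    (H : 1 ≤ y₁ ∧ y₂ ≤ 2 ∧ 0 < t ∧ t ≤ 2 ∧ 0 ≤ κ ∧ 1 / 3 ≤ μ ∧ 3 * μ - κ < 1 ∧
      (5 / 4 * (1 - y₁ / 2 + 0 / 2 + t * (y₁ / 4 + 3 * 0 / 4))) ^ 4 <
        (1 / 3) ^ 3 * (4 * t ^ 3 + 24 * t ^ 2 + 16 * t) ∧
      (5 / 4 * (1 - y₁ / 2 + κ / 2 + t * (y₁ / 4 + 3 * κ / 4))) ^ 4 <
        μ ^ 3 * (4 * t ^ 3 + 24 * t ^ 2 + 16 * t) ∧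
      μ ≤ 1 / 2 ∧ y₂ / 4 < μ ∧ 1 - y₁ / 2 < μ ∧ 0 ≤ h ∧ 3 * μ - κ + 2 * (y₂ / 4) - μ - h < 1 ∧
      2 * h < 1 ∧ 2 * (y₂ / 4) + h < 1 ∧
      (3 * (y₂ / 4) < 2 * μ ∨ 3 * (1 - y₁ / 2) < 2 * μ ∨
        (0 ≤ 3 * (y₂ / 4) - 2 * μ ∧ 0 ≤ 3 * (1 - y₁ / 2) - 2 * μ ∧ 4 * (y₂ / 4) < 3 * μ ∧
          19 * (3 * (y₂ / 4) - 2 * μ) + 4 * (3 * (1 - y₁ / 2) - 2 * μ) < 1))) :
    CfgNegl θ 2 y := by
  obtain ⟨a1, a2, a3, a4, a5, a6, a7, a8, a9, b1, b2, b3, b4, b5, b6, b7, b8⟩ := H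
  refine cfgNegl_four_special hθ y μ (3 * μ - κ) h
    (cov42 hθ y₁ y μ κ t a1 hy (by linarith) a3 a4 a5 a6 a7 a8 a9) (by linarith) a7 b1
    (by linarith) (by linarith) b4 (by linarith) b6 (by linarith) ?_
  rcases b8 with b8 | b8 | ⟨c1, c2, c3, c4⟩
  · exact Or.inl (by linarith)
  · exact Or.inr (Or.inl (by linarith))
  · exact Or.inr (Or.inr ⟨_, _, c1, c2, by linarith, by linarith, by linarith, c4⟩)

theorem cfgNegl_four (hθ : GalRoots g θ) (y : ℝ) (h1 : 1 ≤ y) (h2 : y ≤ 2) : CfgNegl θ 2 y := by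
  rcases le_or_gt y (11 / 10) with s0 | s0
  · exact seg_lines hθ 1 (11 / 10) (2063 / 5000) (2497 / 10000) (57 / 50) (689 / 5000)
      h1 s0 (by norm_num)
  rcases le_or_gt y (23 / 20) with s1 | s1
  · exact seg_lines hθ (11 / 10) (23 / 20) (4313 / 10000) (2987 / 10000) (43 / 50) (1403 / 10000)
      s0.le s1 (by norm_num)
  rcases le_or_gt y (59 / 50) with s2 | s2
  · exact seg_special hθ (23 / 20) (59 / 50) (4429 / 10000) (413 / 1250) (3 / 4) (7 / 25)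
      s1.le s2 (by norm_num)
  rcases le_or_gt y (6 / 5) with s3 | s3
  · exact seg_special hθ (59 / 50) (6 / 5) (563 / 1250) (703 / 2000) (69 / 100) (7 / 25)
      s2.le s3 (by norm_num)
  rcases le_or_gt y (303 / 250) with s4 | s4
  · exact seg_special hθ (6 / 5) (303 / 250) (4549 / 10000) (3653 / 10000) (33 / 50) (7 / 25)
      s3.le s4 (by norm_num)
  rcases le_or_gt y (61 / 50) with s5 | s5
  · exact seg_special hθ (303 / 250) (61 / 50) (4579 / 10000) (3741 / 10000) (16 / 25) (7 / 25)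
      s4.le s5 (by norm_num)
  rcases le_or_gt y (613 / 500) with s6 | s6
  · exact seg_special hθ (61 / 50) (613 / 500) (4599 / 10000) (3801 / 10000) (63 / 100) (27 / 100)
      s5.le s6 (by norm_num)
  rcases le_or_gt y (1233 / 1000) with s7 | s7
  · exact seg_special hθ (613 / 500) (1233 / 1000) (2307 / 5000) (3847 / 10000) (31 / 50) (27 / 100)
      s6.le s7 (by norm_num)
  rcases le_or_gt y (1243 / 1000) with s8 | s8
  · exact seg_special hθ (1233 / 1000) (1243 / 1000) (2317 / 5000) (244 / 625) (61 / 100) (27 / 100)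
      s7.le s8 (by norm_num)
  rcases le_or_gt y (251 / 200) with s9 | s9
  · exact seg_special hθ (1243 / 1000) (251 / 200) (4659 / 10000) (3981 / 10000) (59 / 100) (27 / 100)
      s8.le s9 (by norm_num)
  rcases le_or_gt y (127 / 100) with s10 | s10
  · exact seg_special hθ (251 / 200) (127 / 100) (4689 / 10000) (2037 / 5000) (29 / 50) (27 / 100)
      s9.le s10 (by norm_num)
  rcases le_or_gt y (129 / 100) with s11 | s11
  · exact seg_special hθ (127 / 100) (129 / 100) (2367 / 5000) (1051 / 2500) (14 / 25) (27 / 100)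
      s10.le s11 (by norm_num)
  rcases le_or_gt y (263 / 200) with s12 | s12
  · exact seg_special hθ (129 / 100) (263 / 200) (299 / 625) (873 / 2000) (53 / 100) (27 / 100)
      s11.le s12 (by norm_num)
  rcases le_or_gt y (269 / 200) with s13 | s13
  · exact seg_special hθ (263 / 200) (269 / 200) (1211 / 2500) (2283 / 5000) (1 / 2) (13 / 50)
      s12.le s13 (by norm_num)
  rcases le_or_gt y (289 / 200) with s14 | s14
  · exact seg_special hθ (269 / 200) (289 / 200) (2457 / 5000) (481 / 1000) (47 / 100) (13 / 50)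
      s13.le s14 (by norm_num)
  rcases le_or_gt y (309 / 200) with s15 | s15
  · exact seg_special hθ (289 / 200) (309 / 200) (1041 / 2500) (811 / 2000) (39 / 100) (11 / 50)
      s14.le s15 (by norm_num)
  exact cfgNegl_alpha hθ.toRoots (by norm_num) 2 le_rfl y (by push_cast; linarith)
    (by push_cast; linarith)

end Vale.Agent.P018
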