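import Vale.Agent.P018.BoxCount
import Vale.Agent.P018.Alpha
import Vale.Agent.P018.Multi

namespace Vale.Agent.P018

open Polynomial NumberField Finset

variable {d : ℕ} {L : Type} [Field L] [NumberField L] {g : ℤ[X]}

theorem seg_box {θ : Fin d → 𝓞 L} (hθ : GalRoots g θ) (hd : 2 ≤ d) (k : ℕ) (hk : 1 ≤ k)
    (y₁ y₂ μ κ t : ℝ) {y : ℝ} (hy : y₁ ≤ y) (hy' : y ≤ y₂) (hky : k * y ≤ d) (h0 : 0 ≤ y₁)
    (ht : 0 < t) (htk : t ≤ k * 1) (hκ : 0 ≤ κ) (hμ : 1 / ((d : ℝ) - 1) ≤ μ)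
    (c₀ : Crit d k y₁ (1 / ((d : ℝ) - 1)) 0 1 t) (c₁ : Crit d k y₁ μ κ 1 t)
    (h1 : (d - 1) * μ - κ + y₂ / d < 1)
    (h2 : (d - 1) * μ - κ + y₂ / d + (d - 1) * (y₂ / d - μ) < 1) : CfgNegl θ k y := by
  have hd' : (2 : ℝ) ≤ d := by exact_mod_cast hd
  have hy0 : 0 ≤ y := h0.trans hy
  have h3 : y / d ≤ y₂ / d := div_le_div_of_nonneg_right hy' (by linarith)
  have h4 : 0 ≤ y / d := div_nonneg hy0 (by linarith)
  refine cfgNegl_box hθ.toRoots (by omega) k y μ _ hy0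
    (covered_of_crit hθ hd k hk y μ κ 1 t hy0 hky one_pos ht htk hκ hμ (by linarith)
      (crit_mono c₀ (by omega) hy hy0 hky le_rfl le_rfl zero_le_one ht.le htk)
      (crit_mono c₁ (by omega) hy hy0 hky le_rfl hκ zero_le_one ht.le htk)) (by linarith) ?_
  have h5 : ((d : ℝ) - 1) * (y / d - μ) ≤ (d - 1) * (y₂ / d - μ) :=
    mul_le_mul_of_nonneg_left (by linarith) (by linarith)
  linarith

theorem cfgNegl_five {θ : Fin 5 → 𝓞 L} (hθ : GalRoots g θ) (y : ℝ) (h1 : 1 ≤ y)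
    (h2 : ((3 : ℕ) : ℝ) * y ≤ (5 : ℕ)) : CfgNegl θ 3 y := by
  rcases le_or_gt y (5 / 4) with s0 | s0
  · refine seg_box hθ (by norm_num) 3 (by norm_num) 1 (5 / 4) (1 / 4) (51 / 200) (39 / 50) h1 s0 h2
      (by norm_num) (by norm_num) (by norm_num) (by norm_num) (by norm_num) ?_ ?_ (by norm_num)
      (by norm_num) <;>
    norm_num [Crit, pvol, Finset.sum_range_succ, Nat.factorial, Nat.choose]
  rcases le_or_gt y (29 / 20) with s1 | s1
  · refine seg_box hθ (by norm_num) 3 (by norm_num) (5 / 4) (29 / 20) (141 / 500) (451 / 1000)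
      (37 / 100) s0.le s1 h2
      (by norm_num) (by norm_num) (by norm_num) (by norm_num) (by norm_num) ?_ ?_ (by norm_num)
      (by norm_num) <;>
    norm_num [Crit, pvol, Finset.sum_range_succ, Nat.factorial, Nat.choose]
  exact cfgNegl_alpha hθ.toRoots (by norm_num) 3 (by norm_num) y (by push_cast; linarith) h2

theorem cfgNegl_seven {θ : Fin 7 → 𝓞 L} (hθ : GalRoots g θ) (y : ℝ) (h1 : 1 ≤ y)
    (h2 : ((4 : ℕ) : ℝ) * y ≤ (7 : ℕ)) : CfgNegl θ 4 y := by
  rcases le_or_gt y (13 / 10) with s0 | s0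
  · refine seg_box hθ (by norm_num) 4 (by norm_num) 1 (13 / 10) (37 / 200) (61 / 200) (67 / 100)
      h1 s0 h2
      (by norm_num) (by norm_num) (by norm_num) (by norm_num) (by norm_num) ?_ ?_ (by norm_num)
      (by norm_num) <;>
    norm_num [Crit, pvol, Finset.sum_range_succ, Nat.factorial, Nat.choose]
  rcases le_or_gt y (8 / 5) with s1 | s1
  · refine seg_box hθ (by norm_num) 4 (by norm_num) (13 / 10) (8 / 5) (221 / 1000) (303 / 500)
      (27 / 100) s0.le s1 h2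
      (by norm_num) (by norm_num) (by norm_num) (by norm_num) (by norm_num) ?_ ?_ (by norm_num)
      (by norm_num) <;>
    norm_num [Crit, pvol, Finset.sum_range_succ, Nat.factorial, Nat.choose]
  exact cfgNegl_alpha hθ.toRoots (by norm_num) 4 (by norm_num) y (by push_cast; linarith) h2

end Vale.Agent.P018
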