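import Vale.Agent.P018.Vander

/-!
From configurations to `LocNegl`.

Proof. Let `η, e` be given by `CfgNegl`; we may assume `0 ≤ e` (replace `e` by `max e 0`). Use
`η / 2` for `LocNegl` and `X = N`. For `x ∈ S` choose the prime `p x` and a point
`P x : Pt θ k C₁ x (p x)` (`exists_pt`, `exists_bound`, see the beginning of the proof of `core`
in Core.lean). `fun j => (P x).α j` is `Equi`: it equals `c ^ k (x - θ j) / β j ^ k`
(`Equi.mul`, `Equi.inv`, `equi_vec`; `x - θ j = vec θ b' j` for a suitable `b'` since `2 ≤ d`).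
With `D` from `exists_int_coords` applied to `D ^ (k - 1) * α` we get integer vectors `a x` with
`bev (a x) (θ j) = D ^ k * α j`, so `bev (a x) (θ j) * β j ^ k = (D c) ^ k (x - θ j)`.
Split `S` according to the pair `((P x).c, Nat.log 2 (p x))`: at most `2 C₁ ^ d + 1` values of the
first and `Nat.log 2 ⌊N ^ (y + η)⌋₊ + 1 ≤ C N ^ ((1 - e) / 2)` values of the second coordinate.
The class of `(c₀, j)` is a configuration with `B = (2 ^ j) ^ (1 / d)`, `c = D c₀` and a constant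
`K` depending only on `θ, k, c, c₁, D`:
`B ≤ p ^ (1 / d) ≤ 2 B`; `b_hi, b_lo, b_crd` from `Pt.up, Pt.lo, Pt.b_le`; `b_big` from `Pt.lo` and
`norm_bev_le` with an index of maximal absolute value (`exists_max_index`); `a_hi, a_lo` from the
equation, `1 ≤ |D c₀| ≤ |D| C₁ ^ d` and `c₁ N / 2 ≤ ‖x - σ θ j‖ ≤ (c + R) N` for `N` large;
`a_crd` from `crd_le`; `N ^ ((y - η) / d) ≤ B` because `2 ^ j > p / 2 ≥ N ^ (y - η / 2) / 2`.
`mult`: if `wedge (b x) (b x') = 0` then with `u = b x i`, `v = b x' i`, `u ≠ 0`, we have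
`v * b x m = u * b x' m` for all `m`, so `v ^ d * (p c₀) = u ^ d * (p' c₀)` (`Pt.norm_eq`), so
`v ^ d p = u ^ d p'`; comparing `p`-adic valuations modulo `d ≥ 2` gives `p = p'`; then
`card_roots_le` (Box.lean) bounds the number of such `x'` by `d (2 c + 1)` since `N ≤ p`.
Finally `S.card ≤ (number of classes) * C N ^ e ≤ δ N` for large `N` (`eventually_rpow_le`).
-/

namespace Vale.Agent.P018

open Polynomial NumberField Finset

variable {d : ℕ} {L : Type} [Field L] [NumberField L] {g : ℤ[X]} {θ : Fin d → 𝓞 L}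

theorem upstream_lin (hd : 2 ≤ d) (u v : ℤ) : Equi θ fun j => (u : L) + v * (θ j : L) := by
  refine ⟨Pi.single ⟨0, by omega⟩ (u : ℚ) + Pi.single ⟨1, by omega⟩ (v : ℚ), fun j => ?_⟩
  simp [add_mul, sum_add_distrib, Pi.single_apply, apply_ite (fun q : ℚ => (q : L))]

theorem upstream_pow (hθ : GalRoots g θ) (hd : 2 ≤ d) {β : Fin d → L} (h : Equi θ β) (n : ℕ) :
    Equi θ fun j => β j ^ n := by
  induction n with
  | zero => simpa using upstream_lin (θ := θ) hd 1 0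
  | succ n ih => simpa only [pow_succ] using ih.mul hθ h

theorem upstream_coords (hθ : GalRoots g θ) (hd : 2 ≤ d) : ∃ D : ℤ, D ≠ 0 ∧
    ∀ (k : ℕ) (C₁ : ℝ) (x : ℤ) (p : ℕ) (P : Pt θ k C₁ x p), 1 ≤ k → ∃ a : Fin d → ℤ, ∀ j,
      bev a (θ j) * bev P.b (θ j) ^ k = ((D * P.c : ℤ) : 𝓞 L) ^ k * ((x : 𝓞 L) - θ j) := by
  obtain ⟨D, hD, h⟩ := exists_int_coords hθ.toRoots
  refine ⟨D, hD, fun k C₁ x p P hk => ?_⟩
  obtain ⟨k, rfl⟩ : ∃ m, k = m + 1 := ⟨k - 1, by omega⟩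
  have hne : ∀ j, vec θ P.b j ^ (k + 1) ≠ 0 := fun j =>
    pow_ne_zero _ ((map_ne_zero_iff _ RingOfIntegers.coe_injective).mpr (hθ.ne _ P.b_ne j))
  have h1 := (upstream_lin hd (D ^ k * P.c ^ (k + 1) * x) (-(D ^ k * P.c ^ (k + 1)))).mul hθ
    ((upstream_pow hθ hd (equi_vec θ P.b) (k + 1)).inv hθ hne)
  obtain ⟨a, ha⟩ := h (fun j => (D : 𝓞 L) ^ k * P.α j) (by
    convert h1 using 2 with j
    have := congrArg (algebraMap (𝓞 L) L) (P.alpha_eq j)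
    simp only [map_mul, map_pow, map_sub, map_intCast] at this
    rw [eq_mul_inv_iff_mul_eq₀ (hne j)]
    change algebraMap (𝓞 L) L _ * algebraMap (𝓞 L) L (bev P.b (θ j)) ^ (k + 1) =
      _ + _ * algebraMap (𝓞 L) L (θ j)
    simp only [map_mul, map_pow, map_intCast]
    push_cast
    linear_combination (D : L) ^ k * this)
  refine ⟨a, fun j => ?_⟩
  rw [ha]
  push_cast
  linear_combination (D : 𝓞 L) ^ (k + 1) * P.alpha_eq j

theorem upstream_prime {d p p' : ℕ} (hd : 2 ≤ d) (hp : p.Prime) (hp' : p'.Prime) {u v : ℤ}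
    (hu : u ≠ 0) (h : v ^ d * p = u ^ d * p') : p = p' := by
  by_contra hne
  have h1 : v.natAbs ^ d * p = u.natAbs ^ d * p' := by
    simpa [Int.natAbs_mul, Int.natAbs_pow] using congrArg Int.natAbs h
  have hu' : u.natAbs ^ d ≠ 0 := pow_ne_zero _ (Int.natAbs_ne_zero.2 hu)
  have hv' : v.natAbs ^ d ≠ 0 := left_ne_zero_of_mul (h1 ▸ mul_ne_zero hu' hp'.ne_zero)
  have h2 := congrArg (fun n => Nat.factorization n p) h1
  simp only [Nat.factorization_mul hv' hp.ne_zero, Nat.factorization_mul hu' hp'.ne_zero,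
    Nat.factorization_pow, hp.factorization, hp'.factorization, Finsupp.add_apply,
    Finsupp.smul_apply, smul_eq_mul, Finsupp.single_eq_same, Finsupp.single_eq_of_ne hne,
    add_zero] at h2
  have h3 : d ∣ 1 := (Nat.dvd_add_right (dvd_mul_right _ _)).1 (h2 ▸ dvd_mul_right _ _)
  have := Nat.le_of_dvd one_pos h3
  omega

theorem upstream_wedge (hd : 2 ≤ d) {p p' : ℕ} (hp : p.Prime) (hp' : p'.Prime) {c₀ : ℤ}
    (hc : c₀ ≠ 0) {b b' : Fin d → ℤ} (hb : b ≠ 0)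
    (h1 : ((p * c₀ : ℤ) : 𝓞 L) = ∏ j, bev b (θ j)) (h2 : ((p' * c₀ : ℤ) : 𝓞 L) = ∏ j, bev b' (θ j))
    (hw : wedge b b' = 0) : p = p' := by
  obtain ⟨i, hi⟩ := Function.ne_iff.1 hb
  have h3 : ∀ j, (b' i : 𝓞 L) * bev b (θ j) = b i * bev b' (θ j) := by
    intro j
    simp only [bev, mul_sum]
    refine sum_congr rfl fun m _ => ?_
    have h4 : b i * b' m - b m * b' i = 0 := congrFun (congrFun hw i) m
    have h5 : (b i : 𝓞 L) * b' m - b m * b' i = 0 := by exact_mod_cast congrArg Int.cast h4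
    linear_combination (-θ j ^ (m : ℕ)) * h5
  have h6 : ∏ j, (b' i : 𝓞 L) * bev b (θ j) = ∏ j, b i * bev b' (θ j) :=
    prod_congr rfl fun j _ => h3 j
  rw [prod_mul_distrib, prod_mul_distrib, ← h1, ← h2, prod_const, prod_const, card_univ,
    Fintype.card_fin] at h6
  have h7 : b' i ^ d * (p * c₀) = b i ^ d * (p' * c₀) := by exact_mod_cast h6
  refine upstream_prime hd hp hp' (v := b' i) hi (mul_right_cancel₀ hc ?_)
  linear_combination h7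

theorem upstream_class (hθ : GalRoots g θ) (hd : 2 ≤ d) (k : ℕ) (hk : 1 ≤ k) (c : ℕ) (c₁ : ℝ)
    (hc₁ : 0 < c₁) (R : ℝ) (hR : 1 ≤ R) (hRθ : ∀ (σ : L →+* ℂ) j, ‖em σ (θ j)‖ ≤ R) :
    ∃ K N₀ : ℝ, ∀ N : ℝ, N₀ ≤ N → ∀ (B : ℝ) (c₀ : ℤ) (S : Finset ℤ), 1 ≤ B → c₀ ≠ 0 →
      |(c₀ : ℝ)| ≤ (d * R ^ d) ^ d →
      (∀ x ∈ S, c₁ * N ≤ |(x : ℝ)| ∧ |(x : ℝ)| ≤ c * N ∧ ∃ p : ℕ, p.Prime ∧ N ≤ p ∧
        (p : ℤ) ^ k ∣ g.eval x ∧ B ≤ (p : ℝ) ^ ((d : ℝ)⁻¹) ∧ (p : ℝ) ^ ((d : ℝ)⁻¹) ≤ 2 * B ∧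
        ∃ P : Pt θ k (d * R ^ d) x p, P.c = c₀) → ∃ a b c', Cfg θ k K N B S a b c' := by
  obtain ⟨D, hD, hDa⟩ := upstream_coords hθ hd
  obtain ⟨Cc, hCc, hcrd⟩ := crd_le hθ.toRoots
  have hd' : (1 : ℝ) ≤ d := by exact_mod_cast (by omega : 1 ≤ d)
  have hbig : ∀ (σ : L →+* ℂ) j (b : Fin d → ℤ) (q : ℝ), (∀ i, |(b i : ℝ)| ≤ q) →
      ‖em σ (bev b (θ j))‖ ≤ d * R ^ d * q := by
    intro σ j b q hq
    rw [map_bev]
    simpa [bev] using norm_bev_le (fun i => (b i : ℝ)) (em σ (θ j)) R q hR (hRθ σ j) hq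
  generalize hC₁ : (d : ℝ) * R ^ d = C₁ at *
  have hC : 1 ≤ C₁ := hC₁ ▸ one_le_mul_of_one_le_of_one_le hd' (one_le_pow₀ hR)
  set A₁ : ℝ := (C₁ ^ d) ^ k * ((|(D : ℝ)| * C₁ ^ d) ^ k * (c + R)) with hA₁
  have hA0 : 0 ≤ A₁ := by positivity
  obtain ⟨K, k1, k2, k3, k4, k5, k6, k7, k8, k9⟩ : ∃ K : ℝ, R ≤ K ∧ c₁⁻¹ ≤ K ∧ c ≤ K ∧
      2 * C₁ ≤ K ∧ C₁ ^ d ≤ K ∧ Cc * A₁ ≤ K ∧ 2 / c₁ * (2 * C₁) ^ k ≤ K ∧ C₁ ^ d * C₁ ≤ K ∧
      ((d * (2 * c + 1) : ℕ) : ℝ) ≤ K := by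
    have e1 : 0 ≤ c₁⁻¹ := by positivity
    have e2 : 0 ≤ (c : ℝ) := by positivity
    have e3 : 0 ≤ C₁ ^ d := by positivity
    have e4 : 0 ≤ Cc * A₁ := by positivity
    have e5 : 0 ≤ 2 / c₁ * (2 * C₁) ^ k := by positivity
    have e6 : 0 ≤ C₁ ^ d * C₁ := by positivity
    have e7 : 0 ≤ ((d * (2 * c + 1) : ℕ) : ℝ) := by positivity
    refine ⟨R + c₁⁻¹ + c + 2 * C₁ + C₁ ^ d + Cc * A₁ + 2 / c₁ * (2 * C₁) ^ k + C₁ ^ d * C₁ +
      ((d * (2 * c + 1) : ℕ) : ℝ), ?_, ?_, ?_, ?_, ?_, ?_, ?_, ?_, ?_⟩ <;> linarith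
  refine ⟨K, max 1 (2 * R / c₁), fun N hN B c₀ S hB hc₀ hc₀' hS => ?_⟩
  have hN1 : 1 ≤ N := (le_max_left _ _).trans hN
  have hN2 : 2 * R ≤ N * c₁ := (div_le_iff₀ hc₁).1 ((le_max_right _ _).trans hN)
  have hS' : ∀ x ∈ S, ∃ (p : ℕ) (a b : Fin d → ℤ), p.Prime ∧ N ≤ p ∧ (p : ℤ) ∣ g.eval x ∧ b ≠ 0 ∧
      (∀ i, |(b i : ℝ)| ≤ 2 * B) ∧ ((p * c₀ : ℤ) : 𝓞 L) = ∏ j, bev b (θ j) ∧
      (∀ j, bev a (θ j) * bev b (θ j) ^ k = ((D * c₀ : ℤ) : 𝓞 L) ^ k * ((x : 𝓞 L) - θ j)) ∧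
      (∀ (σ : L →+* ℂ) j, ‖em σ (bev b (θ j))‖ ≤ 2 * C₁ * B) ∧
      ∀ (σ : L →+* ℂ) j, B ≤ C₁ ^ d * ‖em σ (bev b (θ j))‖ := by
    intro x hx
    obtain ⟨-, -, p, h1, h2, h3, h4, h5, P, rfl⟩ := hS x hx
    obtain ⟨a, ha⟩ := hDa k C₁ x p P hk
    exact ⟨p, a, P.b, h1, h2, (dvd_pow_self _ (by omega)).trans h3, P.b_ne,
      fun i => (P.b_le i).trans h5, P.norm_eq, ha, fun σ j => (P.up σ j).trans (by nlinarith),
      fun σ j => h4.trans (P.lo σ j)⟩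
  choose! p a b hp hNp hpg hb0 hbl hnorm heq hup hlo using hS'
  have hBk : 0 < B ^ k := by positivity
  have hNB : 0 ≤ N / B ^ k := by positivity
  have hDc : D * c₀ ≠ 0 := mul_ne_zero hD hc₀
  have hDc1 : (1 : ℝ) ≤ |((D * c₀ : ℤ) : ℝ)| := by exact_mod_cast Int.one_le_abs hDc
  have hDc2 : |((D * c₀ : ℤ) : ℝ)| ≤ |(D : ℝ)| * C₁ ^ d := by
    rw [Int.cast_mul, abs_mul]; gcongr
  have hn : ∀ x ∈ S, ∀ (σ : L →+* ℂ) j, ‖em σ (bev (a x) (θ j))‖ * ‖em σ (bev (b x) (θ j))‖ ^ k =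
      |((D * c₀ : ℤ) : ℝ)| ^ k * ‖(x : ℂ) - em σ (θ j)‖ := by
    intro x hx σ j
    simpa only [map_mul, map_pow, map_sub, map_intCast, norm_mul, norm_pow, Complex.norm_intCast]
      using congrArg (fun z => ‖em σ z‖) (heq x hx j)
  have hA : ∀ x ∈ S, ∀ (σ : L →+* ℂ) j, ‖em σ (bev (a x) (θ j))‖ ≤ A₁ * (N / B ^ k) := by
    intro x hx σ j
    have h2 : ‖(x : ℂ) - em σ (θ j)‖ ≤ (c + R) * N := by
      refine (norm_sub_le _ _).trans ?_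
      rw [Complex.norm_intCast]
      nlinarith [hRθ σ j, (hS x hx).2.1]
    rw [← mul_div_assoc, le_div_iff₀ hBk]
    calc ‖em σ (bev (a x) (θ j))‖ * B ^ k
        ≤ ‖em σ (bev (a x) (θ j))‖ * (C₁ ^ d * ‖em σ (bev (b x) (θ j))‖) ^ k := by
          gcongr; exact hlo x hx σ j
      _ = (C₁ ^ d) ^ k * (|((D * c₀ : ℤ) : ℝ)| ^ k * ‖(x : ℂ) - em σ (θ j)‖) := by
          rw [← hn x hx, mul_pow]; ring
      _ ≤ (C₁ ^ d) ^ k * ((|(D : ℝ)| * C₁ ^ d) ^ k * ((c + R) * N)) := by gcongr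
      _ = _ := by rw [hA₁]; ring
  obtain ⟨σ₀⟩ : Nonempty (L →+* ℂ) := inferInstance
  refine ⟨a, b, D * c₀, hR.trans k1, hN1, hB, fun σ j => (hRθ σ j).trans k1, hDc, heq,
    fun x hx => ?_, fun x hx => (hS x hx).2.1.trans (by gcongr),
    fun x hx σ j => (hup x hx σ j).trans (by gcongr),
    fun x hx σ j => (hlo x hx σ j).trans (mul_le_mul_of_nonneg_right k5 (norm_nonneg _)),
    fun x hx σ j => (hA x hx σ j).trans (mul_le_mul_of_nonneg_right (by nlinarith) hNB),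
    fun x hx σ j => ?_, fun x hx i => (hbl x hx i).trans (by gcongr; linarith), fun x hx => ?_,
    fun x hx i => ?_, fun x hx => ?_⟩
  · calc N = c₁⁻¹ * (c₁ * N) := by field_simp
      _ ≤ _ := mul_le_mul k2 (hS x hx).1 (by positivity) (by linarith)
  · have h2 : c₁ * N / 2 ≤ ‖(x : ℂ) - em σ (θ j)‖ := by
      refine le_trans ?_ (norm_sub_norm_le _ _)
      rw [Complex.norm_intCast]
      linarith [hRθ σ j, (hS x hx).1]
    rw [div_le_iff₀ hBk]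
    calc N = 2 / c₁ * (1 * (c₁ * N / 2)) := by field_simp
      _ ≤ 2 / c₁ * (|((D * c₀ : ℤ) : ℝ)| ^ k * ‖(x : ℂ) - em σ (θ j)‖) := by
          gcongr; exact one_le_pow₀ hDc1
      _ ≤ 2 / c₁ * (‖em σ (bev (a x) (θ j))‖ * (2 * C₁ * B) ^ k) := by
          rw [← hn x hx]; gcongr; exact hup x hx σ j
      _ = 2 / c₁ * (2 * C₁) ^ k * ‖em σ (bev (a x) (θ j))‖ * B ^ k := by rw [mul_pow]; ring
      _ ≤ K * ‖em σ (bev (a x) (θ j))‖ * B ^ k := by gcongr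
  · obtain ⟨i, -, hi⟩ := exists_max_index (b x) (hb0 x hx)
    refine ⟨i, (hlo x hx σ₀ i).trans ?_⟩
    calc C₁ ^ d * ‖em σ₀ (bev (b x) (θ i))‖ ≤ C₁ ^ d * (C₁ * |(b x i : ℝ)|) := by
          gcongr; exact hbig σ₀ i _ _ fun m => by exact_mod_cast hi m
      _ ≤ _ := by rw [← mul_assoc]; gcongr
  · have h1 := hcrd σ₀ (fun i => (a x i : ℂ)) (A₁ * (N / B ^ k)) (fun j => by
      have := hA x hx σ₀ j
      rwa [map_bev] at this) i
    rw [Complex.norm_intCast, ← mul_assoc] at h1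
    exact h1.trans (by gcongr)
  · refine le_trans ?_ k9
    refine Nat.cast_le.2 (card_roots_le d g hθ.monic hθ.deg (p x) (hp x hx) c _ fun x' hx' => ?_)
    obtain ⟨h1, h2⟩ := mem_filter.1 hx'
    rw [upstream_wedge hd (hp x hx) (hp x' h1) hc₀ (hb0 x hx) (hnorm x hx) (hnorm x' h1) h2]
    refine ⟨?_, hpg x' h1⟩
    have h6 : |(x' : ℝ)| ≤ c * p x' :=
      (hS x' h1).2.1.trans (mul_le_mul_of_nonneg_left (hNp x' h1) (by positivity))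
    exact_mod_cast h6

theorem locNegl_of_cfgNegl (hθ : GalRoots g θ) (hd : 2 ≤ d) (k : ℕ) (hk : 1 ≤ k) (y : ℝ)
    (hy : 0 ≤ y) (h : CfgNegl θ k y) : LocNegl g k y := by
  classical
  obtain ⟨η, hη, e, he, h⟩ := h
  intro c c₁ hc₁
  obtain ⟨R, hR, hRθ⟩ := exists_bound θ
  obtain ⟨K, N₀, hK⟩ := upstream_class hθ hd k hk c c₁ hc₁ R hR hRθ
  obtain ⟨C, X₀, hC⟩ := h K
  refine ⟨η / 2, by positivity, fun δ hδ => ?_⟩
  set ε := (1 - e) / 2 with hε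
  have hε0 : 0 < ε := by linarith
  set M := ⌈((d : ℝ) * R ^ d) ^ d⌉ with hM
  set A := 2 * (y + η / 2) / ε with hA
  have hA0 : 0 ≤ A := by positivity
  have hd0 : (0 : ℝ) < d := by exact_mod_cast (by omega : 0 < d)
  have hdi : (0 : ℝ) ≤ (d : ℝ)⁻¹ := by positivity
  filter_upwards [eventually_rpow_le ((Icc (-M) M).card * (A + 1) * |C|) (ε + e) 1 δ
      (by linarith) hδ, eventually_rpow_le 2 (y - η) (y - η / 2) 1 (by linarith) one_pos,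
    tendsto_natCast_atTop_atTop.eventually_ge_atTop N₀,
    tendsto_natCast_atTop_atTop.eventually_ge_atTop X₀,
    tendsto_natCast_atTop_atTop.eventually_ge_atTop (1 : ℝ)] with N hN1 hN2 hN3 hN4 hN5 S hS
  have hN0 : (0 : ℝ) < N := by linarith
  have hS' : ∀ x ∈ S, ∃ (p : ℕ) (c₀ : ℤ), p.Prime ∧ (N : ℝ) ≤ p ∧ (N : ℝ) ^ (y - η / 2) ≤ p ∧
      p ≤ (N : ℝ) ^ (y + η / 2) ∧ (p : ℤ) ^ k ∣ g.eval x ∧
      ∃ P : Pt θ k (d * R ^ d) x p, P.c = c₀ := by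
    intro x hx
    obtain ⟨-, -, p, h1, h2, h3, h4, h5⟩ := hS x hx
    obtain ⟨P⟩ := exists_pt hθ.toRoots (by omega) R hR hRθ k hk x p h1.pos h5
    exact ⟨p, P.c, h1, h2, h3, h4, h5, P, rfl⟩
  choose! p c₀ hp h2 h3 h4 h5 hP using hS'
  have hl1 : ∀ x ∈ S, (2 : ℝ) ^ Nat.log 2 (p x) ≤ p x := fun x hx => by
    exact_mod_cast Nat.pow_log_le_self 2 (hp x hx).ne_zero
  have hl2 : ∀ x, (p x : ℝ) ≤ 2 * 2 ^ Nat.log 2 (p x) := fun x => by
    rw [← pow_succ']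
    exact_mod_cast (Nat.lt_pow_succ_log_self one_lt_two (p x)).le
  have hmap : ∀ x ∈ S, (c₀ x, Nat.log 2 (p x)) ∈
      Icc (-M) M ×ˢ range (⌊A * (N : ℝ) ^ ε⌋₊ + 1) := by
    intro x hx
    refine mem_product.2 ⟨?_, mem_range.2 (Nat.lt_succ_of_le (Nat.le_floor ?_))⟩
    · obtain ⟨P, hP⟩ := hP x hx
      have h6 : |(c₀ x : ℝ)| ≤ M := (hP ▸ P.c_le).trans (Int.le_ceil _)
      exact mem_Icc.2 (abs_le.1 (by exact_mod_cast h6))
    · have h6 := Real.log_le_log (by positivity) ((hl1 x hx).trans (h4 x hx))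
      rw [Real.log_pow, Real.log_rpow hN0] at h6
      have h7 := mul_le_mul_of_nonneg_left (Real.log_le_rpow_div hN0.le hε0)
        (by positivity : 0 ≤ y + η / 2)
      have h8 := mul_le_mul_of_nonneg_left Real.log_two_gt_d9.le
        (Nat.cast_nonneg (α := ℝ) (Nat.log 2 (p x)))
      have h9 : A * (N : ℝ) ^ ε = 2 * ((y + η / 2) * ((N : ℝ) ^ ε / ε)) := by rw [hA]; ring
      have h10 := Nat.cast_nonneg (α := ℝ) (Nat.log 2 (p x))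
      simp only
      linarith
  have hfib : ∀ κ : ℤ × ℕ, ((S.filter fun x => (c₀ x, Nat.log 2 (p x)) = κ).card : ℝ) ≤
      |C| * (N : ℝ) ^ e := by
    intro κ
    rcases (S.filter fun x => (c₀ x, Nat.log 2 (p x)) = κ).eq_empty_or_nonempty with
      h0 | ⟨x₀, hx₁⟩
    · rw [h0, card_empty, Nat.cast_zero]; positivity
    obtain ⟨hx₀, rfl⟩ := mem_filter.1 hx₁
    obtain ⟨P₀, hP₀⟩ := hP x₀ hx₀
    obtain ⟨a, b, c', hcfg⟩ := hK N hN3 (((2 : ℝ) ^ Nat.log 2 (p x₀)) ^ ((d : ℝ)⁻¹)) (c₀ x₀)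
      (S.filter fun x => (c₀ x, Nat.log 2 (p x)) = (c₀ x₀, Nat.log 2 (p x₀)))
      (Real.one_le_rpow (one_le_pow₀ one_le_two) hdi) (hP₀ ▸ P₀.c_ne) (hP₀ ▸ P₀.c_le) (by
        intro x hx
        obtain ⟨hx, hκ⟩ := mem_filter.1 hx
        obtain ⟨e1, e2⟩ := Prod.ext_iff.1 hκ
        simp only at e1 e2
        rw [← e1, ← e2]
        refine ⟨(hS x hx).1, (hS x hx).2.1, p x, hp x hx, h2 x hx, h5 x hx,
          Real.rpow_le_rpow (by positivity) (hl1 x hx) hdi,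
          (Real.rpow_le_rpow (by positivity) (hl2 x) hdi).trans ?_, hP x hx⟩
        rw [Real.mul_rpow (by norm_num) (by positivity)]
        refine mul_le_mul_of_nonneg_right ?_ (by positivity)
        refine (Real.rpow_le_rpow_of_exponent_le one_le_two ?_).trans_eq (Real.rpow_one 2)
        exact inv_le_one_of_one_le₀ (by exact_mod_cast (by omega : 1 ≤ d)))
    refine (hC N hN4 _ _ a b c' hcfg ?_ ?_).trans
      (mul_le_mul_of_nonneg_right (le_abs_self _) (by positivity))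
    · rw [div_eq_mul_inv, Real.rpow_mul hN0.le]
      refine Real.rpow_le_rpow (by positivity) ?_ hdi
      linarith [hl2 x₀, h3 x₀ hx₀]
    · rw [div_eq_mul_inv, Real.rpow_mul hN0.le]
      refine Real.rpow_le_rpow (by positivity) (((hl1 x₀ hx₀).trans (h4 x₀ hx₀)).trans ?_) hdi
      exact Real.rpow_le_rpow_of_exponent_le hN5 (by linarith)
  have h6 : ((⌊A * (N : ℝ) ^ ε⌋₊ + 1 : ℕ) : ℝ) ≤ (A + 1) * (N : ℝ) ^ ε := by
    have h7 : (⌊A * (N : ℝ) ^ ε⌋₊ : ℝ) ≤ A * (N : ℝ) ^ ε := Nat.floor_le (by positivity)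
    have h8 := Real.one_le_rpow hN5 hε0.le
    push_cast
    linarith
  rw [card_eq_sum_card_fiberwise hmap, Nat.cast_sum]
  refine (sum_le_card_nsmul _ _ _ fun κ _ => hfib κ).trans ?_
  rw [Real.rpow_one, Real.rpow_add hN0] at hN1
  rw [nsmul_eq_mul, card_product, card_range, Nat.cast_mul]
  refine le_trans ?_ hN1
  calc ((Icc (-M) M).card : ℝ) * ((⌊A * (N : ℝ) ^ ε⌋₊ + 1 : ℕ) : ℝ) * (|C| * (N : ℝ) ^ e)
      ≤ (Icc (-M) M).card * ((A + 1) * (N : ℝ) ^ ε) * (|C| * (N : ℝ) ^ e) := by gcongr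
    _ = _ := by ring

end Vale.Agent.P018
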