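import Vale.Agent.P018.Main
import Vale.Agent.P018.GalSetup
import Vale.Agent.P018.Upstream
import Vale.Agent.P018.Num42
import Vale.Agent.P018.Num53

namespace Vale.Agent.P018

open Polynomial NumberField

theorem LocNegl.mono {g : ℤ[X]} {k k' : ℕ} {y : ℝ} (h : LocNegl g k y) (hk : k ≤ k') :
    LocNegl g k' y := by
  intro c c₁ hc₁
  obtain ⟨η, hη, h1⟩ := h c c₁ hc₁
  refine ⟨η, hη, fun δ hδ => ?_⟩
  filter_upwards [h1 δ hδ] with N hN S hS
  refine hN S fun x hx => ?_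
  obtain ⟨h2, h3, p, hp, h4, h5, h6, h7⟩ := hS x hx
  exact ⟨h2, h3, p, hp, h4, h5, h6, (pow_dvd_pow _ hk).trans h7⟩

theorem asymptotic_of_cfgNegl (d k₀ k : ℕ) (hd : 2 ≤ d) (hk₀ : 2 ≤ k₀) (hk : k₀ ≤ k)
    (h : ∀ (L : Type) [Field L] [NumberField L] (g : ℤ[X]) (θ : Fin d → 𝓞 L), GalRoots g θ →
      ∀ y : ℝ, 1 ≤ y → k₀ * y ≤ d → CfgNegl θ k₀ y) : Asymptotic d k := by
  refine asymptotic_of_locNegl_gal d k (by omega) (by omega) fun L _ _ g θ hθ y hy hky => ?_
  have h1 : (k₀ : ℝ) * y ≤ d :=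
    (mul_le_mul_of_nonneg_right (by exact_mod_cast hk) (by linarith)).trans hky
  exact (locNegl_of_cfgNegl hθ hd k₀ (by omega) y (by linarith) (h L g θ hθ y hy h1)).mono hk

theorem asymptotic_four (k : ℕ) (hk : 2 ≤ k) : Asymptotic 4 k :=
  asymptotic_of_cfgNegl 4 2 k (by norm_num) le_rfl hk fun _ _ _ _ _ hθ y hy hky =>
    cfgNegl_four hθ y hy (by push_cast at hky; linarith)

theorem asymptotic_five (k : ℕ) (hk : 3 ≤ k) : Asymptotic 5 k :=
  asymptotic_of_cfgNegl 5 3 k (by norm_num) (by norm_num) hk fun _ _ _ _ _ hθ y hy hky =>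
    cfgNegl_five hθ y hy hky

theorem asymptotic_seven (k : ℕ) (hk : 4 ≤ k) : Asymptotic 7 k :=
  asymptotic_of_cfgNegl 7 4 k (by norm_num) (by norm_num) hk fun _ _ _ _ _ hθ y hy hky =>
    cfgNegl_seven hθ y hy hky

theorem asymptotic_sub_two' (d k : ℕ) (hd : 4 ≤ d) (hk : d ≤ k + 2) : Asymptotic d k := by
  rcases Nat.lt_or_ge d 6 with h | h
  · obtain rfl | rfl : d = 4 ∨ d = 5 := by omega
    · exact asymptotic_four k (by omega)
    · exact asymptotic_five k (by omega)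
  · exact asymptotic_sub_two d k h hk

theorem asymptotic_half' (d k : ℕ) (hd : 4 ≤ d) (hk : d < 2 * k) : Asymptotic d k := by
  rcases Nat.lt_or_ge d 7 with h | h
  · exact asymptotic_sub_two' d k hd (by omega)
  · rcases h.eq_or_lt with rfl | h
    · exact asymptotic_seven k (by omega)
    · exact asymptotic_half d k h hk

end Vale.Agent.P018
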