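import Vale.Agent.P018.Vander

/-!
Cells of size `δ` in the projective space of `ℚ(θ)`.

Proof. For `β` with `Equi θ β` choose the rational coordinate vector `r = crd β` (`Classical.choose`),
view it in `ℝ`; `r ≠ 0` when `β j ≠ 0`. Let `i₀ = ix β` be an index where `|r i|` is maximal and
put `key β = (i₀, fun i => ⌊(r i / r i₀) / δ⌋)`. Let `R ≥ 1` bound all `‖σ (θ j)‖`
(`exists_bound`), so `‖σ (β j)‖ ≤ d R ^ d |r i₀|` (`norm_bev_le`), and by `crd_le` and `Good`,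
`|r i₀| ≤ C max_j ‖σ (β j)‖ ≤ C K ‖σ (β j)‖` for every `j`.
* First property: if the keys agree then `|r a / r i₀ - r' a / r' i₀| ≤ δ`
  (`abs_sub_le_of_floor_eq`) and both quotients are at most 1 in absolute value, so
  `|r a r' b - r b r' a| ≤ 2 δ |r i₀| |r' i₀|`, and
  `σ (β i β' j - β j β' i) = ∑ a, ∑ b, (r a r' b - r b r' a) σ(θ i)^a σ(θ j)^b`.
* Second property: let `r⁰ = crd β₀` with maximal index `m`. For `β ∈ T` the inverse Vandermonde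
  bound (`crd_le` twice) gives `|r a r⁰ b - r b r⁰ a| ≤ C' ρ |r i₀| |r⁰ m|` for all `a b`, where
  `i₀ = ix β`. Fix `i₀` (at most `d` choices) and put `q a = r a / r i₀`, so `|q a| ≤ 1`,
  `q i₀ = 1` and `|q a r⁰ i₀ - r⁰ a| ≤ C' ρ |r⁰ m|`. Either `|r⁰ i₀| ≥ |r⁰ m| / 2`, and then
  `|q a - r⁰ a / r⁰ i₀| ≤ 2 C' ρ`; or `|r⁰ i₀| < |r⁰ m| / 2`, and then (take `a = m`)
  `1 ≤ 2 C' ρ`, so `|q a - 0| ≤ 2 C' ρ`. In both cases `q a` lies in an interval of radius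
  `2 C' ρ` whose centre depends only on `(β₀, i₀, a)`, so `⌊q a / δ⌋` takes at most
  `4 C' ρ / δ + 2` values for `a ≠ i₀` and one value for `a = i₀` (compare `card_cells` and
  `mem_cells` in Box.lean; use `Fintype.piFinset` of integer intervals).
-/

namespace Vale.Agent.P018

open Polynomial NumberField Finset

variable {d : ℕ} {L : Type} [Field L] [NumberField L] {g : ℤ[X]} {θ : Fin d → 𝓞 L}

theorem Key_crd (θ : Fin d → 𝓞 L) : ∃ r : (Fin d → L) → Fin d → ℝ, ∀ β, Equi θ β →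
    ∀ (σ : L →+* ℂ) j, σ (β j) = ∑ i, ((r β i : ℝ) : ℂ) * σ (θ j : L) ^ (i : ℕ) := by
  have h : ∀ β : Fin d → L, ∃ r : Fin d → ℝ, Equi θ β →
      ∀ (σ : L →+* ℂ) j, σ (β j) = ∑ i, ((r i : ℝ) : ℂ) * σ (θ j : L) ^ (i : ℕ) := by
    intro β
    by_cases hβ : Equi θ β
    · obtain ⟨r, hr⟩ := hβ
      refine ⟨fun i => r i, fun _ σ j => ?_⟩
      rw [hr j]
      simp
    · exact ⟨0, fun h => absurd h hβ⟩
  choose r hr using h
  exact ⟨r, hr⟩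

theorem Key_minor (z r r' : Fin d → ℂ) (i j : Fin d) :
    (∑ a, r a * z i ^ (a : ℕ)) * (∑ b, r' b * z j ^ (b : ℕ)) -
      (∑ a, r a * z j ^ (a : ℕ)) * (∑ b, r' b * z i ^ (b : ℕ)) =
      ∑ a, (∑ b, (r a * r' b - r b * r' a) * z j ^ (b : ℕ)) * z i ^ (a : ℕ) := by
  simp only [Finset.sum_mul_sum]
  rw [Finset.sum_comm (f := fun a b : Fin d => r a * z j ^ (a : ℕ) * (r' b * z i ^ (b : ℕ)))]
  simp only [← Finset.sum_sub_distrib, Finset.sum_mul]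
  refine Finset.sum_congr rfl fun a _ => Finset.sum_congr rfl fun b _ => ?_
  ring

theorem Key_quot {x y x' y' u u' δ : ℝ} (hu : u ≠ 0) (hu' : u' ≠ 0) (hx : |x| ≤ |u|)
    (hy : |y| ≤ |u|) (h1 : |x / u - x' / u'| ≤ δ) (h2 : |y / u - y' / u'| ≤ δ) :
    |x * y' - y * x'| ≤ 2 * δ * (|u| * |u'|) := by
  have a1 : |x / u| ≤ 1 := by rw [abs_div, div_le_one (abs_pos.mpr hu)]; exact hx
  have a2 : |y / u| ≤ 1 := by rw [abs_div, div_le_one (abs_pos.mpr hu)]; exact hy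
  have hδ : 0 ≤ δ := (abs_nonneg _).trans h1
  have e : x * y' - y * x' = (y / u * (x / u - x' / u') - x / u * (y / u - y' / u')) * (u * u') := by
    field_simp
    ring
  rw [e, abs_mul, abs_mul u]
  refine mul_le_mul_of_nonneg_right ?_ (by positivity)
  refine (abs_sub _ _).trans ?_
  rw [abs_mul, abs_mul]
  have b1 := mul_le_mul a2 h1 (abs_nonneg _) zero_le_one
  have b2 := mul_le_mul a1 h2 (abs_nonneg _) zero_le_one
  linarith

theorem Key_centre (r r₀ : Fin d → ℝ) (i₀ m : Fin d) (E : ℝ) (h0 : r i₀ ≠ 0) (hm0 : r₀ m ≠ 0)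
    (hmax : ∀ a, |r a| ≤ |r i₀|)
    (h : ∀ a b, |r a * r₀ b - r b * r₀ a| ≤ E * (|r i₀| * |r₀ m|)) (a : Fin d) :
    |r a / r i₀ - (if |r₀ m| ≤ 2 * |r₀ i₀| then r₀ a / r₀ i₀ else 0)| ≤ 2 * E := by
  have p0 := abs_pos.mpr h0
  have pm := abs_pos.mpr hm0
  have hE : 0 ≤ E := by
    have := (abs_nonneg _).trans (h a a)
    exact nonneg_of_mul_nonneg_left this (mul_pos p0 pm)
  split_ifs with hc
  · have p1 : 0 < |r₀ i₀| := by linarith
    have h1 : r₀ i₀ ≠ 0 := abs_pos.mp p1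
    have e : r a / r i₀ - r₀ a / r₀ i₀ = (r a * r₀ i₀ - r i₀ * r₀ a) / (r i₀ * r₀ i₀) := by
      field_simp
    rw [e, abs_div, abs_mul, div_le_iff₀ (mul_pos p0 p1)]
    refine (h a i₀).trans ?_
    have := mul_le_mul_of_nonneg_left hc (mul_nonneg hE p0.le)
    nlinarith
  · rw [not_le] at hc
    have h1 := h m i₀
    have h2 : |r i₀ * r₀ m| - |r m * r₀ i₀| ≤ |r m * r₀ i₀ - r i₀ * r₀ m| := by
      rw [abs_sub_comm]
      exact abs_sub_abs_le_abs_sub _ _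
    rw [abs_mul, abs_mul] at h2
    have h3 : |r m| * |r₀ i₀| ≤ |r i₀| * |r₀ i₀| :=
      mul_le_mul_of_nonneg_right (hmax m) (abs_nonneg _)
    have h4 : |r i₀| * (2 * |r₀ i₀|) ≤ |r i₀| * |r₀ m| := mul_le_mul_of_nonneg_left hc.le p0.le
    have h5 : 1 * (|r i₀| * |r₀ m|) ≤ 2 * E * (|r i₀| * |r₀ m|) := by linarith
    have h6 := le_of_mul_le_mul_right h5 (mul_pos p0 pm)
    rw [sub_zero, abs_div]
    exact le_trans (by rw [div_le_one p0]; exact hmax a) h6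

theorem Key_card_Icc (x y : ℝ) (h : x ≤ y) : ((Icc ⌊x⌋ ⌊y⌋).card : ℝ) ≤ y - x + 2 := by
  rw [Int.card_Icc]
  have h1 := Int.floor_le y
  have h2 := Int.lt_floor_add_one x
  have h3 : ⌊x⌋ ≤ ⌊y⌋ := Int.floor_le_floor h
  have h4 : (((⌊y⌋ + 1 - ⌊x⌋).toNat : ℕ) : ℝ) = ((⌊y⌋ + 1 - ⌊x⌋ : ℤ) : ℝ) := by
    rw [← Int.cast_natCast, Int.toNat_of_nonneg (by omega)]
  rw [h4]
  push_cast
  linarith

theorem Key_count (c : Fin d → Fin d → ℝ) (M E : ℝ) (hM : 0 < M) (hE : 0 ≤ E)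
    (U : Finset (Fin d × (Fin d → ℤ)))
    (h : ∀ u ∈ U, ∃ q : Fin d → ℝ, q u.1 = 1 ∧ (∀ a, |q a - c u.1 a| ≤ E) ∧
      ∀ a, u.2 a = ⌊M * q a⌋) : (U.card : ℝ) ≤ d * (2 * M * E + 2) ^ (d - 1) := by
  set I : Fin d → Fin d → Finset ℤ := fun i₀ a =>
    if a = i₀ then {⌊M⌋} else Icc ⌊M * (c i₀ a - E)⌋ ⌊M * (c i₀ a + E)⌋ with hI
  have hsub : U ⊆ univ.biUnion fun i₀ => ({i₀} : Finset (Fin d)) ×ˢ Fintype.piFinset (I i₀) := by
    intro u hu
    obtain ⟨q, h1, h2, h3⟩ := h u hu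
    simp only [mem_biUnion, mem_univ, true_and, mem_product, mem_singleton, Fintype.mem_piFinset]
    refine ⟨u.1, rfl, fun a => ?_⟩
    rw [h3 a]
    simp only [hI]
    split_ifs with ha
    · rw [ha, h1, mul_one]
      exact mem_singleton_self _
    · obtain ⟨h4, h5⟩ := abs_le.mp (h2 a)
      exact mem_Icc.mpr ⟨Int.floor_le_floor (mul_le_mul_of_nonneg_left (by linarith) hM.le),
        Int.floor_le_floor (mul_le_mul_of_nonneg_left (by linarith) hM.le)⟩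
  have h1 : ∀ i₀ : Fin d, (((({i₀} : Finset (Fin d)) ×ˢ Fintype.piFinset (I i₀)).card : ℕ) : ℝ) ≤
      (2 * M * E + 2) ^ (d - 1) := by
    intro i₀
    rw [card_product, card_singleton, one_mul, Fintype.card_piFinset,
      ← mul_prod_erase univ _ (mem_univ i₀)]
    have h2 : (I i₀ i₀).card = 1 := by simp [hI]
    rw [h2, one_mul]
    push_cast
    have h3 : ∏ a ∈ univ.erase i₀, (((I i₀ a).card : ℕ) : ℝ) ≤
        ∏ _a ∈ univ.erase i₀, (2 * M * E + 2) := by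
      refine prod_le_prod (fun _ _ => by positivity) fun a ha => ?_
      simp only [hI]
      rw [if_neg (ne_of_mem_erase ha)]
      refine (Key_card_Icc _ _ (mul_le_mul_of_nonneg_left (by linarith) hM.le)).trans ?_
      apply le_of_eq
      ring
    refine h3.trans (le_of_eq ?_)
    rw [prod_const, card_erase_of_mem (mem_univ _), card_univ, Fintype.card_fin]
  calc (U.card : ℝ) ≤ ((univ.biUnion fun i₀ =>
        ({i₀} : Finset (Fin d)) ×ˢ Fintype.piFinset (I i₀)).card : ℝ) := by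
        exact_mod_cast card_le_card hsub
    _ ≤ ∑ i₀ : Fin d, (((({i₀} : Finset (Fin d)) ×ˢ Fintype.piFinset (I i₀)).card : ℕ) : ℝ) := by
        exact_mod_cast card_biUnion_le
    _ ≤ ∑ _i₀ : Fin d, (2 * M * E + 2) ^ (d - 1) := sum_le_sum fun i _ => h1 i
    _ = d * (2 * M * E + 2) ^ (d - 1) := by simp

theorem exists_key (hθ : Roots g θ) (hd : 1 ≤ d) (K : ℝ) (hK : 1 ≤ K) :
    ∃ C : ℝ, 1 ≤ C ∧ ∀ δ : ℝ, 0 < δ → ∃ key : (Fin d → L) → Fin d × (Fin d → ℤ),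
      (∀ β β', Good θ K β → Good θ K β' → key β = key β' → Close (C * δ) β β') ∧
      (∀ (β₀ : Fin d → L) (ρ : ℝ) (T : Finset (Fin d → L)), 0 ≤ ρ → Good θ K β₀ →
        (∀ β ∈ T, Good θ K β ∧ Close ρ β β₀) →
        ((T.image key).card : ℝ) ≤ C * (1 + ρ / δ) ^ (d - 1)) := by
  have : Nonempty (Fin d) := ⟨⟨0, hd⟩⟩
  obtain ⟨r, hr⟩ := Key_crd θ
  obtain ⟨C₁, hC₁, h₁⟩ := crd_le hθ
  obtain ⟨C₃, hC₃, h₃⟩ := VanderAux.forward fun j i : Fin d => (θ j : L) ^ (i : ℕ)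
  have h₃' : ∀ (σ : L →+* ℂ) (s : Fin d → ℂ) (M : ℝ), 0 ≤ M → (∀ i, ‖s i‖ ≤ M) →
      ∀ j, ‖∑ i, s i * σ (θ j : L) ^ (i : ℕ)‖ ≤ C₃ * M := fun σ s M hM hs j => by
    simpa only [map_pow, mul_comm] using h₃ σ s M hM hs j
  have hix : ∀ β, ∃ i₀, ∀ a, |r β a| ≤ |r β i₀| := fun β => Finite.exists_max fun a => |r β a|
  choose ix hix using hix
  have F1 : ∀ β, Good θ K β → ∀ (σ : L →+* ℂ) j, |r β (ix β)| ≤ C₁ * (K * ‖σ (β j)‖) := by
    intro β hβ σ j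
    have := h₁ σ (fun i => (r β i : ℂ)) (K * ‖σ (β j)‖)
      (fun j' => by rw [← hr β hβ.1 σ j']; exact hβ.2.2 σ j' j) (ix β)
    simpa using this
  have F2 : ∀ β, Good θ K β → ∀ (σ : L →+* ℂ) j, ‖σ (β j)‖ ≤ C₃ * |r β (ix β)| := by
    intro β hβ σ j
    rw [hr β hβ.1 σ j]
    exact h₃' σ _ _ (abs_nonneg _) (fun i => by simpa using hix β i) j
  obtain ⟨σ₀⟩ : Nonempty (L →+* ℂ) := inferInstance
  have F3 : ∀ β, Good θ K β → r β (ix β) ≠ 0 := by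
    intro β hβ h0
    have := F2 β hβ σ₀ (ix β)
    rw [h0, abs_zero, mul_zero, norm_le_zero_iff, map_eq_zero] at this
    exact hβ.2.1 _ this
  have F4 : ∀ β β', Good θ K β → Good θ K β' → ∀ (σ : L →+* ℂ) i j,
      σ (β i * β' j - β j * β' i) = ∑ a, (∑ b, ((r β a * r β' b - r β b * r β' a : ℝ) : ℂ) *
        σ (θ j : L) ^ (b : ℕ)) * σ (θ i : L) ^ (a : ℕ) := by
    intro β β' hβ hβ' σ i j
    rw [map_sub, map_mul, map_mul, hr β hβ.1 σ i, hr β hβ.1 σ j, hr β' hβ'.1 σ i, hr β' hβ'.1 σ j,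
      Key_minor (fun j => σ (θ j : L))]
    push_cast
    rfl
  set E := (C₁ * C₃) ^ 2 with hE
  have hE1 : 1 ≤ E := one_le_pow₀ (one_le_mul_of_one_le_of_one_le hC₁ hC₃)
  have hA : 0 ≤ 2 * (C₃ * C₁ * K) ^ 2 := by positivity
  have hB : (1 : ℝ) ≤ d * (4 * E) ^ (d - 1) :=
    one_le_mul_of_one_le_of_one_le (by exact_mod_cast hd) (one_le_pow₀ (by linarith))
  refine ⟨2 * (C₃ * C₁ * K) ^ 2 + d * (4 * E) ^ (d - 1), by linarith, fun δ hδ =>
    ⟨fun β => (ix β, fun a => ⌊δ⁻¹ * (r β a / r β (ix β))⌋), ?_, ?_⟩⟩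
  · intro β β' hβ hβ' hk σ i j
    simp only [Prod.mk.injEq] at hk
    obtain ⟨hk1, hk2⟩ := hk
    have q1 : ∀ a, |r β a / r β (ix β) - r β' a / r β' (ix β')| ≤ δ := fun a => by
      have := abs_sub_le_of_floor_eq δ⁻¹ _ _ (inv_pos.mpr hδ) (congrFun hk2 a)
      rwa [inv_inv] at this
    have q2 : ∀ a b, |r β a * r β' b - r β b * r β' a| ≤
        2 * δ * (|r β (ix β)| * |r β' (ix β')|) := fun a b =>
      Key_quot (F3 β hβ) (F3 β' hβ') (hix β a) (hix β b) (q1 a) (q1 b)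
    have hM : 0 ≤ 2 * δ * (|r β (ix β)| * |r β' (ix β')|) := by positivity
    rw [F4 β β' hβ hβ' σ i j]
    refine (h₃' σ _ _ (mul_nonneg (by linarith) hM) (fun a => h₃' σ _ _ hM
      (fun b => by rw [Complex.norm_real]; exact q2 a b) j) i).trans ?_
    rw [map_mul, norm_mul]
    have q3 := mul_le_mul (F1 β hβ σ j) (F1 β' hβ' σ i) (abs_nonneg _) (by positivity)
    have q4 : C₃ * (C₃ * (2 * δ * (|r β (ix β)| * |r β' (ix β')|))) ≤
        C₃ * (C₃ * (2 * δ * (C₁ * (K * ‖σ (β j)‖) * (C₁ * (K * ‖σ (β' i)‖))))) := by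
      gcongr
    refine q4.trans ?_
    have q5 : 0 ≤ d * (4 * E) ^ (d - 1) * δ * (‖σ (β j)‖ * ‖σ (β' i)‖) := by positivity
    nlinarith
  · intro β₀ ρ T hρ hβ₀ hT
    have hc := Key_count (fun i₀ a => if |r β₀ (ix β₀)| ≤ 2 * |r β₀ i₀| then r β₀ a / r β₀ i₀ else 0)
      δ⁻¹ (2 * (E * ρ)) (inv_pos.mpr hδ) (by positivity)
      (T.image fun β => (ix β, fun a => ⌊δ⁻¹ * (r β a / r β (ix β))⌋)) ?_
    · refine le_trans (by convert hc) ?_
      have p1 : 0 ≤ ρ / δ := by positivity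
      have p2 : 2 * δ⁻¹ * (2 * (E * ρ)) + 2 ≤ 4 * E * (1 + ρ / δ) := by
        rw [div_eq_mul_inv]
        nlinarith
      have p3 : (2 * δ⁻¹ * (2 * (E * ρ)) + 2) ^ (d - 1) ≤ (4 * E * (1 + ρ / δ)) ^ (d - 1) :=
        pow_le_pow_left₀ (by positivity) p2 _
      rw [mul_pow] at p3
      have p4 := mul_le_mul_of_nonneg_left p3 (Nat.cast_nonneg (α := ℝ) d)
      have p5 : 0 ≤ 2 * (C₃ * C₁ * K) ^ 2 * (1 + ρ / δ) ^ (d - 1) := by positivity
      nlinarith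
    · intro u hu
      obtain ⟨β, hβT, rfl⟩ := mem_image.mp hu
      obtain ⟨hβ, hcl⟩ := hT β hβT
      refine ⟨fun a => r β a / r β (ix β), div_self (F3 β hβ), fun a => ?_, fun a => rfl⟩
      refine Key_centre (r β) (r β₀) (ix β) (ix β₀) (E * ρ) (F3 β hβ) (F3 β₀ hβ₀) (hix β) ?_ a
      intro a b
      have s1 : ∀ i j, ‖σ₀ (β i * β₀ j - β j * β₀ i)‖ ≤
          ρ * (C₃ * |r β (ix β)| * (C₃ * |r β₀ (ix β₀)|)) := fun i j => by
        refine (hcl σ₀ i j).trans (mul_le_mul_of_nonneg_left ?_ hρ)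
        rw [map_mul, norm_mul]
        exact mul_le_mul (F2 β hβ σ₀ j) (F2 β₀ hβ₀ σ₀ i) (norm_nonneg _) (by positivity)
      have s2 := h₁ σ₀ (fun b => ((r β a * r β₀ b - r β b * r β₀ a : ℝ) : ℂ)) _
        (fun j => h₁ σ₀ (fun a => ∑ b, ((r β a * r β₀ b - r β b * r β₀ a : ℝ) : ℂ) *
          σ₀ (θ j : L) ^ (b : ℕ)) _ (fun i => by rw [← F4 β β₀ hβ hβ₀ σ₀ i j]; exact s1 i j) a) b
      rw [Complex.norm_real, Real.norm_eq_abs] at s2
      refine s2.trans (le_of_eq ?_)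
      rw [hE]
      ring

end Vale.Agent.P018
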