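import Vale.Agent.P018.Thin

/-!
Counting points on lines of small and of large height.

Proof of `slope_count`. Split according to `|x| ≥ |y|` or not. In the first class `|x| ≥ m`, the
slopes `y / x` differ pairwise by `|x y' - x' y| / (|x| |x'|) ∈ [h / M ^ 2, w / m ^ 2]`; a set of
reals with pairwise distances in `[u, v]` has at most `1 + v / u` elements (the map
`s ↦ ⌊(s - s_min) / u⌋` is injective with values in `[0, v / u]`).

Proof of `line_points`. By `span_of_xi` each `b x`, `x ∈ Z`, is `s u + t v`, so each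
`wedge (b x) (b x')` is a rational multiple of `P = wedge u v`. Let `(i, j)` maximise `|P i j|`.
Then `|wedge (b x) (b x') i j|` is the maximal entry, so it is `≥ h` when the wedge is nonzero. The
identity `b x l * P i j + b x i * P j l + b x j * P l i = 0` gives
`|b x l| ≤ |b x i| + |b x j|`, so `max |b x i| |b x j| ≥ B / (2 K)`. Choose a maximal subset of `Z`
with pairwise nonzero wedges (`Finset.exists_maximal` or strong induction); it has at most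
`2 (1 + ω B ^ 2 (K B) ^ 2 / ((B / (2 K)) ^ 2 h))` elements by `slope_count`, and every point of `Z`
has zero wedge with one of them, which accounts for the factor `K` (`hmult`).

Proof of `line_count`. For a ball `t` of the second kind consider all pairs `s, s' ∈ S` on the line
of `(x₁, x₂)` (`xi (b x₁) (b x₂) (b s) = 0`, the same for `s'`) with nonzero wedge, and choose one
`(s t, s' t)` minimising the height `ht = max i j, |wedge i j|` (a positive integer). Its wedge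
`P t` is a nonzero rational multiple of `wedge (b x₁) (b x₂)`, so `P t ∈ Q` by `hcl`, and the lines
of `(x₁, x₂)` and `(s t, s' t)` have the same points (`span_of_xi`, `xi_eq_zero_of_span`). If
`ht ≥ h₀`, `line_points` bounds the ball by `C (1 + ω B ^ 2 / h₀)`. The other balls: group them by
`j = Nat.log 2 ht ≤ log h₀ / log 2` and by `P t`. For fixed `P` all the points of the balls with
`P t = P` lie on one line (two pairs with the same nonzero wedge span the same plane) and their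
nonzero wedges have height `≥ ht ≥ 2 ^ j`; the trivial bound `|wedge| ≤ 2 K ^ 2 B ^ 2` and
`line_points` bound their number by `C (1 + B ^ 2 / 2 ^ j)`. There are at most
`C₁ (2 ^ (j + 1)) ^ e` such `P`, and `2 ^ j ≤ h₀`, `1 ≤ e`.
-/

namespace Vale.Agent.P018

open Finset

theorem lineCount_sep {α : Type} (F : Finset α) (f : α → ℝ) (u v : ℝ) (hu : 0 < u) (hv : 0 ≤ v)
    (hsep : ∀ a ∈ F, ∀ a' ∈ F, a ≠ a' → u ≤ |f a - f a'|)
    (hcl : ∀ a ∈ F, ∀ a' ∈ F, |f a - f a'| ≤ v) : (F.card : ℝ) ≤ 1 + v / u := by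
  rcases F.eq_empty_or_nonempty with rfl | hne
  · simp only [card_empty, Nat.cast_zero]
    positivity
  obtain ⟨a₀, ha₀, hmin⟩ := exists_min_image F f hne
  have h := card_le_card_of_injOn (s := F) (t := range (⌊v / u⌋₊ + 1))
    (fun a => ⌊(f a - f a₀) / u⌋₊) (fun a ha => by
      simp only [coe_range, Set.mem_Iio, Nat.lt_succ_iff]
      exact Nat.floor_le_floor (div_le_div_of_nonneg_right
        ((le_abs_self _).trans (hcl a ha a₀ ha₀)) hu.le))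
    (fun a ha a' ha' e => by
      by_contra hne
      have h1 := hsep a ha a' ha' hne
      have p1 : 0 ≤ (f a - f a₀) / u := div_nonneg (by linarith [hmin a ha]) hu.le
      have p2 : 0 ≤ (f a' - f a₀) / u := div_nonneg (by linarith [hmin a' ha']) hu.le
      have q1 := Nat.floor_le p1
      have q2 := Nat.floor_le p2
      have r1 := Nat.lt_floor_add_one ((f a - f a₀) / u)
      have r2 := Nat.lt_floor_add_one ((f a' - f a₀) / u)
      have e' : (⌊(f a - f a₀) / u⌋₊ : ℝ) = ⌊(f a' - f a₀) / u⌋₊ := congrArg Nat.cast e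
      have h2 : |(f a - f a') / u| < 1 := by
        rw [show (f a - f a') / u = (f a - f a₀) / u - (f a' - f a₀) / u by ring, abs_lt]
        constructor <;> linarith
      rw [abs_div, abs_of_pos hu, div_lt_one hu] at h2
      linarith)
  rw [card_range] at h
  have h2 : (F.card : ℝ) ≤ (⌊v / u⌋₊ : ℝ) + 1 := by exact_mod_cast h
  linarith [Nat.floor_le (div_nonneg hv hu.le)]

theorem lineCount_half {α : Type} (F : Finset α) (x y : α → ℝ) (m M h w : ℝ) (hm : 0 < m)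
    (hh : 0 < h) (hw : 0 ≤ w) (hlo : ∀ z ∈ F, m ≤ |x z|) (hhi : ∀ z ∈ F, |x z| ≤ M)
    (hsep : ∀ z ∈ F, ∀ z' ∈ F, z ≠ z' → h ≤ |x z * y z' - y z * x z'|)
    (hcl : ∀ z ∈ F, ∀ z' ∈ F, |x z * y z' - y z * x z'| ≤ w) :
    (F.card : ℝ) ≤ 1 + w * M ^ 2 / (m ^ 2 * h) := by
  rcases F.eq_empty_or_nonempty with rfl | ⟨a, ha⟩
  · simp only [card_empty, Nat.cast_zero]
    positivity
  have hM : 0 < M := hm.trans_le ((hlo a ha).trans (hhi a ha))
  have e : ∀ z ∈ F, ∀ z' ∈ F, |y z / x z - y z' / x z'| =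
      |x z * y z' - y z * x z'| / (|x z| * |x z'|) := fun z hz z' hz' => by
    have h1 : x z ≠ 0 := abs_pos.1 (hm.trans_le (hlo z hz))
    have h2 : x z' ≠ 0 := abs_pos.1 (hm.trans_le (hlo z' hz'))
    rw [← abs_mul, ← abs_div, abs_sub_comm]
    congr 1
    field_simp
  refine (lineCount_sep F (fun z => y z / x z) (h / M ^ 2) (w / m ^ 2) (by positivity)
    (by positivity) (fun z hz z' hz' hne => ?_) fun z hz z' hz' => ?_).trans (le_of_eq ?_)
  · rw [e z hz z' hz', sq]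
    exact div_le_div₀ (abs_nonneg _) (hsep z hz z' hz' hne)
      (mul_pos (hm.trans_le (hlo z hz)) (hm.trans_le (hlo z' hz')))
      (mul_le_mul (hhi z hz) (hhi z' hz') (abs_nonneg _) hM.le)
  · rw [e z hz z' hz', sq]
    exact div_le_div₀ hw (hcl z hz z' hz') (by positivity)
      (mul_le_mul (hlo z hz) (hlo z' hz') hm.le (abs_nonneg _))
  · field_simp

theorem slope_count (F : Finset (ℝ × ℝ)) (m M h w : ℝ) (hm : 0 < m) (hh : 0 < h) (hw : 0 ≤ w)
    (hlo : ∀ z ∈ F, m ≤ |z.1| ∨ m ≤ |z.2|) (hhi : ∀ z ∈ F, |z.1| ≤ M ∧ |z.2| ≤ M)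
    (hsep : ∀ z ∈ F, ∀ z' ∈ F, z ≠ z' → h ≤ |z.1 * z'.2 - z.2 * z'.1|)
    (hcl : ∀ z ∈ F, ∀ z' ∈ F, |z.1 * z'.2 - z.2 * z'.1| ≤ w) :
    (F.card : ℝ) ≤ 2 * (1 + w * M ^ 2 / (m ^ 2 * h)) := by
  classical
  have h1 := lineCount_half (F.filter fun z => m ≤ |z.1|) Prod.fst Prod.snd m M h w hm hh hw
    (fun z hz => (mem_filter.1 hz).2) (fun z hz => (hhi z (mem_filter.1 hz).1).1)
    (fun z hz z' hz' => hsep z (mem_filter.1 hz).1 z' (mem_filter.1 hz').1)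
    (fun z hz z' hz' => hcl z (mem_filter.1 hz).1 z' (mem_filter.1 hz').1)
  have h2 := lineCount_half (F.filter fun z => ¬ m ≤ |z.1|) Prod.snd Prod.fst m M h w hm hh hw
    (fun z hz => (hlo z (mem_filter.1 hz).1).resolve_left (mem_filter.1 hz).2)
    (fun z hz => (hhi z (mem_filter.1 hz).1).2)
    (fun z hz z' hz' hne => by
      rw [abs_sub_comm]
      exact hsep z (mem_filter.1 hz).1 z' (mem_filter.1 hz').1 hne)
    (fun z hz z' hz' => by
      rw [abs_sub_comm]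
      exact hcl z (mem_filter.1 hz).1 z' (mem_filter.1 hz').1)
  have h3 : (F.card : ℝ) = (F.filter fun z => m ≤ |z.1|).card +
      (F.filter fun z => ¬ m ≤ |z.1|).card := by
    exact_mod_cast (card_filter_add_card_filter_not _).symm
  linarith

theorem lineCount_net {α : Type} (r : α → α → Prop) (h1 : ∀ a, r a a) (h2 : ∀ a b, r a b → r b a)
    (Z : Finset α) : ∃ Y ⊆ Z, (∀ y ∈ Y, ∀ y' ∈ Y, y ≠ y' → ¬ r y y') ∧ ∀ x ∈ Z, ∃ y ∈ Y, r y x := by
  classical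
  induction Z using Finset.induction_on with
  | empty => exact ⟨∅, Subset.refl _, by simp, by simp⟩
  | insert a Z _ ih =>
    obtain ⟨Y, hY, hp, hc⟩ := ih
    by_cases h : ∃ y ∈ Y, r y a
    · refine ⟨Y, hY.trans (subset_insert _ _), hp, fun x hx => ?_⟩
      rcases mem_insert.1 hx with rfl | hx
      · exact h
      · exact hc x hx
    · refine ⟨insert a Y, insert_subset_insert _ hY, fun y hy y' hy' hne hr => ?_, fun x hx => ?_⟩
      · rcases mem_insert.1 hy with rfl | hy1 <;> rcases mem_insert.1 hy' with rfl | hy2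
        · exact hne rfl
        · exact h ⟨y', hy2, h2 _ _ hr⟩
        · exact h ⟨y, hy1, hr⟩
        · exact hp y hy1 y' hy2 hne hr
      · rcases mem_insert.1 hx with rfl | hx
        · exact ⟨x, mem_insert_self _ _, h1 x⟩
        · obtain ⟨y, hy, hr⟩ := hc x hx
          exact ⟨y, mem_insert_of_mem hy, hr⟩

theorem lineCount_wedge {u v x y : Fin 4 → ℤ} {s t s' t' : ℚ}
    (hx : ∀ i, (x i : ℚ) = s * u i + t * v i) (hy : ∀ i, (y i : ℚ) = s' * u i + t' * v i)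
    (k l : Fin 4) : (wedge x y k l : ℚ) = (s * t' - t * s') * wedge u v k l := by
  simp only [wedge, Int.cast_sub, Int.cast_mul, hx, hy]
  ring

theorem lineCount_max {u v : Fin 4 → ℤ} (h : wedge u v ≠ 0) : ∃ i j : Fin 4,
    (∀ x y, xi u v x = 0 → xi u v y = 0 → ∀ k l, |wedge x y k l| ≤ |wedge x y i j|) ∧
      ∀ x, xi u v x = 0 → ∀ l, |x l| ≤ |x i| + |x j| := by
  obtain ⟨⟨i, j⟩, -, hmax⟩ := exists_max_image (univ : Finset (Fin 4 × Fin 4))
    (fun p => |(wedge u v p.1 p.2 : ℚ)|) univ_nonempty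
  have hm : ∀ k l, |(wedge u v k l : ℚ)| ≤ |(wedge u v i j : ℚ)| := fun k l =>
    hmax (k, l) (mem_univ _)
  have h0 : 0 < |(wedge u v i j : ℚ)| := by
    by_contra h0
    refine h (funext fun k => funext fun l => ?_)
    have h1 : |(wedge u v k l : ℚ)| ≤ 0 := (hm k l).trans (not_lt.1 h0)
    exact_mod_cast abs_nonpos_iff.1 h1
  refine ⟨i, j, fun x y hx hy k l => ?_, fun x hx l => ?_⟩
  · obtain ⟨s, t, hx⟩ := span_of_xi u v x h hx
    obtain ⟨s', t', hy⟩ := span_of_xi u v y h hy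
    have : |(wedge x y k l : ℚ)| ≤ |(wedge x y i j : ℚ)| := by
      rw [lineCount_wedge hx hy, lineCount_wedge hx hy, abs_mul, abs_mul]
      exact mul_le_mul_of_nonneg_left (hm k l) (abs_nonneg _)
    exact_mod_cast this
  · obtain ⟨s, t, hx⟩ := span_of_xi u v x h hx
    have e : (x l : ℚ) * wedge u v i j = x i * wedge u v l j + x j * wedge u v i l := by
      simp only [wedge, Int.cast_sub, Int.cast_mul, hx]
      ring
    have : |(x l : ℚ)| ≤ |(x i : ℚ)| + |(x j : ℚ)| := by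
      refine le_of_mul_le_mul_right ?_ h0
      rw [← abs_mul, e, add_mul]
      refine (abs_add_le _ _).trans (add_le_add ?_ ?_) <;> rw [abs_mul] <;>
        exact mul_le_mul_of_nonneg_left (hm _ _) (abs_nonneg _)
    exact_mod_cast this

theorem line_points (K : ℝ) (hK : 1 ≤ K) : ∃ C : ℝ, 1 ≤ C ∧ ∀ (Z : Finset ℤ) (b : ℤ → Fin 4 → ℤ)
    (B ω h : ℝ) (u v : Fin 4 → ℤ), 1 ≤ B → 0 ≤ ω → 0 < h → wedge u v ≠ 0 →
    (∀ x ∈ Z, xi u v (b x) = 0) → (∀ x ∈ Z, ∀ i, |(b x i : ℝ)| ≤ K * B) →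
    (∀ x ∈ Z, ∃ i, B ≤ K * |(b x i : ℝ)|) →
    (∀ x ∈ Z, ((Z.filter fun x' => wedge (b x) (b x') = 0).card : ℝ) ≤ K) →
    (∀ x ∈ Z, ∀ x' ∈ Z, wedge (b x) (b x') ≠ 0 → ∃ i j, h ≤ |(wedge (b x) (b x') i j : ℝ)|) →
    (∀ x ∈ Z, ∀ x' ∈ Z, ∀ i j, |(wedge (b x) (b x') i j : ℝ)| ≤ ω * B ^ 2) →
    (Z.card : ℝ) ≤ C * (1 + ω * B ^ 2 / h) := by
  classical
  have hK4 : 1 ≤ K ^ 4 := one_le_pow₀ hK
  refine ⟨K * (8 * K ^ 4), by nlinarith, fun Z b B ω h u v hB hω hh huv hl hhi hlo hmult hsep hcl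
    => ?_⟩
  obtain ⟨i, j, hw, hx⟩ := lineCount_max huv
  obtain ⟨Y, hY, hp, hc⟩ := lineCount_net (fun x x' => wedge (b x) (b x') = 0)
    (fun a => by funext k l; simp only [wedge, Pi.zero_apply]; ring)
    (fun a a' e => by
      funext k l
      have := congrFun (congrFun e k) l
      simp only [wedge, Pi.zero_apply] at this ⊢
      linarith) Z
  have cw : ∀ x x', (wedge (b x) (b x') i j : ℝ) =
      (b x i : ℝ) * (b x' j : ℝ) - (b x j : ℝ) * (b x' i : ℝ) := fun x x' => by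
    simp only [wedge, Int.cast_sub, Int.cast_mul]
  have hs : ∀ y ∈ Y, ∀ y' ∈ Y, y ≠ y' → h ≤ |(wedge (b y) (b y') i j : ℝ)| :=
    fun y hy y' hy' hne => by
      obtain ⟨k, l, h1⟩ := hsep y (hY hy) y' (hY hy') (hp y hy y' hy' hne)
      have h2 := hw _ _ (hl y (hY hy)) (hl y' (hY hy')) k l
      exact h1.trans (by exact_mod_cast h2)
  have h1 : (Y.image fun y => ((b y i : ℝ), (b y j : ℝ))).card = Y.card :=
    card_image_of_injOn fun y hy y' hy' e => by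
      by_contra hne
      have h2 := hs y hy y' hy' hne
      simp only [Prod.mk.injEq] at e
      rw [cw, e.1, e.2, mul_comm, sub_self, abs_zero] at h2
      linarith
  have h2 := slope_count (Y.image fun y => ((b y i : ℝ), (b y j : ℝ))) (B / (2 * K)) (K * B) h
    (ω * B ^ 2) (by positivity) hh (by positivity) (fun z hz => by
      obtain ⟨y, hy, rfl⟩ := mem_image.1 hz
      obtain ⟨l, h3⟩ := hlo y (hY hy)
      have h4 : |(b y l : ℝ)| ≤ |(b y i : ℝ)| + |(b y j : ℝ)| := by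
        exact_mod_cast hx _ (hl y (hY hy)) l
      rw [div_le_iff₀ (by positivity), div_le_iff₀ (by positivity)]
      by_contra h5
      push Not at h5
      nlinarith [h5.1, h5.2]) (fun z hz => by
      obtain ⟨y, hy, rfl⟩ := mem_image.1 hz
      exact ⟨hhi y (hY hy) i, hhi y (hY hy) j⟩) (fun z hz z' hz' hne => by
      obtain ⟨y, hy, rfl⟩ := mem_image.1 hz
      obtain ⟨y', hy', rfl⟩ := mem_image.1 hz'
      rw [← cw]
      exact hs y hy y' hy' fun e => hne (by rw [e])) (fun z hz z' hz' => by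
      obtain ⟨y, hy, rfl⟩ := mem_image.1 hz
      obtain ⟨y', hy', rfl⟩ := mem_image.1 hz'
      rw [← cw]
      exact hcl y (hY hy) y' (hY hy') i j)
  rw [h1, show ω * B ^ 2 * (K * B) ^ 2 / ((B / (2 * K)) ^ 2 * h) = 4 * K ^ 4 * (ω * B ^ 2 / h) by
    field_simp; norm_num] at h2
  have h3 : Z ⊆ Y.biUnion fun y => Z.filter fun x' => wedge (b y) (b x') = 0 := fun x hx => by
    obtain ⟨y, hy, e⟩ := hc x hx
    exact mem_biUnion.2 ⟨y, hy, mem_filter.2 ⟨hx, e⟩⟩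
  have h4 : (Z.card : ℝ) ≤ ∑ y ∈ Y, ((Z.filter fun x' => wedge (b y) (b x') = 0).card : ℝ) := by
    exact_mod_cast (card_le_card h3).trans card_biUnion_le
  have h5 := h4.trans (sum_le_card_nsmul _ _ K fun y hy => hmult y (hY hy))
  rw [nsmul_eq_mul, mul_comm] at h5
  rw [mul_assoc]
  refine h5.trans (mul_le_mul_of_nonneg_left (h2.trans ?_) (by linarith))
  linarith

theorem lineCount_xi {u v u' v' : Fin 4 → ℤ} (h : wedge u v = wedge u' v') (z : Fin 4 → ℤ) :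
    xi u v z = xi u' v' z := by
  have e : ∀ u v : Fin 4 → ℤ, xi u v z =
      ![z 1 * wedge u v 2 3 - z 2 * wedge u v 1 3 + z 3 * wedge u v 1 2,
        -(z 0 * wedge u v 2 3 - z 2 * wedge u v 0 3 + z 3 * wedge u v 0 2),
        z 0 * wedge u v 1 3 - z 1 * wedge u v 0 3 + z 3 * wedge u v 0 1,
        -(z 0 * wedge u v 1 2 - z 1 * wedge u v 0 2 + z 2 * wedge u v 0 1)] := fun u v => by
    funext i
    fin_cases i <;>
      simp [xi, wedge, Matrix.det_succ_row_zero, Fin.sum_univ_succ, Fin.succAbove, Pi.single_apply] <;>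
      ring
  rw [e, e, h]

theorem lineCount_trans {u v x y z : Fin 4 → ℤ} (h : wedge u v ≠ 0) (hx : xi u v x = 0)
    (hy : xi u v y = 0) (hz : xi u v z = 0) : xi x y z = 0 :=
  xi_eq_zero_of_span u v x y z (span_of_xi u v x h hx) (span_of_xi u v y h hy)
    (span_of_xi u v z h hz)

theorem lineCount_left (u v : Fin 4 → ℤ) : xi u v u = 0 :=
  xi_eq_zero_of_span u v _ _ _ ⟨1, 0, by simp⟩ ⟨0, 1, by simp⟩ ⟨1, 0, by simp⟩

theorem lineCount_right (u v : Fin 4 → ℤ) : xi u v v = 0 :=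
  xi_eq_zero_of_span u v _ _ _ ⟨1, 0, by simp⟩ ⟨0, 1, by simp⟩ ⟨0, 1, by simp⟩

/-- The height of a Pluecker vector. -/
def lineCount_ht (P : Fin 4 → Fin 4 → ℤ) : ℕ :=
  univ.sup fun p : Fin 4 × Fin 4 => (P p.1 p.2).natAbs

theorem lineCount_le_ht (P : Fin 4 → Fin 4 → ℤ) (i j : Fin 4) :
    |(P i j : ℝ)| ≤ lineCount_ht P := by
  have : (P i j).natAbs ≤ lineCount_ht P :=
    le_sup (f := fun p : Fin 4 × Fin 4 => (P p.1 p.2).natAbs) (mem_univ (i, j))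
  rw [← Int.cast_abs, ← Nat.cast_natAbs]
  exact_mod_cast this

theorem lineCount_ht_eq (P : Fin 4 → Fin 4 → ℤ) : ∃ i j, (lineCount_ht P : ℝ) = |(P i j : ℝ)| := by
  obtain ⟨p, -, h⟩ := exists_mem_eq_sup (univ : Finset (Fin 4 × Fin 4)) univ_nonempty
    fun p => (P p.1 p.2).natAbs
  exact ⟨p.1, p.2, by rw [lineCount_ht, h, Nat.cast_natAbs, Int.cast_abs]⟩

theorem lineCount_one_le {P : Fin 4 → Fin 4 → ℤ} (h : P ≠ 0) : 1 ≤ lineCount_ht P := by
  by_contra h0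
  refine h (funext fun i => funext fun j => ?_)
  have h1 := lineCount_le_ht P i j
  rw [show lineCount_ht P = 0 by omega, Nat.cast_zero, abs_nonpos_iff] at h1
  exact_mod_cast h1

theorem lineCount_min (S : Finset ℤ) (b : ℤ → Fin 4 → ℤ) (Q : Set (Fin 4 → Fin 4 → ℤ))
    (hcl : ∀ (P P' : Fin 4 → Fin 4 → ℤ) (m n : ℤ), m ≠ 0 → n ≠ 0 →
      (∀ i j, m * P' i j = n * P i j) → P ∈ Q → P' ∈ Q) {x₁ x₂ : ℤ} (h₁ : x₁ ∈ S) (h₂ : x₂ ∈ S)
    (h0 : wedge (b x₁) (b x₂) ≠ 0) (hQ : wedge (b x₁) (b x₂) ∈ Q) :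
    ∃ u v : Fin 4 → ℤ, wedge u v ≠ 0 ∧ wedge u v ∈ Q ∧
      (∀ z, xi (b x₁) (b x₂) z = 0 → xi u v z = 0) ∧ ∀ y ∈ S, ∀ y' ∈ S, xi u v (b y) = 0 →
        xi u v (b y') = 0 → wedge (b y) (b y') ≠ 0 →
        lineCount_ht (wedge u v) ≤ lineCount_ht (wedge (b y) (b y')) := by
  have hex : ∃ n, ∃ y ∈ S, ∃ y' ∈ S, xi (b x₁) (b x₂) (b y) = 0 ∧ xi (b x₁) (b x₂) (b y') = 0 ∧
      wedge (b y) (b y') ≠ 0 ∧ lineCount_ht (wedge (b y) (b y')) = n :=
    ⟨_, x₁, h₁, x₂, h₂, lineCount_left _ _, lineCount_right _ _, h0, rfl⟩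
  classical
  obtain ⟨p, -, p', -, p1, p2, p0, hn⟩ := Nat.find_spec hex
  have fw : ∀ z, xi (b x₁) (b x₂) z = 0 → xi (b p) (b p') z = 0 := fun z hz =>
    lineCount_trans h0 p1 p2 hz
  have bw : ∀ z, xi (b p) (b p') z = 0 → xi (b x₁) (b x₂) z = 0 := fun z hz =>
    lineCount_trans p0 (fw _ (lineCount_left _ _)) (fw _ (lineCount_right _ _)) hz
  refine ⟨b p, b p', p0, ?_, fw, fun y hy y' hy' e e' hne => hn.trans_le
    (Nat.find_min' hex ⟨y, hy, y', hy', bw _ e, bw _ e', hne, rfl⟩)⟩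
  obtain ⟨s, t, e⟩ := span_of_xi _ _ _ h0 p1
  obtain ⟨s', t', e'⟩ := span_of_xi _ _ _ h0 p2
  have hw := lineCount_wedge e e'
  generalize s * t' - t * s' = q at hw
  refine hcl _ _ q.den q.num (by exact_mod_cast q.den_nz) (fun hq => p0 ?_) (fun i j => ?_) hQ
  · funext i j
    have := hw i j
    rw [Rat.num_eq_zero.1 hq, zero_mul] at this
    exact_mod_cast this
  · have : ((q.den : ℤ) : ℚ) * wedge (b p) (b p') i j = q.num * wedge (b x₁) (b x₂) i j := by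
      rw [hw, ← mul_assoc, Int.cast_natCast, Rat.den_mul_eq_num]
    exact_mod_cast this

theorem lineCount_dyadic {α : Type} (F : Finset α) (ht : α → ℕ) (h₀ e C₁ A : ℝ) (hh : 1 ≤ h₀)
    (he : 1 ≤ e) (hC : 0 ≤ C₁) (hA : 0 ≤ A) (h1 : ∀ P ∈ F, 1 ≤ ht P ∧ (ht P : ℝ) ≤ h₀)
    (hc : ∀ H : ℝ, 1 ≤ H → ∀ G ⊆ F, (∀ P ∈ G, (ht P : ℝ) ≤ H) → (G.card : ℝ) ≤ C₁ * H ^ e) :
    ∑ P ∈ F, (1 + A / ht P) ≤
      2 * 2 ^ e * C₁ * (1 + Real.log h₀) * (h₀ ^ e + A * h₀ ^ (e - 1)) := by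
  obtain ⟨J, hJ⟩ : ∃ J, J = Nat.log 2 ⌊h₀⌋₊ := ⟨_, rfl⟩
  have hfl : ⌊h₀⌋₊ ≠ 0 := (Nat.floor_pos.2 hh).ne'
  have hJ1 : (2 : ℝ) ^ J ≤ h₀ := by
    refine le_trans ?_ (Nat.floor_le (by linarith))
    rw [hJ]
    exact_mod_cast Nat.pow_log_le_self 2 hfl
  have hJ2 : (J : ℝ) + 1 ≤ 2 * (1 + Real.log h₀) := by
    have h2 := Real.log_le_log (by positivity) hJ1
    rw [Real.log_pow] at h2
    nlinarith [Real.log_two_gt_d9, (Nat.cast_nonneg J : (0 : ℝ) ≤ J)]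
  rw [← sum_fiberwise_of_maps_to (t := range (J + 1)) (g := fun P => Nat.log 2 (ht P))
    fun P hP => mem_range.2 (Nat.lt_succ_of_le (hJ ▸ Nat.log_mono_right
      (Nat.le_floor (h1 P hP).2)))]
  refine (sum_le_card_nsmul _ _ (2 ^ e * C₁ * (h₀ ^ e + A * h₀ ^ (e - 1))) fun j hj => ?_).trans ?_
  · have hj1 : (2 : ℝ) ^ j ≤ h₀ :=
      (pow_le_pow_right₀ (by norm_num) (Nat.lt_succ_iff.1 (mem_range.1 hj))).trans hJ1
    have hp : (0 : ℝ) < 2 ^ j := by positivity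
    have h2 := hc (2 * 2 ^ j) (by linarith [one_le_pow₀ (n := j) (one_le_two (α := ℝ))])
      (F.filter fun P => Nat.log 2 (ht P) = j) (filter_subset _ _) fun P hP => by
        have := Nat.lt_pow_succ_log_self (b := 2) (by norm_num) (ht P)
        rw [(mem_filter.1 hP).2, Nat.pow_succ, mul_comm] at this
        exact_mod_cast this.le
    refine (sum_le_card_nsmul _ _ (1 + A / 2 ^ j) fun P hP => ?_).trans ?_
    · obtain ⟨hP, e⟩ := mem_filter.1 hP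
      have := Nat.pow_log_le_self 2 (x := ht P) (by linarith [(h1 P hP).1])
      rw [e] at this
      exact add_le_add le_rfl (div_le_div_of_nonneg_left hA hp (by exact_mod_cast this))
    · rw [nsmul_eq_mul]
      refine (mul_le_mul_of_nonneg_right h2 (by positivity)).trans ?_
      have h3 : ((2 : ℝ) ^ j) ^ e ≤ h₀ ^ e := Real.rpow_le_rpow hp.le hj1 (by linarith)
      have h4 : ((2 : ℝ) ^ j) ^ (e - 1) ≤ h₀ ^ (e - 1) := Real.rpow_le_rpow hp.le hj1 (by linarith)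
      rw [Real.rpow_sub_one hp.ne'] at h4
      rw [Real.mul_rpow (by norm_num) hp.le, mul_comm C₁, mul_assoc, mul_assoc, mul_assoc]
      refine mul_le_mul_of_nonneg_left ?_ (by positivity)
      rw [mul_left_comm]
      refine mul_le_mul_of_nonneg_left ?_ hC
      rw [mul_add, mul_one, mul_div_left_comm]
      exact add_le_add h3 (mul_le_mul_of_nonneg_left h4 hA)
  · rw [nsmul_eq_mul, card_range]
    push_cast
    refine (mul_le_mul_of_nonneg_right hJ2 (by positivity)).trans (le_of_eq (by ring))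

theorem line_count (K e : ℝ) (hK : 1 ≤ K) (he : 1 ≤ e) : ∃ C : ℝ, 1 ≤ C ∧ ∀ (S : Finset ℤ)
    (b : ℤ → Fin 4 → ℤ) (B ω h₀ M C₁ : ℝ) (Q : Set (Fin 4 → Fin 4 → ℤ)) (T : Finset ℤ)
    (ball : ℤ → Finset ℤ), 1 ≤ B → 0 ≤ ω → 1 ≤ h₀ → 0 ≤ M → 0 ≤ C₁ →
    (∀ x ∈ S, ∀ i, |(b x i : ℝ)| ≤ K * B) → (∀ x ∈ S, ∃ i, B ≤ K * |(b x i : ℝ)|) →
    (∀ x ∈ S, ((S.filter fun x' => wedge (b x) (b x') = 0).card : ℝ) ≤ K) →
    (∀ (P P' : Fin 4 → Fin 4 → ℤ) (m n : ℤ), m ≠ 0 → n ≠ 0 → (∀ i j, m * P' i j = n * P i j) →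
      P ∈ Q → P' ∈ Q) →
    (∀ H : ℝ, 1 ≤ H → ∀ F : Finset (Fin 4 → Fin 4 → ℤ),
      (∀ P ∈ F, P ∈ Q ∧ ∀ i j, |(P i j : ℝ)| ≤ H) → (F.card : ℝ) ≤ C₁ * H ^ e) →
    (∀ t ∈ T, ball t ⊆ S) →
    (∀ t ∈ T, ∀ x ∈ ball t, ∀ x' ∈ ball t, ∀ i j, |(wedge (b x) (b x') i j : ℝ)| ≤ ω * B ^ 2) →
    (∀ t ∈ T, ((ball t).card : ℝ) ≤ M ∨ ∃ x₁ ∈ S, ∃ x₂ ∈ S, wedge (b x₁) (b x₂) ≠ 0 ∧
      wedge (b x₁) (b x₂) ∈ Q ∧ ∀ x ∈ ball t, xi (b x₁) (b x₂) (b x) = 0) →
    ((T.biUnion ball).card : ℝ) ≤ M * T.card + C * T.card * (1 + ω * B ^ 2 / h₀) +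
      C * C₁ * (1 + Real.log h₀) * (h₀ ^ e + B ^ 2 * h₀ ^ (e - 1)) := by
  classical
  obtain ⟨C, hC, hp⟩ := line_points K hK
  have h2e : (1 : ℝ) ≤ 2 ^ e := Real.one_le_rpow (by norm_num) (by linarith)
  have hK2 : 1 ≤ K ^ 2 := one_le_pow₀ hK
  have hD : (1 : ℝ) ≤ 2 * 2 ^ e * (2 * K ^ 2) := by nlinarith
  refine ⟨C * (2 * 2 ^ e * (2 * K ^ 2)), by nlinarith, fun S b B ω h₀ M C₁ Q T ball hB hω hh hM hC₁
    hhi hlo hmult hcl hQ hsub hw hball => ?_⟩
  have key : ∀ t ∈ T, ¬ ((ball t).card : ℝ) ≤ M → ∃ u v : Fin 4 → ℤ, wedge u v ≠ 0 ∧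
      wedge u v ∈ Q ∧ (∀ x ∈ ball t, xi u v (b x) = 0) ∧ ∀ y ∈ S, ∀ y' ∈ S, xi u v (b y) = 0 →
        xi u v (b y') = 0 → wedge (b y) (b y') ≠ 0 →
        lineCount_ht (wedge u v) ≤ lineCount_ht (wedge (b y) (b y')) := fun t ht h => by
    obtain ⟨x₁, h₁, x₂, h₂, h0, hq, hx⟩ := (hball t ht).resolve_left h
    obtain ⟨u, v, a1, a2, a3, a4⟩ := lineCount_min S b Q hcl h₁ h₂ h0 hq
    exact ⟨u, v, a1, a2, fun x hx' => a3 _ (hx x hx'), a4⟩
  choose! u v h0 hq hl hmin using key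
  have pts : ∀ t ∈ T, ¬ ((ball t).card : ℝ) ≤ M → ∀ Z ⊆ S, (∀ x ∈ Z, xi (u t) (v t) (b x) = 0) →
      ∀ ω h : ℝ, 0 ≤ ω → 0 < h → h ≤ lineCount_ht (wedge (u t) (v t)) →
      (∀ x ∈ Z, ∀ x' ∈ Z, ∀ i j, |(wedge (b x) (b x') i j : ℝ)| ≤ ω * B ^ 2) →
      (Z.card : ℝ) ≤ C * (1 + ω * B ^ 2 / h) := fun t ht hn Z hZ hx ω h hω h1 h2 h3 =>
    hp Z b B ω h (u t) (v t) hB hω h1 (h0 t ht hn) hx (fun x hx => hhi x (hZ hx))
      (fun x hx => hlo x (hZ hx)) (fun x hx => le_trans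
        (Nat.cast_le.2 (card_le_card (filter_subset_filter _ hZ))) (hmult x (hZ hx)))
      (fun x hx' x' hx'' hne => by
        obtain ⟨i, j, e⟩ := lineCount_ht_eq (wedge (b x) (b x'))
        refine ⟨i, j, h2.trans (e ▸ Nat.cast_le.2 ?_)⟩
        exact hmin t ht hn x (hZ hx') x' (hZ hx'') (hx x hx') (hx x' hx'') hne) h3
  obtain ⟨T', hT'⟩ : ∃ T', T' = T.filter fun t => ¬ ((ball t).card : ℝ) ≤ M ∧
    (lineCount_ht (wedge (u t) (v t)) : ℝ) ≤ h₀ := ⟨_, rfl⟩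
  obtain ⟨F, hF⟩ : ∃ F, F = T'.image fun t => wedge (u t) (v t) := ⟨_, rfl⟩
  have hFt : ∀ P ∈ F, ∃ t ∈ T, ¬ ((ball t).card : ℝ) ≤ M ∧
      (lineCount_ht (wedge (u t) (v t)) : ℝ) ≤ h₀ ∧ wedge (u t) (v t) = P := fun P hP => by
    rw [hF, hT'] at hP
    obtain ⟨t, ht, e⟩ := mem_image.1 hP
    exact ⟨t, (mem_filter.1 ht).1, (mem_filter.1 ht).2.1, (mem_filter.1 ht).2.2, e⟩
  choose! τ τ1 τ2 τ3 τ4 using hFt
  have h1 : T.biUnion ball ⊆ (T \ T').biUnion ball ∪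
      F.biUnion fun P => S.filter fun x => xi (u (τ P)) (v (τ P)) (b x) = 0 := fun x hx => by
    obtain ⟨t, ht, hx⟩ := mem_biUnion.1 hx
    by_cases h : t ∈ T'
    · have hP : wedge (u t) (v t) ∈ F := hF ▸ mem_image_of_mem _ h
      refine mem_union_right _ (mem_biUnion.2 ⟨_, hP, mem_filter.2 ⟨hsub t ht hx, ?_⟩⟩)
      rw [lineCount_xi (τ4 _ hP)]
      exact hl t ht (mem_filter.1 (hT' ▸ h)).2.1 x hx
    · exact mem_union_left _ (mem_biUnion.2 ⟨t, mem_sdiff.2 ⟨ht, h⟩, hx⟩)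
  have h2 : ((T.biUnion ball).card : ℝ) ≤ ∑ t ∈ T \ T', ((ball t).card : ℝ) +
      ∑ P ∈ F, ((S.filter fun x => xi (u (τ P)) (v (τ P)) (b x) = 0).card : ℝ) := by
    exact_mod_cast (card_le_card h1).trans ((card_union_le _ _).trans
      (add_le_add card_biUnion_le card_biUnion_le))
  have hpos : 0 ≤ 1 + ω * B ^ 2 / h₀ := by positivity
  have h3 : ∑ t ∈ T \ T', ((ball t).card : ℝ) ≤ T.card * (M + C * (1 + ω * B ^ 2 / h₀)) := by
    refine (sum_le_card_nsmul _ _ (M + C * (1 + ω * B ^ 2 / h₀)) fun t ht => ?_).trans ?_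
    · obtain ⟨ht, hn⟩ := mem_sdiff.1 ht
      by_cases h : ((ball t).card : ℝ) ≤ M
      · exact h.trans (le_add_of_nonneg_right (by positivity))
      · refine le_add_of_nonneg_of_le hM (pts t ht h _ (hsub t ht) (hl t ht h) ω h₀ hω
          (by linarith) (le_of_not_ge fun h' => hn ?_) (hw t ht))
        exact hT' ▸ mem_filter.2 ⟨ht, h, h'⟩
    · rw [nsmul_eq_mul]
      exact mul_le_mul_of_nonneg_right (Nat.cast_le.2 (card_le_card sdiff_subset)) (by positivity)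
  have h4 : ∑ P ∈ F, ((S.filter fun x => xi (u (τ P)) (v (τ P)) (b x) = 0).card : ℝ) ≤
      ∑ P ∈ F, C * (1 + 2 * K ^ 2 * B ^ 2 / lineCount_ht P) := sum_le_sum fun P hP => by
    have h5 : 1 ≤ lineCount_ht P := lineCount_one_le (τ4 P hP ▸ h0 _ (τ1 P hP) (τ2 P hP))
    refine pts _ (τ1 P hP) (τ2 P hP) _ (filter_subset _ _) (fun x hx => (mem_filter.1 hx).2)
      (2 * K ^ 2) _ (by positivity) (by exact_mod_cast h5) (by rw [τ4 P hP])
      fun x hx x' hx' i j => ?_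
    have a := hhi x (mem_filter.1 hx).1
    have a' := hhi x' (mem_filter.1 hx').1
    simp only [wedge, Int.cast_sub, Int.cast_mul]
    refine (abs_sub _ _).trans ?_
    rw [abs_mul, abs_mul]
    have b1 := mul_le_mul (a i) (a' j) (abs_nonneg _) (by positivity)
    have b2 := mul_le_mul (a j) (a' i) (abs_nonneg _) (by positivity)
    linarith
  have h5 := lineCount_dyadic F lineCount_ht h₀ e C₁ (2 * K ^ 2 * B ^ 2) hh he hC₁ (by positivity)
    (fun P hP => ⟨lineCount_one_le (τ4 P hP ▸ h0 _ (τ1 P hP) (τ2 P hP)), τ4 P hP ▸ τ3 P hP⟩)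
    fun H hH G hG h => hQ H hH G fun P hP => ⟨τ4 P (hG hP) ▸ hq _ (τ1 P (hG hP)) (τ2 P (hG hP)),
      fun i j => (lineCount_le_ht P i j).trans (h P hP)⟩
  rw [← mul_sum] at h4
  have hlog : 0 ≤ Real.log h₀ := Real.log_nonneg hh
  have h6 : h₀ ^ e + 2 * K ^ 2 * B ^ 2 * h₀ ^ (e - 1) ≤
      2 * K ^ 2 * (h₀ ^ e + B ^ 2 * h₀ ^ (e - 1)) := by
    have : 0 ≤ h₀ ^ e := by positivity
    nlinarith
  have h7 := h4.trans (mul_le_mul_of_nonneg_left (h5.trans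
    (mul_le_mul_of_nonneg_left h6 (by positivity))) (by linarith))
  have h8 : C * (T.card * (1 + ω * B ^ 2 / h₀)) ≤
      C * (2 * 2 ^ e * (2 * K ^ 2)) * (T.card * (1 + ω * B ^ 2 / h₀)) :=
    mul_le_mul_of_nonneg_right (le_mul_of_one_le_right (by linarith) hD) (by positivity)
  linarith

end Vale.Agent.P018
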