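import Vale.Agent.P018.LocalGood

namespace Vale.Agent.P018

open Finset

theorem pvol_ge_term (r s : ℕ) (hs : s < r - 1) {κ a b : ℝ} (hκ : 0 ≤ κ) (ha : 0 ≤ a)
    (hb : 0 ≤ b) :
    ((r - 2).choose s : ℝ) * κ ^ s * (a ^ (s + 1) / ((s + 1).factorial : ℝ)) *
      (b ^ (r - 1 - s) / ((r - 1 - s).factorial : ℝ)) ≤ pvol r κ a b := by
  unfold pvol
  exact Finset.single_le_sum (f := fun s => ((r - 2).choose s : ℝ) * κ ^ s *
    (a ^ (s + 1) / ((s + 1).factorial : ℝ)) * (b ^ (r - 1 - s) / ((r - 1 - s).factorial : ℝ)))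
    (fun i _ => by positivity) (Finset.mem_range.2 hs)

theorem one_add_pow_le_three (r : ℕ) (hr : 0 < r) : (((r : ℝ) + 1) / r) ^ r ≤ 3 := by
  have hr0 : (0 : ℝ) < r := by exact_mod_cast hr
  have h1 : ((r : ℝ) + 1) / r ≤ Real.exp (1 / r) := by
    have := Real.add_one_le_exp (1 / (r : ℝ))
    rw [add_div, div_self hr0.ne']
    linarith
  calc (((r : ℝ) + 1) / r) ^ r ≤ (Real.exp (1 / r)) ^ r := by gcongr
    _ = Real.exp 1 := by
      rw [← Real.exp_nat_mul]; congr 1; field_simp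
    _ ≤ 3 := by
      have := Real.exp_one_lt_d9
      linarith

theorem exists_s (q : ℝ) (hq : 1 / 4 < q) : ∃ s : ℕ, 1 ≤ s ∧
    3 < ((2 * s + 2).choose (s + 1) : ℝ) * ((2 * s).choose s : ℝ) * q ^ (2 * s + 1) := by
  have hq0 : 0 < q := by linarith
  have h16 : 1 < (4 * q) ^ 2 := by nlinarith
  have ht := tendsto_pow_const_div_const_pow_of_one_lt 2 h16
  have hev := ht.eventually (gt_mem_nhds (by norm_num : (0 : ℝ) < 1 / 100))
  obtain ⟨s, hs1, hs2⟩ := (hev.and (Filter.eventually_ge_atTop 1)).exists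
  refine ⟨s, hs2, ?_⟩
  have hs0 : (1 : ℝ) ≤ s := by exact_mod_cast hs2
  have c1 : (4 : ℝ) ^ s ≤ 2 * s * ((2 * s).choose s : ℝ) := by
    have := Nat.four_pow_le_two_mul_self_mul_centralBinom s (by omega)
    rw [Nat.centralBinom_eq_two_mul_choose] at this
    exact_mod_cast this
  have c2 : (4 : ℝ) ^ (s + 1) ≤ 2 * (s + 1) * ((2 * s + 2).choose (s + 1) : ℝ) := by
    have := Nat.four_pow_le_two_mul_self_mul_centralBinom (s + 1) (by omega)
    rw [Nat.centralBinom_eq_two_mul_choose, show 2 * (s + 1) = 2 * s + 2 by ring] at this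
    have h2 : ((4 ^ (s + 1) : ℕ) : ℝ) ≤ (((2 * s + 2) * (2 * s + 2).choose (s + 1) : ℕ) : ℝ) := by
      exact_mod_cast this
    push_cast at h2
    linarith
  generalize ((2 * s).choose s : ℝ) = C1 at c1
  generalize ((2 * s + 2).choose (s + 1) : ℝ) = C2 at c2
  have hpos : 0 < ((4 * q) ^ 2) ^ s := by positivity
  rw [div_lt_iff₀ hpos] at hs1
  have hC1 : 0 < C1 := by
    by_contra hneg
    have : 2 * (s : ℝ) * C1 ≤ 0 := mul_nonpos_of_nonneg_of_nonpos (by positivity) (not_lt.1 hneg)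
    have : (0 : ℝ) < 4 ^ s := by positivity
    linarith
  have e1 : (4 : ℝ) ^ (s + 1) * 4 ^ s * q ^ (2 * s + 1) ≤
      (2 * (s + 1) * C2) * (2 * s * C1) * q ^ (2 * s + 1) := by
    have : (0 : ℝ) ≤ 2 * (s + 1) * C2 := le_trans (by positivity) c2
    gcongr
  have e2 : (4 : ℝ) ^ (s + 1) * 4 ^ s * q ^ (2 * s + 1) = 4 * q * ((4 * q) ^ 2) ^ s := by
    rw [← pow_mul, mul_pow]; ring
  have e3 : 100 * (s : ℝ) ^ 2 ≤ 4 * q * ((4 * q) ^ 2) ^ s := by nlinarith
  have e4 : (2 * (s + 1) * C2) * (2 * s * C1) * q ^ (2 * s + 1) =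
      (4 * s * (s + 1)) * (C2 * C1 * q ^ (2 * s + 1)) := by ring
  rw [e2, e4] at e1
  by_contra hneg
  have e5 : (4 * (s : ℝ) * (s + 1)) * (C2 * C1 * q ^ (2 * s + 1)) ≤ (4 * s * (s + 1)) * 3 := by
    gcongr
    exact not_lt.1 hneg
  nlinarith

theorem localGood_large (ε : ℝ) (hε : 0 < ε) : ∃ d₀ : ℕ, ∀ d k : ℕ, d₀ ≤ d →
    (1 / 4 + ε) * d ≤ k → ∀ y : ℝ, 1 ≤ y → k * y ≤ d → LocalGood d k y := by
  obtain ⟨κ, hκ⟩ : ∃ κ : ℝ, κ = 1 / 4 + ε := ⟨_, rfl⟩
  have hκ4 : 1 / 4 < κ := by linarith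
  have hκ0 : 0 < κ := by linarith
  obtain ⟨m, hm1, hm2⟩ : ∃ m : ℝ, 1 / (4 * κ) < m ∧ m < 1 := by
    refine exists_between ?_
    rw [div_lt_one (by positivity)]; linarith
  have hm0 : 0 < m := lt_trans (by positivity) hm1
  have hq : 1 / 4 < κ * m := by
    rw [div_lt_iff₀ (by positivity)] at hm1; nlinarith
  obtain ⟨s, hs1, hs⟩ := exists_s (κ * m) hq
  obtain ⟨d₀, hd₀⟩ := exists_nat_gt (4 * (2 * s + 2 : ℝ) / (1 - m))
  refine ⟨d₀, fun d k hd hk y hy hyk => ?_⟩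
  rw [← hκ] at hk
  have hm3 : 0 < 1 - m := by linarith
  have hdd : (d₀ : ℝ) ≤ d := by exact_mod_cast hd
  have hd1 : 4 * (2 * s + 2 : ℝ) < d * (1 - m) := by
    rw [div_lt_iff₀ hm3] at hd₀; nlinarith
  have hs0 : (0 : ℝ) ≤ s := Nat.cast_nonneg s
  have hd0 : (0 : ℝ) < d := by
    by_contra hneg
    have := mul_nonpos_of_nonpos_of_nonneg (not_lt.1 hneg) hm3.le
    linarith
  have hrd : 2 * s + 2 ≤ d := by
    have : ((2 * s + 2 : ℕ) : ℝ) ≤ d := by push_cast; nlinarith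
    exact_mod_cast this
  have hy0 : 0 < y := by linarith
  have hκy : κ * y ≤ 1 := by
    have : κ * y * d ≤ 1 * d := by nlinarith
    exact le_of_mul_le_mul_right this hd0
  have hy4 : y ≤ 4 := by nlinarith
  refine localGood_of d k (2 * s + 2) κ y m (2 * κ * y) (1 / (2 * y)) (by omega) hrd hκ0.le hk hy0
    hyk hm0 (by positivity) (by positivity) ?_ ?_ ?_
  · have hw1 : 2 * κ * y * (1 - κ * y) + 1 / (2 * y) * y ≤ 1 := by
      have : 1 / (2 * y) * y = 1 / 2 := by field_simp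
      rw [this]; nlinarith [sq_nonneg (κ * y - 1 / 2)]
    have hw0 : 0 ≤ 2 * κ * y * (1 - κ * y) + 1 / (2 * y) * y := by
      have : 0 ≤ 1 - κ * y := by linarith
      positivity
    have hL : ((((2 * s + 2 : ℕ) : ℝ) + 1) / ((2 * s + 2 : ℕ) : ℝ) *
        (2 * κ * y * (1 - κ * y) + 1 / (2 * y) * y)) ^ (2 * s + 2) ≤ 3 := by
      refine le_trans ?_ (one_add_pow_le_three (2 * s + 2) (by omega))
      gcongr
      exact mul_le_of_le_one_right (by positivity) hw1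
    refine lt_of_le_of_lt hL (hs.trans_le ?_)
    have hp := pvol_ge_term (2 * s + 2) s (by omega) hκ0.le
      (by positivity : 0 ≤ 2 * κ * y) (by positivity : 0 ≤ 1 / (2 * y))
    rw [show 2 * s + 2 - 2 = 2 * s by omega, show 2 * s + 2 - 1 - s = s + 1 by omega] at hp
    rw [show 2 * s + 2 - 1 = 2 * s + 1 by omega]
    refine le_trans (le_of_eq ?_) (mul_le_mul_of_nonneg_left hp (by positivity))
    have hc : ((2 * s + 2).factorial : ℝ) = ((2 * s + 2).choose (s + 1) : ℝ) *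
        ((s + 1).factorial : ℝ) * ((s + 1).factorial : ℝ) := by
      have := Nat.choose_mul_factorial_mul_factorial (n := 2 * s + 2) (k := s + 1) (by omega)
      rw [show 2 * s + 2 - (s + 1) = s + 1 by omega] at this
      exact_mod_cast this.symm
    have hf : (0 : ℝ) < ((s + 1).factorial : ℝ) := by exact_mod_cast Nat.factorial_pos _
    have hab : (2 * κ * y) ^ (s + 1) * (1 / (2 * y)) ^ (s + 1) = κ ^ (s + 1) := by
      rw [← mul_pow]; congr 1; field_simp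
    rw [hc]
    calc ((2 * s + 2).choose (s + 1) : ℝ) * ((2 * s).choose s : ℝ) * (κ * m) ^ (2 * s + 1)
        = ((2 * s + 2).choose (s + 1) : ℝ) * ((2 * s).choose s : ℝ) * m ^ (2 * s + 1) *
          (κ ^ s * κ ^ (s + 1)) := by rw [mul_pow]; ring
      _ = _ := by rw [← hab]; field_simp
  · have h3 : y / d ≤ 4 / d := by gcongr
    have h4 : 4 / (d : ℝ) < 1 - m := by
      rw [div_lt_iff₀ hd0]; nlinarith
    have h5 : 0 ≤ 1 / (d : ℝ) * m := by positivity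
    nlinarith
  · have h3 : ((2 * s + 2 : ℕ) : ℝ) * (y / d) ≤ ((2 * s + 2 : ℕ) : ℝ) * (4 / d) := by gcongr
    have h4 : ((2 * s + 2 : ℕ) : ℝ) * (4 / d) < 1 - m := by
      rw [← mul_div_assoc, div_lt_iff₀ hd0]; push_cast; nlinarith
    have h5 : 0 ≤ ((2 * s + 2 : ℕ) : ℝ) / (d : ℝ) * m := by positivity
    nlinarith

end Vale.Agent.P018
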