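import Vale.Agent.P018.LocalGood

namespace Vale.Agent.P018

theorem le_inv_of_bounds {d k : ℕ} {κ y Y : ℝ} (hd : 0 < d) (hκ : 0 < κ) (hk : κ * d ≤ k)
    (hy : 0 ≤ y) (hyk : k * y ≤ d) (hY : κ * Y = 1) : y ≤ Y := by
  have hd0 : (0 : ℝ) < d := by exact_mod_cast hd
  have h1 : κ * y * d ≤ 1 * d := by nlinarith
  have h2 : κ * y ≤ κ * Y := by
    rw [hY]; exact le_of_mul_le_mul_right h1 hd0
  exact le_of_mul_le_mul_left h2 hκ

theorem piece (D r : ℕ) (κ y0 y1 m a W : ℝ) (hr : 2 ≤ r) (hrD : r ≤ D) (hκ : 0 ≤ κ)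
    (hy0 : 1 ≤ y0) (hm : 0 < m) (hm1 : m < 1) (ha : 0 < a) (hW0 : a * (1 - κ * y0) + y0 ≤ W)
    (hW1 : a * (1 - κ * y1) + y1 ≤ W)
    (h : (((r : ℝ) + 1) / r * W) ^ r < (r.factorial : ℝ) * m ^ (r - 1) * pvol r κ a 1)
    (h2 : (1 - (r : ℝ) / D) * m + r * (y1 / D) < 1)
    (d k : ℕ) (hd : D ≤ d) (hk : κ * d ≤ k) (y : ℝ) (hy : y0 ≤ y) (hy' : y ≤ y1)
    (hyk : k * y ≤ d) : LocalGood d k y := by
  have hD0 : (0 : ℝ) < D := by exact_mod_cast (by omega : 0 < D)
  have hDd : (D : ℝ) ≤ d := by exact_mod_cast hd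
  have hd0 : (0 : ℝ) < d := lt_of_lt_of_le hD0 hDd
  have hr1 : (1 : ℝ) ≤ r := by exact_mod_cast (by omega : 1 ≤ r)
  have hy1 : 1 ≤ y := hy0.trans hy
  have hκy : κ * y ≤ 1 := by
    have : κ * y * d ≤ 1 * d := by nlinarith
    exact le_of_mul_le_mul_right this hd0
  have hw : a * (1 - κ * y) + 1 * y ≤ W := by
    rcases le_total 0 (1 - a * κ) with hs | hs
    · have : (1 - a * κ) * y ≤ (1 - a * κ) * y1 := mul_le_mul_of_nonneg_left hy' hs
      linarith
    · have : (1 - a * κ) * y ≤ (1 - a * κ) * y0 := mul_le_mul_of_nonpos_left hy hs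
      linarith
  have hw0 : 0 ≤ a * (1 - κ * y) + 1 * y := by
    have : 0 ≤ a * (1 - κ * y) := mul_nonneg ha.le (by linarith)
    linarith
  have ht : 1 / (d : ℝ) ≤ 1 / D := by gcongr
  have ht0 : 0 ≤ 1 / (d : ℝ) := by positivity
  have hym : 0 ≤ y - m := by linarith
  have key : m + r * (1 / (d : ℝ)) * (y - m) < 1 := by
    have e1 : r * (1 / (d : ℝ)) * (y - m) ≤ r * (1 / (D : ℝ)) * (y1 - m) := by
      gcongr
    have e2 : (1 - (r : ℝ) / D) * m + r * (y1 / D) = m + r * (1 / (D : ℝ)) * (y1 - m) := by ring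
    linarith
  refine localGood_of d k r κ y m a 1 hr (hrD.trans hd) hκ hk (by linarith) hyk hm ha one_pos
    (lt_of_le_of_lt ?_ h) ?_ ?_
  · gcongr
  · have e1 : 1 * (1 / (d : ℝ)) * (y - m) ≤ r * (1 / (d : ℝ)) * (y - m) := by gcongr
    have e2 : (1 - 1 / (d : ℝ)) * m + y / d = m + 1 * (1 / (d : ℝ)) * (y - m) := by ring
    linarith
  · have e2 : (1 - (r : ℝ) / d) * m + r * (y / d) = m + r * (1 / (d : ℝ)) * (y - m) := by ring
    linarith

theorem localGood_c58 (d k : ℕ) (hd : 6 ≤ d) (hk : (5 / 8) * (d : ℝ) ≤ k) (y : ℝ) (hy : 1 ≤ y)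
    (hyk : k * y ≤ d) : LocalGood d k y := by
  have hy2 : y ≤ (8 / 5) := le_inv_of_bounds (κ := (5 / 8)) (by omega) (by norm_num) hk (by linarith) hyk (by norm_num)
  rcases le_total y (53 / 50) with h0 | h0
  · exact piece 6 3 (5 / 8) 1 (53 / 50) (939 / 1000) (69 / 20) (1147 / 500) (by norm_num) (by norm_num) (by norm_num)
      (by norm_num) (by norm_num) (by norm_num) (by norm_num) (by norm_num) (by norm_num)
      (by norm_num [pvol, Finset.sum_range_succ, Nat.choose, Nat.factorial]) (by norm_num)
      d k hd hk y hy h0 hyk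
  rcases le_total y (11 / 10) with h1 | h1
  · exact piece 6 3 (5 / 8) (53 / 50) (11 / 10) (899 / 1000) (83 / 20) (2461 / 1000) (by norm_num) (by norm_num) (by norm_num)
      (by norm_num) (by norm_num) (by norm_num) (by norm_num) (by norm_num) (by norm_num)
      (by norm_num [pvol, Finset.sum_range_succ, Nat.choose, Nat.factorial]) (by norm_num)
      d k hd hk y h0 h1 hyk
  rcases le_total y (57 / 50) with h2 | h2
  · exact piece 6 3 (5 / 8) (11 / 10) (57 / 50) (859 / 1000) (99 / 20) (2647 / 1000) (by norm_num) (by norm_num) (by norm_num)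
      (by norm_num) (by norm_num) (by norm_num) (by norm_num) (by norm_num) (by norm_num)
      (by norm_num [pvol, Finset.sum_range_succ, Nat.choose, Nat.factorial]) (by norm_num)
      d k hd hk y h1 h2 hyk
  rcases le_total y (59 / 50) with h3 | h3
  · exact piece 6 3 (5 / 8) (57 / 50) (59 / 50) (819 / 1000) (117 / 20) (1411 / 500) (by norm_num) (by norm_num) (by norm_num)
      (by norm_num) (by norm_num) (by norm_num) (by norm_num) (by norm_num) (by norm_num)
      (by norm_num [pvol, Finset.sum_range_succ, Nat.choose, Nat.factorial]) (by norm_num)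
      d k hd hk y h2 h3 hyk
  rcases le_total y (123 / 100) with h4 | h4
  · exact piece 6 3 (5 / 8) (59 / 50) (123 / 100) (769 / 1000) (27 / 4) (369 / 125) (by norm_num) (by norm_num) (by norm_num)
      (by norm_num) (by norm_num) (by norm_num) (by norm_num) (by norm_num) (by norm_num)
      (by norm_num [pvol, Finset.sum_range_succ, Nat.choose, Nat.factorial]) (by norm_num)
      d k hd hk y h3 h4 hyk
  rcases le_total y (13 / 10) with h5 | h5
  · exact piece 6 3 (5 / 8) (123 / 100) (13 / 10) (699 / 1000) (167 / 20) (3161 / 1000) (by norm_num) (by norm_num) (by norm_num)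
      (by norm_num) (by norm_num) (by norm_num) (by norm_num) (by norm_num) (by norm_num)
      (by norm_num [pvol, Finset.sum_range_succ, Nat.choose, Nat.factorial]) (by norm_num)
      d k hd hk y h4 h5 hyk
  rcases le_total y (7 / 5) with h6 | h6
  · exact piece 6 3 (5 / 8) (13 / 10) (7 / 5) (599 / 1000) (229 / 20) (3447 / 1000) (by norm_num) (by norm_num) (by norm_num)
      (by norm_num) (by norm_num) (by norm_num) (by norm_num) (by norm_num) (by norm_num)
      (by norm_num [pvol, Finset.sum_range_succ, Nat.choose, Nat.factorial]) (by norm_num)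
      d k hd hk y h5 h6 hyk
  rcases le_total y (157 / 100) with h7 | h7
  · exact piece 6 3 (5 / 8) (7 / 5) (157 / 100) (429 / 1000) (403 / 20) (3919 / 1000) (by norm_num) (by norm_num) (by norm_num)
      (by norm_num) (by norm_num) (by norm_num) (by norm_num) (by norm_num) (by norm_num)
      (by norm_num [pvol, Finset.sum_range_succ, Nat.choose, Nat.factorial]) (by norm_num)
      d k hd hk y h6 h7 hyk
  exact piece 6 3 (5 / 8) (157 / 100) (8 / 5) (399 / 1000) (499 / 20) (1019 / 500) (by norm_num) (by norm_num) (by norm_num)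
      (by norm_num) (by norm_num) (by norm_num) (by norm_num) (by norm_num) (by norm_num)
      (by norm_num [pvol, Finset.sum_range_succ, Nat.choose, Nat.factorial]) (by norm_num)
      d k hd hk y h7 hy2 hyk

theorem localGood_c9 (d k : ℕ) (hd : 9 ≤ d) (hk : (5 / 9) * (d : ℝ) ≤ k) (y : ℝ) (hy : 1 ≤ y)
    (hyk : k * y ≤ d) : LocalGood d k y := by
  have hy2 : y ≤ (9 / 5) := le_inv_of_bounds (κ := (5 / 9)) (by omega) (by norm_num) hk (by linarith) hyk (by norm_num)
  rcases le_total y (117 / 100) with h0 | h0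
  · exact piece 9 5 (5 / 9) 1 (117 / 100) (393 / 500) (53 / 20) (1089 / 500) (by norm_num) (by norm_num) (by norm_num)
      (by norm_num) (by norm_num) (by norm_num) (by norm_num) (by norm_num) (by norm_num)
      (by norm_num [pvol, Finset.sum_range_succ, Nat.choose, Nat.factorial]) (by norm_num)
      d k hd hk y hy h0 hyk
  rcases le_total y (31 / 25) with h1 | h1
  · exact piece 9 4 (5 / 9) (117 / 100) (31 / 25) (807 / 1000) (99 / 20) (2903 / 1000) (by norm_num) (by norm_num) (by norm_num)
      (by norm_num) (by norm_num) (by norm_num) (by norm_num) (by norm_num) (by norm_num)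
      (by norm_num [pvol, Finset.sum_range_succ, Nat.choose, Nat.factorial]) (by norm_num)
      d k hd hk y h0 h1 hyk
  rcases le_total y (13 / 10) with h2 | h2
  · exact piece 9 4 (5 / 9) (31 / 25) (13 / 10) (759 / 1000) (133 / 20) (3309 / 1000) (by norm_num) (by norm_num) (by norm_num)
      (by norm_num) (by norm_num) (by norm_num) (by norm_num) (by norm_num) (by norm_num)
      (by norm_num [pvol, Finset.sum_range_succ, Nat.choose, Nat.factorial]) (by norm_num)
      d k hd hk y h1 h2 hyk
  rcases le_total y (137 / 100) with h3 | h3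
  · exact piece 9 4 (5 / 9) (13 / 10) (137 / 100) (703 / 1000) (163 / 20) (891 / 250) (by norm_num) (by norm_num) (by norm_num)
      (by norm_num) (by norm_num) (by norm_num) (by norm_num) (by norm_num) (by norm_num)
      (by norm_num [pvol, Finset.sum_range_succ, Nat.choose, Nat.factorial]) (by norm_num)
      d k hd hk y h2 h3 hyk
  rcases le_total y (29 / 20) with h4 | h4
  · exact piece 9 4 (5 / 9) (137 / 100) (29 / 20) (639 / 1000) 11 (1999 / 500) (by norm_num) (by norm_num) (by norm_num)
      (by norm_num) (by norm_num) (by norm_num) (by norm_num) (by norm_num) (by norm_num)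
      (by norm_num [pvol, Finset.sum_range_succ, Nat.choose, Nat.factorial]) (by norm_num)
      d k hd hk y h3 h4 hyk
  rcases le_total y (81 / 50) with h5 | h5
  · exact piece 9 3 (5 / 9) (29 / 20) (81 / 50) (689 / 1000) (49 / 4) (479 / 125) (by norm_num) (by norm_num) (by norm_num)
      (by norm_num) (by norm_num) (by norm_num) (by norm_num) (by norm_num) (by norm_num)
      (by norm_num [pvol, Finset.sum_range_succ, Nat.choose, Nat.factorial]) (by norm_num)
      d k hd hk y h4 h5 hyk
  exact piece 9 3 (5 / 9) (81 / 50) (9 / 5) (599 / 1000) (499 / 20) (1029 / 250) (by norm_num) (by norm_num) (by norm_num)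
      (by norm_num) (by norm_num) (by norm_num) (by norm_num) (by norm_num) (by norm_num)
      (by norm_num [pvol, Finset.sum_range_succ, Nat.choose, Nat.factorial]) (by norm_num)
      d k hd hk y h5 hy2 hyk

theorem localGood_c10 (d k : ℕ) (hd : 10 ≤ d) (hk : (3 / 5) * (d : ℝ) ≤ k) (y : ℝ) (hy : 1 ≤ y)
    (hyk : k * y ≤ d) : LocalGood d k y := by
  have hy2 : y ≤ (5 / 3) := le_inv_of_bounds (κ := (3 / 5)) (by omega) (by norm_num) hk (by linarith) hyk (by norm_num)
  rcases le_total y (13 / 10) with h0 | h0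
  · exact piece 10 4 (3 / 5) 1 (13 / 10) (799 / 1000) (13 / 4) (2301 / 1000) (by norm_num) (by norm_num) (by norm_num)
      (by norm_num) (by norm_num) (by norm_num) (by norm_num) (by norm_num) (by norm_num)
      (by norm_num [pvol, Finset.sum_range_succ, Nat.choose, Nat.factorial]) (by norm_num)
      d k hd hk y hy h0 hyk
  exact piece 10 3 (3 / 5) (13 / 10) (5 / 3) (713 / 1000) (191 / 20) (1701 / 500) (by norm_num) (by norm_num) (by norm_num)
      (by norm_num) (by norm_num) (by norm_num) (by norm_num) (by norm_num) (by norm_num)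
      (by norm_num [pvol, Finset.sum_range_succ, Nat.choose, Nat.factorial]) (by norm_num)
      d k hd hk y h0 hy2 hyk

theorem localGood_c11 (d k : ℕ) (hd : 11 ≤ d) (hk : (6 / 11) * (d : ℝ) ≤ k) (y : ℝ) (hy : 1 ≤ y)
    (hyk : k * y ≤ d) : LocalGood d k y := by
  have hy2 : y ≤ (11 / 6) := le_inv_of_bounds (κ := (6 / 11)) (by omega) (by norm_num) hk (by linarith) hyk (by norm_num)
  rcases le_total y (6 / 5) with h0 | h0
  · exact piece 11 5 (6 / 11) 1 (6 / 5) (104 / 125) (13 / 5) (1091 / 500) (by norm_num) (by norm_num) (by norm_num)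
      (by norm_num) (by norm_num) (by norm_num) (by norm_num) (by norm_num) (by norm_num)
      (by norm_num [pvol, Finset.sum_range_succ, Nat.choose, Nat.factorial]) (by norm_num)
      d k hd hk y hy h0 hyk
  rcases le_total y (33 / 25) with h1 | h1
  · exact piece 11 4 (6 / 11) (6 / 5) (33 / 25) (102 / 125) (53 / 10) (3031 / 1000) (by norm_num) (by norm_num) (by norm_num)
      (by norm_num) (by norm_num) (by norm_num) (by norm_num) (by norm_num) (by norm_num)
      (by norm_num [pvol, Finset.sum_range_succ, Nat.choose, Nat.factorial]) (by norm_num)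
      d k hd hk y h0 h1 hyk
  rcases le_total y (147 / 100) with h2 | h2
  · exact piece 11 4 (6 / 11) (33 / 25) (147 / 100) (73 / 100) (167 / 20) (3659 / 1000) (by norm_num) (by norm_num) (by norm_num)
      (by norm_num) (by norm_num) (by norm_num) (by norm_num) (by norm_num) (by norm_num)
      (by norm_num [pvol, Finset.sum_range_succ, Nat.choose, Nat.factorial]) (by norm_num)
      d k hd hk y h1 h2 hyk
  rcases le_total y (177 / 100) with h3 | h3
  · exact piece 11 3 (6 / 11) (147 / 100) (177 / 100) (71 / 100) (243 / 20) (1939 / 500) (by norm_num) (by norm_num) (by norm_num)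
      (by norm_num) (by norm_num) (by norm_num) (by norm_num) (by norm_num) (by norm_num)
      (by norm_num [pvol, Finset.sum_range_succ, Nat.choose, Nat.factorial]) (by norm_num)
      d k hd hk y h2 h3 hyk
  exact piece 11 3 (6 / 11) (177 / 100) (11 / 6) (343 / 500) (499 / 20) (329 / 125) (by norm_num) (by norm_num) (by norm_num)
      (by norm_num) (by norm_num) (by norm_num) (by norm_num) (by norm_num) (by norm_num)
      (by norm_num [pvol, Finset.sum_range_succ, Nat.choose, Nat.factorial]) (by norm_num)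
      d k hd hk y h3 hy2 hyk

theorem localGood_c12 (d k : ℕ) (hd : 12 ≤ d) (hk : (7 / 12) * (d : ℝ) ≤ k) (y : ℝ) (hy : 1 ≤ y)
    (hyk : k * y ≤ d) : LocalGood d k y := by
  have hy2 : y ≤ (12 / 7) := le_inv_of_bounds (κ := (7 / 12)) (by omega) (by norm_num) hk (by linarith) hyk (by norm_num)
  rcases le_total y (27 / 20) with h0 | h0
  · exact piece 12 5 (7 / 12) 1 (27 / 20) (749 / 1000) (61 / 20) (2271 / 1000) (by norm_num) (by norm_num) (by norm_num)
      (by norm_num) (by norm_num) (by norm_num) (by norm_num) (by norm_num) (by norm_num)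
      (by norm_num [pvol, Finset.sum_range_succ, Nat.choose, Nat.factorial]) (by norm_num)
      d k hd hk y hy h0 hyk
  exact piece 12 3 (7 / 12) (27 / 20) (12 / 7) (19 / 25) (203 / 20) (3507 / 1000) (by norm_num) (by norm_num) (by norm_num)
      (by norm_num) (by norm_num) (by norm_num) (by norm_num) (by norm_num) (by norm_num)
      (by norm_num [pvol, Finset.sum_range_succ, Nat.choose, Nat.factorial]) (by norm_num)
      d k hd hk y h0 hy2 hyk

theorem localGood_c13 (d k : ℕ) (hd : 13 ≤ d) (hk : (7 / 13) * (d : ℝ) ≤ k) (y : ℝ) (hy : 1 ≤ y)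
    (hyk : k * y ≤ d) : LocalGood d k y := by
  have hy2 : y ≤ (13 / 7) := le_inv_of_bounds (κ := (7 / 13)) (by omega) (by norm_num) hk (by linarith) hyk (by norm_num)
  rcases le_total y (13 / 10) with h0 | h0
  · exact piece 13 5 (7 / 13) 1 (13 / 10) (811 / 1000) (49 / 20) (2131 / 1000) (by norm_num) (by norm_num) (by norm_num)
      (by norm_num) (by norm_num) (by norm_num) (by norm_num) (by norm_num) (by norm_num)
      (by norm_num [pvol, Finset.sum_range_succ, Nat.choose, Nat.factorial]) (by norm_num)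
      d k hd hk y hy h0 hyk
  rcases le_total y (3 / 2) with h1 | h1
  · exact piece 13 4 (7 / 13) (13 / 10) (3 / 2) (97 / 125) (147 / 20) (1753 / 500) (by norm_num) (by norm_num) (by norm_num)
      (by norm_num) (by norm_num) (by norm_num) (by norm_num) (by norm_num) (by norm_num)
      (by norm_num [pvol, Finset.sum_range_succ, Nat.choose, Nat.factorial]) (by norm_num)
      d k hd hk y h0 h1 hyk
  exact piece 13 3 (7 / 13) (3 / 2) (13 / 7) (741 / 1000) (263 / 20) (4029 / 1000) (by norm_num) (by norm_num) (by norm_num)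
      (by norm_num) (by norm_num) (by norm_num) (by norm_num) (by norm_num) (by norm_num)
      (by norm_num [pvol, Finset.sum_range_succ, Nat.choose, Nat.factorial]) (by norm_num)
      d k hd hk y h1 hy2 hyk

theorem localGood_c14 (d k : ℕ) (hd : 14 ≤ d) (hk : (1 / 2) * (d : ℝ) ≤ k) (y : ℝ) (hy : 1 ≤ y)
    (hyk : k * y ≤ d) : LocalGood d k y := by
  have hy2 : y ≤ 2 := le_inv_of_bounds (κ := (1 / 2)) (by omega) (by norm_num) hk (by linarith) hyk (by norm_num)
  rcases le_total y (5 / 4) with h0 | h0
  · exact piece 14 6 (1 / 2) 1 (5 / 4) (811 / 1000) 2 (2001 / 1000) (by norm_num) (by norm_num) (by norm_num)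
      (by norm_num) (by norm_num) (by norm_num) (by norm_num) (by norm_num) (by norm_num)
      (by norm_num [pvol, Finset.sum_range_succ, Nat.choose, Nat.factorial]) (by norm_num)
      d k hd hk y hy h0 hyk
  rcases le_total y (67 / 50) with h1 | h1
  · exact piece 14 6 (1 / 2) (5 / 4) (67 / 50) (93 / 125) (101 / 20) (393 / 125) (by norm_num) (by norm_num) (by norm_num)
      (by norm_num) (by norm_num) (by norm_num) (by norm_num) (by norm_num) (by norm_num)
      (by norm_num [pvol, Finset.sum_range_succ, Nat.choose, Nat.factorial]) (by norm_num)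
      d k hd hk y h0 h1 hyk
  rcases le_total y (71 / 50) with h2 | h2
  · exact piece 14 5 (1 / 2) (67 / 50) (71 / 50) (153 / 200) (27 / 4) (446 / 125) (by norm_num) (by norm_num) (by norm_num)
      (by norm_num) (by norm_num) (by norm_num) (by norm_num) (by norm_num) (by norm_num)
      (by norm_num [pvol, Finset.sum_range_succ, Nat.choose, Nat.factorial]) (by norm_num)
      d k hd hk y h1 h2 hyk
  rcases le_total y (38 / 25) with h3 | h3
  · exact piece 14 5 (1 / 2) (71 / 50) (38 / 25) (71 / 100) (37 / 4) (4103 / 1000) (by norm_num) (by norm_num) (by norm_num)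
      (by norm_num) (by norm_num) (by norm_num) (by norm_num) (by norm_num) (by norm_num)
      (by norm_num [pvol, Finset.sum_range_succ, Nat.choose, Nat.factorial]) (by norm_num)
      d k hd hk y h2 h3 hyk
  rcases le_total y (43 / 25) with h4 | h4
  · exact piece 14 4 (1 / 2) (38 / 25) (43 / 25) (711 / 1000) (247 / 20) (897 / 200) (by norm_num) (by norm_num) (by norm_num)
      (by norm_num) (by norm_num) (by norm_num) (by norm_num) (by norm_num) (by norm_num)
      (by norm_num [pvol, Finset.sum_range_succ, Nat.choose, Nat.factorial]) (by norm_num)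
      d k hd hk y h3 h4 hyk
  exact piece 14 3 (1 / 2) (43 / 25) 2 (363 / 500) (217 / 10) (4759 / 1000) (by norm_num) (by norm_num) (by norm_num)
      (by norm_num) (by norm_num) (by norm_num) (by norm_num) (by norm_num) (by norm_num)
      (by norm_num [pvol, Finset.sum_range_succ, Nat.choose, Nat.factorial]) (by norm_num)
      d k hd hk y h4 hy2 hyk

theorem localGood_five_eighths (d k : ℕ) (hd : 6 ≤ d) (hk : 5 * d ≤ 8 * k) (y : ℝ) (hy : 1 ≤ y)
    (hyk : k * y ≤ d) : LocalGood d k y := by
  have h : (5 : ℝ) * d ≤ 8 * k := by exact_mod_cast hk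
  exact localGood_c58 d k hd (by linarith) y hy hyk

theorem localGood_half (d k : ℕ) (hd : 8 ≤ d) (hk : d < 2 * k) (y : ℝ) (hy : 1 ≤ y)
    (hyk : k * y ≤ d) : LocalGood d k y := by
  rcases Nat.lt_or_ge d 14 with h14 | h14
  · interval_cases d
    · exact localGood_five_eighths 8 k (by norm_num) (by omega) y hy hyk
    · have h : (5 : ℝ) ≤ k := by exact_mod_cast (by omega : 5 ≤ k)
      exact localGood_c9 9 k le_rfl (by push_cast; linarith) y hy hyk
    · have h : (6 : ℝ) ≤ k := by exact_mod_cast (by omega : 6 ≤ k)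
      exact localGood_c10 10 k le_rfl (by push_cast; linarith) y hy hyk
    · have h : (6 : ℝ) ≤ k := by exact_mod_cast (by omega : 6 ≤ k)
      exact localGood_c11 11 k le_rfl (by push_cast; linarith) y hy hyk
    · have h : (7 : ℝ) ≤ k := by exact_mod_cast (by omega : 7 ≤ k)
      exact localGood_c12 12 k le_rfl (by push_cast; linarith) y hy hyk
    · have h : (7 : ℝ) ≤ k := by exact_mod_cast (by omega : 7 ≤ k)
      exact localGood_c13 13 k le_rfl (by push_cast; linarith) y hy hyk
  · have h : (d : ℝ) ≤ 2 * k := by exact_mod_cast hk.le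
    exact localGood_c14 d k h14 (by linarith) y hy hyk

end Vale.Agent.P018
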