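import Vale.Agent.P018.Assembly
import Vale.Agent.P018.NumSmall
import Vale.Agent.P018.NumLarge

namespace Vale.Agent.P018

theorem asymptotic_sub_two (d k : ℕ) (hd : 6 ≤ d) (hk : d ≤ k + 2) : Asymptotic d k :=
  asymptotic_of_localGood d k (by omega) (by omega) fun y hy hyk =>
    localGood_five_eighths d k hd (by omega) y hy hyk

theorem asymptotic_half (d k : ℕ) (hd : 8 ≤ d) (hk : d < 2 * k) : Asymptotic d k :=
  asymptotic_of_localGood d k (by omega) (by omega) fun y hy hyk =>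
    localGood_half d k hd hk y hy hyk

theorem asymptotic_large (ε : ℝ) (hε : 0 < ε) :
    ∃ d₀ : ℕ, ∀ d k : ℕ, d₀ ≤ d → (1 / 4 + ε) * (d : ℝ) ≤ (k : ℝ) → Asymptotic d k := by
  obtain ⟨d₀, h⟩ := localGood_large ε hε
  refine ⟨max d₀ 8, fun d k hd hk => ?_⟩
  have h8 : 8 ≤ d := (le_max_right _ _).trans hd
  have h2 : 2 ≤ k := by
    have h8' : (8 : ℝ) ≤ d := by exact_mod_cast h8
    have : (2 : ℝ) ≤ k := by nlinarith
    exact_mod_cast this
  exact asymptotic_of_localGood d k (by omega) h2 fun y hy hyk =>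
    h d k ((le_max_left _ _).trans hd) hk y hy hyk

end Vale.Agent.P018
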