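import Vale.Agent.P018.Setup

namespace Vale.Agent.P018

open Polynomial NumberField

theorem bev_sub {d : ℕ} {R : Type} [CommRing R] (b b' : Fin d → ℤ) (z : R) :
    bev (b - b') z = bev b z - bev b' z := by
  simp [bev, sub_mul, Finset.sum_sub_distrib]

theorem exists_short (d : ℕ) (hd : 1 ≤ d) (p : ℕ) (hp : 0 < p) (x : ℤ) :
    ∃ b : Fin d → ℤ, b ≠ 0 ∧ (p : ℤ) ∣ bev b x ∧ ∀ i, |(b i : ℝ)| ≤ (p : ℝ) ^ ((d : ℝ)⁻¹) := by
  classical
  haveI : NeZero p := ⟨hp.ne'⟩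
  set q : ℝ := (p : ℝ) ^ ((d : ℝ)⁻¹) with hq
  have hq0 : 0 ≤ q := by positivity
  set m : ℕ := ⌊q⌋₊ with hm
  have hqd : q ^ d = p := by
    rw [hq, ← Real.rpow_natCast, ← Real.rpow_mul (by positivity), inv_mul_cancel₀, Real.rpow_one]
    positivity
  have hlt : p < (m + 1) ^ d := by
    have h1 : q < (m : ℝ) + 1 := Nat.lt_floor_add_one q
    have h2 : q ^ d < ((m : ℝ) + 1) ^ d := pow_lt_pow_left₀ h1 hq0 (by omega)
    rw [hqd] at h2
    exact_mod_cast h2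
  let F : (Fin d → Fin (m + 1)) → ZMod p := fun a => ((bev (fun i => ((a i : ℕ) : ℤ)) x : ℤ) : ZMod p)
  obtain ⟨a, a', hne, hF⟩ := Fintype.exists_ne_map_eq_of_card_lt F (by simpa using hlt)
  refine ⟨(fun i => ((a i : ℕ) : ℤ)) - (fun i => ((a' i : ℕ) : ℤ)), ?_, ?_, ?_⟩
  · intro h
    apply hne
    funext i
    have := congrFun h i
    simp only [Pi.sub_apply, Pi.zero_apply] at this
    apply Fin.ext
    omega
  · rw [bev_sub]
    exact (ZMod.intCast_eq_intCast_iff_dvd_sub _ _ p).mp hF.symm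
  · intro i
    have h1 := (a i).2
    have h2 := (a' i).2
    have h3 : (m : ℝ) ≤ q := Nat.floor_le hq0
    have h4 : ((a i : ℕ) : ℝ) ≤ m := by exact_mod_cast Nat.lt_succ_iff.mp h1
    have h5 : ((a' i : ℕ) : ℝ) ≤ m := by exact_mod_cast Nat.lt_succ_iff.mp h2
    have h6 : (0 : ℝ) ≤ ((a i : ℕ) : ℝ) := by positivity
    have h7 : (0 : ℝ) ≤ ((a' i : ℕ) : ℝ) := by positivity
    simp only [Pi.sub_apply, Int.cast_sub, Int.cast_natCast]
    rw [abs_le]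
    constructor <;> linarith

theorem sub_dvd_bev_sub {d : ℕ} {R : Type} [CommRing R] (b : Fin d → ℤ) (z w : R) :
    z - w ∣ bev b z - bev b w := by
  unfold bev
  rw [← Finset.sum_sub_distrib]
  refine Finset.dvd_sum fun i _ => ?_
  rw [← mul_sub]
  exact (sub_dvd_pow_sub_pow z w _).mul_left _

theorem prod_eq_add {ι R : Type} [CommRing R] [DecidableEq ι] (s : Finset ι) (β y : ι → R) (p : R)
    (h : ∀ i, ∃ w z, β i = y i * w + p * z) :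
    ∃ w z, ∏ i ∈ s, β i = (∏ i ∈ s, y i) * w + p * z := by
  induction s using Finset.induction_on with
  | empty => exact ⟨1, 0, by simp⟩
  | insert a s ha ih =>
    obtain ⟨w, z, hwz⟩ := ih
    obtain ⟨w', z', hwz'⟩ := h a
    refine ⟨w' * w, y a * w' * z + z' * ((∏ i ∈ s, y i) * w + p * z), ?_⟩
    rw [Finset.prod_insert ha, Finset.prod_insert ha, hwz, hwz']
    ring

variable {d : ℕ} {L : Type} [Field L] [NumberField L] {g : ℤ[X]} {θ : Fin d → 𝓞 L}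

theorem exists_alpha (hθ : Roots g θ) (k : ℕ) (x p c : ℤ) (hp : p ≠ 0) (b : Fin d → ℤ)
    (hx : p ^ k ∣ g.eval x) (hb : p ∣ bev b x)
    (hN : ((p * c : ℤ) : 𝓞 L) = ∏ j, bev b (θ j)) (j : Fin d) :
    ∃ α : 𝓞 L, α * bev b (θ j) ^ k = (c : 𝓞 L) ^ k * ((x : 𝓞 L) - θ j) := by
  classical
  have h1 : ∀ i, ∃ w z : 𝓞 L, bev b (θ i) = ((x : 𝓞 L) - θ i) * w + (p : 𝓞 L) * z := by
    intro i
    obtain ⟨w, hw⟩ := sub_dvd_bev_sub b (x : 𝓞 L) (θ i)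
    obtain ⟨z, hz⟩ := hb
    refine ⟨-w, z, ?_⟩
    have h2 : bev b (x : 𝓞 L) = (p : 𝓞 L) * z := by
      have := map_bev (Int.castRingHom (𝓞 L)) b x
      simp only [eq_intCast] at this
      rw [← this, hz]; push_cast; ring
    rw [← h2]
    linear_combination -hw
  obtain ⟨w, z, hwz⟩ := prod_eq_add (Finset.univ.erase j) (fun i => bev b (θ i))
    (fun i => (x : 𝓞 L) - θ i) (p : 𝓞 L) h1
  set G := ∏ i ∈ Finset.univ.erase j, ((x : 𝓞 L) - θ i) with hG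
  set B := ∏ i ∈ Finset.univ.erase j, bev b (θ i) with hB
  have h3 : ∃ w', B ^ k = G * w' + ((p : 𝓞 L) * z) ^ k := by
    obtain ⟨w', hw'⟩ := sub_dvd_pow_sub_pow B ((p : 𝓞 L) * z) k
    refine ⟨w * w', ?_⟩
    have : B - (p : 𝓞 L) * z = G * w := by rw [hwz]; ring
    rw [this] at hw'
    linear_combination hw'
  obtain ⟨w', hw'⟩ := h3
  obtain ⟨m, hm⟩ := hx
  have h4 : ((x : 𝓞 L) - θ j) * G = (p : 𝓞 L) ^ k * m := by
    rw [hG, Finset.mul_prod_erase Finset.univ (fun i => (x : 𝓞 L) - θ i) (Finset.mem_univ j),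
      hθ.prod, hm]
    push_cast; ring
  have h5 : bev b (θ j) * B = (p : 𝓞 L) * c := by
    rw [hB, Finset.mul_prod_erase Finset.univ (fun i => bev b (θ i)) (Finset.mem_univ j), ← hN]
    push_cast; ring
  refine ⟨z ^ k * ((x : 𝓞 L) - θ j) + m * w', ?_⟩
  have hp' : (p : 𝓞 L) ^ k ≠ 0 := pow_ne_zero _ (by exact_mod_cast hp)
  apply mul_left_cancel₀ hp'
  have h6 : (p : 𝓞 L) ^ k * (z ^ k * ((x : 𝓞 L) - θ j) + m * w') =
      ((x : 𝓞 L) - θ j) * B ^ k := by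
    rw [hw', mul_pow]
    linear_combination (-w') * h4
  calc (p : 𝓞 L) ^ k * ((z ^ k * ((x : 𝓞 L) - θ j) + m * w') * bev b (θ j) ^ k)
      = ((x : 𝓞 L) - θ j) * (bev b (θ j) * B) ^ k := by rw [← mul_assoc, h6, mul_pow]; ring
    _ = _ := by rw [h5, mul_pow]; ring

/-- The complex embedding of the ring of integers attached to `σ`. -/
noncomputable def em (σ : L →+* ℂ) : 𝓞 L →+* ℂ := σ.comp (algebraMap (𝓞 L) L)

theorem em_injective (σ : L →+* ℂ) : Function.Injective (em σ) :=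
  σ.injective.comp RingOfIntegers.coe_injective

theorem eq_zero_of_em_lt (z : 𝓞 L) (h : ∀ σ : L →+* ℂ, ‖em σ z‖ < 1) : z = 0 := by
  by_contra hz
  obtain ⟨σ, hσ⟩ := NumberField.exists_conjugate_one_le_norm hz
  exact absurd (h σ) (not_lt.mpr hσ)

theorem exists_bound (θ : Fin d → 𝓞 L) : ∃ R : ℝ, 1 ≤ R ∧ ∀ (σ : L →+* ℂ) j, ‖em σ (θ j)‖ ≤ R := by
  obtain ⟨R, hR⟩ := (Set.finite_range
    (fun t : (L →+* ℂ) × Fin d => ‖em t.1 (θ t.2)‖)).bddAbove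
  exact ⟨max R 1, le_max_right _ _, fun σ j => (hR ⟨(σ, j), rfl⟩).trans (le_max_left _ _)⟩

theorem norm_bev_le (b : Fin d → ℝ) (z : ℂ) (R q : ℝ) (hR : 1 ≤ R) (hz : ‖z‖ ≤ R)
    (hb : ∀ i, |b i| ≤ q) : ‖∑ i, (b i : ℂ) * z ^ (i : ℕ)‖ ≤ d * R ^ d * q := by
  refine (norm_sum_le _ _).trans ?_
  have : ∀ i : Fin d, ‖(b i : ℂ) * z ^ (i : ℕ)‖ ≤ R ^ d * q := by
    intro i
    rw [norm_mul, norm_pow, Complex.norm_real, Real.norm_eq_abs, mul_comm]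
    have h1 : ‖z‖ ^ (i : ℕ) ≤ R ^ d :=
      (pow_le_pow_left₀ (norm_nonneg _) hz _).trans (pow_le_pow_right₀ hR i.2.le)
    exact mul_le_mul h1 (hb i) (abs_nonneg _) (by positivity)
  calc ∑ i : Fin d, ‖(b i : ℂ) * z ^ (i : ℕ)‖ ≤ ∑ _i : Fin d, R ^ d * q :=
        Finset.sum_le_sum fun i _ => this i
    _ = d * R ^ d * q := by simp [mul_assoc]

/-- The data attached to a pair `(x, p)` with `p ^ k ∣ g x`. -/
structure Pt (θ : Fin d → 𝓞 L) (k : ℕ) (C₁ : ℝ) (x : ℤ) (p : ℕ) where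
  b : Fin d → ℤ
  c : ℤ
  α : Fin d → 𝓞 L
  b_ne : b ≠ 0
  b_le : ∀ i, |(b i : ℝ)| ≤ (p : ℝ) ^ ((d : ℝ)⁻¹)
  c_ne : c ≠ 0
  c_le : |(c : ℝ)| ≤ C₁ ^ d
  norm_eq : ((p * c : ℤ) : 𝓞 L) = ∏ j, bev b (θ j)
  alpha_eq : ∀ j, α j * bev b (θ j) ^ k = (c : 𝓞 L) ^ k * ((x : 𝓞 L) - θ j)
  up : ∀ (σ : L →+* ℂ) j, ‖em σ (bev b (θ j))‖ ≤ C₁ * (p : ℝ) ^ ((d : ℝ)⁻¹)
  lo : ∀ (σ : L →+* ℂ) j, (p : ℝ) ^ ((d : ℝ)⁻¹) ≤ C₁ ^ d * ‖em σ (bev b (θ j))‖

theorem exists_pt (hθ : Roots g θ) (hd : 1 ≤ d) (R : ℝ) (hR : 1 ≤ R)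
    (hRθ : ∀ (σ : L →+* ℂ) j, ‖em σ (θ j)‖ ≤ R) (k : ℕ) (hk : 1 ≤ k) (x : ℤ) (p : ℕ) (hp : 0 < p)
    (hx : (p : ℤ) ^ k ∣ g.eval x) : Nonempty (Pt θ k (d * R ^ d) x p) := by
  classical
  obtain ⟨b, hb0, hbx, hble⟩ := exists_short d hd p hp x
  obtain ⟨N, hN, hNd⟩ := hθ.norm b
  obtain ⟨c, hc⟩ := hNd x p ((dvd_pow_self _ (by omega)).trans hx) hbx
  set q : ℝ := (p : ℝ) ^ ((d : ℝ)⁻¹) with hq
  set C₁ : ℝ := d * R ^ d with hC₁
  have hd' : (1 : ℝ) ≤ d := by exact_mod_cast hd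
  have hC1 : 1 ≤ C₁ := one_le_mul_of_one_le_of_one_le hd' (one_le_pow₀ hR)
  have hp' : (0 : ℝ) < p := by exact_mod_cast hp
  have hq0 : 0 < q := by positivity
  have hqd : q ^ d = p := by
    rw [hq, ← Real.rpow_natCast, ← Real.rpow_mul (by positivity), inv_mul_cancel₀, Real.rpow_one]
    positivity
  have hN0 : N ≠ 0 := by
    intro h
    rw [h] at hN
    have := Finset.prod_ne_zero_iff.mpr fun j (_ : j ∈ Finset.univ) => hθ.ne b hb0 j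
    exact this (by rw [← hN]; simp)
  have hc0 : c ≠ 0 := by rintro rfl; exact hN0 (by simpa using hc)
  have hup : ∀ (σ : L →+* ℂ) j, ‖em σ (bev b (θ j))‖ ≤ C₁ * q := by
    intro σ j
    rw [map_bev]
    have := norm_bev_le (fun i => (b i : ℝ)) (em σ (θ j)) R q hR (hRθ σ j) hble
    simpa [bev] using this
  have hprod : ∀ σ : L →+* ℂ, ∏ j, ‖em σ (bev b (θ j))‖ = p * |(c : ℝ)| := by
    intro σ
    rw [← norm_prod, ← map_prod, ← hN, hc]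
    simp
  have hc1 : (1 : ℝ) ≤ |(c : ℝ)| := by
    have : (1 : ℤ) ≤ |c| := Int.one_le_abs hc0
    exact_mod_cast this
  obtain ⟨σ₀⟩ : Nonempty (L →+* ℂ) := inferInstance
  have hα := exists_alpha hθ k x p c (by exact_mod_cast hp.ne') b hx hbx (by rw [← hc]; exact hN)
  choose α hα using hα
  refine ⟨⟨b, c, α, hb0, hble, hc0, ?_, by rw [← hc]; exact hN, hα, hup, ?_⟩⟩
  · have h1 : ∏ j, ‖em σ₀ (bev b (θ j))‖ ≤ ∏ _j : Fin d, C₁ * q :=
      Finset.prod_le_prod (fun _ _ => norm_nonneg _) (fun j _ => hup σ₀ j)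
    rw [hprod, Finset.prod_const, Finset.card_univ, Fintype.card_fin, mul_pow, hqd, mul_comm] at h1
    exact le_of_mul_le_mul_right h1 hp'
  · intro σ j
    have h1 := hprod σ
    rw [← Finset.mul_prod_erase Finset.univ _ (Finset.mem_univ j)] at h1
    have h2 : ∏ i ∈ Finset.univ.erase j, ‖em σ (bev b (θ i))‖ ≤
        ∏ _i ∈ Finset.univ.erase j, C₁ * q :=
      Finset.prod_le_prod (fun _ _ => norm_nonneg _) (fun j _ => hup σ j)
    rw [Finset.prod_const, Finset.card_erase_of_mem (Finset.mem_univ j), Finset.card_univ,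
      Fintype.card_fin] at h2
    have h3 : (p : ℝ) ≤ ‖em σ (bev b (θ j))‖ * (C₁ * q) ^ (d - 1) := by
      calc (p : ℝ) ≤ p * |(c : ℝ)| := le_mul_of_one_le_right hp'.le hc1
        _ = _ := h1.symm
        _ ≤ _ := mul_le_mul_of_nonneg_left h2 (norm_nonneg _)
    have h4 : q ^ d = q * q ^ (d - 1) := by
      rw [← pow_succ']; congr 1; omega
    rw [← hqd, h4, mul_pow] at h3
    have h5 : q ≤ ‖em σ (bev b (θ j))‖ * C₁ ^ (d - 1) := by
      have hq' : 0 < q ^ (d - 1) := by positivity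
      apply le_of_mul_le_mul_right _ hq'
      linarith
    calc q ≤ ‖em σ (bev b (θ j))‖ * C₁ ^ (d - 1) := h5
      _ ≤ ‖em σ (bev b (θ j))‖ * C₁ ^ d :=
        mul_le_mul_of_nonneg_left (pow_le_pow_right₀ hC1 (by omega)) (norm_nonneg _)
      _ = _ := mul_comm _ _

end Vale.Agent.P018
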