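import Vale.Agent.P018.Point
import Vale.Agent.P018.DetBound
import Vale.Agent.P018.Family

namespace Vale.Agent.P018

open NumberField Finset

theorem sum_of_mem_fam {r a b k : ℕ} {s : (Fin r → ℕ) × (Fin r → ℕ)} (hs : s ∈ fam r a b k) :
    ∑ i, s.1 i = a ∧ ∑ i, s.2 i = b := by
  simp only [fam, mem_filter, mem_product, mem_piAntidiag] at hs
  exact ⟨hs.1.1.1, hs.1.2.1⟩

theorem factor_eq {F : Type} [Field F] {r : ℕ} (a b k : ℕ) (i₀ : Fin r) (θ A B : Fin r → F)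
    (lam v : F) (hA : ∀ i, A i * B i ^ k = lam * (1 - θ i * v)) (hB : ∀ i, B i ≠ 0)
    (e f : Fin r → ℕ) (he : ∑ i, e i = a) (hf : ∑ i, f i = b) :
    ∏ i, (A i ^ e i * B i ^ f i) =
      (lam ^ a * B i₀ ^ b / (B i₀ ^ (k * a) * ∏ i ∈ univ.erase i₀, (B i / B i₀) ^ (k * a))) *
      ((∏ i, (1 - θ i * v) ^ e i) *
        ∏ i ∈ univ.erase i₀, (B i / B i₀) ^ (f i + k * (a - e i))) := by
  have hea : ∀ i, e i ≤ a := fun i => by
    rw [← he]; exact single_le_sum (fun _ _ => Nat.zero_le _) (mem_univ i)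
  have hu : ∀ i, B i / B i₀ ≠ 0 := fun i => div_ne_zero (hB i) (hB i₀)
  have h0 : B i₀ ^ (k * a) * ∏ i ∈ univ.erase i₀, (B i / B i₀) ^ (k * a) ≠ 0 :=
    mul_ne_zero (pow_ne_zero _ (hB i₀)) (prod_ne_zero_iff.mpr fun i _ => pow_ne_zero _ (hu i))
  have key : ∀ i, A i ^ e i * B i ^ f i * ((B i / B i₀) ^ (k * a) * B i₀ ^ (k * e i)) =
      (lam ^ e i * (1 - θ i * v) ^ e i) * (B i₀ ^ f i * (B i / B i₀) ^ (f i + k * (a - e i))) := by
    intro i
    have h1 : B i = B i / B i₀ * B i₀ := by field_simp [hB i₀]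
    obtain ⟨n, hn⟩ := Nat.exists_eq_add_of_le (hea i)
    have h2 : a - e i = n := by omega
    rw [h2, ← mul_pow, ← hA i, hn]
    generalize B i / B i₀ = u at h1 ⊢
    rw [h1]
    ring
  have h1 := prod_congr rfl (fun i (_ : i ∈ (univ : Finset (Fin r))) => key i)
  simp only [prod_mul_distrib, prod_pow_eq_pow_sum, ← mul_sum, he, hf] at h1
  rw [← mul_prod_erase univ (fun i => (B i / B i₀) ^ (k * a)) (mem_univ i₀),
    ← mul_prod_erase univ (fun i => (B i / B i₀) ^ (f i + k * (a - e i))) (mem_univ i₀),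
    div_self (hB i₀), one_pow, one_pow, one_mul, one_mul] at h1
  rw [div_mul_eq_mul_div, eq_div_iff h0, prod_mul_distrib]
  linear_combination h1

theorem exists_large (C₀ η : ℝ) (hη : 0 < η) :
    ∃ Y₀ : ℝ, 1 ≤ Y₀ ∧ ∀ Y, Y₀ ≤ Y → C₀ * Y ^ (-η) < 1 := by
  have h1 : Filter.Tendsto (fun Y : ℝ => C₀ * Y ^ (-η)) Filter.atTop (nhds (C₀ * 0)) :=
    (tendsto_rpow_neg_atTop hη).const_mul C₀
  rw [mul_zero] at h1
  obtain ⟨Y₀, hY₀⟩ := Filter.eventually_atTop.mp (h1.eventually (gt_mem_nhds zero_lt_one))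
  exact ⟨max Y₀ 1, le_max_right _ _, fun Y hY => hY₀ Y ((le_max_left _ _).trans hY)⟩

/-- The complex determinant estimate for one embedding. -/
theorem det_small (r a b k : ℕ) (i₀ : Fin r) (α β μ τ K Y : ℝ) (hμ : 0 < μ) (hτ : 0 ≤ τ)
    (hK : 1 ≤ K) (hY : 1 ≤ Y) (hYK : 2 * K * K ≤ Y) (s₀ : fam r a b k)
    (θ : Fin r → ℂ) (x c : fam r a b k → ℤ) (A B : fam r a b k → Fin r → ℂ)
    (hθ : ∀ i, ‖θ i‖ ≤ K)
    (hA : ∀ P i, A P i * B P i ^ k = (c P : ℂ) ^ k * ((x P : ℂ) - θ i))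
    (hB : ∀ P i, B P i ≠ 0) (hx : ∀ P, Y ≤ K * |(x P : ℝ)|)
    (hAle : ∀ P, ‖A P i₀‖ ≤ K * Y ^ α) (hBle : ∀ P, ‖B P i₀‖ ≤ K * Y ^ β)
    (hr1 : ∀ P i, ‖B P i‖ ≤ K * ‖B P i₀‖) (hr2 : ∀ P i, ‖B P i₀‖ ≤ K * ‖B P i‖)
    (hcl : ∀ P P' i, ‖B P i / B P i₀ - B P' i / B P' i₀‖ ≤ K * Y ^ (-μ)) :
    ‖(Matrix.of fun t s : fam r a b k => ∏ i, (A t i ^ s.1.1 i * B t i ^ s.1.2 i)).det‖ ≤
      (((2 * K) ^ a * K ^ b * K ^ (k * a * r)) ^ (fam r a b k).card *
        (((fam r a b k).card.factorial : ℝ) *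
          ((1 + K) ^ (a + r * (b + k * a)) * K ^ (a + r * (b + k * a))) ^ (fam r a b k).card)) *
      Y ^ (((fam r a b k).card : ℝ) * (a * α + b * β) - (((fam r a b k).card : ℝ) * τ -
        (τ + (((r : ℝ) - 1) * μ + 1)) ^ (r + 1) / (((r + 1).factorial : ℝ) * μ ^ (r - 1)))) := by
  classical
  have hY0 : 0 < Y := by linarith
  have hK0 : 0 < K := by linarith
  have hx0 : ∀ P, (x P : ℂ) ≠ 0 := by
    intro P h
    have h1 : x P = 0 := by exact_mod_cast h
    have := hx P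
    rw [h1] at this
    simp at this
    linarith
  let v : fam r a b k → ℂ := fun P => (x P : ℂ)⁻¹
  have hv : ∀ P, ‖v P‖ ≤ K * Y⁻¹ := by
    intro P
    have h1 : 0 < |(x P : ℝ)| := by
      have := hx P
      by_contra h
      have h2 : |(x P : ℝ)| = 0 := le_antisymm (not_lt.mp h) (abs_nonneg _)
      rw [h2] at this
      linarith
    simp only [v, norm_inv, Complex.norm_intCast]
    rw [← div_eq_mul_inv, inv_eq_one_div, div_le_div_iff₀ h1 hY0]
    simpa using hx P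
  let lam : fam r a b k → ℂ := fun P => (c P : ℂ) ^ k * x P
  have hA' : ∀ P i, A P i * B P i ^ k = lam P * (1 - θ i * v P) := by
    intro P i
    rw [hA]
    simp only [lam, v]
    field_simp [hx0 P]
  let ρ : fam r a b k → ℂ := fun P => lam P ^ a * B P i₀ ^ b /
    (B P i₀ ^ (k * a) * ∏ i ∈ univ.erase i₀, (B P i / B P i₀) ^ (k * a))
  let u₀ : Fin r → ℂ := fun i => B s₀ i / B s₀ i₀
  let Ψ : fam r a b k → MvPolynomial (Fin r) ℂ := fun s =>
    (∏ i, (MvPolynomial.C 1 + MvPolynomial.C (-θ i) * MvPolynomial.X i₀) ^ s.1.1 i) *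
      ∏ i ∈ univ.erase i₀, (MvPolynomial.C (u₀ i) + MvPolynomial.C 1 * MvPolynomial.X i) ^
        (s.1.2 i + k * (a - s.1.1 i))
  let δ : fam r a b k → Fin r → ℂ := fun t i => if i = i₀ then v t else B t i / B t i₀ - u₀ i
  let w : Fin r → ℝ := fun i => if i = i₀ then 1 else μ
  have hmat : (Matrix.of fun t s : fam r a b k => ∏ i, (A t i ^ s.1.1 i * B t i ^ s.1.2 i)) =
      Matrix.of fun t s => ρ t * (Matrix.of fun t s => MvPolynomial.eval (δ t) (Ψ s)) t s := by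
    ext t s
    obtain ⟨he, hf⟩ := sum_of_mem_fam s.2
    simp only [Matrix.of_apply]
    rw [factor_eq a b k i₀ θ (A t) (B t) (lam t) (v t) (hA' t) (hB t) _ _ he hf]
    congr 1
    simp only [Ψ, map_mul, map_prod, map_pow, map_add, MvPolynomial.eval_C, MvPolynomial.eval_X]
    congr 1
    · refine prod_congr rfl fun i _ => ?_
      simp only [δ, if_true]
      ring
    · refine prod_congr rfl fun i hi => ?_
      simp only [δ, if_neg (ne_of_mem_erase hi)]
      ring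
  set D := a + r * (b + k * a) with hD
  have hm : ∀ (s : fam r a b k) i, s.1.2 i + k * (a - s.1.1 i) ≤ b + k * a := by
    intro s i
    obtain ⟨he, hf⟩ := sum_of_mem_fam s.2
    have h1 : s.1.2 i ≤ b :=
      (single_le_sum (f := s.1.2) (fun _ _ => Nat.zero_le _) (mem_univ i)).trans hf.le
    exact add_le_add h1 (Nat.mul_le_mul_left _ (Nat.sub_le _ _))
  have hsum : ∀ s : fam r a b k,
      ∑ i ∈ univ.erase i₀, (s.1.2 i + k * (a - s.1.1 i)) ≤ r * (b + k * a) := by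
    intro s
    calc ∑ i ∈ univ.erase i₀, (s.1.2 i + k * (a - s.1.1 i)) ≤ ∑ i : Fin r, (b + k * a) :=
          (sum_le_sum fun i _ => hm s i).trans (sum_le_sum_of_subset (erase_subset _ _))
      _ = _ := by simp
  have hu₀ : ∀ i, ‖u₀ i‖ ≤ K := by
    intro i
    simp only [u₀, norm_div]
    rw [div_le_iff₀ (norm_pos_iff.mpr (hB s₀ i₀))]
    exact hr1 s₀ i
  have hlone : ∀ s, lone (Ψ s) ≤ (1 + K) ^ D := by
    intro s
    obtain ⟨he, hf⟩ := sum_of_mem_fam s.2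
    have h1 : lone (∏ i, (MvPolynomial.C 1 + MvPolynomial.C (-θ i) * MvPolynomial.X i₀ :
        MvPolynomial (Fin r) ℂ) ^ s.1.1 i) ≤ (1 + K) ^ a := by
      refine (lone_prod_le _ _).trans ?_
      refine le_trans ?_ (le_of_eq (congrArg (fun n => (1 + K) ^ n) he))
      rw [← prod_pow_eq_pow_sum]
      refine prod_le_prod (fun i _ => lone_nonneg _) fun i _ => (lone_pow_le _ _).trans ?_
      refine pow_le_pow_left₀ (lone_nonneg _) ((lone_lin_le _ _ _).trans ?_) _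
      simpa using hθ i
    have h2 : lone (∏ i ∈ univ.erase i₀, (MvPolynomial.C (u₀ i) + MvPolynomial.C 1 *
        MvPolynomial.X i : MvPolynomial (Fin r) ℂ) ^ (s.1.2 i + k * (a - s.1.1 i))) ≤
        (1 + K) ^ (r * (b + k * a)) := by
      refine (lone_prod_le _ _).trans ?_
      refine le_trans ?_ (pow_le_pow_right₀ (by linarith) (hsum s))
      rw [← prod_pow_eq_pow_sum]
      refine prod_le_prod (fun i _ => lone_nonneg _) fun i _ => (lone_pow_le _ _).trans ?_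
      refine pow_le_pow_left₀ (lone_nonneg _) ((lone_lin_le _ _ _).trans ?_) _
      have := hu₀ i
      simp only [norm_one]
      linarith
    refine (lone_mul_le _ _).trans ?_
    rw [hD, pow_add]
    exact mul_le_mul h1 h2 (lone_nonneg _) (by positivity)
  have hlin : ∀ (y z : ℂ) (i : Fin r), (MvPolynomial.C y + MvPolynomial.C z * MvPolynomial.X i :
      MvPolynomial (Fin r) ℂ).totalDegree ≤ 1 := by
    intro y z i
    refine (MvPolynomial.totalDegree_add _ _).trans (max_le (by simp) ?_)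
    refine (MvPolynomial.totalDegree_mul _ _).trans ?_
    simp
  have hdeg : ∀ s, (Ψ s).totalDegree ≤ D := by
    intro s
    obtain ⟨he, hf⟩ := sum_of_mem_fam s.2
    refine (MvPolynomial.totalDegree_mul _ _).trans (add_le_add ?_ ?_)
    · refine (MvPolynomial.totalDegree_finsetProd _ _).trans (le_trans ?_ he.le)
      refine sum_le_sum fun i _ => (MvPolynomial.totalDegree_pow _ _).trans ?_
      exact (Nat.mul_le_mul_left _ (hlin _ _ _)).trans (by simp)
    · refine (MvPolynomial.totalDegree_finsetProd _ _).trans (le_trans ?_ (hsum s))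
      refine sum_le_sum fun i _ => (MvPolynomial.totalDegree_pow _ _).trans ?_
      exact (Nat.mul_le_mul_left _ (hlin _ _ _)).trans (by simp)
  have hw : ∀ i, 0 < w i := by
    intro i; simp only [w]; split_ifs <;> positivity
  have hδ : ∀ t i, ‖δ t i‖ ≤ K * Y ^ (-w i) := by
    intro t i
    simp only [δ, w]
    split_ifs
    · rw [Real.rpow_neg_one]; exact hv t
    · exact hcl t s₀ i
  have hdet := det_bound Ψ ((1 + K) ^ D) hlone D hdeg w hw K Y hK hY δ hδ τ hτ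
  have hr : 1 ≤ r := by have := i₀.2; omega
  have hws : ∑ i, w i = ((r : ℝ) - 1) * μ + 1 := by
    rw [← add_sum_erase univ w (mem_univ i₀)]
    have : ∑ i ∈ univ.erase i₀, w i = ∑ _i ∈ univ.erase i₀, μ :=
      sum_congr rfl fun i hi => by simp only [w, if_neg (ne_of_mem_erase hi)]
    rw [this, sum_const, card_erase_of_mem (mem_univ i₀), card_univ, Fintype.card_fin]
    simp only [w, if_true, nsmul_eq_mul]
    rw [Nat.cast_sub hr]; push_cast; ring
  have hwp : ∏ i, w i = μ ^ (r - 1) := by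
    rw [← mul_prod_erase univ w (mem_univ i₀)]
    have : ∏ i ∈ univ.erase i₀, w i = ∏ _i ∈ univ.erase i₀, μ :=
      prod_congr rfl fun i hi => by simp only [w, if_neg (ne_of_mem_erase hi)]
    rw [this, prod_const, card_erase_of_mem (mem_univ i₀), card_univ, Fintype.card_fin]
    simp [w]
  rw [hws, hwp, Fintype.card_fin, Fintype.card_coe] at hdet
  have hρ : ∀ P, ‖ρ P‖ ≤ ((2 * K) ^ a * K ^ b * K ^ (k * a * r)) * Y ^ (a * α + b * β) := by
    intro P
    have hB0 : 0 < ‖B P i₀‖ := norm_pos_iff.mpr (hB P i₀)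
    have h1 : ‖lam P‖ ≤ 2 * K * Y ^ α * ‖B P i₀‖ ^ k := by
      have h2 : 1 / 2 ≤ ‖1 - θ i₀ * v P‖ := by
        have h3 : ‖θ i₀ * v P‖ ≤ 1 / 2 := by
          rw [norm_mul]
          calc ‖θ i₀‖ * ‖v P‖ ≤ K * (K * Y⁻¹) :=
                mul_le_mul (hθ _) (hv P) (norm_nonneg _) hK0.le
            _ ≤ 1 / 2 := by
              rw [← mul_assoc, ← div_eq_mul_inv, div_le_iff₀ hY0]; linarith
        have h4 := norm_sub_norm_le (1 : ℂ) (θ i₀ * v P)
        simp only [norm_one] at h4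
        linarith
      have h5 := congrArg norm (hA' P i₀)
      rw [norm_mul, norm_mul, norm_pow] at h5
      have h6 : ‖A P i₀‖ * ‖B P i₀‖ ^ k ≤ K * Y ^ α * ‖B P i₀‖ ^ k :=
        mul_le_mul_of_nonneg_right (hAle P) (by positivity)
      nlinarith [norm_nonneg (lam P)]
    have h7 : (K⁻¹) ^ (k * a * r) ≤ ‖∏ i ∈ univ.erase i₀, (B P i / B P i₀) ^ (k * a)‖ := by
      rw [norm_prod]
      have h8 : ∏ _i ∈ univ.erase i₀, (K⁻¹) ^ (k * a) ≤
          ∏ i ∈ univ.erase i₀, ‖(B P i / B P i₀) ^ (k * a)‖ := by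
        refine prod_le_prod (fun _ _ => by positivity) fun i _ => ?_
        rw [norm_pow, norm_div]
        refine pow_le_pow_left₀ (by positivity) ?_ _
        rw [le_div_iff₀ hB0, inv_mul_le_iff₀ hK0]
        exact hr2 P i
      refine le_trans ?_ h8
      rw [prod_const, ← pow_mul, card_erase_of_mem (mem_univ i₀), card_univ, Fintype.card_fin]
      exact pow_le_pow_of_le_one (by positivity) (inv_le_one_of_one_le₀ hK)
        (Nat.mul_le_mul_left _ (Nat.sub_le _ _))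
    have h9 : 0 < (K⁻¹) ^ (k * a * r) := by positivity
    simp only [ρ, norm_div, norm_mul, norm_pow]
    rw [div_le_iff₀ (mul_pos (by positivity) (lt_of_lt_of_le h9 h7))]
    have h10 : ‖lam P‖ ^ a ≤ (2 * K) ^ a * Y ^ (a * α) * ‖B P i₀‖ ^ (k * a) := by
      refine (pow_le_pow_left₀ (norm_nonneg _) h1 a).trans (le_of_eq ?_)
      rw [mul_pow, mul_pow, ← pow_mul, mul_comm (a : ℝ) α, Real.rpow_mul hY0.le, Real.rpow_natCast]
    have h11 : ‖B P i₀‖ ^ b ≤ K ^ b * Y ^ (b * β) := by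
      refine (pow_le_pow_left₀ (norm_nonneg _) (hBle P) b).trans (le_of_eq ?_)
      rw [mul_pow, mul_comm (b : ℝ) β, Real.rpow_mul hY0.le, Real.rpow_natCast]
    calc ‖lam P‖ ^ a * ‖B P i₀‖ ^ b
        ≤ ((2 * K) ^ a * Y ^ (a * α) * ‖B P i₀‖ ^ (k * a)) * (K ^ b * Y ^ (b * β)) :=
          mul_le_mul h10 h11 (by positivity) (by positivity)
      _ = (2 * K) ^ a * K ^ b * K ^ (k * a * r) * Y ^ (a * α + b * β) *
          (‖B P i₀‖ ^ (k * a) * (K⁻¹) ^ (k * a * r)) := by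
          rw [Real.rpow_add hY0, inv_pow]
          field_simp
      _ ≤ _ := by gcongr
  rw [hmat, Matrix.det_mul_column, norm_mul, norm_prod]
  have h12 : ∏ P, ‖ρ P‖ ≤ (((2 * K) ^ a * K ^ b * K ^ (k * a * r)) * Y ^ (a * α + b * β)) ^
      (fam r a b k).card := by
    refine (prod_le_prod (fun _ _ => norm_nonneg _) fun P _ => hρ P).trans (le_of_eq ?_)
    rw [prod_const, card_univ, Fintype.card_coe]
  refine (mul_le_mul h12 hdet (norm_nonneg _) (by positivity)).trans (le_of_eq ?_)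
  rw [mul_pow, ← Real.rpow_natCast (Y ^ (a * α + b * β)), ← Real.rpow_mul hY0.le,
    sub_eq_add_neg (((fam r a b k).card : ℝ) * (a * α + b * β)), Real.rpow_add hY0,
    mul_comm ((fam r a b k).card : ℝ) (a * α + b * β)]
  ring

theorem relation_exists (r a b k : ℕ) (i₀ : Fin r) (α β μ τ K : ℝ) (hμ : 0 < μ) (hτ : 0 ≤ τ)
    (hK : 1 ≤ K)
    (hnum : ((fam r a b k).card : ℝ) * (a * α + b * β) < ((fam r a b k).card : ℝ) * τ -
        (τ + (((r : ℝ) - 1) * μ + 1)) ^ (r + 1) / (((r + 1).factorial : ℝ) * μ ^ (r - 1))) :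
    ∃ Y₀ : ℝ, ∀ Y, Y₀ ≤ Y → ∀ (L : Type) [Field L] [NumberField L] (θ : Fin r → 𝓞 L) (𝒮 : Type)
      (x c : 𝒮 → ℤ) (A B : 𝒮 → Fin r → 𝓞 L),
      (∀ (σ : L →+* ℂ) i, ‖em σ (θ i)‖ ≤ K) →
      (∀ P i, A P i * B P i ^ k = (c P : 𝓞 L) ^ k * ((x P : 𝓞 L) - θ i)) →
      (∀ P, c P ≠ 0) → (∀ P i, B P i ≠ 0) → (∀ P, Y ≤ K * |(x P : ℝ)|) →
      (∀ (σ : L →+* ℂ) P, ‖em σ (A P i₀)‖ ≤ K * Y ^ α) →
      (∀ (σ : L →+* ℂ) P, ‖em σ (B P i₀)‖ ≤ K * Y ^ β) →
      (∀ (σ : L →+* ℂ) P i, ‖em σ (B P i)‖ ≤ K * ‖em σ (B P i₀)‖) →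
      (∀ (σ : L →+* ℂ) P i, ‖em σ (B P i₀)‖ ≤ K * ‖em σ (B P i)‖) →
      (∀ (σ : L →+* ℂ) P P' i, ‖em σ (B P i) / em σ (B P i₀) - em σ (B P' i) / em σ (B P' i₀)‖ ≤
        K * Y ^ (-μ)) →
      ∃ cf : fam r a b k → L, cf ≠ 0 ∧ ∀ P, ∑ s, cf s *
        ((∏ i, (1 - (θ i : L) * (x P : L)⁻¹) ^ s.1.1 i) *
          ∏ i ∈ univ.erase i₀, ((B P i : L) / (B P i₀ : L)) ^ (s.1.2 i + k * (a - s.1.1 i))) = 0 := by
  classical
  have hr : (1 : ℝ) ≤ r := by have := i₀.2; exact_mod_cast (by omega : 1 ≤ r)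
  have hne : Nonempty (fam r a b k) := by
    by_contra h
    have h1 : (fam r a b k).card = 0 := by
      rw [← Fintype.card_coe]; exact Fintype.card_eq_zero_iff.mpr (not_nonempty_iff.mp h)
    rw [h1] at hnum
    have h2 : 0 ≤ (τ + (((r : ℝ) - 1) * μ + 1)) ^ (r + 1) /
        (((r + 1).factorial : ℝ) * μ ^ (r - 1)) := by
      have : 0 ≤ ((r : ℝ) - 1) * μ := mul_nonneg (by linarith) hμ.le
      positivity
    simp only [Nat.cast_zero, zero_mul] at hnum
    linarith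
  obtain ⟨s₀⟩ := hne
  obtain ⟨Y₁, hY₁, hY₁'⟩ := exists_large
    (((2 * K) ^ a * K ^ b * K ^ (k * a * r)) ^ (fam r a b k).card *
        (((fam r a b k).card.factorial : ℝ) *
          ((1 + K) ^ (a + r * (b + k * a)) * K ^ (a + r * (b + k * a))) ^ (fam r a b k).card))
    _ (sub_pos.mpr hnum)
  refine ⟨max Y₁ (2 * K * K), fun Y hY L _ _ θ 𝒮 x c A B hθ hA hc hB hx hAle hBle hr1 hr2 hcl => ?_⟩
  have hY1 : Y₁ ≤ Y := (le_max_left _ _).trans hY
  have hY2 : 2 * K * K ≤ Y := (le_max_right _ _).trans hY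
  have hinjO : Function.Injective (algebraMap (𝓞 L) L) := RingOfIntegers.coe_injective
  obtain ⟨cf, hcf, hrel⟩ := exists_relation (L := L) (ι := fam r a b k)
    (fun (P : 𝒮) s => algebraMap (𝓞 L) L (∏ i, (A P i ^ s.1.1 i * B P i ^ s.1.2 i))) (by
      intro t
      let M : Matrix (fam r a b k) (fam r a b k) (𝓞 L) :=
        Matrix.of fun s' s => ∏ i, (A (t s') i ^ s.1.1 i * B (t s') i ^ s.1.2 i)
      have hM : M.det = 0 := by
        apply eq_zero_of_em_lt
        intro σ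
        rw [RingHom.map_det]
        have h1 := det_small r a b k i₀ α β μ τ K Y hμ hτ hK (hY₁.trans hY1) hY2 s₀
          (fun i => em σ (θ i)) (fun s => x (t s)) (fun s => c (t s))
          (fun s i => em σ (A (t s) i)) (fun s i => em σ (B (t s) i)) (hθ σ)
          (fun P i => by simpa using congrArg (em σ) (hA (t P) i))
          (fun P i => (map_ne_zero_iff _ (em_injective σ)).mpr (hB _ _))
          (fun P => hx _) (fun P => hAle σ _) (fun P => hBle σ _) (fun P => hr1 σ _)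
          (fun P => hr2 σ _) (fun P P' => hcl σ _ _)
        have h2 := hY₁' Y hY1
        rw [neg_sub] at h2
        refine lt_of_le_of_lt (le_of_eq ?_) (lt_of_le_of_lt h1 h2)
        congr 2
        ext s' s
        simp [M]
      have h3 := congrArg (algebraMap (𝓞 L) L) hM
      rw [RingHom.map_det, map_zero] at h3
      exact h3)
  refine ⟨cf, hcf, fun P => ?_⟩
  have hx0 : (x P : L) ≠ 0 := by
    intro h
    have h1 : x P = 0 := by exact_mod_cast h
    have := hx P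
    rw [h1] at this
    simp at this
    linarith
  have hB' : ∀ i, (B P i : L) ≠ 0 := fun i => (map_ne_zero_iff _ hinjO).mpr (hB P i)
  have hA' : ∀ i, (A P i : L) * (B P i : L) ^ k =
      ((c P : L) ^ k * x P) * (1 - (θ i : L) * (x P : L)⁻¹) := by
    intro i
    have h1 := congrArg (algebraMap (𝓞 L) L) (hA P i)
    simp only [map_mul, map_pow, map_sub, map_intCast] at h1
    refine h1.trans ?_
    change (c P : L) ^ k * ((x P : L) - (θ i : L)) = _
    field_simp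
  have hρ : ((c P : L) ^ k * x P) ^ a * (B P i₀ : L) ^ b / ((B P i₀ : L) ^ (k * a) *
      ∏ i ∈ univ.erase i₀, ((B P i : L) / (B P i₀ : L)) ^ (k * a)) ≠ 0 := by
    have hc' : (c P : L) ≠ 0 := by exact_mod_cast hc P
    refine div_ne_zero (mul_ne_zero (pow_ne_zero _ (mul_ne_zero (pow_ne_zero _ hc') hx0))
      (pow_ne_zero _ (hB' _))) (mul_ne_zero (pow_ne_zero _ (hB' _))
      (prod_ne_zero_iff.mpr fun i _ => pow_ne_zero _ (div_ne_zero (hB' _) (hB' _))))
  apply mul_left_cancel₀ hρ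
  rw [mul_zero, ← hrel P, mul_sum]
  refine sum_congr rfl fun s _ => ?_
  obtain ⟨he, hf⟩ := sum_of_mem_fam s.2
  have h4 := factor_eq a b k i₀ (fun i => (θ i : L)) (fun i => (A P i : L)) (fun i => (B P i : L))
    _ _ hA' hB' _ _ he hf
  simp only [map_prod, map_mul, map_pow]
  change _ = cf s * ∏ i, ((A P i : L) ^ s.1.1 i * (B P i : L) ^ s.1.2 i)
  rw [h4]
  ring

end Vale.Agent.P018
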