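import Mathlib

/-!
An abstract transfer lemma: labels that are moved by a commutative group along the edges of a
layered graph, with a rank that can increase only `H` times.

Proof. All functions below are nonnegative real functions on `U i`, `‖f‖ ^ 2 = ∑ c ∈ U i, f c ^ 2`.
Put `n = Γ.card`, `lam = √n`, `f 0 = 1`, `f (i+1) c' = ∑ c ∈ U i, ∑ x ∈ Γ, if τ i c x = c' then f i c
else 0`. Then `∑ c ∈ U i, f i c = (U 0).card * n ^ i` (by `hτ`). Put `h i c = f i c / lam ^ φ i c`.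
Call `(c, x)` stable when `φ i c = φ (i+1) (τ i c x)`. Let `P h c'` be the sum of `h c` over all
`(c, x)` with `τ i c x = c'` and `S h c'` the sum over the stable ones. By `hmono`,
`h (i+1) ≤ S (h i) + P (h i) / lam`.
* `‖P h‖ ≤ n √C ‖h‖`: by Cauchy-Schwarz `(P h c') ^ 2 ≤ n C ∑ x, ∑ c with τ c x = c', h c ^ 2`.
* `‖S h‖ ^ 2 ≤ K ^ 2 n ‖h‖ ^ 2`: `‖S h‖ ^ 2 ≤ ⟨A h, h⟩` with the symmetric matrix
  `A c c₁ = #{(x, x₁) | (c, x), (c₁, x₁) stable, τ c x = τ c₁ x₁}` on `U i`. With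
  `a m = ⟨A ^ m h, h⟩` Cauchy-Schwarz gives `a m ^ 2 ≤ a (2 m) * a 0`, so
  `a 1 ^ (2 ^ j) ≤ a (2 ^ j) * a 0 ^ (2 ^ j - 1)`. Each entry of `A ^ ℓ` is at most `C ^ ℓ E`:
  `A = ∑ (x, x₁), B x x₁` with `0-1` matrices `B x x₁` of row sums at most `C`, such that
  `B x x₁ c c₁ ≠ 0` implies `γ x • W i c = γ x₁ • W i c₁` (by `hst`). By induction on `m`,
  `A ^ m = ∑ (words (x, y) of length m), B (x, y)` where `B (x, y) ≥ 0` has row sums at most `C ^ m`
  and `B (x, y) c c₁ ≠ 0` implies `(∏ r, γ (x r)) • W i c = (∏ r, γ (y r)) • W i c₁`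
  (commutativity of `G`; `Fin.consEquiv`, `Fintype.piFinset` and `Fin.cons`). So
  `a ℓ ≤ C ^ ℓ E (∑ h) ^ 2 ≤ C ^ ℓ E Ub a 0`, and `hKE` gives `a 1 ≤ K ^ 2 n a 0`
  (`pow_le_pow_left₀`, `le_of_pow_le_pow_left₀`).
So `‖h (i+1)‖ ≤ 2 K lam ‖h i‖` (`√C ≤ K`; or `‖u + v‖ ^ 2 ≤ 2 ‖u‖ ^ 2 + 2 ‖v‖ ^ 2`, which avoids
square roots: `‖h (i+1)‖ ^ 2 ≤ 4 K ^ 2 n ‖h i‖ ^ 2`), `‖h 0‖ ^ 2 ≤ (U 0).card`, and
`((U 0).card n ^ Lv) ^ 2 = (∑ f Lv) ^ 2 ≤ n ^ H (∑ h Lv) ^ 2 ≤ n ^ H Ub (4 K ^ 2 n) ^ Lv (U 0).card`.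
-/

namespace Vale.Agent.P018

open Finset

open Classical in
theorem transfer_cons {ι : Type} (Γ : Finset ι) (m : ℕ) (F : (Fin (m + 1) → ι) → ℝ) :
    ∑ f ∈ Fintype.piFinset (fun _ : Fin (m + 1) => Γ), F f =
      ∑ x ∈ Γ, ∑ f ∈ Fintype.piFinset (fun _ : Fin m => Γ), F (Fin.cons x f) := by
  rw [← Finset.sum_product' (f := fun x (f : Fin m → ι) => F (Fin.cons x f))]
  refine Finset.sum_nbij' (fun f => (f 0, Fin.tail f)) (fun p => Fin.cons p.1 p.2) ?_ ?_ ?_ ?_ ?_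
  · intro f hf
    simp only [Fintype.mem_piFinset, mem_product] at hf ⊢
    exact ⟨hf 0, fun r => hf _⟩
  · intro p hp
    simp only [Fintype.mem_piFinset, mem_product] at hp ⊢
    exact Fin.cases hp.1 hp.2
  · intro f _
    exact Fin.cons_self_tail f
  · intro p _
    simp
  · intro f _
    simp

theorem transfer_seq {a : ℕ → ℝ} {M : ℝ} {j : ℕ} (h0 : ∀ m, 0 ≤ a m)
    (h2 : ∀ m, a m ^ 2 ≤ a (m + m) * a 0) (hM : 0 ≤ M) (h : a (2 ^ j) ≤ M ^ 2 ^ j * a 0) :
    a 1 ≤ M * a 0 := by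
  rcases (h0 0).eq_or_lt with h1 | h1
  · have := h2 1
    rw [← h1] at this ⊢
    nlinarith [h0 1]
  have key : ∀ k : ℕ, a 1 ^ 2 ^ k * a 0 ≤ a (2 ^ k) * a 0 ^ 2 ^ k := by
    intro k
    induction k with
    | zero => simp
    | succ k ih =>
      have h3 := pow_le_pow_left₀ (mul_nonneg (pow_nonneg (h0 1) _) h1.le) ih 2
      have h4 := mul_le_mul_of_nonneg_right (h2 (2 ^ k)) (sq_nonneg (a 0 ^ 2 ^ k))
      rw [pow_succ, pow_mul, pow_mul, mul_two]
      refine le_of_mul_le_mul_right ?_ h1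
      nlinarith
  refine le_of_pow_le_pow_left₀ (n := 2 ^ j) (by positivity) (by positivity) ?_
  refine le_of_mul_le_mul_right ((key j).trans ?_) h1
  rw [mul_pow]
  nlinarith [mul_le_mul_of_nonneg_right h (pow_nonneg h1.le (2 ^ j))]

section

variable {G Λ Ω ι : Type} [CommGroup G] [MulAction G Λ]

open Classical in
/-- The number of pairs of words of length `m` that identify two labels. -/
noncomputable def transferN (Γ : Finset ι) (γ : ι → G) (m : ℕ) (w w' : Λ) : ℝ :=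
  ∑ x ∈ Fintype.piFinset (fun _ : Fin m => Γ), ∑ y ∈ Fintype.piFinset (fun _ : Fin m => Γ),
    if (∏ r, γ (x r)) • w = (∏ r, γ (y r)) • w' then 1 else 0

theorem transferN_nonneg (Γ : Finset ι) (γ : ι → G) (m : ℕ) (w w' : Λ) :
    0 ≤ transferN Γ γ m w w' :=
  sum_nonneg fun _ _ => sum_nonneg fun _ _ => by split_ifs <;> norm_num

theorem transferN_zero (Γ : Finset ι) (γ : ι → G) (w : Λ) : transferN Γ γ 0 w w = 1 := by
  simp [transferN]

open Classical in
theorem transferN_smul (Γ : Finset ι) (γ : ι → G) (m : ℕ) (g : G) (w w' : Λ) :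
    transferN Γ γ m (g • w) (g • w') = transferN Γ γ m w w' := by
  have e : ∀ (a : G) (v : Λ), a • g • v = g • a • v := fun a v => by
    rw [smul_smul, smul_smul, mul_comm]
  refine sum_congr rfl fun x _ => sum_congr rfl fun y _ => if_congr ?_ rfl rfl
  rw [e, e (∏ r, γ (y r)), smul_left_cancel_iff]

open Classical in
theorem transferN_succ (Γ : Finset ι) (γ : ι → G) (m : ℕ) (w w' : Λ) :
    transferN Γ γ (m + 1) w w' = ∑ x ∈ Γ, ∑ y ∈ Γ, transferN Γ γ m (γ x • w) (γ y • w') := by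
  simp only [transferN, transfer_cons]
  refine sum_congr rfl fun x _ => ?_
  rw [sum_comm]
  refine sum_congr rfl fun y _ => sum_congr rfl fun u _ => sum_congr rfl fun v _ =>
    if_congr ?_ rfl rfl
  rw [Fin.prod_univ_succ, Fin.prod_univ_succ, smul_smul, smul_smul, mul_comm, mul_comm _ (γ y)]
  simp only [Fin.cons_zero, Fin.cons_succ, mul_comm]

/-- The operator with kernel `A` on `U`. -/
def transferT (U : Finset Ω) (A : Ω → Ω → ℝ) (g : Ω → ℝ) (c : Ω) : ℝ := ∑ c₁ ∈ U, A c c₁ * g c₁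

theorem transferT_iter_nonneg {U : Finset Ω} {A : Ω → Ω → ℝ} (hA : ∀ c c₁, 0 ≤ A c c₁)
    {g : Ω → ℝ} (hg : ∀ c, 0 ≤ g c) (m : ℕ) : ∀ c, 0 ≤ (transferT U A)^[m] g c := by
  induction m with
  | zero => exact hg
  | succ m ih =>
    intro c
    rw [Function.iterate_succ_apply']
    exact sum_nonneg fun _ _ => mul_nonneg (hA _ _) (ih _)

theorem transferT_symm {U : Finset Ω} {A : Ω → Ω → ℝ} (hA : ∀ c c₁, A c c₁ = A c₁ c) (m : ℕ) :
    ∀ g g' : Ω → ℝ, ∑ c ∈ U, (transferT U A)^[m] g c * g' c =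
      ∑ c ∈ U, g c * (transferT U A)^[m] g' c := by
  induction m with
  | zero => intro g g'; rfl
  | succ m ih =>
    intro g g'
    rw [Function.iterate_succ_apply', Function.iterate_succ_apply, ← ih]
    simp only [transferT, sum_mul, mul_sum]
    rw [sum_comm]
    exact sum_congr rfl fun c _ => sum_congr rfl fun c₁ _ => by rw [hA c₁ c]; ring

open Classical in
theorem transfer_stable (U V : Finset Ω) (Γ : Finset ι) (γ : ι → G) (τ : Ω → ι → Ω)
    (St : Ω → ι → Prop) [∀ c x, Decidable (St c x)] (W W' : Ω → Λ) (C j : ℕ) (Ub E M : ℝ)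
    (hC : ∀ x ∈ Γ, ∀ c', (U.filter fun c => τ c x = c').card ≤ C)
    (hst : ∀ c ∈ U, ∀ x ∈ Γ, St c x → W' (τ c x) = γ x • W c)
    (hE : ∀ c ∈ U, ∀ c' ∈ U, transferN Γ γ (2 ^ j) (W c) (W c') ≤ E) (hU : (U.card : ℝ) ≤ Ub)
    (hM : 0 ≤ M) (hKE : (C : ℝ) ^ (2 ^ j) * E * Ub ≤ M ^ (2 ^ j)) (h : Ω → ℝ) (h0 : ∀ c, 0 ≤ h c) :
    ∑ c' ∈ V, (∑ c ∈ U, ∑ x ∈ Γ, if St c x ∧ τ c x = c' then h c else 0) ^ 2 ≤
      M * ∑ c ∈ U, h c ^ 2 := by
  rcases U.eq_empty_or_nonempty with rfl | ⟨c₀, hc₀⟩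
  · simp
  have hE0 : 0 ≤ E := (transferN_nonneg _ _ _ _ _).trans (hE c₀ hc₀ c₀ hc₀)
  let A : Ω → Ω → ℝ := fun c c₁ => ∑ x ∈ Γ, ∑ y ∈ Γ,
    if St c x ∧ St c₁ y ∧ τ c₁ y = τ c x then 1 else 0
  have hA0 : ∀ c c₁, 0 ≤ A c c₁ := fun c c₁ =>
    sum_nonneg fun _ _ => sum_nonneg fun _ _ => by split_ifs <;> norm_num
  have hAs : ∀ c c₁, A c c₁ = A c₁ c := fun c c₁ => by
    simp only [A]
    rw [sum_comm]
    exact sum_congr rfl fun x _ => sum_congr rfl fun y _ => if_congr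
      ⟨fun h => ⟨h.2.1, h.1, h.2.2.symm⟩, fun h => ⟨h.2.1, h.1, h.2.2.symm⟩⟩ rfl rfl
  have hT : ∀ m, ∀ c ∈ U, (transferT U A)^[m] h c ≤
      (C : ℝ) ^ m * ∑ c₁ ∈ U, transferN Γ γ m (W c) (W c₁) * h c₁ := by
    intro m
    induction m with
    | zero =>
      intro c hc
      have := single_le_sum (f := fun c₁ => transferN Γ γ 0 (W c) (W c₁) * h c₁)
        (fun c₁ _ => mul_nonneg (transferN_nonneg _ _ _ _ _) (h0 _)) hc
      simpa [transferN_zero] using this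
    | succ m ih =>
      intro c hc
      let B : ι → ι → ℝ := fun x y =>
        (C : ℝ) ^ m * ∑ c₁ ∈ U, transferN Γ γ m (γ x • W c) (γ y • W c₁) * h c₁
      have hB : ∀ x y, 0 ≤ B x y := fun x y => mul_nonneg (by positivity)
        (sum_nonneg fun _ _ => mul_nonneg (transferN_nonneg _ _ _ _ _) (h0 _))
      calc (transferT U A)^[m + 1] h c
          = ∑ x ∈ Γ, ∑ y ∈ Γ, ∑ c₂ ∈ U, (if St c x ∧ St c₂ y ∧ τ c₂ y = τ c x then 1 else 0) *
              (transferT U A)^[m] h c₂ := by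
            rw [Function.iterate_succ_apply', transferT]
            simp only [A, sum_mul]
            rw [sum_comm]
            exact sum_congr rfl fun x _ => sum_comm
        _ ≤ ∑ x ∈ Γ, ∑ y ∈ Γ, ∑ c₂ ∈ U, if τ c₂ y = τ c x then B x y else 0 := by
            refine sum_le_sum fun x hx => sum_le_sum fun y hy => sum_le_sum fun c₂ hc₂ => ?_
            by_cases hs : St c x ∧ St c₂ y ∧ τ c₂ y = τ c x
            · rw [if_pos hs, if_pos hs.2.2, one_mul]
              refine (ih c₂ hc₂).trans_eq ?_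
              have e : γ x • W c = γ y • W c₂ := by
                rw [← hst c hc x hx hs.1, ← hst c₂ hc₂ y hy hs.2.1, hs.2.2]
              simp only [B, e, transferN_smul]
            · rw [if_neg hs, zero_mul]
              split_ifs
              exacts [hB x y, le_rfl]
        _ ≤ ∑ x ∈ Γ, ∑ y ∈ Γ, C * B x y := by
            refine sum_le_sum fun x _ => sum_le_sum fun y hy => ?_
            rw [← sum_filter, sum_const, nsmul_eq_mul]
            exact mul_le_mul_of_nonneg_right (by exact_mod_cast hC y hy _) (hB x y)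
        _ = _ := by
            simp only [B, transferN_succ, sum_mul, mul_sum]
            rw [sum_comm]
            conv_rhs => rw [sum_comm]
            refine (sum_comm.trans (sum_congr rfl fun x _ => ?_))
            rw [sum_comm]
            exact sum_congr rfl fun _ _ => sum_congr rfl fun _ _ => by ring
  have key := transfer_seq (a := fun m => ∑ c ∈ U, (transferT U A)^[m] h c * h c) (M := M) (j := j)
    (fun m => sum_nonneg fun c _ => mul_nonneg (transferT_iter_nonneg hA0 h0 m c) (h0 c))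
    (fun m => by
      refine (sum_mul_sq_le_sq_mul_sq U _ _).trans_eq ?_
      rw [Function.iterate_add_apply, transferT_symm hAs]
      simp only [sq, Function.iterate_zero, id]) hM (by
      calc ∑ c ∈ U, (transferT U A)^[2 ^ j] h c * h c
          ≤ ∑ c ∈ U, ((C : ℝ) ^ 2 ^ j * ∑ c₁ ∈ U, E * h c₁) * h c := by
            refine sum_le_sum fun c hc => mul_le_mul_of_nonneg_right ((hT _ c hc).trans ?_) (h0 c)
            exact mul_le_mul_of_nonneg_left (sum_le_sum fun c₁ hc₁ =>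
              mul_le_mul_of_nonneg_right (hE c hc c₁ hc₁) (h0 _)) (by positivity)
        _ = (C : ℝ) ^ 2 ^ j * E * (∑ c ∈ U, h c) ^ 2 := by
            rw [← mul_sum, ← mul_sum]; ring
        _ ≤ (C : ℝ) ^ 2 ^ j * E * (Ub * ∑ c ∈ U, h c ^ 2) :=
            mul_le_mul_of_nonneg_left (sq_sum_le_card_mul_sum_sq.trans
              (mul_le_mul_of_nonneg_right hU (sum_nonneg fun _ _ => sq_nonneg _))) (by positivity)
        _ ≤ _ := by
            rw [← mul_assoc]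
            simp only [sq, Function.iterate_zero, id]
            exact mul_le_mul_of_nonneg_right hKE (sum_nonneg fun _ _ => mul_self_nonneg _))
  simp only [Function.iterate_one, Function.iterate_zero, id, ← sq] at key
  refine le_trans ?_ key
  calc ∑ c' ∈ V, (∑ c ∈ U, ∑ x ∈ Γ, if St c x ∧ τ c x = c' then h c else 0) ^ 2
      = ∑ c ∈ U, ∑ c₁ ∈ U, ∑ x ∈ Γ, ∑ y ∈ Γ, ∑ c' ∈ V, (if St c x ∧ τ c x = c' then h c else 0) *
          if St c₁ y ∧ τ c₁ y = c' then h c₁ else 0 := by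
        simp only [sq, sum_mul_sum]
        rw [sum_comm]
        refine sum_congr rfl fun c _ => ?_
        rw [sum_comm]
        refine sum_congr rfl fun c₁ _ => ?_
        rw [sum_comm]
        exact sum_congr rfl fun x _ => sum_comm
    _ ≤ _ := by
        simp only [transferT, A, sum_mul]
        refine sum_le_sum fun c _ => sum_le_sum fun c₁ _ => sum_le_sum fun x _ =>
          sum_le_sum fun y _ => ?_
        have h1 := mul_nonneg (h0 c₁) (h0 c)
        refine (sum_le_sum (g := fun c' => if τ c x = c' then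
          (if St c x ∧ St c₁ y ∧ τ c₁ y = τ c x then 1 else 0) * h c₁ * h c else 0)
          fun c' _ => ?_).trans ?_
        · by_cases e : τ c x = c'
          · subst e
            by_cases s : St c x <;> by_cases s₁ : St c₁ y ∧ τ c₁ y = τ c x <;>
              simp [s, s₁, mul_comm]
          · simp [e]
        · rw [sum_ite_eq]
          split_ifs <;> simp [h1]

open Classical in
theorem transfer_push (U V : Finset Ω) (Γ : Finset ι) (τ : Ω → ι → Ω) (C : ℕ)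
    (hC : ∀ x ∈ Γ, ∀ c', (U.filter fun c => τ c x = c').card ≤ C) (h : Ω → ℝ) :
    ∑ c' ∈ V, (∑ c ∈ U, ∑ x ∈ Γ, if τ c x = c' then h c else 0) ^ 2 ≤
      (Γ.card : ℝ) ^ 2 * C * ∑ c ∈ U, h c ^ 2 := by
  calc ∑ c' ∈ V, (∑ c ∈ U, ∑ x ∈ Γ, if τ c x = c' then h c else 0) ^ 2
      ≤ ∑ c' ∈ V, Γ.card * ∑ x ∈ Γ, C * ∑ c ∈ U, if τ c x = c' then h c ^ 2 else 0 := by
        refine sum_le_sum fun c' _ => ?_
        rw [sum_comm]
        refine sq_sum_le_card_mul_sum_sq.trans (mul_le_mul_of_nonneg_left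
          (sum_le_sum fun x hx => ?_) (by positivity))
        rw [← sum_filter, ← sum_filter]
        exact sq_sum_le_card_mul_sum_sq.trans (mul_le_mul_of_nonneg_right
          (by exact_mod_cast hC x hx c') (sum_nonneg fun _ _ => sq_nonneg _))
    _ = Γ.card * ∑ x ∈ Γ, C * ∑ c ∈ U, ∑ c' ∈ V, if τ c x = c' then h c ^ 2 else 0 := by
        rw [← mul_sum, sum_comm]
        congr 1
        refine sum_congr rfl fun x _ => ?_
        rw [← mul_sum, sum_comm]
    _ ≤ Γ.card * ∑ x ∈ Γ, C * ∑ c ∈ U, h c ^ 2 := by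
        gcongr with x _ c _
        rw [sum_ite_eq]
        split_ifs
        exacts [le_rfl, sq_nonneg _]
    _ = _ := by rw [sum_const, nsmul_eq_mul]; ring

open Classical in
/-- The number of paths that end in a given vertex. -/
noncomputable def transferF (Γ : Finset ι) (U : ℕ → Finset Ω) (τ : ℕ → Ω → ι → Ω) : ℕ → Ω → ℝ
  | 0 => fun _ => 1
  | i + 1 => fun c' => ∑ c ∈ U i, ∑ x ∈ Γ, if τ i c x = c' then transferF Γ U τ i c else 0

theorem transferF_nonneg (Γ : Finset ι) (U : ℕ → Finset Ω) (τ : ℕ → Ω → ι → Ω) (i : ℕ) :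
    ∀ c, 0 ≤ transferF Γ U τ i c := by
  induction i with
  | zero => exact fun _ => zero_le_one
  | succ i ih =>
    refine fun c' => sum_nonneg fun c _ => sum_nonneg fun x _ => ?_
    split_ifs
    exacts [ih c, le_rfl]

open Classical in
theorem transferF_sum {Γ : Finset ι} {U : ℕ → Finset Ω} {τ : ℕ → Ω → ι → Ω} {Lv : ℕ}
    (hτ : ∀ i < Lv, ∀ c ∈ U i, ∀ x ∈ Γ, τ i c x ∈ U (i + 1)) (i : ℕ) (hi : i ≤ Lv) :
    ∑ c ∈ U i, transferF Γ U τ i c = (U 0).card * (Γ.card : ℝ) ^ i := by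
  induction i with
  | zero => simp [transferF]
  | succ i ih =>
    rw [pow_succ, ← mul_assoc, ← ih (by omega), sum_mul]
    simp only [transferF]
    rw [sum_comm]
    refine sum_congr rfl fun c hc => ?_
    rw [sum_comm, mul_comm, ← nsmul_eq_mul, ← sum_const]
    refine sum_congr rfl fun x hx => ?_
    rw [sum_ite_eq, if_pos (hτ i (by omega) c hc x hx)]

end

open Classical in
theorem transfer {G Λ Ω ι : Type} [CommGroup G] [MulAction G Λ] (Γ : Finset ι) (γ : ι → G)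
    (Lv H C j : ℕ) (U : ℕ → Finset Ω) (τ : ℕ → Ω → ι → Ω) (W : ℕ → Ω → Λ) (φ : ℕ → Ω → ℕ)
    (Ub E K : ℝ) (hK : 0 ≤ K) (hΓ : Γ.Nonempty)
    (hτ : ∀ i < Lv, ∀ c ∈ U i, ∀ x ∈ Γ, τ i c x ∈ U (i + 1))
    (hC : ∀ i < Lv, ∀ x ∈ Γ, ∀ c', ((U i).filter fun c => τ i c x = c').card ≤ C)
    (hH : ∀ c ∈ U Lv, φ Lv c ≤ H)
    (hmono : ∀ i < Lv, ∀ c ∈ U i, ∀ x ∈ Γ, φ i c ≤ φ (i + 1) (τ i c x))
    (hst : ∀ i < Lv, ∀ c ∈ U i, ∀ x ∈ Γ, φ i c = φ (i + 1) (τ i c x) →
      W (i + 1) (τ i c x) = γ x • W i c)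
    (hE : ∀ i < Lv, ∀ c ∈ U i, ∀ c' ∈ U i,
      ((((Fintype.piFinset fun _ : Fin (2 ^ j) => Γ) ×ˢ
        (Fintype.piFinset fun _ : Fin (2 ^ j) => Γ)).filter
          fun xy => (∏ r, γ (xy.1 r)) • W i c = (∏ r, γ (xy.2 r)) • W i c').card : ℝ) ≤ E)
    (hU : ∀ i ≤ Lv, ((U i).card : ℝ) ≤ Ub)
    (hKE : (C : ℝ) ^ (2 ^ j) * E * Ub ≤ (K ^ 2 * Γ.card) ^ (2 ^ j)) (hCK : (C : ℝ) ≤ K ^ 2) :
    ((U 0).card : ℝ) * (Γ.card : ℝ) ^ Lv ≤ Ub * (Γ.card : ℝ) ^ H * (2 * K) ^ (2 * Lv) := by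
  have hn : (1 : ℝ) ≤ Γ.card := by exact_mod_cast hΓ.card_pos
  obtain ⟨lam, hl1, hl2⟩ : ∃ lam : ℝ, 1 ≤ lam ∧ lam ^ 2 = Γ.card :=
    ⟨√Γ.card, Real.one_le_sqrt.2 hn, Real.sq_sqrt (by linarith)⟩
  have hl0 : 0 < lam := by linarith
  let h : ℕ → Ω → ℝ := fun i c => transferF Γ U τ i c / lam ^ φ i c
  have h0 : ∀ i c, 0 ≤ h i c := fun i c => div_nonneg (transferF_nonneg _ _ _ _ _) (by positivity)
  have step : ∀ i < Lv, ∑ c ∈ U (i + 1), h (i + 1) c ^ 2 ≤
      4 * K ^ 2 * Γ.card * ∑ c ∈ U i, h i c ^ 2 := by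
    intro i hi
    have h1 := transfer_stable (U i) (U (i + 1)) Γ γ (τ i)
      (fun c x => φ i c = φ (i + 1) (τ i c x)) (W i) (W (i + 1)) C j Ub E (K ^ 2 * Γ.card)
      (hC i hi) (hst i hi) (fun c hc c' hc' => by
        refine le_trans (le_of_eq ?_) (hE i hi c hc c' hc')
        rw [card_filter, transferN, sum_product]
        push_cast
        rfl) (hU i hi.le) (by positivity) hKE (h i) (h0 i)
    have h2 := transfer_push (U i) (U (i + 1)) Γ (τ i) C (hC i hi) (h i)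
    have h3 : ∀ c', h (i + 1) c' ≤ (∑ c ∈ U i, ∑ x ∈ Γ,
        if φ i c = φ (i + 1) (τ i c x) ∧ τ i c x = c' then h i c else 0) +
        (∑ c ∈ U i, ∑ x ∈ Γ, if τ i c x = c' then h i c else 0) / lam := by
      intro c'
      simp only [h, transferF, sum_div, ← sum_add_distrib]
      refine sum_le_sum fun c hc => sum_le_sum fun x hx => ?_
      have f0 := transferF_nonneg Γ U τ i c
      by_cases e : τ i c x = c'
      · subst e
        rcases (hmono i hi c hc x hx).eq_or_lt with e | e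
        · rw [if_pos rfl, if_pos ⟨e, rfl⟩, if_pos rfl, ← e, le_add_iff_nonneg_right]
          positivity
        · rw [if_pos rfl, if_neg fun h => e.ne h.1, if_pos rfl, zero_add, div_div, ← pow_succ]
          exact div_le_div_of_nonneg_left f0 (by positivity) (pow_le_pow_right₀ hl1 e)
      · simp [e]
    have h4 := mul_le_mul_of_nonneg_right hCK
      (mul_nonneg (zero_le_one.trans hn) (sum_nonneg fun c (_ : c ∈ U i) => sq_nonneg (h i c)))
    have h5 := (div_le_div_of_nonneg_right h2 (zero_le_one.trans hn)).trans_eq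
      (show _ = C * (Γ.card * ∑ c ∈ U i, h i c ^ 2) by field_simp)
    calc ∑ c' ∈ U (i + 1), h (i + 1) c' ^ 2
        ≤ ∑ c' ∈ U (i + 1), (2 * (∑ c ∈ U i, ∑ x ∈ Γ,
          if φ i c = φ (i + 1) (τ i c x) ∧ τ i c x = c' then h i c else 0) ^ 2 +
          2 * ((∑ c ∈ U i, ∑ x ∈ Γ, if τ i c x = c' then h i c else 0) ^ 2 / Γ.card)) := by
          refine sum_le_sum fun c' _ => (pow_le_pow_left₀ (h0 _ _) (h3 c') 2).trans ?_
          rw [← hl2, ← div_pow]
          exact add_sq_le.trans_eq (mul_add _ _ _)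
      _ ≤ _ := by
          rw [sum_add_distrib, ← mul_sum, ← mul_sum, ← sum_div]
          linarith
  have hall : ∀ i ≤ Lv, ∑ c ∈ U i, h i c ^ 2 ≤ (4 * K ^ 2 * Γ.card) ^ i * (U 0).card := by
    intro i
    induction i with
    | zero =>
      intro _
      rw [pow_zero, one_mul, card_eq_sum_ones]
      push_cast
      refine sum_le_sum fun c _ => pow_le_one₀ (h0 _ _) ?_
      exact div_le_one_of_le₀ (one_le_pow₀ hl1) (by positivity)
    | succ i ih =>
      intro hi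
      refine (step i hi).trans ?_
      rw [pow_succ' _ i, mul_assoc _ (_ ^ i)]
      exact mul_le_mul_of_nonneg_left (ih (by omega)) (by positivity)
  have hUb : 0 ≤ Ub := (Nat.cast_nonneg _).trans (hU 0 (Nat.zero_le _))
  have h6 : ((U 0).card : ℝ) * (Γ.card : ℝ) ^ Lv ≤ lam ^ H * ∑ c ∈ U Lv, h Lv c := by
    rw [← transferF_sum hτ Lv le_rfl, mul_sum]
    refine sum_le_sum fun c hc => ?_
    have := mul_le_mul_of_nonneg_right (pow_le_pow_right₀ hl1 (hH c hc)) (h0 Lv c)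
    refine le_trans (le_of_eq ?_) this
    simp only [h]
    field_simp
  have h7 : (∑ c ∈ U Lv, h Lv c) ^ 2 ≤ Ub * ((4 * K ^ 2 * Γ.card) ^ Lv * (U 0).card) :=
    sq_sum_le_card_mul_sum_sq.trans (mul_le_mul (hU Lv le_rfl) (hall Lv le_rfl)
      (sum_nonneg fun _ _ => sq_nonneg _) hUb)
  have h8 := pow_le_pow_left₀ (by positivity) h6 2
  rw [mul_pow (lam ^ H), ← pow_mul, mul_comm H 2, pow_mul, hl2] at h8
  have h9 := h8.trans (mul_le_mul_of_nonneg_left h7 (by positivity))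
  rcases (Nat.cast_nonneg (α := ℝ) (U 0).card).eq_or_lt with e | e
  · rw [← e, zero_mul]
    positivity
  · refine le_of_mul_le_mul_right (a := ((U 0).card : ℝ) * (Γ.card : ℝ) ^ Lv) ?_ (by positivity)
    rw [← sq]
    refine h9.trans_eq ?_
    rw [pow_mul, mul_pow (4 * K ^ 2), show (2 * K) ^ 2 = 4 * K ^ 2 by ring]
    ring

end Vale.Agent.P018
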