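import Vale.Agent.P018.RichB
import Vale.Agent.P018.Transfer

namespace Vale.Agent.P018

open Polynomial NumberField Finset

variable {d : ℕ} {L : Type} [Field L] [NumberField L] {g : ℤ[X]} {θ : Fin d → 𝓞 L}

theorem finrank_map_diag {F L : Type} [Fintype F] [Field L] (t : F → Lˣ) (W : Submodule L (F → L)) :
    Module.finrank L (W.map (diagMap t)) = Module.finrank L W := by
  refine (Submodule.equivMapOfInjective _ (fun u v h => _root_.funext fun s => ?_) W).finrank_eq.symm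
  have h1 := congrFun h s
  rw [diagMap_apply, diagMap_apply] at h1
  exact mul_left_cancel₀ (t s).ne_zero h1

open Classical in
theorem rich_core (hθ : GalRoots g θ) (hd : 2 ≤ d) (k a₀ b₀ : ℕ) (i₀ : Fin d) (Lv m Cf : ℕ)
    {K X B : ℝ} {S : Finset ℤ} {a b : ℤ → Fin d → ℤ} {c : ℤ} (h : Cfg θ k K X B S a b c)
    (G δ Ck E Kt Ub : ℝ) (hG : 1 ≤ G) (hδ : 0 < δ) (hCk : 1 ≤ Ck) (hKt : 0 ≤ Kt)
    (hsm : 3 ^ Lv * (Ck * δ) ≤ 1) (Γ : Finset (Fin d → ℤ)) (hΓ0 : Γ.Nonempty)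
    (hΓ : ∀ γ ∈ Γ, γ ≠ 0 ∧ (∀ (σ : L →+* ℂ) j, ‖σ (vec θ γ j)‖ ≤ 3 * G) ∧
      ∀ (σ : L →+* ℂ) i j, ‖σ (vec θ γ i)‖ ≤ 3 * ‖σ (vec θ γ j)‖)
    (key : (Fin d → L) → Fin d × (Fin d → ℤ))
    (hk1 : ∀ β β', Good θ (K ^ 2 * 3 ^ Lv) β → Good θ (K ^ 2 * 3 ^ Lv) β' → key β = key β' →
      Close (Ck * δ) β β')
    (hk2 : ∀ (β₀ : Fin d → L) (ρ : ℝ) (T : Finset (Fin d → L)), 0 ≤ ρ →
      Good θ (K ^ 2 * 3 ^ Lv) β₀ → (∀ β ∈ T, Good θ (K ^ 2 * 3 ^ Lv) β ∧ Close ρ β β₀) →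
        ((T.image key).card : ℝ) ≤ Ck * (1 + ρ / δ) ^ (d - 1))
    (hprop : ∀ i ≤ Lv, ∀ β₀ : Fin d → L, (∀ j, β₀ j ≠ 0) →
      lab θ a₀ b₀ k i₀ S b G i (3 ^ i * (Ck * δ)) β₀ ≠ ⊤)
    (hE : ∀ W W' : Submodule L (fam d a₀ b₀ k → L),
      (∃ s s', wt a₀ b₀ k i₀ s ≠ wt a₀ b₀ k i₀ s' ∧
        ∀ t : fam d a₀ b₀ k → Lˣ, W.map (diagMap t) = W → t s = t s') →
      ((((Fintype.piFinset fun _ : Fin (2 ^ m) => Γ) ×ˢ
        (Fintype.piFinset fun _ : Fin (2 ^ m) => Γ)).filter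
        fun xy => W.map (diagMap (∏ r, tor L a₀ b₀ k i₀ (uvec θ (xy.1 r)))) =
          W'.map (diagMap (∏ r, tor L a₀ b₀ k i₀ (uvec θ (xy.2 r))))).card : ℝ) ≤ E)
    (hCf : Ck * (1 + Ck) ^ (d - 1) ≤ Cf)
    (hUb : Ck * (1 + ((K ^ 2 * 3 ^ Lv) ^ 2 + 1) / δ) ^ (d - 1) ≤ Ub)
    (hKE : (Cf : ℝ) ^ (2 ^ m) * E * Ub ≤ (Kt ^ 2 * Γ.card) ^ (2 ^ m)) (hCK : (Cf : ℝ) ≤ Kt ^ 2) :
    ∃ T ⊆ S, (T.card : ℝ) * (Γ.card : ℝ) ^ Lv ≤
        Ub * (Γ.card : ℝ) ^ (fam d a₀ b₀ k).card * (2 * Kt) ^ (2 * Lv) ∧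
      ∀ x ∈ S, Rich θ S b δ a₀ x → ∃ t ∈ T, Close (Ck * δ) (vec θ (b x)) (vec θ (b t)) := by
  have hK := h.one_le_K
  have hCδ : 0 < Ck * δ := by positivity
  set R := S.filter (Rich θ S b δ a₀) with hR
  obtain ⟨V, hV0, hVs⟩ : ∃ V : ℕ → Finset (Fin d → L), (V 0 = R.image fun x => vec θ (b x)) ∧
      ∀ i, V (i + 1) = (V i ×ˢ Γ).image fun p j => p.1 j * (vec θ p.2 j)⁻¹ :=
    ⟨fun i => Nat.rec (R.image fun x => vec θ (b x))
      (fun _ Vi => (Vi ×ˢ Γ).image fun p j => p.1 j * (vec θ p.2 j)⁻¹) i, rfl, fun i => rfl⟩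
  have hV : ∀ i, ∀ β ∈ V i, ∃ x ∈ R, ∃ η, Tw θ G i η ∧ β = fun j => vec θ (b x) j * (η j)⁻¹ := by
    intro i
    induction i with
    | zero =>
      intro β hβ
      obtain ⟨x, hx, rfl⟩ := mem_image.mp (hV0 ▸ hβ)
      exact ⟨x, hx, fun _ => 1, tw_one θ (by omega) G, by simp⟩
    | succ i ih =>
      intro β hβ
      obtain ⟨⟨β', γ⟩, hp, rfl⟩ := mem_image.mp (hVs i ▸ hβ)
      obtain ⟨h1, h2⟩ := mem_product.mp hp
      obtain ⟨x, hx, η, hη, rfl⟩ := ih β' h1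
      refine ⟨x, hx, _, hη.mul hθ (by linarith) (hΓ γ h2).1 (hΓ γ h2).2.1 (hΓ γ h2).2.2, ?_⟩
      funext j
      simp only [mul_inv, mul_assoc]
  have hVg : ∀ i ≤ Lv, ∀ β ∈ V i, Good θ (K ^ 2 * 3 ^ Lv) β := by
    intro i hi β hβ
    obtain ⟨x, hx, η, hη, rfl⟩ := hV i β hβ
    exact ((h.good (mem_filter.mp hx).1).mul_inv hθ (by positivity) hη).mono
      (mul_le_mul_of_nonneg_left (pow_le_pow_right₀ (by norm_num) hi) (by positivity))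
  obtain ⟨U, hU⟩ : ∃ U : ℕ → Finset (Fin d × (Fin d → ℤ)), ∀ i, U i = (V i).image key :=
    ⟨_, fun _ => rfl⟩
  have hrep : ∀ i, ∀ u ∈ U i, ∃ β ∈ V i, key β = u := fun i u hu => mem_image.mp (hU i ▸ hu)
  choose! rep hrepV hrepk using hrep
  obtain ⟨τ, hτd⟩ : ∃ τ : ℕ → Fin d × (Fin d → ℤ) → (Fin d → ℤ) → Fin d × (Fin d → ℤ),
      ∀ i u γ, τ i u γ = key fun j => rep i u j * (vec θ γ j)⁻¹ := ⟨_, fun _ _ _ => rfl⟩
  have hmemV : ∀ i, ∀ u ∈ U i, ∀ γ ∈ Γ, (fun j => rep i u j * (vec θ γ j)⁻¹) ∈ V (i + 1) :=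
    fun i u hu γ hγ => by
      rw [hVs]
      exact mem_image.mpr ⟨(rep i u, γ), mem_product.mpr ⟨hrepV i u hu, hγ⟩, rfl⟩
  have hτ : ∀ i, ∀ u ∈ U i, ∀ γ ∈ Γ, τ i u γ ∈ U (i + 1) :=
    fun i u hu γ hγ => by
      rw [hU, hτd]
      exact mem_image_of_mem key (hmemV i u hu γ hγ)
  obtain ⟨W, hW⟩ : ∃ W : ℕ → Fin d × (Fin d → ℤ) → Submodule L (fam d a₀ b₀ k → L),
      ∀ i u, W i u = lab θ a₀ b₀ k i₀ S b G i (3 ^ i * (Ck * δ)) (rep i u) := ⟨_, fun _ _ => rfl⟩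
  have hρ1 : ∀ i : ℕ, Ck * δ ≤ 3 ^ i * (Ck * δ) := fun i =>
    le_mul_of_one_le_left hCδ.le (one_le_pow₀ (by norm_num))
  have hρ2 : ∀ i ≤ Lv, 3 ^ i * (Ck * δ) ≤ 1 := fun i hi =>
    (mul_le_mul_of_nonneg_right (pow_le_pow_right₀ (by norm_num) hi) hCδ.le).trans hsm
  have hγne : ∀ γ ∈ Γ, ∀ j, (vec θ γ j)⁻¹ ≠ 0 := fun γ hγ j =>
    inv_ne_zero (vec_ne_zero hθ.toRoots (hΓ γ hγ).1 j)
  have hsub : ∀ i < Lv, ∀ u ∈ U i, ∀ γ ∈ Γ,
      (W i u).map (diagMap (tor L a₀ b₀ k i₀ (uvec θ γ))) ≤ W (i + 1) (τ i u γ) := by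
    intro i hi u hu γ hγ
    rw [hW, hW, lab, lab, Submodule.map_span]
    refine Submodule.span_mono ?_
    rintro _ ⟨_, ⟨x, hx, η, hη, hcl, rfl⟩, rfl⟩
    have e1 : (fun j => vec θ (b x) j * (η j * vec θ γ j)⁻¹) =
        fun j => vec θ (b x) j * (η j)⁻¹ * (vec θ γ j)⁻¹ := by
      funext j
      simp only [mul_inv, mul_assoc]
    refine ⟨x, hx, _, hη.mul hθ (by linarith) (hΓ γ hγ).1 (hΓ γ hγ).2.1 (hΓ γ hγ).2.2, ?_, ?_⟩
    · have h1 := (close_mul_iff (hγne γ hγ)).mpr hcl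
      have h2 := hVg (i + 1) hi _ (hmemV i u hu γ hγ)
      have h3 := hk1 _ _ h2 (hVg (i + 1) hi _ (hrepV _ _ (hτ i u hu γ hγ)))
        ((hτd i u γ).symm.trans (hrepk _ _ (hτ i u hu γ hγ)).symm)
      rw [e1, pow_succ', mul_assoc]
      exact h1.trans3 (h3.mono (hρ1 i)) (by positivity) (hρ2 i hi.le) h2.2.1
    · rw [e1, ← ev_mul_inv]
      simp only [uvec_val hθ.toRoots (hΓ γ hγ).1]
  letI := diagAct (fam d a₀ b₀ k) L
  have hmain := transfer Γ (fun γ => tor L a₀ b₀ k i₀ (uvec θ γ)) Lv (fam d a₀ b₀ k).card Cf m U τ W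
    (fun i u => Module.finrank L (W i u)) Ub E Kt hKt hΓ0 (fun i _ => hτ i) ?_ ?_ ?_ ?_ ?_ ?_ hKE hCK
  · have hx0 : ∀ u ∈ U 0, ∃ x ∈ R, key (vec θ (b x)) = u := by
      intro u hu
      obtain ⟨β, hβ, rfl⟩ := mem_image.mp (hU 0 ▸ hu)
      obtain ⟨x, hx, rfl⟩ := mem_image.mp (hV0 ▸ hβ)
      exact ⟨x, hx, rfl⟩
    choose! xr hxr hxk using hx0
    refine ⟨(U 0).image xr, fun t ht => ?_, le_trans ?_ hmain, fun x hx hr => ?_⟩
    · obtain ⟨u, hu, rfl⟩ := mem_image.mp ht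
      exact (mem_filter.mp (hxr u hu)).1
    · exact mul_le_mul_of_nonneg_right (Nat.cast_le.mpr card_image_le) (by positivity)
    · have h1 : vec θ (b x) ∈ V 0 := hV0 ▸ mem_image_of_mem _ (mem_filter.mpr ⟨hx, hr⟩)
      have h2 : key (vec θ (b x)) ∈ U 0 := hU 0 ▸ mem_image_of_mem key h1
      refine ⟨_, mem_image_of_mem xr h2, hk1 _ _ (hVg 0 (Nat.zero_le _) _ h1)
        (hVg 0 (Nat.zero_le _) _ (hV0 ▸ mem_image_of_mem _ (hxr _ h2))) (hxk _ h2).symm⟩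
  · intro i hi γ hγ u'
    suffices H : ∀ F : Finset (Fin d × (Fin d → ℤ)), (∀ u ∈ F, u ∈ U i ∧ τ i u γ = u') →
        F.card ≤ Cf from H _ fun u hu => by simpa using hu
    intro F hF
    rcases F.eq_empty_or_nonempty with h0 | ⟨u₀, hu₀⟩
    · rw [h0]; exact Nat.zero_le _
    obtain ⟨hu₀, hu₀'⟩ := hF u₀ hu₀
    have h1 := hk2 (rep i u₀) (Ck * δ) (F.image (rep i)) hCδ.le
      (hVg i hi.le _ (hrepV i u₀ hu₀)) (by
        intro β hβ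
        obtain ⟨u, hu, rfl⟩ := mem_image.mp hβ
        obtain ⟨hu, hu'⟩ := hF u hu
        refine ⟨hVg i hi.le _ (hrepV i u hu), (close_mul_iff (hγne γ hγ)).mp ?_⟩
        exact hk1 _ _ (hVg (i + 1) hi _ (hmemV i u hu γ hγ))
          (hVg (i + 1) hi _ (hmemV i u₀ hu₀ γ hγ))
          ((hτd i u γ).symm.trans ((hu'.trans hu₀'.symm).trans (hτd i u₀ γ))))
    have h2 : F ⊆ (F.image (rep i)).image key := fun u hu =>
      mem_image.mpr ⟨_, mem_image_of_mem _ hu, hrepk i u (hF u hu).1⟩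
    rw [mul_div_cancel_right₀ _ hδ.ne'] at h1
    exact_mod_cast ((Nat.cast_le.mpr (card_le_card h2)).trans h1).trans hCf
  · intro u _
    simpa using Submodule.finrank_le (W Lv u)
  · intro i hi u hu γ hγ
    exact (finrank_map_diag _ _).symm.trans_le (Submodule.finrank_mono (hsub i hi u hu γ hγ))
  · intro i hi u hu γ hγ he
    exact (Submodule.eq_of_le_of_finrank_eq (hsub i hi u hu γ hγ)
      ((finrank_map_diag _ _).trans he)).symm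
  · intro i hi u hu u' _
    have hg := hVg i hi.le _ (hrepV i u hu)
    obtain ⟨x₀, hx₀, η, hη, he⟩ := hV i _ (hrepV i u hu)
    have h1 := stab (wt a₀ b₀ k i₀) (W i u) (hW i u ▸ hprop i hi.le _ hg.2.1)
      (no_weight hθ.toRoots hd a₀ b₀ k i₀ (W i u)
        (S.filter fun x' => Close δ (vec θ (b x')) (vec θ (b x₀))) (mem_filter.mp hx₀).2 (by
          intro x hx
          obtain ⟨hx, hcl⟩ := mem_filter.mp hx
          rw [hW]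
          refine ⟨_, fun j => mul_ne_zero (h.b_ne hx j) (inv_ne_zero (hη.ne j)),
            Submodule.subset_span ⟨x, hx, η, hη, ?_, rfl⟩⟩
          rw [he]
          refine ((close_mul_iff fun j => inv_ne_zero (hη.ne j)).mpr hcl).mono ?_
          exact (le_mul_of_one_le_left hδ.le hCk).trans (hρ1 i)))
    refine le_trans (Nat.cast_le.mpr (card_le_card fun z hz => ?_)) (hE (W i u) (W i u') h1)
    simp only [mem_filter, mem_product, Fintype.mem_piFinset] at hz ⊢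
    exact hz
  · intro i hi
    rcases (V i).eq_empty_or_nonempty with h0 | ⟨β₀, hβ₀⟩
    · simp only [hU, h0, image_empty, card_empty, Nat.cast_zero]
      exact le_trans (by positivity) hUb
    · rw [hU]
      exact (hk2 β₀ _ (V i) (by positivity) (hVg i hi _ hβ₀) fun β hβ =>
        ⟨hVg i hi _ hβ, (hVg i hi _ hβ).close (hVg i hi _ hβ₀) (by positivity)⟩).trans hUb

end Vale.Agent.P018
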