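import Vale.Agent.P018.Key
import Vale.Agent.P018.RichC

/-!
The translation lemma: the rich points are covered by few balls.
-/

namespace Vale.Agent.P018

open Polynomial NumberField Finset

variable {d : ℕ} {L : Type} [Field L] [NumberField L] {g : ℤ[X]} {θ : Fin d → 𝓞 L}

theorem rich_cover (hθ : GalRoots g θ) (hd : 2 ≤ d) (k : ℕ) (hk : 1 ≤ k) (α β μ κ ε : ℝ)
    (hμ : 0 < μ) (hκ : 0 ≤ κ) (hε : 0 < ε)
    (h : RelGood d k (α + k * κ / d) (β + (d - 1) * κ / d) μ) :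
    ∃ D : ℕ, ∀ K : ℝ, ∃ C X₀ : ℝ, 1 ≤ C ∧ ∀ X : ℝ, X₀ ≤ X →
      ∀ (B : ℝ) (S : Finset ℤ) (a b : ℤ → Fin d → ℤ) (c : ℤ), Cfg θ k K X B S a b c →
        X / B ^ k ≤ X ^ α → B ≤ X ^ β →
        ∃ T ⊆ S, (T.card : ℝ) ≤ C * X ^ ((d - 1) * μ - κ + ε) ∧
          ∀ x ∈ S, Rich θ S b (X ^ (-μ)) D x →
            ∃ t ∈ T, Close (C * X ^ (-μ)) (vec θ (b x)) (vec θ (b t)) := by
  classical
  obtain ⟨a₀, b₀, τ, hτ, hnum⟩ := h
  refine ⟨a₀, fun K => ?_⟩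
  rcases lt_or_ge K 1 with hK | hK
  · exact ⟨1, 0, le_rfl, fun X _ B S a b c h => absurd h.one_le_K (not_le.mpr hK)⟩
  have hd0 : (0 : ℝ) < d := by exact_mod_cast (by omega : 0 < d)
  have hd1 : (1 : ℝ) ≤ d := by exact_mod_cast (by omega : 1 ≤ d)
  set H := (fam d a₀ b₀ k).card with hH
  obtain ⟨n, hn⟩ : ∃ n : ℕ, 2 * κ * H / ε ≤ n := exists_nat_ge _
  obtain ⟨Lv, hLv⟩ : ∃ Lv : ℕ, Lv = H + (n + 1) := ⟨_, rfl⟩
  have hH0 : (0 : ℝ) ≤ H := Nat.cast_nonneg H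
  have hLv0 : (1 : ℝ) ≤ Lv := by exact_mod_cast (by omega : 1 ≤ Lv)
  have hLv1 : κ * H / Lv ≤ ε / 2 := by
    rw [div_le_iff₀ hε] at hn
    rw [div_le_iff₀ (by linarith), hLv]
    push_cast
    nlinarith [mul_nonneg hH0 hε.le]
  obtain ⟨σ, hσ⟩ : ∃ σ : ℝ, σ = ε / (2 * Lv) := ⟨_, rfl⟩
  have hσ0 : 0 < σ := by rw [hσ]; positivity
  obtain ⟨m, hm⟩ : ∃ m : ℕ, κ + (d - 1) * μ + 1 ≤ σ * (2 ^ m : ℕ) := by
    obtain ⟨m, hm⟩ := pow_unbounded_of_one_lt ((κ + (d - 1) * μ + 1) / σ) (by norm_num : (1 : ℝ) < 2)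
    refine ⟨m, ?_⟩
    rw [div_lt_iff₀ hσ0] at hm
    push_cast
    linarith
  have hKL : 1 ≤ K ^ 2 * 3 ^ Lv :=
    one_le_mul_of_one_le_of_one_le (one_le_pow₀ hK) (one_le_pow₀ (by norm_num))
  obtain ⟨Ck, hCk, hkey⟩ := exists_key hθ.toRoots (by omega) (K ^ 2 * 3 ^ Lv) hKL
  obtain ⟨CE, hCE, hE⟩ := energy_link hθ (2 ^ m)
  obtain ⟨cΓ, hc0, hc1, hΓ⟩ := exists_gamma θ (by omega : 1 ≤ d)
  obtain ⟨Cf, hCf⟩ := exists_nat_ge (Ck * (1 + Ck) ^ (d - 1))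
  obtain ⟨X₁, hX₁⟩ := lab_ne_top hθ (by omega) k a₀ b₀ ⟨0, by omega⟩ α β μ κ τ hμ hτ hnum Lv K
    (3 ^ Lv * Ck) hK (by positivity)
  obtain ⟨X₂, hX₂, hX₂'⟩ := exists_large (3 ^ Lv * Ck) μ hμ
  obtain ⟨Cu, hCu⟩ : ∃ Cu : ℝ, Cu = Ck * ((K ^ 2 * 3 ^ Lv) ^ 2 + 2) ^ (d - 1) := ⟨_, rfl⟩
  have hCu0 : 0 ≤ Cu := by rw [hCu]; positivity
  have hC1 : 0 ≤ Cu * (4 * (Cf / cΓ)) ^ Lv / cΓ ^ (n + 1) := by positivity
  refine ⟨Ck + Cu * (4 * (Cf / cΓ)) ^ Lv / cΓ ^ (n + 1), max (max X₁ X₂) (CE * Cu), by linarith,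
    fun X hX B S a b c h hA hB => ?_⟩
  have hXa : X₁ ≤ X := ((le_max_left _ _).trans (le_max_left _ _)).trans hX
  have hXb : X₂ ≤ X := ((le_max_right _ _).trans (le_max_left _ _)).trans hX
  have hXc : CE * Cu ≤ X := (le_max_right _ _).trans hX
  have hX1 := h.one_le_X
  have hX0 : 0 < X := by linarith
  obtain ⟨G, hG⟩ : ∃ G : ℝ, G = X ^ (κ / (d * Lv)) := ⟨_, rfl⟩
  have hG1 : 1 ≤ G := by rw [hG]; exact Real.one_le_rpow hX1 (by positivity)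
  have hGL : G ^ Lv = X ^ (κ / d) := by
    rw [hG, ← Real.rpow_natCast, ← Real.rpow_mul hX0.le]
    congr 1
    field_simp
  have hGd : G ^ d = X ^ (κ / Lv) := by
    rw [hG, ← Real.rpow_natCast, ← Real.rpow_mul hX0.le]
    congr 1
    field_simp
  have hGκ : G ≤ X ^ κ := by
    rw [hG]
    exact Real.rpow_le_rpow_of_exponent_le hX1
      (div_le_self hκ (one_le_mul_of_one_le_of_one_le hd1 hLv0))
  obtain ⟨Γ, hΓc, hΓ'⟩ := hΓ G hG1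
  have hΓpos : (0 : ℝ) < Γ.card := lt_of_lt_of_le (by positivity) hΓc
  have hδ0 : 0 < X ^ (-μ) := by positivity
  have hδ1 : X ^ (-μ) ≤ 1 := Real.rpow_le_one_of_one_le_of_nonpos hX1 (by linarith)
  obtain ⟨key, hk1, hk2⟩ := hkey (X ^ (-μ)) hδ0
  have hsm : 3 ^ Lv * (Ck * X ^ (-μ)) ≤ 1 := by
    rw [← mul_assoc]; exact (hX₂' X hXb).le
  have hσ1 : 1 ≤ X ^ σ := Real.one_le_rpow hX1 hσ0.le
  have hKt : √(Cf / cΓ * X ^ σ) ^ 2 = Cf / cΓ * X ^ σ := Real.sq_sqrt (by positivity)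
  obtain ⟨T, hTS, hT, hcov⟩ := rich_core hθ hd k a₀ b₀ ⟨0, by omega⟩ Lv m Cf h G (X ^ (-μ)) Ck
    (CE * G ^ (d * 2 ^ m + 1)) (√(Cf / cΓ * X ^ σ)) (Cu * X ^ ((d - 1) * μ)) hG1 hδ0 hCk
    (Real.sqrt_nonneg _) hsm Γ (card_pos.mp (by exact_mod_cast hΓpos)) hΓ' key hk1 hk2
    (fun i hi β₀ hβ₀ => by
      have h3 : (3 : ℝ) ^ i * (Ck * X ^ (-μ)) ≤ 3 ^ Lv * (Ck * X ^ (-μ)) :=
        mul_le_mul_of_nonneg_right (pow_le_pow_right₀ (by norm_num) hi) (by positivity)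
      exact hX₁ X hXa B S a b c h hA hB G hG1 hGL.le i hi _ (by positivity) (h3.trans hsm)
        (by rw [mul_assoc]; exact h3) β₀ hβ₀)
    (hE G hG1 Γ (fun γ hγ => ⟨(hΓ' γ hγ).1, (hΓ' γ hγ).2.1⟩) a₀ b₀ k ⟨0, by omega⟩) hCf
    (by
      have h1 : X ^ (((d : ℝ) - 1) * μ) = (X ^ μ) ^ (d - 1) := by
        rw [← Real.rpow_natCast, ← Real.rpow_mul hX0.le, Nat.cast_sub (by omega), Nat.cast_one,
          mul_comm]
      rw [hCu, h1, mul_assoc, ← mul_pow]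
      refine mul_le_mul_of_nonneg_left (pow_le_pow_left₀ (by positivity) ?_ _) (by linarith)
      have h2 : 1 ≤ X ^ μ := Real.one_le_rpow hX1 hμ.le
      rw [Real.rpow_neg hX0.le, div_inv_eq_mul]
      linarith)
    (by
      rw [hKt]
      have h1 : CE * G * (Cu * X ^ ((d - 1) * μ)) ≤ (X ^ σ) ^ 2 ^ m := by
        rw [← Real.rpow_natCast, ← Real.rpow_mul hX0.le]
        refine le_trans ?_ (Real.rpow_le_rpow_of_exponent_le hX1 hm)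
        rw [Real.rpow_add hX0, Real.rpow_add hX0, Real.rpow_one]
        calc CE * G * (Cu * X ^ ((d - 1) * μ)) = G * X ^ ((d - 1) * μ) * (CE * Cu) := by ring
          _ ≤ _ := by gcongr
      calc (Cf : ℝ) ^ 2 ^ m * (CE * G ^ (d * 2 ^ m + 1)) * (Cu * X ^ ((d - 1) * μ))
          = (Cf : ℝ) ^ 2 ^ m * (G ^ d) ^ 2 ^ m * (CE * G * (Cu * X ^ ((d - 1) * μ))) := by
            rw [pow_succ, pow_mul]; ring
        _ ≤ (Cf : ℝ) ^ 2 ^ m * (G ^ d) ^ 2 ^ m * (X ^ σ) ^ 2 ^ m := by gcongr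
        _ = (Cf / cΓ * X ^ σ * (cΓ * G ^ d)) ^ 2 ^ m := by
            rw [← mul_pow, ← mul_pow]
            congr 1
            field_simp
        _ ≤ _ := by gcongr)
    (by
      rw [hKt]
      calc (Cf : ℝ) ≤ Cf / cΓ := le_div_self (Nat.cast_nonneg _) hc0 hc1
        _ ≤ _ := le_mul_of_one_le_right (by positivity) hσ1)
  refine ⟨T, hTS, ?_, fun x hx hr => ?_⟩
  · have h1 : (T.card : ℝ) * (Γ.card : ℝ) ^ (n + 1) ≤
        Cu * X ^ ((d - 1) * μ) * (4 * (Cf / cΓ * X ^ σ)) ^ Lv := by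
      rw [pow_mul, mul_pow 2, hKt, ← hH] at hT
      have h2 : (Γ.card : ℝ) ^ Lv = (Γ.card : ℝ) ^ (n + 1) * (Γ.card : ℝ) ^ H := by
        rw [← pow_add, hLv, add_comm]
      rw [h2] at hT
      refine le_of_mul_le_mul_right ?_ (pow_pos hΓpos H)
      calc _ = (T.card : ℝ) * ((Γ.card : ℝ) ^ (n + 1) * (Γ.card : ℝ) ^ H) := by ring
        _ ≤ _ := hT
        _ = _ := by ring
    have h3 : (cΓ * X ^ (κ / Lv)) ^ (n + 1) ≤ (Γ.card : ℝ) ^ (n + 1) :=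
      pow_le_pow_left₀ (by positivity) (hGd ▸ hΓc) _
    have h4 : (T.card : ℝ) * (cΓ ^ (n + 1) * X ^ (κ / Lv * (n + 1 : ℕ))) ≤
        Cu * (4 * (Cf / cΓ)) ^ Lv * X ^ ((d - 1) * μ + σ * Lv) := by
      rw [Real.rpow_mul hX0.le, Real.rpow_natCast, ← mul_pow, Real.rpow_add hX0,
        Real.rpow_mul hX0.le σ, Real.rpow_natCast]
      refine ((mul_le_mul_of_nonneg_left h3 (Nat.cast_nonneg _)).trans h1).trans (le_of_eq ?_)
      rw [← mul_assoc 4, mul_pow]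
      ring
    have h5 : (d - 1) * μ + σ * Lv ≤ (d - 1) * μ - κ + ε + κ / Lv * (n + 1 : ℕ) := by
      have h6 : σ * Lv = ε / 2 := by rw [hσ]; field_simp
      have h7 : κ / Lv * (n + 1 : ℕ) = κ - κ * H / Lv := by
        have : ((n + 1 : ℕ) : ℝ) = Lv - H := by rw [hLv]; push_cast; ring
        rw [this]; field_simp
      rw [h6, h7]
      linarith
    have h8 := h4.trans (mul_le_mul_of_nonneg_left (Real.rpow_le_rpow_of_exponent_le hX1 h5)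
      (by positivity))
    rw [Real.rpow_add hX0, ← mul_assoc, ← mul_assoc] at h8
    have h9 := le_of_mul_le_mul_right h8 (by positivity)
    rw [← le_div_iff₀ (by positivity)] at h9
    refine h9.trans ?_
    rw [mul_div_right_comm]
    exact mul_le_mul_of_nonneg_right (by linarith) (by positivity)
  · obtain ⟨t, ht, hcl⟩ := hcov x hx hr
    exact ⟨t, ht, hcl.mono (mul_le_mul_of_nonneg_right (by linarith) hδ0.le)⟩

end Vale.Agent.P018
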