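import Vale.Agent.P018.Cfg

/-!
Two small lemmas for the translation argument.

Proof of `stab`. The linear forms `w ↦ ∑ s, cf s * w s` vanishing on `W` are not all zero since
`W ≠ ⊤` (`Submodule.exists_le_ker_of_lt_top` or `Submodule.exists_dual_map_eq_bot_of_lt_top`, and
`LinearMap.pi_apply_eq_sum_univ`). Choose such a `cf ≠ 0` with support of minimal cardinality. By
`hno` there are `s, s'` in the support with `m s ≠ m s'`. If `W.map (diagMap t) = W` then
`cf' = fun u => (t u - t s) * cf u` also vanishes on `W` (`diagMap t w ∈ W` for `w ∈ W`), its support is contained in the support of `cf` minus `s`,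
so `cf' = 0`, and `cf' s' = 0` gives `t s' = t s`.

Proof of `exists_gamma`. Let `R ≥ 1` bound the `‖σ (θ j)‖` (`exists_bound`), `n = ⌊G⌋₊`,
`m = ⌊G / (4 d R ^ d)⌋₊`. Take the vectors with `γ 0 ∈ [n, 2 n]` and `γ i ∈ [0, m]` for `i ≠ 0`
(`Fintype.piFinset`). Then `‖σ (vec θ γ j) - γ 0‖ ≤ d R ^ d m ≤ G / 4 ≤ γ 0 / 2` as `n ≥ G / 2`, so
`γ 0 / 2 ≤ ‖σ (vec θ γ j)‖ ≤ 3 γ 0 / 2 ≤ 3 G`, and the cardinality is
`(n + 1) (m + 1) ^ (d - 1) ≥ G (G / (4 d R ^ d)) ^ (d - 1)`.
-/

namespace Vale.Agent.P018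

open Polynomial NumberField Finset

/-- The diagonal linear map with entries `t`. -/
def diagMap {F L : Type} [Field L] (t : F → Lˣ) : (F → L) →ₗ[L] (F → L) :=
  LinearMap.pi fun s => (t s : L) • LinearMap.proj s

theorem diagMap_apply {F L : Type} [Field L] (t : F → Lˣ) (w : F → L) (s : F) :
    diagMap t w s = t s * w s := rfl

/-- The action of the diagonal torus on subspaces. -/
@[reducible] def diagAct (F L : Type) [Field L] : MulAction (F → Lˣ) (Submodule L (F → L)) where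
  smul t W := W.map (diagMap t)
  one_smul W := by
    have : diagMap (1 : F → Lˣ) = LinearMap.id := by
      ext w s; simp [diagMap_apply]
    change W.map (diagMap 1) = W
    rw [this, Submodule.map_id]
  mul_smul t t' W := by
    have : diagMap (t * t') = (diagMap t).comp (diagMap t') := by
      refine LinearMap.ext fun w => funext fun s => ?_
      simp [diagMap_apply, mul_assoc]
    change W.map (diagMap (t * t')) = (W.map (diagMap t')).map (diagMap t)
    rw [this, Submodule.map_comp]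

theorem stab {F L M : Type} [Fintype F] [Field L] (m : F → M) (W : Submodule L (F → L))
    (hW : W ≠ ⊤)
    (hno : ∀ cf : F → L, cf ≠ 0 → (∀ s s', cf s ≠ 0 → cf s' ≠ 0 → m s = m s') →
      ∃ w ∈ W, ∑ s, cf s * w s ≠ 0) :
    ∃ s s', m s ≠ m s' ∧ ∀ t : F → Lˣ, W.map (diagMap t) = W → t s = t s' := by
  classical
  have hex : ∃ n, ∃ cf : F → L, cf ≠ 0 ∧ (∀ w ∈ W, ∑ s, cf s * w s = 0) ∧
      (univ.filter fun s => cf s ≠ 0).card = n := by
    obtain ⟨φ, hφ, hker⟩ := W.exists_le_ker_of_lt_top (lt_top_iff_ne_top.2 hW)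
    have h1 : ∀ w, ∑ s, φ (Pi.single s 1) * w s = φ w := fun w => by
      rw [φ.pi_apply_eq_sum_univ w]
      refine sum_congr rfl fun s _ => ?_
      rw [smul_eq_mul, mul_comm]
      congr 2
      funext j
      simp [Pi.single_apply, eq_comm]
    refine ⟨_, fun s => φ (Pi.single s 1), fun h => hφ (LinearMap.ext fun w => ?_),
      fun w hw => (h1 w).trans (hker hw), rfl⟩
    rw [← h1]
    exact sum_eq_zero fun s _ => by rw [show φ (Pi.single s 1) = 0 from congrFun h s, zero_mul]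
  obtain ⟨cf, h0, hv, hc⟩ := Nat.find_spec hex
  by_cases hm : ∀ s s', cf s ≠ 0 → cf s' ≠ 0 → m s = m s'
  · obtain ⟨w, hw, h⟩ := hno cf h0 hm
    exact absurd (hv w hw) h
  push Not at hm
  obtain ⟨s, s', hs, hs', hne⟩ := hm
  refine ⟨s, s', hne, fun t ht => ?_⟩
  by_contra hts
  refine Nat.find_min hex (m := (univ.filter fun u => ((t u : L) - t s) * cf u ≠ 0).card) ?_
    ⟨fun u => ((t u : L) - t s) * cf u, fun h => ?_, fun w hw => ?_, rfl⟩
  · rw [← hc]
    refine card_lt_card ⟨fun u hu => ?_, fun h => ?_⟩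
    · exact mem_filter.2 ⟨mem_univ _, right_ne_zero_of_mul (mem_filter.1 hu).2⟩
    · simpa using h (mem_filter.2 ⟨mem_univ s, hs⟩)
  · have h1 : ((t s' : L) - t s) * cf s' = 0 := congrFun h s'
    exact hts (Units.ext (sub_eq_zero.1 ((mul_eq_zero.1 h1).resolve_right hs'))).symm
  · have h1 := hv (diagMap t w) (ht ▸ Submodule.mem_map_of_mem hw)
    have h2 : ∑ u, ((t u : L) - t s) * cf u * w u =
        ∑ u, cf u * diagMap t w u - t s * ∑ u, cf u * w u := by
      rw [mul_sum, ← sum_sub_distrib]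
      exact sum_congr rfl fun u _ => by rw [diagMap_apply]; ring
    rw [h2, h1, hv w hw, mul_zero, sub_zero]

theorem exists_gamma {d : ℕ} {L : Type} [Field L] [NumberField L] (θ : Fin d → 𝓞 L) (hd : 1 ≤ d) :
    ∃ c : ℝ, 0 < c ∧ c ≤ 1 ∧ ∀ G : ℝ, 1 ≤ G → ∃ Γ : Finset (Fin d → ℤ), c * G ^ d ≤ Γ.card ∧
      ∀ γ ∈ Γ, γ ≠ 0 ∧ (∀ (σ : L →+* ℂ) j, ‖σ (vec θ γ j)‖ ≤ 3 * G) ∧
        ∀ (σ : L →+* ℂ) i j, ‖σ (vec θ γ i)‖ ≤ 3 * ‖σ (vec θ γ j)‖ := by
  obtain ⟨R, hR, hRθ⟩ := exists_bound θ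
  have hd' : (1 : ℝ) ≤ d := by exact_mod_cast hd
  set Q : ℝ := d * R ^ d with hQ
  have hQ1 : 1 ≤ Q := one_le_mul_of_one_le_of_one_le hd' (one_le_pow₀ hR)
  refine ⟨(1 / (4 * Q)) ^ d, by positivity,
    pow_le_one₀ (by positivity) (by rw [div_le_one (by positivity)]; linarith), fun G hG => ?_⟩
  set n := ⌊G⌋₊ with hn
  set m := ⌊G / (4 * Q)⌋₊ with hm
  have hn1 : (1 : ℝ) ≤ n := by exact_mod_cast Nat.floor_pos.2 hG
  have hn2 : G < n + 1 := Nat.lt_floor_add_one G
  have hn3 : (n : ℝ) ≤ G := Nat.floor_le (by linarith)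
  have hm1 : Q * m ≤ n / 2 := by
    have h1 : (m : ℝ) ≤ G / (4 * Q) := Nat.floor_le (by positivity)
    rw [le_div_iff₀ (by positivity)] at h1
    linarith
  set a : Fin d → ℤ := Pi.single ⟨0, hd⟩ n with ha
  refine ⟨Fintype.piFinset fun i => Icc (a i) (a i + m), ?_, fun γ hγ => ?_⟩
  · rw [Fintype.card_piFinset, ← mul_pow]
    have h1 : ∀ i, (Icc (a i) (a i + m)).card = m + 1 := fun i => by
      rw [Int.card_Icc]; omega
    simp only [h1, prod_const, card_univ, Fintype.card_fin]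
    push_cast
    refine pow_le_pow_left₀ (by positivity) ?_ d
    rw [one_div, inv_mul_eq_div]
    exact (Nat.lt_floor_add_one _).le
  have key : ∀ (σ : L →+* ℂ) j, ‖σ (vec θ γ j) - n‖ ≤ n / 2 := fun σ j => by
    have h1 := norm_bev_le (fun i => ((γ i - a i : ℤ) : ℝ)) (em σ (θ j)) R m hR (hRθ σ j)
      fun i => by
        have h2 := mem_Icc.1 (Fintype.mem_piFinset.1 hγ i)
        have h3 : |γ i - a i| ≤ m := abs_le.2 ⟨by omega, by omega⟩
        exact_mod_cast h3
    refine le_trans (le_of_eq ?_) (h1.trans hm1)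
    congr 1
    have h4 : (n : ℂ) = ∑ i, (a i : ℂ) * em σ (θ j) ^ (i : ℕ) := by
      rw [sum_eq_single ⟨0, hd⟩]
      · simp [ha]
      · intro i _ hi; simp [ha, hi]
      · simp
    rw [h4, ← em_bev, map_bev, bev, ← sum_sub_distrib]
    exact sum_congr rfl fun i _ => by push_cast; ring
  have lo : ∀ (σ : L →+* ℂ) j, (n : ℝ) / 2 ≤ ‖σ (vec θ γ j)‖ := fun σ j => by
    have h1 := norm_sub_norm_le (n : ℂ) (σ (vec θ γ j))
    rw [norm_sub_rev, Complex.norm_natCast] at h1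
    linarith [key σ j]
  have hi : ∀ (σ : L →+* ℂ) j, ‖σ (vec θ γ j)‖ ≤ 3 * (n / 2) := fun σ j => by
    have h1 := norm_sub_norm_le (σ (vec θ γ j)) (n : ℂ)
    rw [Complex.norm_natCast] at h1
    linarith [key σ j]
  refine ⟨fun h => ?_, fun σ j => by linarith [hi σ j], fun σ i j => by linarith [hi σ i, lo σ j]⟩
  obtain ⟨σ⟩ : Nonempty (L →+* ℂ) := inferInstance
  have h1 := lo σ ⟨0, hd⟩
  simp only [h, vec_eq, Pi.zero_apply, Int.cast_zero, zero_mul, sum_const_zero, map_zero,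
    norm_zero] at h1
  linarith

end Vale.Agent.P018
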