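import Vale.Agent.P018.Vander
import Vale.Agent.P018.Energy
import Vale.Agent.P018.Stab

namespace Vale.Agent.P018

open Polynomial NumberField Finset

variable {d : ℕ} {L : Type} [Field L] [NumberField L] {g : ℤ[X]} {θ : Fin d → 𝓞 L}

/-- The vector of values of the family of monomials at a point. -/
noncomputable def ev (θ : Fin d → 𝓞 L) (a b k : ℕ) (i₀ : Fin d) (x : ℤ) (β : Fin d → L) :
    fam d a b k → L := fun s =>
  (∏ i, (1 - (θ i : L) * (x : L)⁻¹) ^ s.1.1 i) *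
    ∏ i ∈ univ.erase i₀, (β i / β i₀) ^ (s.1.2 i + k * (a - s.1.1 i))

/-- The torus weight of a monomial. -/
def wt (a b k : ℕ) (i₀ : Fin d) (s : fam d a b k) : Fin d → ℕ :=
  fun i => if i = i₀ then 0 else s.1.2 i + k * (a - s.1.1 i)

/-- The action of the torus on the monomials. -/
def tor (L : Type) [Field L] (a b k : ℕ) (i₀ : Fin d) :
    (Fin d → Lˣ) →* (fam d a b k → Lˣ) where
  toFun γ s := ∏ i, (γ i₀ / γ i) ^ wt a b k i₀ s i
  map_one' := by ext s; simp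
  map_mul' γ γ' := by
    funext s
    simp only [Pi.mul_apply, ← prod_mul_distrib, ← mul_pow]
    refine prod_congr rfl fun i _ => ?_
    rw [mul_div_mul_comm]

open Classical in
/-- A nonzero integer vector as a point of the torus. -/
noncomputable def uvec (θ : Fin d → 𝓞 L) (γ : Fin d → ℤ) : Fin d → Lˣ :=
  fun j => if h : vec θ γ j = 0 then 1 else Units.mk0 _ h

theorem vec_ne_zero (hθ : Roots g θ) {γ : Fin d → ℤ} (h : γ ≠ 0) (j : Fin d) : vec θ γ j ≠ 0 :=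
  (map_ne_zero_iff _ RingOfIntegers.coe_injective).mpr (hθ.ne γ h j)

theorem uvec_val (hθ : Roots g θ) {γ : Fin d → ℤ} (h : γ ≠ 0) (j : Fin d) :
    ((uvec θ γ j : Lˣ) : L) = vec θ γ j := by
  simp [uvec, vec_ne_zero hθ h j]

omit [NumberField L] in
theorem prod_wt (a b k : ℕ) (i₀ : Fin d) (s : fam d a b k) (u : Fin d → L) :
    ∏ i ∈ univ.erase i₀, u i ^ (s.1.2 i + k * (a - s.1.1 i)) = ∏ i, u i ^ wt a b k i₀ s i := by
  rw [← mul_prod_erase univ (fun i => u i ^ wt a b k i₀ s i) (mem_univ i₀)]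
  simp only [wt, if_true, pow_zero, one_mul]
  exact prod_congr rfl fun i hi => by rw [if_neg (ne_of_mem_erase hi)]

omit [NumberField L] in
theorem ev_mul_inv (θ : Fin d → 𝓞 L) (a b k : ℕ) (i₀ : Fin d) (x : ℤ) (β : Fin d → L)
    (γ : Fin d → Lˣ) :
    ev θ a b k i₀ x (fun j => β j * ((γ j : L))⁻¹) =
      diagMap (tor L a b k i₀ γ) (ev θ a b k i₀ x β) := by
  funext s
  rw [diagMap_apply]
  simp only [ev, prod_wt, tor, MonoidHom.coe_mk, OneHom.coe_mk, Units.coe_prod, Units.val_pow_eq_pow_val,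
    Units.val_div_eq_div_val]
  rw [mul_left_comm]
  congr 1
  rw [← prod_mul_distrib]
  refine prod_congr rfl fun i _ => ?_
  rw [← mul_pow]
  congr 1
  have h1 := (γ i).ne_zero
  have h2 := (γ i₀).ne_zero
  by_cases h : β i₀ = 0
  · simp [h]
  · field_simp

theorem no_weight (hθ : Roots g θ) (hd : 2 ≤ d) (a b k : ℕ) (i₀ : Fin d)
    (W : Submodule L (fam d a b k → L)) (Z : Finset ℤ) (hZ : a < Z.card)
    (hW : ∀ x ∈ Z, ∃ β : Fin d → L, (∀ j, β j ≠ 0) ∧ ev θ a b k i₀ x β ∈ W)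
    (cf : fam d a b k → L) (hcf : cf ≠ 0)
    (hm : ∀ s s', cf s ≠ 0 → cf s' ≠ 0 → wt a b k i₀ s = wt a b k i₀ s') :
    ∃ w ∈ W, ∑ s, cf s * w s ≠ 0 := by
  classical
  have hθL : Function.Injective (fun j => (θ j : L)) := RingOfIntegers.coe_injective.comp hθ.inj
  obtain ⟨s₀, hs₀⟩ := Function.ne_iff.1 hcf
  obtain ⟨p, p', hp, hpq⟩ : ∃ p p' : Fin d, (θ p : L) ≠ 0 ∧
      ∀ i : Fin d, i ≠ p → i ≠ p' → 2 ≤ (i : ℕ) := by
    by_cases h : (θ ⟨0, by omega⟩ : L) = 0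
    · refine ⟨⟨1, by omega⟩, ⟨0, by omega⟩, fun h' => ?_, fun i h2 h3 => ?_⟩
      · have := hθL (h.trans h'.symm)
        simp at this
      · simp only [ne_eq, Fin.ext_iff] at h2 h3
        omega
    · refine ⟨⟨0, by omega⟩, ⟨1, by omega⟩, h, fun i h2 h3 => ?_⟩
      simp only [ne_eq, Fin.ext_iff] at h2 h3
      omega
  set A : Finset (fam d a b k) := univ.filter fun s => cf s ≠ 0 with hA
  set q : L[X] := ∑ s ∈ A, C (cf s) * ∏ i, (1 - C (θ i : L) * X) ^ s.1.1 i with hq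
  have hq0 : q ≠ 0 := by
    refine sum_ne_zero_of_determined A (fun i => (θ i : L)) hθL p hp (fun s => s.1.1) cf
      ⟨s₀, by simpa [hA] using hs₀, hs₀⟩ ?_
    intro s hs t ht hst
    refine Subtype.ext (fam_determined i₀ p p' hpq s.2 t.2 (fun i hi => ?_) hst)
    have := congrFun (hm s t (mem_filter.1 hs).2 (mem_filter.1 ht).2) i
    simpa [wt, hi] using this
  have hqd : q.natDegree ≤ a := by
    refine Polynomial.natDegree_sum_le_of_forall_le _ _ fun s _ => ?_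
    refine (Polynomial.natDegree_C_mul_le _ _).trans ((Polynomial.natDegree_prod_le _ _).trans ?_)
    have h1 : ∀ i, ((1 - C (θ i : L) * X) ^ s.1.1 i).natDegree ≤ s.1.1 i := by
      intro i
      refine Polynomial.natDegree_pow_le.trans ?_
      have : (1 - C (θ i : L) * X : L[X]).natDegree ≤ 1 := by
        compute_degree
      simpa using Nat.mul_le_mul_left (s.1.1 i) this
    exact (sum_le_sum fun i _ => h1 i).trans (mem_fam.1 s.2).1.le
  by_contra hno
  push Not at hno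
  apply hq0
  refine Polynomial.eq_zero_of_natDegree_lt_card_of_eval_eq_zero' q
    (Z.image fun x : ℤ => (x : L)⁻¹) (fun v hv => ?_) ?_
  · obtain ⟨x, hx, rfl⟩ := mem_image.mp hv
    obtain ⟨β, hβ, hβW⟩ := hW x hx
    have h1 := hno _ hβW
    have h2 : ∑ s, cf s * ev θ a b k i₀ x β s =
        (∏ i, (β i / β i₀) ^ wt a b k i₀ s₀ i) * q.eval (x : L)⁻¹ := by
      rw [hq, eval_finsetSum, mul_sum, hA, sum_filter]
      refine sum_congr rfl fun s _ => ?_
      split_ifs with h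
      · simp only [ev, prod_wt, hm s s₀ h hs₀, eval_mul, eval_C, eval_prod, eval_pow, eval_sub,
          eval_one, eval_X]
        ring
      · rw [not_not.mp h, zero_mul]
    rw [h2] at h1
    exact (mul_eq_zero.mp h1).resolve_left
      (prod_ne_zero_iff.mpr fun i _ => pow_ne_zero _ (div_ne_zero (hβ _) (hβ _)))
  · rw [card_image_of_injective _ fun x y h => by exact_mod_cast inv_injective h]
    omega

omit [NumberField L] in
theorem tor_eq_zpow (a b k : ℕ) (i₀ : Fin d) (s s' : fam d a b k) (t : Fin d → Lˣ)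
    (h : tor L a b k i₀ t s = tor L a b k i₀ t s') :
    ∏ i, t i ^ ((fun i => if i = i₀ then
      (∑ j, (wt a b k i₀ s j : ℤ)) - ∑ j, (wt a b k i₀ s' j : ℤ)
      else (wt a b k i₀ s' i : ℤ) - wt a b k i₀ s i) i) = 1 := by
  simp only [tor, MonoidHom.coe_mk, OneHom.coe_mk, div_pow, prod_div_distrib,
    prod_pow_eq_pow_sum] at h
  rw [div_eq_div_iff_mul_eq_mul] at h
  have h0 : ∀ u : fam d a b k, wt a b k i₀ u i₀ = 0 := fun u => by simp [wt]
  have h1 : ∀ i, t i ^ ((fun i => if i = i₀ then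
      (∑ j, (wt a b k i₀ s j : ℤ)) - ∑ j, (wt a b k i₀ s' j : ℤ)
      else (wt a b k i₀ s' i : ℤ) - wt a b k i₀ s i) i) =
      (if i = i₀ then t i₀ ^ (∑ j, wt a b k i₀ s j) / t i₀ ^ (∑ j, wt a b k i₀ s' j) else 1) *
        (t i ^ wt a b k i₀ s' i / t i ^ wt a b k i₀ s i) := by
    intro i
    by_cases hi : i = i₀
    · subst hi
      simp only [if_true, h0, pow_zero, inv_one, mul_one, zpow_sub, ← Nat.cast_sum, zpow_natCast,
        div_eq_mul_inv]
    · simp only [if_neg hi, one_mul, zpow_sub, zpow_natCast, div_eq_mul_inv]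
  simp only [h1, prod_mul_distrib, prod_ite_eq', mem_univ, if_true, prod_div_distrib]
  rw [div_mul_div_comm, div_eq_one, h]

open Classical in
theorem energy_link (hθ : GalRoots g θ) (ℓ : ℕ) : ∃ C : ℝ, 1 ≤ C ∧ ∀ G : ℝ, 1 ≤ G →
    ∀ Γ : Finset (Fin d → ℤ), (∀ γ ∈ Γ, γ ≠ 0 ∧ ∀ (σ : L →+* ℂ) j, ‖σ (vec θ γ j)‖ ≤ 3 * G) →
    ∀ (a b k : ℕ) (i₀ : Fin d) (W W' : Submodule L (fam d a b k → L)),
      (∃ s s', wt a b k i₀ s ≠ wt a b k i₀ s' ∧
        ∀ t : fam d a b k → Lˣ, W.map (diagMap t) = W → t s = t s') →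
      ((((Fintype.piFinset fun _ : Fin ℓ => Γ) ×ˢ (Fintype.piFinset fun _ : Fin ℓ => Γ)).filter
        fun xy => W.map (diagMap (∏ r, tor L a b k i₀ (uvec θ (xy.1 r)))) =
          W'.map (diagMap (∏ r, tor L a b k i₀ (uvec θ (xy.2 r))))).card : ℝ) ≤
        C * G ^ (d * ℓ + 1) := by
  obtain ⟨C, hC, hE⟩ := energy hθ ℓ 3 (by norm_num)
  refine ⟨C, hC, fun G hG Γ hΓ a b k i₀ W W' ⟨s, s', hss, hst⟩ => ?_⟩
  set Sol := (((Fintype.piFinset fun _ : Fin ℓ => Γ) ×ˢ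
    (Fintype.piFinset fun _ : Fin ℓ => Γ)).filter
        fun xy => W.map (diagMap (∏ r, tor L a b k i₀ (uvec θ (xy.1 r)))) =
          W'.map (diagMap (∏ r, tor L a b k i₀ (uvec θ (xy.2 r))))) with hSol
  rcases Sol.eq_empty_or_nonempty with h0 | ⟨z₀, hz₀⟩
  · rw [h0]
    simp only [card_empty, Nat.cast_zero]
    positivity
  set w : Fin d → ℤ := fun i => if i = i₀ then
      (∑ j, (wt a b k i₀ s j : ℤ)) - ∑ j, (wt a b k i₀ s' j : ℤ)
      else (wt a b k i₀ s' i : ℤ) - wt a b k i₀ s i with hw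
  have hw0 : w ≠ 0 := by
    intro h
    apply hss
    funext i
    by_cases hi : i = i₀
    · simp [wt, hi]
    · have := congrFun h i
      simp only [hw, if_neg hi, Pi.zero_apply] at this
      omega
  refine le_trans (Nat.cast_le.mpr (card_le_card fun z hz => ?_))
    (hE G hG Γ hΓ w hw0 (∏ i, ((∏ r, vec θ (z₀.1 r) i) / ∏ r, vec θ (z₀.2 r) i) ^ w i))
  have hne : ∀ z ∈ Sol, (∀ r, z.1 r ≠ 0) ∧ ∀ r, z.2 r ≠ 0 := by
    intro z hz
    have h1 := mem_product.mp (mem_filter.mp hz).1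
    exact ⟨fun r => (hΓ _ (Fintype.mem_piFinset.mp h1.1 r)).1,
      fun r => (hΓ _ (Fintype.mem_piFinset.mp h1.2 r)).1⟩
  refine mem_filter.mpr ⟨(mem_filter.mp hz).1, ?_⟩
  letI := diagAct (fam d a b k) L
  have e1 : (∏ r, tor L a b k i₀ (uvec θ (z.1 r))) • W =
      (∏ r, tor L a b k i₀ (uvec θ (z.2 r))) • W' := (mem_filter.mp hz).2
  have e2 : (∏ r, tor L a b k i₀ (uvec θ (z₀.1 r))) • W =
      (∏ r, tor L a b k i₀ (uvec θ (z₀.2 r))) • W' := (mem_filter.mp hz₀).2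
  simp only [← map_prod] at e1 e2
  set u := ∏ r, uvec θ (z.1 r)
  set v := ∏ r, uvec θ (z.2 r)
  set u₀ := ∏ r, uvec θ (z₀.1 r)
  set v₀ := ∏ r, uvec θ (z₀.2 r)
  have e3 : tor L a b k i₀ (u / v / (u₀ / v₀)) • W = W := by
    have e4 : W' = (tor L a b k i₀ v₀)⁻¹ • tor L a b k i₀ u₀ • W := by rw [e2, inv_smul_smul]
    have e5 : u / v / (u₀ / v₀) = (v * (v₀⁻¹ * u₀))⁻¹ * u := by
      simp only [div_eq_mul_inv, mul_inv_rev, inv_inv, mul_comm, mul_left_comm, mul_assoc]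
    rw [e5, map_mul, mul_smul, e1, e4, map_inv, inv_smul_eq_iff, map_mul, map_mul, map_inv,
      mul_smul, mul_smul]
  have e6 := tor_eq_zpow a b k i₀ s s' _ (hst _ e3)
  have e7 : ∏ i, (u i / v i) ^ w i = ∏ i, (u₀ i / v₀ i) ^ w i := by
    rw [← div_eq_one, ← prod_div_distrib, ← e6]
    exact prod_congr rfl fun i _ => by rw [← div_zpow]; rfl
  have e8 := congrArg (fun t : Lˣ => (t : L)) e7
  simp only [Units.coe_prod, Units.val_zpow_eq_zpow_val, Units.val_div_eq_div_val, u, v, u₀, v₀,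
    Finset.prod_apply, uvec_val hθ.toRoots ((hne z hz).1 _), uvec_val hθ.toRoots ((hne z hz).2 _),
    uvec_val hθ.toRoots ((hne z₀ hz₀).1 _), uvec_val hθ.toRoots ((hne z₀ hz₀).2 _)] at e8
  exact e8

end Vale.Agent.P018
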