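import Vale.Agent.P018.RichA

namespace Vale.Agent.P018

open Polynomial NumberField Finset

variable {d : ℕ} {L : Type} [Field L] [NumberField L] {g : ℤ[X]} {θ : Fin d → 𝓞 L}

/-- The properties of a product of `i` translations of size `G`. -/
def Tw (θ : Fin d → 𝓞 L) (G : ℝ) (i : ℕ) (η : Fin d → L) : Prop :=
  ∃ (e e' : Fin d → 𝓞 L) (N : ℤ), N ≠ 0 ∧ (∀ j, (e j : L) = η j) ∧ (∀ j, e j * e' j = N) ∧
    (∀ (σ : L →+* ℂ) j, ‖em σ (e j)‖ ≤ (3 * G) ^ i) ∧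
    (∀ (σ : L →+* ℂ) j, ‖em σ (e' j)‖ ≤ (3 * G) ^ ((d - 1) * i)) ∧
    (∀ (σ : L →+* ℂ) j j', ‖σ (η j)‖ ≤ 3 ^ i * ‖σ (η j')‖) ∧ Equi θ η

omit [NumberField L] in
theorem tw_one (θ : Fin d → 𝓞 L) (hd : 1 ≤ d) (G : ℝ) : Tw θ G 0 (fun _ => 1) := by
  refine ⟨fun _ => 1, fun _ => 1, 1, one_ne_zero, fun j => by simp, fun j => by simp,
    fun σ j => by simp, fun σ j => by simp, fun σ j j' => by simp,
    fun i => if i = ⟨0, hd⟩ then 1 else 0, fun j => ?_⟩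
  rw [sum_eq_single ⟨0, hd⟩]
  · simp
  · intro i _ hi
    simp [hi]
  · simp

theorem Tw.ne {G : ℝ} {i : ℕ} {η : Fin d → L} (h : Tw θ G i η) (j : Fin d) : η j ≠ 0 := by
  obtain ⟨e, e', N, hN, he, hee, -⟩ := h
  intro h0
  have h1 : e j = 0 := RingOfIntegers.coe_injective (by rw [map_zero]; exact (he j).trans h0)
  have h2 := hee j
  rw [h1, zero_mul] at h2
  exact hN (by exact_mod_cast h2.symm)

theorem Tw.mul (hθ : GalRoots g θ) {G : ℝ} (hG : 0 ≤ G) {i : ℕ} {η : Fin d → L} (h : Tw θ G i η)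
    {γ : Fin d → ℤ} (h0 : γ ≠ 0) (h1 : ∀ (σ : L →+* ℂ) j, ‖σ (vec θ γ j)‖ ≤ 3 * G)
    (h2 : ∀ (σ : L →+* ℂ) j j', ‖σ (vec θ γ j)‖ ≤ 3 * ‖σ (vec θ γ j')‖) :
    Tw θ G (i + 1) (fun j => η j * vec θ γ j) := by
  classical
  obtain ⟨e, e', N, hN, he, hee, hs, hs', hr, hq⟩ := h
  obtain ⟨M, hM, -⟩ := hθ.norm γ
  have hM0 : M ≠ 0 := by
    intro h
    rw [h] at hM
    exact prod_ne_zero_iff.mpr (fun j _ => hθ.ne γ h0 j) (by rw [← hM]; simp)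
  refine ⟨fun j => e j * bev γ (θ j), fun j => e' j * ∏ m ∈ univ.erase j, bev γ (θ m), N * M,
    mul_ne_zero hN hM0, fun j => ?_, fun j => ?_, fun σ j => ?_, fun σ j => ?_,
    fun σ j j' => ?_, hq.mul hθ (equi_vec θ γ)⟩
  · beta_reduce
    rw [← he j]
    exact map_mul (algebraMap (𝓞 L) L) _ _
  · rw [mul_mul_mul_comm, hee, mul_prod_erase univ (fun m => bev γ (θ m)) (mem_univ j), ← hM]
    push_cast
    rfl
  · rw [map_mul, norm_mul, pow_succ]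
    exact mul_le_mul (hs σ j) (h1 σ j) (norm_nonneg _) (by positivity)
  · rw [map_mul, norm_mul, mul_add, mul_one, pow_add, map_prod, norm_prod]
    refine mul_le_mul (hs' σ j) ?_ (prod_nonneg fun _ _ => norm_nonneg _) (by positivity)
    refine (prod_le_prod (g := fun _ => 3 * G) (fun _ _ => norm_nonneg _)
      fun m _ => h1 σ m).trans (le_of_eq ?_)
    rw [prod_const, card_erase_of_mem (mem_univ j), card_univ, Fintype.card_fin]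
  · simp only [map_mul, norm_mul]
    calc ‖σ (η j)‖ * ‖σ (vec θ γ j)‖ ≤ (3 ^ i * ‖σ (η j')‖) * (3 * ‖σ (vec θ γ j')‖) :=
          mul_le_mul (hr σ j j') (h2 σ j j') (norm_nonneg _) (by positivity)
      _ = _ := by ring

theorem Good.mul_inv (hθ : GalRoots g θ) {K G : ℝ} (hK : 0 ≤ K) {i : ℕ} {β η : Fin d → L}
    (h : Good θ K β) (hη : Tw θ G i η) : Good θ (K * 3 ^ i) (fun j => β j * (η j)⁻¹) := by
  have hne := hη.ne
  obtain ⟨e, e', N, hN, he, hee, hs, hs', hr, hq⟩ := hη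
  refine ⟨h.1.mul hθ (hq.inv hθ hne), fun j => mul_ne_zero (h.2.1 j) (inv_ne_zero (hne j)),
    fun σ j j' => ?_⟩
  have h1 : 0 < ‖σ (η j)‖ := norm_pos_iff.mpr ((map_ne_zero σ).mpr (hne j))
  have h2 : 0 < ‖σ (η j')‖ := norm_pos_iff.mpr ((map_ne_zero σ).mpr (hne j'))
  simp only [map_mul, map_inv₀, norm_mul, norm_inv]
  have h3 : ‖σ (η j)‖⁻¹ ≤ 3 ^ i * ‖σ (η j')‖⁻¹ := by
    rw [← div_eq_mul_inv, inv_eq_one_div, div_le_div_iff₀ h1 h2, one_mul]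
    exact hr σ j' j
  calc ‖σ (β j)‖ * ‖σ (η j)‖⁻¹ ≤ (K * ‖σ (β j')‖) * (3 ^ i * ‖σ (η j')‖⁻¹) :=
        mul_le_mul (h.2.2 σ j j') h3 (by positivity) (by positivity)
    _ = _ := by ring

/-- The span of the evaluation vectors of the translated points near `β₀`. -/
noncomputable def lab (θ : Fin d → 𝓞 L) (a₀ b₀ k : ℕ) (i₀ : Fin d) (S : Finset ℤ)
    (b : ℤ → Fin d → ℤ) (G : ℝ) (i : ℕ) (ρ : ℝ) (β₀ : Fin d → L) :
    Submodule L (fam d a₀ b₀ k → L) :=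
  Submodule.span L {w | ∃ x ∈ S, ∃ η, Tw θ G i η ∧
    Close ρ (fun j => vec θ (b x) j * (η j)⁻¹) β₀ ∧
    w = ev θ a₀ b₀ k i₀ x (fun j => vec θ (b x) j * (η j)⁻¹)}

theorem lab_ne_top (hθ : GalRoots g θ) (hd : 1 ≤ d) (k a₀ b₀ : ℕ) (i₀ : Fin d)
    (α β μ κ τ : ℝ) (hμ : 0 < μ) (hτ : 0 ≤ τ)
    (hnum : ((fam d a₀ b₀ k).card : ℝ) * (a₀ * (α + k * κ / d) + b₀ * (β + (d - 1) * κ / d)) <
      ((fam d a₀ b₀ k).card : ℝ) * τ -
        (τ + (((d : ℝ) - 1) * μ + 1)) ^ (d + 1) / (((d + 1).factorial : ℝ) * μ ^ (d - 1)))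
    (Lv : ℕ) (K C' : ℝ) (hK : 1 ≤ K) (hC' : 0 ≤ C') :
    ∃ X₁ : ℝ, ∀ X : ℝ, X₁ ≤ X → ∀ (B : ℝ) (S : Finset ℤ) (a b : ℤ → Fin d → ℤ) (c : ℤ),
      Cfg θ k K X B S a b c → X / B ^ k ≤ X ^ α → B ≤ X ^ β → ∀ G : ℝ, 1 ≤ G →
      G ^ Lv ≤ X ^ (κ / d) → ∀ i ≤ Lv, ∀ ρ : ℝ, 0 ≤ ρ → ρ ≤ 1 → ρ ≤ C' * X ^ (-μ) →
      ∀ β₀ : Fin d → L, (∀ j, β₀ j ≠ 0) → lab θ a₀ b₀ k i₀ S b G i ρ β₀ ≠ ⊤ := by
  classical
  obtain ⟨K', hK1, hKa, hKb, hKc, hKd⟩ : ∃ K' : ℝ, K ≤ K' ∧ K * 3 ^ (k * Lv) ≤ K' ∧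
      K * 3 ^ ((d - 1) * Lv) ≤ K' ∧ K ^ 2 * 3 ^ Lv ≤ K' ∧ 3 * C' * (K ^ 2 * 3 ^ Lv) ≤ K' := by
    have e1 : 0 ≤ K * 3 ^ (k * Lv) := by positivity
    have e2 : 0 ≤ K * 3 ^ ((d - 1) * Lv) := by positivity
    have e3 : 0 ≤ K ^ 2 * 3 ^ Lv := by positivity
    have e4 : 0 ≤ 3 * C' * (K ^ 2 * 3 ^ Lv) := by positivity
    refine ⟨K + K * 3 ^ (k * Lv) + K * 3 ^ ((d - 1) * Lv) + K ^ 2 * 3 ^ Lv +
      3 * C' * (K ^ 2 * 3 ^ Lv), ?_, ?_, ?_, ?_, ?_⟩ <;> linarith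
  obtain ⟨X₁, hX₁⟩ := relation_exists d a₀ b₀ k i₀ _ _ μ τ K' hμ hτ (hK.trans hK1) hnum
  refine ⟨X₁, fun X hX B S a b c h hA hB G hG hGX i hi ρ hρ0 hρ1 hρ β₀ hβ₀ htop => ?_⟩
  have hX0 : 0 < X := by linarith [h.one_le_X]
  let P : Type := {p : ℤ × (Fin d → L) // p.1 ∈ S ∧ Tw θ G i p.2 ∧
    Close ρ (fun j => vec θ (b p.1) j * (p.2 j)⁻¹) β₀}
  choose e e' N hN he hee hs hs' hr hq using fun p : P => p.2.2.1
  have hgood : ∀ p : P, Good θ (K ^ 2 * 3 ^ Lv) (fun j => vec θ (b p.1.1) j * (p.1.2 j)⁻¹) :=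
    fun p => ((h.good p.2.1).mul_inv hθ (by positivity) p.2.2.1).mono
      (mul_le_mul_of_nonneg_left (pow_le_pow_right₀ (by norm_num) hi) (by positivity))
  have hBL : ∀ (p : P) j, ((bev (b p.1.1) (θ j) * e' p j : 𝓞 L) : L) =
      (N p : L) * (vec θ (b p.1.1) j * (p.1.2 j)⁻¹) := by
    intro p j
    have h1 := congrArg (algebraMap (𝓞 L) L) (hee p j)
    rw [map_mul, map_intCast] at h1
    have h2 : algebraMap (𝓞 L) L (e p j) = p.1.2 j := he p j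
    have h3 := p.2.2.1.ne j
    rw [← h1, h2]
    change algebraMap (𝓞 L) L _ = _
    rw [map_mul]
    change vec θ (b p.1.1) j * _ = _
    field_simp
  have hBσ : ∀ (σ : L →+* ℂ) (p : P) j, em σ (bev (b p.1.1) (θ j) * e' p j) =
      (N p : ℂ) * σ (vec θ (b p.1.1) j * (p.1.2 j)⁻¹) := by
    intro σ p j
    change σ ((bev (b p.1.1) (θ j) * e' p j : 𝓞 L) : L) = _
    rw [hBL, map_mul, map_intCast]
  have hNC : ∀ p : P, (N p : ℂ) ≠ 0 := fun p => by exact_mod_cast hN p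
  have hNL : ∀ p : P, (N p : L) ≠ 0 := fun p => by exact_mod_cast hN p
  have hG3 : ∀ m : ℕ, (3 * G) ^ (m * i) ≤ 3 ^ (m * Lv) * X ^ (m * κ / d) := by
    intro m
    calc (3 * G) ^ (m * i) ≤ (3 * G) ^ (m * Lv) :=
          pow_le_pow_right₀ (by linarith) (Nat.mul_le_mul_left m hi)
      _ = 3 ^ (m * Lv) * (G ^ Lv) ^ m := by rw [mul_pow, ← pow_mul, mul_comm Lv m]
      _ ≤ 3 ^ (m * Lv) * (X ^ (κ / d)) ^ m := by gcongr
      _ = _ := by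
          rw [← Real.rpow_natCast (X ^ (κ / d)), ← Real.rpow_mul hX0.le]
          congr 2
          ring
  have hrat : ∀ (σ : L →+* ℂ) (p : P) j j', ‖em σ (bev (b p.1.1) (θ j) * e' p j)‖ ≤
      K' * ‖em σ (bev (b p.1.1) (θ j') * e' p j')‖ := by
    intro σ p j j'
    rw [hBσ, hBσ, norm_mul, norm_mul, mul_left_comm]
    refine mul_le_mul_of_nonneg_left ?_ (norm_nonneg _)
    exact ((hgood p).2.2 σ j j').trans (mul_le_mul_of_nonneg_right hKc (norm_nonneg _))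
  obtain ⟨cf, hcf, hrel⟩ := hX₁ X hX L θ P (fun p => p.1.1) (fun p => c * N p)
    (fun p j => bev (a p.1.1) (θ j) * e p j ^ k) (fun p j => bev (b p.1.1) (θ j) * e' p j)
    (fun σ j => (h.th_le σ j).trans hK1)
    (fun p j => by
      have h1 := h.eqn _ p.2.1 j
      have h2 := hee p j
      push_cast
      rw [mul_pow, mul_mul_mul_comm, h1, ← mul_pow, h2, mul_pow]
      ring)
    (fun p => mul_ne_zero h.c_ne (hN p))
    (fun p j h0 => by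
      have h1 := hBL p j
      rw [h0] at h1
      exact mul_ne_zero (hNL p) ((hgood p).2.1 j) (by rw [← h1]; simp))
    (fun p => (h.x_lo _ p.2.1).trans (mul_le_mul_of_nonneg_right hK1 (abs_nonneg _)))
    (fun σ p => by
      rw [map_mul, map_pow, norm_mul, norm_pow, Real.rpow_add hX0]
      have h1 : ‖em σ (e p i₀)‖ ^ k ≤ 3 ^ (k * Lv) * X ^ (k * κ / d) := by
        refine (pow_le_pow_left₀ (norm_nonneg _) (hs p σ i₀) k).trans ?_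
        rw [← pow_mul, mul_comm i k]
        exact hG3 k
      have h2 : ‖em σ (bev (a p.1.1) (θ i₀))‖ ≤ K * X ^ α :=
        (h.a_hi _ p.2.1 σ i₀).trans (mul_le_mul_of_nonneg_left hA (by linarith))
      calc _ ≤ (K * X ^ α) * (3 ^ (k * Lv) * X ^ (k * κ / d)) :=
            mul_le_mul h2 h1 (by positivity) (by positivity)
        _ = (K * 3 ^ (k * Lv)) * (X ^ α * X ^ (k * κ / d)) := by ring
        _ ≤ _ := mul_le_mul_of_nonneg_right hKa (by positivity))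
    (fun σ p => by
      rw [map_mul, norm_mul, Real.rpow_add hX0]
      have h1 : ‖em σ (e' p i₀)‖ ≤ 3 ^ ((d - 1) * Lv) * X ^ ((d - 1) * κ / d) := by
        refine (hs' p σ i₀).trans ((hG3 (d - 1)).trans (le_of_eq ?_))
        rw [Nat.cast_sub hd, Nat.cast_one]
      have h2 : ‖em σ (bev (b p.1.1) (θ i₀))‖ ≤ K * X ^ β :=
        (h.b_hi _ p.2.1 σ i₀).trans (mul_le_mul_of_nonneg_left hB (by linarith))
      calc _ ≤ (K * X ^ β) * (3 ^ ((d - 1) * Lv) * X ^ ((d - 1) * κ / d)) :=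
            mul_le_mul h2 h1 (by positivity) (by positivity)
        _ = (K * 3 ^ ((d - 1) * Lv)) * (X ^ β * X ^ ((d - 1) * κ / d)) := by ring
        _ ≤ _ := mul_le_mul_of_nonneg_right hKb (by positivity))
    (fun σ p j => hrat σ p j i₀) (fun σ p j => hrat σ p i₀ j)
    (fun σ p p' j => by
      have h1 := (p.2.2.2.trans3 p'.2.2.2.symm hρ0 hρ1 hβ₀) σ j i₀
      have h2 := (hgood p').2.2 σ j i₀
      have h3 : σ (vec θ (b p.1.1) i₀ * (p.1.2 i₀)⁻¹) ≠ 0 := (map_ne_zero σ).mpr ((hgood p).2.1 i₀)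
      have h4 : σ (vec θ (b p'.1.1) i₀ * (p'.1.2 i₀)⁻¹) ≠ 0 :=
        (map_ne_zero σ).mpr ((hgood p').2.1 i₀)
      simp only [hBσ, mul_div_mul_left _ _ (hNC _)]
      rw [map_sub, map_mul σ (_ * _) (_ * _), map_mul σ (_ * _) (_ * _), norm_mul] at h1
      generalize σ (vec θ (b p.1.1) i₀ * (p.1.2 i₀)⁻¹) = u₀ at *
      generalize σ (vec θ (b p'.1.1) i₀ * (p'.1.2 i₀)⁻¹) = v₀ at *
      generalize σ (vec θ (b p.1.1) j * (p.1.2 j)⁻¹) = u at *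
      generalize σ (vec θ (b p'.1.1) j * (p'.1.2 j)⁻¹) = v at *
      have h5 : 0 < ‖u₀‖ := norm_pos_iff.mpr h3
      have h6 : 0 < ‖v₀‖ := norm_pos_iff.mpr h4
      rw [div_sub_div _ _ h3 h4, norm_div, norm_mul, div_le_iff₀ (by positivity)]
      calc ‖u * v₀ - u₀ * v‖ ≤ 3 * ρ * (‖u₀‖ * ‖v‖) := h1
        _ ≤ 3 * (C' * X ^ (-μ)) * (‖u₀‖ * (K ^ 2 * 3 ^ Lv * ‖v₀‖)) := by gcongr
        _ = (3 * C' * (K ^ 2 * 3 ^ Lv)) * X ^ (-μ) * (‖u₀‖ * ‖v₀‖) := by ring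
        _ ≤ _ := by gcongr)
  have hall : ∀ w ∈ lab θ a₀ b₀ k i₀ S b G i ρ β₀, ∑ s, cf s * w s = 0 := by
    intro w hw
    induction hw using Submodule.span_induction with
    | mem w hw =>
      obtain ⟨x, hx, η, h1, h2, rfl⟩ := hw
      have h3 := hrel ⟨(x, η), hx, h1, h2⟩
      have h4 := hBL ⟨(x, η), hx, h1, h2⟩
      have h5 := hNL ⟨(x, η), hx, h1, h2⟩
      dsimp only at h3 h4 h5
      simp only [h4, mul_div_mul_left _ _ h5] at h3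
      exact h3
    | zero => simp
    | add u v _ _ hu hv => simp only [Pi.add_apply, mul_add, sum_add_distrib, hu, hv, add_zero]
    | smul t u _ hu =>
      simp only [Pi.smul_apply, smul_eq_mul, mul_left_comm _ t, ← mul_sum, hu, mul_zero]
  apply hcf
  funext s
  have h1 := hall (Pi.single s 1) (by rw [htop]; trivial)
  simpa [Pi.single_apply] using h1

end Vale.Agent.P018
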