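import Mathlib

namespace Vale.Agent.P018

open Polynomial NumberField

/-- The value of the polynomial with coefficient vector `b` at `z`. -/
def bev {d : ℕ} {R : Type} [CommRing R] (b : Fin d → ℤ) (z : R) : R :=
  ∑ i, (b i : R) * z ^ (i : ℕ)

theorem map_bev {d : ℕ} {R S : Type} [CommRing R] [CommRing S] (φ : R →+* S) (b : Fin d → ℤ)
    (z : R) : φ (bev b z) = bev b (φ z) := by
  simp [bev]

/-- The facts about the roots `θ` of `g` in the ring of integers of a splitting field. -/
structure Roots {d : ℕ} {L : Type} [Field L] [NumberField L] (g : ℤ[X]) (θ : Fin d → 𝓞 L) :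
    Prop where
  inj : Function.Injective θ
  prod : ∀ x : ℤ, ∏ j, ((x : 𝓞 L) - θ j) = ((g.eval x : ℤ) : 𝓞 L)
  ne : ∀ b : Fin d → ℤ, b ≠ 0 → ∀ j, bev b (θ j) ≠ 0
  norm : ∀ b : Fin d → ℤ, ∃ N : ℤ, (N : 𝓞 L) = ∏ j, bev b (θ j) ∧
    ∀ x p : ℤ, p ∣ g.eval x → p ∣ bev b x → p ∣ N

/-- The polynomial with coefficient vector `b`. -/
noncomputable def bpoly {d : ℕ} (b : Fin d → ℤ) : ℤ[X] := ∑ i, C (b i) * X ^ (i : ℕ)

theorem aeval_bpoly {d : ℕ} {R : Type} [CommRing R] (b : Fin d → ℤ) (z : R) :
    aeval z (bpoly b) = bev b z := by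
  simp [bpoly, bev]

theorem eval_bpoly {d : ℕ} (b : Fin d → ℤ) (z : ℤ) : (bpoly b).eval z = bev b z := by
  simp [bpoly, bev, eval_finsetSum]

theorem coeff_bpoly {d : ℕ} (b : Fin d → ℤ) (i : Fin d) : (bpoly b).coeff i = b i := by
  simp only [bpoly, finsetSum_coeff, coeff_C_mul, coeff_X_pow]
  rw [Finset.sum_eq_single i]
  · simp
  · intro j _ hj
    have : ¬ ((i : ℕ) = (j : ℕ)) := fun h => hj (Fin.ext h).symm
    simp [this]
  · simp

theorem degree_bpoly_lt {d : ℕ} (b : Fin d → ℤ) : (bpoly b).degree < d := by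
  unfold bpoly
  exact degree_sum_fin_lt b

theorem natDegree_bpoly_le {d : ℕ} (b : Fin d → ℤ) : (bpoly b).natDegree ≤ d := by
  have := degree_bpoly_lt b
  exact natDegree_le_iff_degree_le.mpr this.le

theorem exists_roots_aux (d : ℕ) (hd : 1 ≤ d) (g : ℤ[X]) (hm : g.Monic) (hdeg : g.natDegree = d)
    (hirr : Irreducible (g.map (Int.castRingHom ℚ))) (L : Type) [Field L] [NumberField L]
    (hspl : (g.map (Int.castRingHom L)).Splits) :
    ∃ θ : Fin d → 𝓞 L, Roots g θ := by
  classical
  have hZ : (Int.castRingHom ℚ) = algebraMap ℤ ℚ := RingHom.ext_int _ _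
  have hgqm : (g.map (Int.castRingHom ℚ)).Monic := hm.map _
  have hgqd : (g.map (Int.castRingHom ℚ)).natDegree = d := by rw [hm.natDegree_map, hdeg]
  have hsep : (g.map (Int.castRingHom ℚ)).Separable := hirr.separable
  obtain ⟨gL, hgL⟩ : ∃ gL : L[X], gL = g.map (Int.castRingHom L) := ⟨_, rfl⟩
  have hgL' : gL = (g.map (Int.castRingHom ℚ)).map (algebraMap ℚ L) := by
    rw [hgL, Polynomial.map_map]; congr 1; exact RingHom.ext_int _ _
  rw [← hgL] at hspl
  have hgLm : gL.Monic := by rw [hgL]; exact hm.map _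
  have hgLd : gL.natDegree = d := by rw [hgL, hm.natDegree_map, hdeg]
  have hcard : gL.roots.card = d := by rw [← hspl.natDegree_eq_card_roots, hgLd]
  have hnodup : gL.roots.Nodup := by rw [hgL']; exact nodup_roots (hsep.map)
  have hcard' : Fintype.card gL.roots.toFinset = d := by
    rw [Fintype.card_coe, Multiset.toFinset_card_of_nodup hnodup, hcard]
  let e : Fin d ≃ gL.roots.toFinset := (Fintype.equivFinOfCardEq hcard').symm
  have hroot : ∀ j, aeval ((e j : L)) g = 0 := by
    intro j
    have h1 : (e j : L) ∈ gL.roots := Multiset.mem_toFinset.mp (e j).2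
    have h2 : gL.eval (e j : L) = 0 := (mem_roots hgLm.ne_zero).mp h1
    have h3 : ∀ z : L, gL.eval z = aeval z g := by
      intro z; rw [hgL, eval_map, aeval_def]; rfl
    rw [← h3]; exact h2
  have hint : ∀ j, IsIntegral ℤ (e j : L) := fun j => ⟨g, hm, by
    rw [← aeval_def]; exact hroot j⟩
  let θ : Fin d → 𝓞 L := fun j => ⟨e j, hint j⟩
  have hθ : ∀ j, algebraMap (𝓞 L) L (θ j) = e j := fun j => rfl
  have hinjO : Function.Injective (algebraMap (𝓞 L) L) := RingOfIntegers.coe_injective
  have hprod : ∀ h : L → L, (gL.roots.map h).prod = ∏ j, h (e j) := by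
    intro h
    have h1 : ∏ j, h (e j) = ∏ z ∈ gL.roots.toFinset, h z := by
      rw [← Finset.prod_coe_sort gL.roots.toFinset h]
      exact Equiv.prod_comp e (fun z => h z)
    rw [h1, Finset.prod, Multiset.toFinset_val, Multiset.dedup_eq_self.mpr hnodup]
  refine ⟨θ, ?_, ?_, ?_, ?_⟩
  · intro i j hij
    have : (e i : L) = e j := by rw [← hθ, ← hθ, hij]
    exact e.injective (Subtype.ext this)
  · intro x
    apply hinjO
    rw [map_prod]
    simp only [map_sub, map_intCast, hθ]
    rw [← hprod (fun z => (x : L) - z)]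
    have h1 := hspl.eval_eq_prod_roots_of_monic hgLm (x : L)
    rw [← h1, hgL, eval_intCast_map]
    simp
  · intro b hb j h0
    have h1 : aeval (e j : L) ((bpoly b).map (Int.castRingHom ℚ)) = 0 := by
      rw [hZ, aeval_map_algebraMap, aeval_bpoly, ← hθ, ← map_bev, h0, map_zero]
    have hmin : minpoly ℚ (e j : L) = g.map (Int.castRingHom ℚ) := by
      symm
      apply minpoly.eq_of_irreducible_of_monic hirr _ hgqm
      rw [hZ, aeval_map_algebraMap]; exact hroot j
    have hne : (bpoly b).map (Int.castRingHom ℚ) ≠ 0 := by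
      intro h
      rw [Polynomial.map_eq_zero_iff (Int.cast_injective)] at h
      apply hb
      funext i
      have := coeff_bpoly b i
      rw [h] at this
      simpa using this.symm
    have h2 := minpoly.degree_le_of_ne_zero ℚ (e j : L) hne h1
    rw [hmin, degree_eq_natDegree hgqm.ne_zero, hgqd] at h2
    have h3 : ((bpoly b).map (Int.castRingHom ℚ)).degree < d :=
      lt_of_le_of_lt degree_map_le (degree_bpoly_lt b)
    exact absurd h2 (not_le.mpr h3)
  · intro b
    refine ⟨g.resultant (bpoly b) d d, ?_, ?_⟩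
    · apply hinjO
      rw [map_prod]
      simp only [map_intCast, map_bev, hθ]
      have h1 := resultant_map_map g (bpoly b) d d (Int.castRingHom L)
      have h2 := resultant_eq_prod_eval gL ((bpoly b).map (Int.castRingHom L)) d
        (natDegree_map_le.trans (natDegree_bpoly_le b)) hspl
      rw [hgLd, hgLm.leadingCoeff, one_pow, one_mul, hprod] at h2
      rw [← hgL] at h1
      rw [h2] at h1
      simp only [eq_intCast] at h1
      rw [← h1]
      refine Finset.prod_congr rfl fun j _ => ?_
      rw [eval_map, ← aeval_bpoly, aeval_def]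
      rfl
    · intro x p hp1 hp2
      obtain ⟨u, v, -, -, huv⟩ := exists_mul_add_mul_eq_C_resultant g (bpoly b) (m := d) (n := d)
        hdeg.le (natDegree_bpoly_le b) (Or.inl (by omega))
      have := congrArg (eval x) huv
      simp only [eval_add, eval_mul, eval_C, eval_bpoly] at this
      rw [← this]
      exact dvd_add (hp1.mul_right _) (hp2.mul_right _)

theorem exists_roots (d : ℕ) (hd : 1 ≤ d) (g : ℤ[X]) (hm : g.Monic) (hdeg : g.natDegree = d)
    (hirr : Irreducible (g.map (Int.castRingHom ℚ))) :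
    ∃ (L : Type) (_ : Field L) (_ : NumberField L) (θ : Fin d → 𝓞 L), Roots g θ := by
  have hN : NumberField (g.map (Int.castRingHom ℚ)).SplittingField :=
    { to_charZero := inferInstance, to_finiteDimensional := inferInstance }
  refine ⟨(g.map (Int.castRingHom ℚ)).SplittingField, inferInstance, hN, ?_⟩
  apply exists_roots_aux d hd g hm hdeg hirr
  have h := SplittingField.splits (g.map (Int.castRingHom ℚ))
  rw [Polynomial.map_map] at h
  convert h using 2
  exact RingHom.ext_int _ _

end Vale.Agent.P018
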