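import Vale.Agent.P018.Vander

/-!
Complex estimates for three and four nearby points in dimension four.

Proof of `sym_minor`. Put `y r i = β r i * β 0 0 / (β 0 i * β r 0) - 1` and
`z r i = α r i * α 0 0 / (α 0 i * α r 0) - 1` for `r = 1, 2` (all `α r i` are nonzero since
`‖n r‖ ≥ X / K > K ≥ ‖θ i‖`, as `X ≥ ρ⁻¹ ^ 2 ≥ C ^ 2`). The closeness hypothesis with the indices
`(0, i)` gives `‖y r i‖ ≤ ρ`. Take `Mβ = xi 1 (y 1) (y 2)` and `Mα = xi 1 (z 1) (z 2)` (here `1` is the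
constant vector). The two identities hold because `β r i = (β r 0 / β 0 0) β 0 i (1 + y r i)`:
expand the determinants (`Matrix.det_succ_row_zero`, `Fin.sum_univ_succ`, `field_simp`, `ring`),
or scale rows and columns. Each `xi 1 u v i` is a sum of 6 products `± u j v l`. From the equations,
`(1 + z r i) (1 + y r i) ^ 2 = (n r - θ i) (n 0 - θ 0) / ((n 0 - θ i) (n r - θ 0)) = 1 + O (1 / X)`:
the numerator minus the denominator is `(n r - n 0) (θ i - θ 0)`, which is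
`((n r - θ 0) - (n 0 - θ 0)) (θ i - θ 0)`, so the quotient is at most
`2 K (1 / ‖n 0 - θ i‖ + ‖n 0 - θ 0‖ / (‖n 0 - θ i‖ ‖n r - θ 0‖)) ≤ C' / X ≤ C' ρ ^ 2`. Hence
`‖z r i + 2 y r i‖ ≤ C'' ρ ^ 2` and `‖z r i‖ ≤ C'' ρ`, and bilinearity of `xi 1 · ·` gives the rest.

Proof of `det_four_le`: with `y r i` as above, `r = 1, 2, 3`, the determinant is
`(∏ j, β 0 j) (∏ r, β r 0 / β 0 0) det (1, y 1, y 2, y 3)` and the last determinant is a sum of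
24 products of three numbers bounded by `ρ`.
-/

namespace Vale.Agent.P018

open Finset

theorem sym_det_le {n : ℕ} (A : Matrix (Fin n) (Fin n) ℂ) (r : Fin n → ℝ)
    (h : ∀ i j, ‖A i j‖ ≤ r i) : ‖A.det‖ ≤ n.factorial * ∏ i, r i := by
  rw [Matrix.det_apply']
  refine (norm_sum_le _ _).trans ?_
  have h1 : ∀ σ : Equiv.Perm (Fin n),
      ‖((Equiv.Perm.sign σ : ℤ) : ℂ) * ∏ i, A (σ i) i‖ ≤ ∏ i, r i := fun σ => by
    have h2 : ‖((Equiv.Perm.sign σ : ℤ) : ℂ)‖ = 1 := by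
      rcases Int.units_eq_one_or (Equiv.Perm.sign σ) with h | h <;> simp [h]
    rw [norm_mul, h2, one_mul, norm_prod, ← Equiv.prod_comp σ r]
    exact prod_le_prod (fun _ _ => norm_nonneg _) fun i _ => h _ _
  refine (sum_le_sum fun σ _ => h1 σ).trans ?_
  rw [sum_const, card_univ, Fintype.card_perm, Fintype.card_fin, nsmul_eq_mul]

theorem sym_xi_eq (u v w : Fin 4 → ℂ) (i : Fin 4) : xi u v w i =
    (-1) ^ (i : ℕ) * (Matrix.of fun a b => ![u, v, w] a (i.succAbove b)).det := by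
  rw [xi, Matrix.det_succ_row_zero, sum_eq_single i]
  · simp only [Matrix.of_apply, Matrix.cons_val_zero, Pi.single_eq_same, mul_one]
    rfl
  · intro j _ hj
    simp [hj]
  · simp

theorem sym_xi_le {u v : Fin 4 → ℂ} {p q : ℝ} (hu : ∀ j, ‖u j‖ ≤ p) (hv : ∀ j, ‖v j‖ ≤ q)
    (i : Fin 4) : ‖xi 1 u v i‖ ≤ 6 * p * q := by
  have h := sym_det_le (Matrix.of fun a b => ![1, u, v] a (i.succAbove b)) ![1, p, q]
    fun a b => by fin_cases a <;> simp [hu, hv]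
  rw [sym_xi_eq, norm_mul, norm_pow, norm_neg, norm_one, one_pow, one_mul]
  refine h.trans (le_of_eq ?_)
  simp [Fin.prod_univ_three, Nat.factorial, mul_assoc]

theorem sym_scale_aux (b y y' : Fin 4 → ℂ) (t t' : ℂ) (i : Fin 4) :
    xi b (fun j => t * b j * (1 + y j)) (fun j => t' * b j * (1 + y' j)) i * b i =
      (∏ j, b j) * t * t' * xi 1 y y' i := by
  rw [sym_xi_eq, sym_xi_eq, Matrix.det_fin_three, Matrix.det_fin_three, Fin.prod_univ_four]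
  fin_cases i <;> simp [Fin.succAbove] <;> ring

theorem sym_bilin (y y' z z' : Fin 4 → ℂ) (i : Fin 4) :
    xi 1 z z' i - 4 * xi 1 y y' i = xi 1 (fun j => z j + 2 * y j) z' i +
      xi 1 (fun j => -2 * y j) (fun j => z' j + 2 * y' j) i := by
  simp only [sym_xi_eq, Matrix.det_fin_three]
  simp
  ring

/-- relative coordinates -/
noncomputable def symY (b0 b : Fin 4 → ℂ) (i : Fin 4) : ℂ := b i * b0 0 / (b0 i * b 0) - 1

theorem symY_eq {b0 b : Fin 4 → ℂ} (h0 : ∀ i, b0 i ≠ 0) (h : b 0 ≠ 0) :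
    b = fun j => b 0 / b0 0 * b0 j * (1 + symY b0 b j) := by
  funext j
  have h1 := h0 0
  have h2 := h0 j
  rw [symY]
  field_simp
  ring

theorem symY_le {b0 b : Fin 4 → ℂ} {ρ : ℝ} (h0 : ∀ i, b0 i ≠ 0) (h : b 0 ≠ 0) (i : Fin 4)
    (hc : ‖b0 0 * b i - b0 i * b 0‖ ≤ ρ * ‖b0 i * b 0‖) : ‖symY b0 b i‖ ≤ ρ := by
  have h1 : b0 i * b 0 ≠ 0 := mul_ne_zero (h0 i) h
  rw [symY, div_sub_one h1, norm_div, div_le_iff₀ (norm_pos_iff.mpr h1), mul_comm (b i)]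
  exact hc

theorem sym_scale {b0 b b' : Fin 4 → ℂ} (h0 : ∀ i, b0 i ≠ 0) (h : b 0 ≠ 0) (h' : b' 0 ≠ 0)
    (i : Fin 4) : xi b0 b b' i * b0 i * b0 0 ^ 2 =
      (∏ j, b0 j) * b 0 * b' 0 * xi 1 (symY b0 b) (symY b0 b') i := by
  have h1 := sym_scale_aux b0 (symY b0 b) (symY b0 b') (b 0 / b0 0) (b' 0 / b0 0) i
  rw [← symY_eq h0 h, ← symY_eq h0 h'] at h1
  have h2 := h0 0
  rw [h1]
  field_simp

theorem sym_bound {β : Fin 3 → Fin 4 → ℂ} {M m T : ℝ} (hm : 0 < m) (hhi : ∀ r i, ‖β r i‖ ≤ M)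
    (hlo : ∀ r i, m ≤ ‖β r i‖) {ξ μ : ℂ} {i : Fin 4}
    (h : ξ * β 0 i * β 0 0 ^ 2 = (∏ j, β 0 j) * β 1 0 * β 2 0 * μ) (hμ : ‖μ‖ ≤ T) :
    ‖ξ‖ ≤ T * M ^ 5 / m ^ 2 := by
  have hM : 0 ≤ M := (norm_nonneg _).trans (hhi 0 0)
  have hi : β 0 i ≠ 0 := norm_pos_iff.mp (hm.trans_le (hlo 0 i))
  have h1 : ξ * β 0 0 ^ 2 = (∏ j : Fin 3, β 0 (i.succAbove j)) * β 1 0 * β 2 0 * μ := by
    rw [Fin.prod_univ_succAbove _ i] at h
    refine mul_right_cancel₀ hi ?_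
    linear_combination h
  have h2 : ‖∏ j : Fin 3, β 0 (i.succAbove j)‖ ≤ M ^ 3 := by
    rw [norm_prod]
    refine (prod_le_prod (fun _ _ => norm_nonneg _) fun j _ => hhi 0 _).trans ?_
    simp
  have h3 := congrArg norm h1
  rw [norm_mul, norm_mul, norm_mul, norm_mul, norm_pow] at h3
  rw [le_div_iff₀ (by positivity)]
  calc ‖ξ‖ * m ^ 2 ≤ ‖ξ‖ * ‖β 0 0‖ ^ 2 := by gcongr; exact hlo 0 0
    _ ≤ M ^ 3 * M * M * T := by
        rw [h3]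
        gcongr
        · exact hhi 1 0
        · exact hhi 2 0
    _ = T * M ^ 5 := by ring

theorem sym_far {K X : ℝ} {n θ : ℂ} (hK : 1 ≤ K) (hX : 4 * K ^ 2 ≤ X) (hθ : ‖θ‖ ≤ K)
    (hn : X ≤ K * ‖n‖) : X ≤ 2 * K * ‖n - θ‖ := by
  have h1 := norm_sub_norm_le n θ
  nlinarith

theorem sym_err {K X ρ : ℝ} {P Q R δ e : ℂ} (hK : 1 ≤ K) (hX : 4 * K ^ 2 ≤ X)
    (hρ : 1 ≤ X * ρ ^ 2) (hP : X ≤ 2 * K * ‖P‖) (hQ : X ≤ 2 * K * ‖Q‖) (hδ : ‖δ‖ ≤ 2 * K)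
    (hR : R = P + δ) (he : e * (P * Q) = (Q - R) * δ) : ‖e‖ ≤ 12 * K ^ 2 * ρ ^ 2 := by
  have hX0 : 0 < X := by nlinarith
  have hP2 : 2 * K ≤ ‖P‖ := by nlinarith
  have hR2 : ‖R‖ ≤ 2 * ‖P‖ := by
    rw [hR]
    linarith [norm_add_le P δ]
  have h1 := congrArg norm he
  rw [norm_mul, norm_mul, norm_mul] at h1
  have h2 : ‖Q - R‖ ≤ ‖Q‖ + 2 * ‖P‖ := by linarith [norm_sub_le Q R]
  have hP0 : 0 < ‖P‖ := by linarith
  have hQ0 : 0 < ‖Q‖ := by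
    by_contra h
    have : ‖Q‖ = 0 := le_antisymm (not_lt.mp h) (norm_nonneg _)
    rw [this] at hQ
    linarith
  have h3 : ‖e‖ * (‖P‖ * ‖Q‖) ≤ (‖Q‖ + 2 * ‖P‖) * (2 * K) := by
    rw [h1]; gcongr
  have h4 : 1 ≤ 2 * K * ‖P‖ * ρ ^ 2 := hρ.trans (by gcongr)
  have h5 : 1 ≤ 2 * K * ‖Q‖ * ρ ^ 2 := hρ.trans (by gcongr)
  refine le_of_mul_le_mul_right (h3.trans ?_) (mul_pos hP0 hQ0)
  have h6 := mul_le_mul_of_nonneg_left h4 hQ0.le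
  have h7 := mul_le_mul_of_nonneg_left h5 hP0.le
  nlinarith

theorem sym_z {K ρ : ℝ} {y z e : ℂ} (hK : 1 ≤ K) (hρ : ρ ≤ 1 / 2) (hy : ‖y‖ ≤ ρ)
    (he : ‖e‖ ≤ 12 * K ^ 2 * ρ ^ 2) (h : (1 + z) * (1 + y) ^ 2 = 1 + e) :
    ‖z + 2 * y‖ ≤ 64 * K ^ 2 * ρ ^ 2 := by
  have h0 : 0 ≤ ρ := (norm_nonneg _).trans hy
  have h1 : (z + 2 * y) * (1 + y) ^ 2 = e + y ^ 2 * (3 + 2 * y) := by linear_combination h
  have h2 : 1 / 2 ≤ ‖1 + y‖ := by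
    have := norm_sub_norm_le (1 : ℂ) (-y)
    rw [norm_one, norm_neg, sub_neg_eq_add] at this
    linarith
  have h3 : ‖3 + 2 * y‖ ≤ 4 := by
    have := norm_add_le (3 : ℂ) (2 * y)
    rw [norm_mul] at this
    simp only [Complex.norm_ofNat] at this
    linarith
  have h4 : ‖e + y ^ 2 * (3 + 2 * y)‖ ≤ 12 * K ^ 2 * ρ ^ 2 + ρ ^ 2 * 4 := by
    refine (norm_add_le _ _).trans (add_le_add he ?_)
    rw [norm_mul, norm_pow]
    gcongr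
  rw [← h1, norm_mul, norm_pow] at h4
  have h5 : ‖z + 2 * y‖ * (1 / 2) ^ 2 ≤ ‖z + 2 * y‖ * ‖1 + y‖ ^ 2 := by gcongr
  have h6 : ρ ^ 2 * 1 ≤ ρ ^ 2 * K ^ 2 := by gcongr; nlinarith
  nlinarith

theorem sym_minor (K : ℝ) (hK : 1 ≤ K) : ∃ C : ℝ, 1 ≤ C ∧ ∀ (X ρ : ℝ) (θ : Fin 4 → ℂ) (m : ℂ)
    (n : Fin 3 → ℂ) (α β : Fin 3 → Fin 4 → ℂ), 0 < ρ → C * ρ ≤ 1 → 1 ≤ X * ρ ^ 2 →
    (∀ i, ‖θ i‖ ≤ K) → (∀ r, X ≤ K * ‖n r‖) → m ≠ 0 → (∀ r i, β r i ≠ 0) →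
    (∀ r i, α r i * β r i ^ 2 = m * (n r - θ i)) →
    (∀ r i j, ‖β 0 i * β r j - β 0 j * β r i‖ ≤ ρ * ‖β 0 j * β r i‖) →
    ∃ Mα Mβ : Fin 4 → ℂ, ∀ i,
      xi (β 0) (β 1) (β 2) i * β 0 i * β 0 0 ^ 2 = (∏ j, β 0 j) * β 1 0 * β 2 0 * Mβ i ∧
      xi (α 0) (α 1) (α 2) i * α 0 i * α 0 0 ^ 2 = (∏ j, α 0 j) * α 1 0 * α 2 0 * Mα i ∧
      ‖Mβ i‖ ≤ C * ρ ^ 2 ∧ ‖Mα i‖ ≤ C * ρ ^ 2 ∧ ‖Mα i - 4 * Mβ i‖ ≤ C * ρ ^ 3 := by
  have hK2 : 1 ≤ K ^ 2 := one_le_pow₀ hK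
  refine ⟨1920 * K ^ 2, by linarith, fun X ρ θ m n α β hρ hC hX hθ hn hm hβ heq hcl => ?_⟩
  have hρ1 : 64 * K ^ 2 * ρ ≤ 1 := by nlinarith
  have hρ2 : ρ ≤ 1 / 2 := by nlinarith
  have hX4 : 4 * K ^ 2 ≤ X := by
    have h1 : 4 * K ^ 2 * ρ ^ 2 ≤ X * ρ ^ 2 := by nlinarith
    exact le_of_mul_le_mul_right h1 (by positivity)
  have hfar : ∀ r i, X ≤ 2 * K * ‖n r - θ i‖ := fun r i => sym_far hK hX4 (hθ i) (hn r)
  have hne : ∀ r i, n r - θ i ≠ 0 := fun r i h => by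
    have := hfar r i
    rw [h, norm_zero] at this
    linarith
  have hα : ∀ r i, α r i ≠ 0 := fun r i h => by
    have := heq r i
    rw [h, zero_mul] at this
    exact mul_ne_zero hm (hne r i) this.symm
  have hy : ∀ r i, ‖symY (β 0) (β r) i‖ ≤ ρ := fun r i => symY_le (hβ 0) (hβ r 0) i (hcl r 0 i)
  have hzy : ∀ r i, ‖symY (α 0) (α r) i + 2 * symY (β 0) (β r) i‖ ≤ 64 * K ^ 2 * ρ ^ 2 := by
    intro r i
    refine sym_z hK hρ2 (hy r i)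
      (e := (1 + symY (α 0) (α r) i) * (1 + symY (β 0) (β r) i) ^ 2 - 1) ?_ (by ring)
    refine sym_err hK hX4 hX (hfar 0 i) (hfar r 0) (δ := θ i - θ 0) (R := n 0 - θ 0)
      (by linarith [norm_sub_le (θ i) (θ 0), hθ i, hθ 0]) (by ring) ?_
    have h1 : (1 + symY (α 0) (α r) i) * (1 + symY (β 0) (β r) i) ^ 2 =
        (α r i * β r i ^ 2) * (α 0 0 * β 0 0 ^ 2) / ((α 0 i * β 0 i ^ 2) * (α r 0 * β r 0 ^ 2)) := by
      have := hα 0 i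
      have := hα r 0
      have := hβ 0 i
      have := hβ r 0
      simp only [symY, add_sub_cancel]
      field_simp
    have h2 := hne 0 i
    have h3 := hne r 0
    rw [h1, heq, heq, heq, heq]
    field_simp
    ring
  have hz : ∀ r i, ‖symY (α 0) (α r) i‖ ≤ 3 * ρ := fun r i => by
    have h1 := norm_sub_le (symY (α 0) (α r) i + 2 * symY (β 0) (β r) i) (2 * symY (β 0) (β r) i)
    rw [add_sub_cancel_right, norm_mul, Complex.norm_ofNat] at h1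
    nlinarith [hzy r i, hy r i]
  refine ⟨xi 1 (symY (α 0) (α 1)) (symY (α 0) (α 2)), xi 1 (symY (β 0) (β 1)) (symY (β 0) (β 2)),
    fun i => ⟨sym_scale (hβ 0) (hβ 1 0) (hβ 2 0) i, sym_scale (hα 0) (hα 1 0) (hα 2 0) i,
      (sym_xi_le (hy 1) (hy 2) i).trans (by nlinarith), (sym_xi_le (hz 1) (hz 2) i).trans
        (by nlinarith), ?_⟩⟩
  rw [sym_bilin]
  have h1 := sym_xi_le (hzy 1) (hz 2) i
  have h2 := sym_xi_le (u := fun j => -2 * symY (β 0) (β 1) j) (p := 2 * ρ) (fun j => by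
    rw [norm_mul, norm_neg, Complex.norm_ofNat]
    linarith [hy 1 j]) (hzy 2) i
  refine (norm_add_le _ _).trans ((add_le_add h1 h2).trans (le_of_eq ?_))
  ring

theorem xi_norm_le (ρ M m : ℝ) (hρ : 0 ≤ ρ) (hm : 0 < m) (β : Fin 3 → Fin 4 → ℂ)
    (hhi : ∀ r i, ‖β r i‖ ≤ M) (hlo : ∀ r i, m ≤ ‖β r i‖)
    (hcl : ∀ r i j, ‖β 0 i * β r j - β 0 j * β r i‖ ≤ ρ * ‖β 0 j * β r i‖) (i : Fin 4) :
    ‖xi (β 0) (β 1) (β 2) i‖ ≤ 6 * ρ ^ 2 * M ^ 5 / m ^ 2 := by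
  have _ := hρ
  have hβ : ∀ r i, β r i ≠ 0 := fun r i => norm_pos_iff.mp (hm.trans_le (hlo r i))
  have hy : ∀ r i, ‖symY (β 0) (β r) i‖ ≤ ρ := fun r i => symY_le (hβ 0) (hβ r 0) i (hcl r 0 i)
  refine sym_bound hm hhi hlo (sym_scale (hβ 0) (hβ 1 0) (hβ 2 0) i)
    ((sym_xi_le (hy 1) (hy 2) i).trans (le_of_eq ?_))
  ring

theorem det_four_le (ρ M m : ℝ) (hρ : 0 ≤ ρ) (hm : 0 < m) (β : Fin 4 → Fin 4 → ℂ)
    (hhi : ∀ r i, ‖β r i‖ ≤ M) (hlo : ∀ r i, m ≤ ‖β r i‖)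
    (hcl : ∀ r i j, ‖β 0 i * β r j - β 0 j * β r i‖ ≤ ρ * ‖β 0 j * β r i‖) :
    ‖(Matrix.of β).det‖ ≤ 24 * ρ ^ 3 * M ^ 7 / m ^ 3 := by
  have hβ : ∀ r i, β r i ≠ 0 := fun r i => norm_pos_iff.mp (hm.trans_le (hlo r i))
  have hy : ∀ r i, ‖symY (β 0) (β r) i‖ ≤ ρ := fun r i => symY_le (hβ 0) (hβ r 0) i (hcl r 0 i)
  have hM : 0 ≤ M := (norm_nonneg _).trans (hhi 0 0)
  set Y : Matrix (Fin 4) (Fin 4) ℂ :=
    Matrix.of ![1, symY (β 0) (β 1), symY (β 0) (β 2), symY (β 0) (β 3)] with hY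
  have h0 : ∀ j, symY (β 0) (β 0) j = 0 := fun j => by
    rw [symY, div_self (mul_ne_zero (hβ 0 j) (hβ 0 0)), sub_self]
  have h1 : (Matrix.of fun r j => 1 + symY (β 0) (β r) j).det = Y.det := by
    refine Matrix.det_eq_of_forall_row_eq_smul_add_const ![0, 1, 1, 1] 0 rfl fun r j => ?_
    fin_cases r <;> simp [hY, h0, add_comm]
  have h2 : Matrix.of β = Matrix.of fun r j => β r 0 / β 0 0 *
      (Matrix.of fun r j => β 0 j * (Matrix.of fun r j => 1 + symY (β 0) (β r) j) r j) r j := by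
    ext r j
    have := congrFun (symY_eq (hβ 0) (hβ r 0)) j
    simpa only [Matrix.of_apply, mul_assoc] using this
  have h3 := sym_det_le Y ![1, ρ, ρ, ρ] fun r j => by fin_cases r <;> simp [hY, hy]
  have h4 : ∀ r, ‖β r 0 / β 0 0‖ ≤ M / m := fun r => by
    rw [norm_div]
    exact div_le_div₀ hM (hhi r 0) hm (hlo 0 0)
  rw [h2, Matrix.det_mul_column, Matrix.det_mul_row, h1, Fin.prod_univ_four, Fin.prod_univ_four,
    div_self (hβ 0 0), one_mul]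
  simp only [norm_mul]
  calc _ ≤ M / m * (M / m) * (M / m) * (M * M * M * M * (24 * ρ ^ 3)) := by
        gcongr
        · exact h4 1
        · exact h4 2
        · exact h4 3
        · exact hhi 0 0
        · exact hhi 0 1
        · exact hhi 0 2
        · exact hhi 0 3
        · refine h3.trans (le_of_eq ?_)
          simp [Fin.prod_univ_four, Nat.factorial]
          ring_nf
    _ = _ := by field_simp

end Vale.Agent.P018
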