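import Vale.Agent.P018.FatEmpty
import Vale.Agent.P018.Alpha
import Vale.Agent.P018.Dbl

/-!
A small cell with many collinear points lies on a special line.

Proof of `span_of_xi`. Let `wedge u v i j ≠ 0`. Solve `z i = s u i + t v i`, `z j = s u j + t v j`
by Cramer's rule over `ℚ`. For a third index `l`, the vanishing of the `3 × 3` minor on the columns
`i, j, l` (it is `± xi u v z m` for the fourth index `m`) gives `z l = s u l + t v l`.
(For instance prove `∀ i j l, z i * wedge u v j l + z j * wedge u v l i + z l * wedge u v i j = 0`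
by `fin_cases` on the three indices from the four equations `xi u v z m = 0` expanded by
`Matrix.det_succ_row_zero`, `Fin.sum_univ_succ`.)

Proof of `exists_five`: greedy choice; each chosen point excludes at most `K` points.

Proof of `pw_ne_of_gal`. Write `p = pw θ P`. An automorphism `τ` of `L` with `τ (θ a) = θ (π a)`
maps `p a b` to `p (π a) (π b)` (`pw` is a polynomial in `θ a, θ b` with integer coefficients).
The relation `a ~ b ↔ p a b = 0` is an equivalence relation on `Fin 4` (`htr`, antisymmetry), it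
is not the full relation, and it is invariant under the permutations `π` coming from automorphisms,
which act transitively (`GalRoots.trans` and `GalRoots.perm`, `Roots.inj`). So every index has a
partner `a' ≠ a` with `a ~ a'`. If `i ~ j`, `i ≠ j`, let `k, l` be the two other indices. If `i ~ k`
then the partner of `l` is one of `i, j, k` and all indices are equivalent. So `¬ i ~ k`,
`¬ j ~ k`, and the partner of `k` must be `l`.

Proof of `thin_special`. Choose five points `z r ∈ Z` with pairwise nonzero `wedge` (`exists_five`,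
`Cfg.mult`). By `span_of_xi` and `vec_eq`, `vec θ (b (z r)) = s r * U + t r * V` with
`U = vec θ (b x₁)`, `V = vec θ (b x₂)`, rational `s r, t r`, and `s r t r' ≠ t r s r'`. All
`xi (b x) (b x') (b x'')` with `x, x', x'' ∈ Z` vanish (the three vectors lie in a plane), so
`alpha_flat` gives `xi (a x) (a x') (a x'') = 0`. Also `wedge (a x₁) (a x₂) ≠ 0`: otherwise
`close_of_alpha` gives `Close (C / X)`, `C / X ≤ C ρ ^ 2`, and `wedge_eq_zero_of_close` gives
`wedge (b x₁) (b x₂) = 0`. So `vec θ (a (z r)) = s' r * U' + t' r * V'` with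
`U' = vec θ (a x₁)`, `V' = vec θ (a x₂)`, `(s' r, t' r) ≠ 0` (`Cfg.a_ne`), and `dbl_quartic`
applies (`Cfg.eqnL`). With `p i j = U i V j - U j V i`, the image of `pw θ (wedge (b x₁) (b x₂)) i j`
(`pw_wedge`): if some `p i j = 0`, `i ≠ j`, then `pw_ne_of_gal` and `dbl_degenerate` give
`U' i V' j = U' j V' i`; together with `U i V j = U j V i` and the equations at `x₁, x₂` this gives
`(x₁ - θ i) (x₂ - θ j) = (x₁ - θ j) (x₂ - θ i)`, so `(x₁ - x₂) (θ i - θ j) = 0`, which is impossible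
as `x₁ ≠ x₂`. So all `p i j ≠ 0` and `dbl_special` gives `Quart`; transfer from `L` to `𝓞 L` by
injectivity of the coercion.
-/

namespace Vale.Agent.P018

open Polynomial NumberField Finset

variable {L : Type} [Field L] [NumberField L] {g : ℤ[X]} {θ : Fin 4 → 𝓞 L}

theorem thin_xi {R : Type} [CommRing R] (u v z : Fin 4 → R) :
    xi u v z 0 = u 1 * (v 2 * z 3 - v 3 * z 2) - u 2 * (v 1 * z 3 - v 3 * z 1) +
      u 3 * (v 1 * z 2 - v 2 * z 1) ∧
    xi u v z 1 = -(u 0 * (v 2 * z 3 - v 3 * z 2) - u 2 * (v 0 * z 3 - v 3 * z 0) +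
      u 3 * (v 0 * z 2 - v 2 * z 0)) ∧
    xi u v z 2 = u 0 * (v 1 * z 3 - v 3 * z 1) - u 1 * (v 0 * z 3 - v 3 * z 0) +
      u 3 * (v 0 * z 1 - v 1 * z 0) ∧
    xi u v z 3 = -(u 0 * (v 1 * z 2 - v 2 * z 1) - u 1 * (v 0 * z 2 - v 2 * z 0) +
      u 2 * (v 0 * z 1 - v 1 * z 0)) := by
  refine ⟨?_, ?_, ?_, ?_⟩ <;>
    simp [xi, Matrix.det_succ_row_zero, Fin.sum_univ_succ, Fin.succAbove, Pi.single_apply] <;>
    ring

theorem thin_jacobi (u v z : Fin 4 → ℤ) (hz : xi u v z = 0) (i j l : Fin 4) :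
    z i * wedge u v j l + z j * wedge u v l i + z l * wedge u v i j = 0 := by
  obtain ⟨h0, h1, h2, h3⟩ := thin_xi u v z
  rw [hz, Pi.zero_apply] at h0 h1 h2 h3
  unfold wedge
  fin_cases i <;> fin_cases j <;> fin_cases l <;>
    simp only [Fin.zero_eta, Fin.mk_one, Fin.reduceFinMk, Fin.isValue] <;> linarith

theorem span_of_xi (u v z : Fin 4 → ℤ) (h : wedge u v ≠ 0) (hz : xi u v z = 0) :
    ∃ s t : ℚ, ∀ i, (z i : ℚ) = s * u i + t * v i := by
  obtain ⟨i, hi⟩ := Function.ne_iff.1 h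
  obtain ⟨j, hj⟩ := Function.ne_iff.1 hi
  have hw : (wedge u v i j : ℚ) ≠ 0 := by exact_mod_cast hj
  refine ⟨(z i * v j - z j * v i) / wedge u v i j, (u i * z j - u j * z i) / wedge u v i j,
    fun l => ?_⟩
  have h1 := congrArg (Int.cast : ℤ → ℚ) (thin_jacobi u v z hz i j l)
  field_simp
  simp only [wedge] at h1 ⊢
  push_cast at h1 ⊢
  linear_combination h1

theorem xi_eq_zero_of_span (u v x y z : Fin 4 → ℤ) (hx : ∃ s t : ℚ, ∀ i, (x i : ℚ) = s * u i + t * v i)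
    (hy : ∃ s t : ℚ, ∀ i, (y i : ℚ) = s * u i + t * v i)
    (hz : ∃ s t : ℚ, ∀ i, (z i : ℚ) = s * u i + t * v i) : xi x y z = 0 := by
  obtain ⟨s₁, t₁, h₁⟩ := hx
  obtain ⟨s₂, t₂, h₂⟩ := hy
  obtain ⟨s₃, t₃, h₃⟩ := hz
  obtain ⟨e0, e1, e2, e3⟩ := thin_xi x y z
  funext m
  refine Int.cast_injective (α := ℚ) ?_
  rw [Pi.zero_apply, Int.cast_zero]
  fin_cases m <;> simp only [Fin.zero_eta, Fin.mk_one, Fin.reduceFinMk, Fin.isValue]
  · rw [e0]; push_cast; simp only [h₁, h₂, h₃]; ring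
  · rw [e1]; push_cast; simp only [h₁, h₂, h₃]; ring
  · rw [e2]; push_cast; simp only [h₁, h₂, h₃]; ring
  · rw [e3]; push_cast; simp only [h₁, h₂, h₃]; ring

theorem thin_wedge_comm {d : ℕ} {u v : Fin d → ℤ} (h : wedge u v = 0) : wedge v u = 0 := by
  funext i j
  have := congrFun (congrFun h i) j
  simp only [wedge, Pi.zero_apply] at this ⊢
  linarith

theorem thin_greedy (Z : Finset ℤ) (b : ℤ → Fin 4 → ℤ) (K : ℝ) (hK0 : 0 ≤ K)
    (hK : ∀ x ∈ Z, ((Z.filter fun x' => wedge (b x) (b x') = 0).card : ℝ) ≤ K) (n : ℕ)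
    (hZ : n * K < Z.card) : ∃ z : Fin (n + 1) → ℤ, (∀ r, z r ∈ Z) ∧
      ∀ r r', r ≠ r' → wedge (b (z r)) (b (z r')) ≠ 0 := by
  induction n with
  | zero =>
    rw [Nat.cast_zero, zero_mul, Nat.cast_pos, Finset.card_pos] at hZ
    obtain ⟨x, hx⟩ := hZ
    exact ⟨fun _ => x, fun _ => hx, fun r r' h => absurd (Subsingleton.elim (α := Fin 1) r r') h⟩
  | succ n ih =>
    push_cast at hZ
    obtain ⟨z, hz, hw⟩ := ih (by nlinarith)
    have h1 : ((Finset.univ.biUnion fun r => Z.filter fun x' => wedge (b (z r)) (b x') = 0).card :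
        ℝ) ≤ (n + 1) * K := by
      refine (Nat.cast_le.2 Finset.card_biUnion_le).trans ?_
      push_cast
      refine (Finset.sum_le_sum fun r _ => hK _ (hz r)).trans (le_of_eq ?_)
      simp
    obtain ⟨x, hx, hx'⟩ := Finset.exists_mem_notMem_of_card_lt_card
      (Nat.cast_lt.1 (h1.trans_lt hZ))
    have h2 : ∀ r, wedge (b (z r)) (b x) ≠ 0 := fun r h =>
      hx' (Finset.mem_biUnion.2 ⟨r, Finset.mem_univ _, Finset.mem_filter.2 ⟨hx, h⟩⟩)
    refine ⟨Fin.cons x z, fun r => ?_, fun r r' h => ?_⟩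
    · exact Fin.cases hx hz r
    · induction r using Fin.cases with
      | zero =>
        induction r' using Fin.cases with
        | zero => exact absurd rfl h
        | succ r' => exact fun e => h2 r' (thin_wedge_comm e)
      | succ r =>
        induction r' using Fin.cases with
        | zero => exact h2 r
        | succ r' => exact hw r r' fun e => h (congrArg _ e)

theorem exists_five (Z : Finset ℤ) (b : ℤ → Fin 4 → ℤ) (K : ℝ) (hK0 : 0 ≤ K)
    (hK : ∀ x ∈ Z, ((Z.filter fun x' => wedge (b x) (b x') = 0).card : ℝ) ≤ K)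
    (hZ : 4 * K < Z.card) :
    ∃ z : Fin 5 → ℤ, (∀ r, z r ∈ Z) ∧ ∀ r r', r ≠ r' → wedge (b (z r)) (b (z r')) ≠ 0 :=
  thin_greedy Z b K hK0 hK 4 (by exact_mod_cast hZ)

theorem thin_rel (R : Fin 4 → Fin 4 → Prop) (hs : ∀ a b, R a b → R b a)
    (ht : ∀ a b c, R a b → R b c → R a c) (hp : ∀ a, ∃ a', a' ≠ a ∧ R a a')
    (hn : ∃ a b, ¬ R a b) (i j : Fin 4) (hij : i ≠ j) (h : R i j) :
    ∃ k l, i ≠ k ∧ i ≠ l ∧ j ≠ k ∧ j ≠ l ∧ k ≠ l ∧ ¬ R i k ∧ ¬ R j k ∧ R l k := by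
  have hd : ∀ i j : Fin 4, i ≠ j → ∃ k l, i ≠ k ∧ i ≠ l ∧ j ≠ k ∧ j ≠ l ∧ k ≠ l ∧
      ∀ m, m = i ∨ m = j ∨ m = k ∨ m = l := by decide
  obtain ⟨k, l, h1, h2, h3, h4, h5, h6⟩ := hd i j hij
  have hii : R i i := ht _ _ _ h (hs _ _ h)
  have hik : ¬ R i k := by
    intro hik
    obtain ⟨l', hl, hl'⟩ := hp l
    have hil : R i l := by
      refine ht _ l' _ ?_ (hs _ _ hl')
      rcases h6 l' with e | e | e | e
      · rw [e]; exact hii
      · rw [e]; exact h
      · rw [e]; exact hik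
      · exact absurd e hl
    have hall : ∀ m, R i m := by
      intro m
      rcases h6 m with e | e | e | e <;> rw [e] <;> assumption
    obtain ⟨a, b, hab⟩ := hn
    exact hab (ht _ _ _ (hs _ _ (hall a)) (hall b))
  have hjk : ¬ R j k := fun e => hik (ht _ _ _ h e)
  refine ⟨k, l, h1, h2, h3, h4, h5, hik, hjk, ?_⟩
  obtain ⟨k', hk, hk'⟩ := hp k
  rcases h6 k' with e | e | e | e
  · exact absurd (hs _ _ (e ▸ hk')) hik
  · exact absurd (hs _ _ (e ▸ hk')) hjk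
  · exact absurd e hk
  · exact hs _ _ (e ▸ hk')

theorem thin_coe_pw {d : ℕ} (θ : Fin d → 𝓞 L) (P : Fin d → Fin d → ℤ) (i j : Fin d) :
    (pw θ P i j : L) = ∑ a, ∑ b, (P a b : L) * (θ i : L) ^ (a : ℕ) * (θ j : L) ^ (b : ℕ) := by
  change algebraMap (𝓞 L) L (pw θ P i j) = _
  simp only [pw, map_sum, map_mul, map_pow, map_intCast]

theorem pw_ne_of_gal (hθ : GalRoots g θ) (P : Fin 4 → Fin 4 → ℤ)
    (hanti : ∀ i j, pw θ P i j = -pw θ P j i)
    (htr : ∀ i j k, pw θ P i j = 0 → pw θ P j k = 0 → pw θ P i k = 0)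
    (hP : ∃ i j, pw θ P i j ≠ 0) (i j : Fin 4) (hij : i ≠ j) (h : pw θ P i j = 0) :
    ∃ k l, i ≠ k ∧ i ≠ l ∧ j ≠ k ∧ j ≠ l ∧ k ≠ l ∧ pw θ P i k ≠ 0 ∧ pw θ P j k ≠ 0 ∧
      pw θ P l k = 0 := by
  refine thin_rel (fun a b => pw θ P a b = 0) (fun a b e => by rw [hanti, e, neg_zero]) htr
    (fun a => ?_) hP i j hij h
  obtain ⟨σ, hσ⟩ := hθ.trans i a
  obtain ⟨π, hπ⟩ := hθ.perm σ
  have h1 : π i = a := hθ.inj (RingOfIntegers.ext ((hπ i).symm.trans hσ))
  refine ⟨π j, fun e => hij (π.injective (h1.trans e.symm)), RingOfIntegers.ext ?_⟩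
  have h2 := congrArg (fun z : 𝓞 L => σ (z : L)) h
  simp only [thin_coe_pw, map_sum, map_mul, map_pow, map_intCast, hπ, h1] at h2
  rw [thin_coe_pw, h2]
  simp

theorem thin_vec_span {d : ℕ} (θ : Fin d → 𝓞 L) {u v z : Fin d → ℤ} {s t : ℚ}
    (h : ∀ i, (z i : ℚ) = s * u i + t * v i) (j : Fin d) :
    vec θ z j = (s : L) * vec θ u j + (t : L) * vec θ v j := by
  simp only [vec_eq, Finset.mul_sum, ← Finset.sum_add_distrib]
  refine Finset.sum_congr rfl fun i _ => ?_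
  have h1 := congrArg (Rat.cast : ℚ → L) (h i)
  push_cast at h1
  rw [h1]
  ring

theorem thin_coe_pw_wedge {d : ℕ} (θ : Fin d → 𝓞 L) (u v : Fin d → ℤ) (i j : Fin d) :
    (pw θ (wedge u v) i j : L) = vec θ u i * vec θ v j - vec θ u j * vec θ v i := by
  rw [pw_wedge]
  rfl

theorem thin_special (hθ : GalRoots g θ) (K : ℝ) : ∃ C : ℝ, 1 ≤ C ∧ ∀ (X B : ℝ) (S : Finset ℤ)
    (a b : ℤ → Fin 4 → ℤ) (c : ℤ) (ρ : ℝ), Cfg θ 2 K X B S a b c → 0 < ρ → 1 ≤ X * ρ ^ 2 →
    C * B * ρ ≤ 1 → C * (X / B ^ 2) * ρ ≤ 1 → ∀ Z ⊆ S,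
    (∀ x ∈ Z, ∀ x' ∈ Z, Close ρ (vec θ (b x)) (vec θ (b x'))) → 4 * K < Z.card →
    ∀ x₁ ∈ Z, ∀ x₂ ∈ Z, wedge (b x₁) (b x₂) ≠ 0 → (∀ x ∈ Z, xi (b x₁) (b x₂) (b x) = 0) →
    Special θ (wedge (b x₁) (b x₂)) := by
  obtain ⟨Cf, hCf, hf⟩ := alpha_flat hθ.toRoots K
  obtain ⟨Ca, hCa, ha⟩ := close_of_alpha hθ.toRoots 2 one_le_two K
  have hK2 : 0 ≤ Ca * K ^ 2 := by positivity
  refine ⟨Cf + Ca + Ca * K ^ 2, by linarith, ?_⟩
  intro X B S a b c ρ hS hρ hX hB hA Z hZ hcl hcard x₁ hx₁ x₂ hx₂ hw hxi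
  have h := hS.sub hZ
  have hB1 := h.one_le_B
  have hX1 := h.one_le_X
  have hK1 := h.one_le_K
  generalize hC : Cf + Ca + Ca * K ^ 2 = C at hB hA
  have hC1 : Cf ≤ C := by linarith
  have hC2 : Ca ≤ C := by linarith
  have hC3 : Ca * K ^ 2 < C := by linarith
  have hC0 : 1 ≤ C := by linarith
  have hρ1 : C * ρ ≤ 1 := by
    have : C * ρ * 1 ≤ C * ρ * B := mul_le_mul_of_nonneg_left hB1 (by positivity)
    linarith
  -- five points on the line
  obtain ⟨z, hz, hzw⟩ := exists_five Z b K (by linarith) h.mult hcard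
  choose s t hst using fun r => span_of_xi _ _ _ hw (hxi (z r) (hz r))
  have hst' : ∀ r r', r ≠ r' → (s r : L) * (t r' : L) ≠ (t r : L) * (s r' : L) := by
    intro r r' hr e
    have e' : s r * t r' = t r * s r' := by exact_mod_cast e
    refine hzw r r' hr ?_
    funext i j
    refine Int.cast_injective (α := ℚ) ?_
    simp only [wedge, Pi.zero_apply]
    push_cast
    simp only [hst]
    linear_combination ((b x₁ i : ℚ) * b x₂ j - b x₁ j * b x₂ i) * e'
  -- the cofactors are collinear too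
  have hwa : wedge (a x₁) (a x₂) ≠ 0 := by
    intro e
    have h1 : Ca ≤ X := by
      have h2 : (C * ρ) ^ 2 ≤ 1 := pow_le_one₀ (by positivity) hρ1
      have h3 : C ^ 2 * 1 ≤ C ^ 2 * (X * ρ ^ 2) := mul_le_mul_of_nonneg_left hX (by positivity)
      have h4 : X * (C * ρ) ^ 2 ≤ X * 1 := mul_le_mul_of_nonneg_left h2 (by positivity)
      nlinarith
    have h2 : ρ ≤ Ca⁻¹ := by
      rw [← one_div, le_div_iff₀ (by linarith)]
      nlinarith
    have h3 := ha X B Z a b c h h1 x₁ hx₁ x₂ hx₂ e ((hcl x₁ hx₁ x₂ hx₂).mono h2)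
    refine hw (wedge_eq_zero_of_close hθ.toRoots _ _ _ (K * B) (by positivity) h3
      (h.b_hi x₁ hx₁) (h.b_hi x₂ hx₂) ?_)
    have h4 : Ca / X ≤ Ca * ρ ^ 2 := by
      rw [div_le_iff₀ (by linarith)]
      nlinarith
    have h5 : (C * B * ρ) ^ 2 ≤ 1 := pow_le_one₀ (by positivity) hB
    have h6 : C * (B * ρ) ^ 2 ≤ (C * B * ρ) ^ 2 := by
      have : C * (B * ρ) ^ 2 * 1 ≤ C * (B * ρ) ^ 2 * C :=
        mul_le_mul_of_nonneg_left hC0 (by positivity)
      linarith [show (C * B * ρ) ^ 2 = C * (B * ρ) ^ 2 * C by ring]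
    have h7 : Ca * K ^ 2 * (B * ρ) ^ 2 < C * (B * ρ) ^ 2 :=
      mul_lt_mul_of_pos_right hC3 (by positivity)
    have h8 : Ca / X * (K * B) ^ 2 ≤ Ca * ρ ^ 2 * (K * B) ^ 2 :=
      mul_le_mul_of_nonneg_right h4 (by positivity)
    linarith [show Ca * ρ ^ 2 * (K * B) ^ 2 = Ca * K ^ 2 * (B * ρ) ^ 2 by ring]
  have hxa : ∀ r, xi (a x₁) (a x₂) (a (z r)) = 0 := fun r =>
    hf X B Z a b c ρ h hρ hX ((mul_le_mul_of_nonneg_right hC1 hρ.le).trans hρ1)
      (le_trans (by gcongr) hA) x₁ hx₁ x₂ hx₂ (z r) (hz r) (hcl _ hx₁ _ hx₂) (hcl _ hx₁ _ (hz r))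
      (hxi _ (hz r))
  choose s' t' hst₂ using fun r => span_of_xi _ _ _ hwa (hxa r)
  have hinj : Function.Injective fun j => (θ j : L) := RingOfIntegers.coe_injective.comp hθ.inj
  have hR : ∀ r, ∑ i, ∑ j, dblC (fun j => (θ j : L)) (vec θ (a x₁)) (vec θ (a x₂)) i j *
      vec θ (b (z r)) i ^ 2 * vec θ (b (z r)) j ^ 2 = 0 := fun r =>
    dbl_quartic _ hinj _ _ (vec θ (a (z r))) _ ((c : L) ^ 2) (z r) (s' r) (t' r) (by
      by_contra e
      rw [not_or, not_not, not_not] at e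
      refine h.a_ne (hz r) 0 ?_
      rw [thin_vec_span θ (hst₂ r), e.1, e.2, zero_mul, zero_mul, add_zero])
      (thin_vec_span θ (hst₂ r)) (h.eqnL (hz r))
  have hp := thin_coe_pw_wedge θ (b x₁) (b x₂)
  have hcoe : ∀ y : 𝓞 L, (y : L) = 0 ↔ y = 0 := fun y => by norm_cast
  have hne : ∀ i j, i ≠ j → pw θ (wedge (b x₁) (b x₂)) i j ≠ 0 := by
    intro i j hij e
    obtain ⟨k, l, h1, h2, h3, h4, h5, h6, h7, h8⟩ := pw_ne_of_gal hθ _
      (fun i j => by rw [pw_wedge, pw_wedge]; ring)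
      (fun i j k e1 e2 => by
        rw [← hcoe, hp] at e1 e2 ⊢
        refine mul_left_cancel₀ (h.b_ne hx₁ j) ?_
        linear_combination vec θ (b x₁) k * e1 + vec θ (b x₁) i * e2)
      (by
        by_contra e1
        refine hw ((wedge_eq_zero_iff hθ.toRoots _ _).2 fun i j => ?_)
        rw [← sub_eq_zero, ← hp, hcoe]
        by_contra e2
        exact e1 ⟨i, j, e2⟩) i j hij e
    have h9 := dbl_degenerate _ hinj _ _ _ _ _ hp (fun r => vec θ (b (z r))) (fun r => s r)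
      (fun r => t r) (fun r => thin_vec_span θ (hst r)) (fun r => h.b_ne (hz r)) hst' hR
      i j k l hij h1 h2 h3 h4 h5 ((hcoe _).not.2 h6) ((hcoe _).not.2 h7) ((hcoe _).2 h8)
    rw [← hcoe, hp, sub_eq_zero] at e
    have e1 := h.eqnL hx₁ i
    have e2 := h.eqnL hx₁ j
    have e3 := h.eqnL hx₂ i
    have e4 := h.eqnL hx₂ j
    have e5 : (c : L) ^ 2 * ((x₁ : L) - θ i) * ((c : L) ^ 2 * ((x₂ : L) - θ j)) =
        (c : L) ^ 2 * ((x₁ : L) - θ j) * ((c : L) ^ 2 * ((x₂ : L) - θ i)) := by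
      rw [← e1, ← e2, ← e3, ← e4, mul_mul_mul_comm, ← mul_pow, h9, e, mul_pow, mul_mul_mul_comm]
    have e6 : (c : L) ^ 4 * (((x₁ : L) - x₂) * ((θ i : L) - θ j)) = 0 := by
      linear_combination e5
    have hc : (c : L) ≠ 0 := by exact_mod_cast h.c_ne
    rcases mul_eq_zero.1 ((mul_eq_zero.1 e6).resolve_left (pow_ne_zero _ hc)) with e7 | e7
    · have e8 : x₁ = x₂ := by exact_mod_cast sub_eq_zero.1 e7
      refine hw ?_
      funext i j
      rw [e8, wedge, mul_comm, sub_self]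
      rfl
    · exact hij (hinj (sub_eq_zero.1 e7))
  refine ⟨fun i j => by simp only [wedge]; ring, hne, by simp only [pw_wedge]; ring, ?_⟩
  have hq := dbl_special _ hinj _ _ _ _ _ hp (fun i j hij => (hcoe _).not.2 (hne i j hij))
    (by
      by_contra e1
      refine hwa ((wedge_eq_zero_iff hθ.toRoots _ _).2 fun i j => ?_)
      by_contra e2
      exact e1 ⟨i, j, e2⟩)
    (fun r => vec θ (b (z r))) (fun r => s r) (fun r => t r)
    (fun r => thin_vec_span θ (hst r)) (fun r => h.b_ne (hz r)) hst' hR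
  unfold Quart at hq ⊢
  rw [← hcoe]
  change algebraMap (𝓞 L) L _ = 0
  simp only [map_add, map_sub, map_mul, map_pow]
  exact hq

end Vale.Agent.P018
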