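import Vale.Agent.P018.Cfg

/-!
The local input of the energy bound: a prime dividing the product of the norms exactly once must
divide a fixed integer.

Proof of `exists_unram`. Take `Δ = Ideal.absNorm (differentIdeal ℤ (𝓞 L))`, nonzero by
`differentIdeal_ne_bot` (or `Δ = |discr L|` with `NumberField.not_dvd_discr_iff_forall_mem`). If
`q ∈ Q ^ 2` then `Q ^ 2 ∣ (span {q}).map _`, so `Q ∣ differentIdeal`
(`pow_sub_one_dvd_differentIdeal` with `e = 2`), so `absNorm Q ∣ Δ`; `absNorm Q` divides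
`absNorm (span {q}) = q ^ n` and is not 1, so `q ∣ absNorm Q`.

Proof of `prime_dvd_of_char_eq`. Suppose `q ∤ Δ` and `q ∤ N₀`. Let `i₁` with `w i₁ ≠ 0`. Take a
maximal ideal `Q` of `𝓞 L` containing `q` (`q` is not a unit: `Ideal.exists_le_maximal`, or lying
over). Since `q ∣ N = ∏ (all the elements bev (x r) (θ i), bev (y r) (θ i))` and `Q` is prime, one
of the elements, say `bev z (θ i)` with `z = x r` or `z = y r`, lies in `Q`. Take `σ` with
`σ (θ i) = θ i₁` (`GalRoots.trans`), restrict it to a ring automorphism of `𝓞 L`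
(`RingOfIntegers.mapRingEquiv` or `galRestrict`) and put `Q' = σ Q`: a maximal ideal containing `q`
and `bev z (θ i₁)`. Let `v` be the valuation of the height one prime `Q'` on `L`
(`IsDedekindDomain.HeightOneSpectrum.valuation`; `valuation_lt_one_iff_mem`,
`intValuation_le_pow_iff_mem`-type lemmas), or argue with ideal membership. Write `N = q M` with
`q ∤ M`; then `M ∉ Q'` (Bezout) and `q ∉ Q' ^ 2`, so `N ∉ Q' ^ 2`. Hence no second factor of the
product lies in `Q'`: all the other elements have valuation 1, and `v (bev z (θ i₁)) < 1`. All the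
elements built from `x₀, y₀` divide `N₀`, which is prime to `q`, so they have valuation 1. Applying
`v` to the equation gives `v (bev z (θ i₁)) ^ (± w i₁) = 1`, which forces `w i₁ = 0`
(`zpow_eq_one_iff` in the ordered group with zero, the valuation is nonzero and less than 1).
It may be convenient to index the elements by `(Fin ℓ ⊕ Fin ℓ) × Fin d`.
-/

namespace Vale.Agent.P018

open Polynomial NumberField Finset

variable {d : ℕ} {L : Type} [Field L] [NumberField L] {g : ℤ[X]} {θ : Fin d → 𝓞 L}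

theorem unram_not_mem {R : Type} [CommRing R] {Q : Ideal R} (hQ : Q.IsPrime) {q : ℕ}
    (hq : q.Prime) (hm : (q : R) ∈ Q) {M : ℤ} (hM : ¬ (q : ℤ) ∣ M) : (M : R) ∉ Q := by
  intro h
  obtain ⟨u, v, huv⟩ := (Nat.prime_iff_prime_int.1 hq).irreducible.coprime_iff_not_dvd.2 hM
  refine hQ.ne_top ((Ideal.eq_top_iff_one Q).2 ?_)
  have e : (1 : R) = (u : R) * q + (v : R) * M := by
    have := congrArg (Int.cast : ℤ → R) huv
    push_cast at this
    exact this.symm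
  rw [e]
  exact Q.add_mem (Q.mul_mem_left _ hm) (Q.mul_mem_left _ h)

theorem exists_unram (L : Type) [Field L] [NumberField L] : ∃ Δ : ℕ, Δ ≠ 0 ∧
    ∀ q : ℕ, q.Prime → ¬ q ∣ Δ → ∀ Q : Ideal (𝓞 L), Q.IsPrime → (q : 𝓞 L) ∉ Q ^ 2 := by
  refine ⟨(discr L).natAbs, Int.natAbs_ne_zero.2 (discr_ne_zero L), fun q hq hΔ Q hQ h => ?_⟩
  have hp : Prime (q : ℤ) := Nat.prime_iff_prime_int.1 hq
  have hb : Ideal.span {(q : ℤ)} ≠ ⊥ := Ideal.span_singleton_eq_bot.not.2 hp.ne_zero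
  haveI : (Ideal.span {(q : ℤ)}).IsMaximal :=
    ((Ideal.span_singleton_prime hp.ne_zero).2 hp).isMaximal hb
  have h1 : Q ^ 2 ∣ (Ideal.span {(q : ℤ)}).map (algebraMap ℤ (𝓞 L)) := by
    rw [Ideal.dvd_iff_le, Ideal.map_span, Ideal.span_le]
    rintro _ ⟨z, rfl, rfl⟩
    simpa using h
  have h2 := pow_sub_one_dvd_differentIdeal_aux ℤ ℚ L Q two_ne_zero hb h1
  rw [show 2 - 1 = 1 from rfl, pow_one, Ideal.dvd_iff_le] at h2
  have h3 := h2 (Ideal.absNorm_mem (differentIdeal ℤ (𝓞 L)))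
  rw [absNorm_differentIdeal L (𝓞 L)] at h3
  refine unram_not_mem hQ hq (Ideal.pow_le_self two_ne_zero h) (M := ((discr L).natAbs : ℤ))
    (fun h4 => hΔ (Int.natCast_dvd_natCast.1 h4)) ?_
  rwa [Int.cast_natCast]

theorem unram_val {J : Type} [Fintype J] [DecidableEq J]
    (v : IsDedekindDomain.HeightOneSpectrum (𝓞 L)) (e e0 : J → 𝓞 L) (s : J → ℤ) (j0 : J)
    (h0 : e j0 ∈ v.asIdeal) (h2 : ∏ j, e j ∉ v.asIdeal ^ 2) (h1 : ∏ j, e0 j ∉ v.asIdeal)
    (h : ∏ j, (e j : L) ^ s j = ∏ j, (e0 j : L) ^ s j) : s j0 = 0 := by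
  have a1 : ∀ j, v.valuation L (e0 j : L) = 1 := fun j =>
    (v.valuation_eq_one_iff_notMem (K := L)).2 fun hj =>
      h1 (Ideal.mem_of_dvd _ (Finset.dvd_prod_of_mem _ (Finset.mem_univ j)) hj)
  have a2 : ∀ j, j ≠ j0 → v.valuation L (e j : L) = 1 := fun j hj =>
    (v.valuation_eq_one_iff_notMem (K := L)).2 fun hm => by
      refine h2 (Ideal.mem_of_dvd _ ?_ (sq v.asIdeal ▸ Ideal.mul_mem_mul hm h0))
      rw [← Finset.prod_pair hj]
      exact Finset.prod_dvd_prod_of_subset _ _ _ (Finset.subset_univ _)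
  have a3 : v.valuation L (e j0 : L) < 1 := (v.valuation_lt_one_iff_mem (K := L) _).2 h0
  have a4 : v.valuation L (e j0 : L) ≠ 0 := by
    rw [Valuation.ne_zero_iff]
    intro hz
    have hz' : e j0 = 0 := by exact_mod_cast hz
    exact h2 (by rw [Finset.prod_eq_zero (Finset.mem_univ j0) hz']; exact Ideal.zero_mem _)
  have a5 := congrArg (v.valuation L) h
  simp only [map_prod, map_zpow₀, a1, one_zpow, Finset.prod_const_one] at a5
  rw [Finset.prod_eq_single j0 (fun j _ hj => by rw [a2 j hj, one_zpow]) (by simp)] at a5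
  exact (zpow_eq_one_iff_right₀ zero_le' a3.ne).1 a5

theorem unram_prod (θ : Fin d → 𝓞 L) {ℓ : ℕ} (x y : Fin ℓ → Fin d → ℤ) :
    (∏ r, ∏ i, bev (x r) (θ i)) * ∏ r, ∏ i, bev (y r) (θ i) =
      ∏ j : (Fin ℓ ⊕ Fin ℓ) × Fin d, bev (Sum.elim x y j.1) (θ j.2) := by
  rw [Fintype.prod_prod_type, Fintype.prod_sum_type]
  rfl

theorem unram_prod_zpow (θ : Fin d → 𝓞 L) {ℓ : ℕ} (x y : Fin ℓ → Fin d → ℤ) (w : Fin d → ℤ) :
    ∏ i, ((∏ r, vec θ (x r) i) / ∏ r, vec θ (y r) i) ^ w i =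
      ∏ j : (Fin ℓ ⊕ Fin ℓ) × Fin d, ((bev (Sum.elim x y j.1) (θ j.2) : 𝓞 L) : L) ^
        (Sum.elim (fun _ => w j.2) (fun _ => -w j.2) j.1 : ℤ) := by
  rw [Fintype.prod_prod_type_right]
  refine Finset.prod_congr rfl fun i _ => ?_
  rw [Fintype.prod_sum_type, div_zpow, div_eq_mul_inv, ← zpow_neg, ← Finset.prod_zpow,
    ← Finset.prod_zpow]
  rfl

theorem prime_dvd_of_char_eq (hθ : GalRoots g θ) : ∃ Δ : ℕ, Δ ≠ 0 ∧
    ∀ (ℓ : ℕ) (x y x₀ y₀ : Fin ℓ → Fin d → ℤ) (N N₀ : ℤ) (w : Fin d → ℤ), w ≠ 0 →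
      (N : 𝓞 L) = (∏ r, ∏ i, bev (x r) (θ i)) * ∏ r, ∏ i, bev (y r) (θ i) →
      (N₀ : 𝓞 L) = (∏ r, ∏ i, bev (x₀ r) (θ i)) * ∏ r, ∏ i, bev (y₀ r) (θ i) →
      ∏ i, ((∏ r, vec θ (x r) i) / ∏ r, vec θ (y r) i) ^ w i =
        ∏ i, ((∏ r, vec θ (x₀ r) i) / ∏ r, vec θ (y₀ r) i) ^ w i →
      ∀ q : ℕ, q.Prime → (q : ℤ) ∣ N → ¬ (q : ℤ) ^ 2 ∣ N → q ∣ Δ ∨ (q : ℤ) ∣ N₀ := by
  obtain ⟨Δ, hΔ, hun⟩ := exists_unram L
  refine ⟨Δ, hΔ, fun ℓ x y x₀ y₀ N N₀ w hw hN hN₀ heq q hq hqN hq2 => ?_⟩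
  by_contra hcon
  rw [not_or] at hcon
  obtain ⟨i₁, hi₁⟩ := Function.ne_iff.1 hw
  rw [unram_prod] at hN hN₀
  rw [unram_prod_zpow, unram_prod_zpow] at heq
  have hp : Prime (q : ℤ) := Nat.prime_iff_prime_int.1 hq
  haveI : (Ideal.span {(q : ℤ)}).IsPrime := (Ideal.span_singleton_prime hp.ne_zero).2 hp
  obtain ⟨Q, hQ, hQq⟩ := Ideal.exists_ideal_over_prime_of_isIntegral_of_isDomain
    (S := 𝓞 L) (Ideal.span {(q : ℤ)}) (by
      rw [(RingHom.injective_iff_ker_eq_bot _).1 (FaithfulSMul.algebraMap_injective ℤ (𝓞 L))]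
      exact bot_le)
  have hqQ : (q : 𝓞 L) ∈ Q := by
    have h1 : (q : ℤ) ∈ Q.comap (algebraMap ℤ (𝓞 L)) := by
      rw [hQq]
      exact Ideal.mem_span_singleton_self _
    simpa using h1
  obtain ⟨M, hM⟩ := hqN
  have hNQ : (N : 𝓞 L) ∈ Q := by
    rw [hM, Int.cast_mul, Int.cast_natCast]
    exact Q.mul_mem_right _ hqQ
  rw [hN] at hNQ
  obtain ⟨⟨r, i⟩, -, hj⟩ := (Ideal.IsPrime.prod_mem_iff (hp := hQ)).1 hNQ
  obtain ⟨σ, hσ⟩ := hθ.trans i₁ i
  let φ : 𝓞 L →+* 𝓞 L := RingOfIntegers.mapRingHom (σ : L →+* L)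
  have hφ : φ (θ i₁) = θ i := RingOfIntegers.ext hσ
  have hq' : (q : 𝓞 L) ∈ Q.comap φ := by
    rw [Ideal.mem_comap, map_natCast]
    exact hqQ
  have hQ' : (Q.comap φ).IsPrime := Ideal.comap_isPrime φ Q
  let v : IsDedekindDomain.HeightOneSpectrum (𝓞 L) := ⟨Q.comap φ, hQ', fun h => by
    rw [h, Ideal.mem_bot] at hq'
    exact hq.ne_zero (by exact_mod_cast hq')⟩
  have hqM : ¬ (q : ℤ) ∣ M := fun h => hq2 (by rw [hM, sq]; exact mul_dvd_mul_left _ h)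
  have key := unram_val v _ _ _ (r, i₁) (by
      change φ (bev (Sum.elim x y r) (θ i₁)) ∈ Q
      rw [map_bev, hφ]
      exact hj)
    (by
      rw [← hN, hM, Int.cast_mul, Int.cast_natCast, mul_comm]
      intro h
      rcases Ideal.IsPrime.mul_mem_pow (hI := hQ') _ h with h | h
      · exact unram_not_mem hQ' hq hq' hqM h
      · exact hun q hq hcon.1 _ hQ' h)
    (by
      rw [← hN₀]
      exact unram_not_mem hQ' hq hq' hcon.2) heq
  rcases r with r | r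
  · exact hi₁ key
  · exact hi₁ (neg_eq_zero.1 key)

end Vale.Agent.P018
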