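import Vale.Agent.P018.Cfg

/-!
Linear algebra with the Vandermonde matrix `V j i = θ j ^ i` (`Matrix.vandermonde`), invertible
over `L` and over `ℂ` (after an embedding `σ`) since `θ` is injective (`Roots.inj`). There are
finitely many embeddings `σ : L →+* ℂ`, so the entries of the inverse matrices are bounded by one
constant. (`exists_vinv` in Slice.lean gives an inverse over `L`.)

* `crd_le`: `r = W z` with `W = V⁻¹` (apply `σ` to the inverse over `L`).
* `pw_wedge`: expand both sides (`bev`, `Finset.sum_mul_sum`).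
* `pw_crd_le`: apply the complex version of `crd_le` twice (rows, then columns): for fixed `j`,
  `∑ a, (∑ b, P a b σ(θ j)^b) σ(θ i)^a` is small for all `i`.
* `wedge_eq_zero_iff`: `pw_wedge` and `pw_inj`.
* `wedge_eq_zero_of_close`: `bev b (θ i) * bev b' (θ j) - ...` is an algebraic integer all of
  whose conjugates have absolute value `≤ ρ M ^ 2 < 1`, use `eq_zero_of_em_lt`.
* `Equi.mul`: `g (θ j) = 0` (from `Roots.prod`, see GalSetup.lean for the argument), reduce the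
  product of the two rational polynomials modulo the monic polynomial `g` of degree `d`.
* `Equi.inv`: multiplication by `β` is an injective `ℚ`-linear map of the finite dimensional
  space `{β | Equi θ β}` (a `Submodule ℚ (Fin d → L)`, the range of a linear map from
  `Fin d → ℚ`) to itself, hence surjective; `1` lies in the space when `0 < d`.
* `exists_int_coords`: if `α j = ∑ r i θ j ^ i` then `det V * r = adjugate V * α` has entries in
  `𝓞 L`. Take for `D` a nonzero integer which is a multiple of `det V` in `𝓞 L` (for instance its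
  norm, or use `Algebra.IsAlgebraic.exists_nonzero_dvd` / the constant coefficient of the minimal
  polynomial). Then `D r i` is rational and integral over `ℤ`, so an integer
  (`IsIntegrallyClosed.isIntegral_iff`, `isIntegral_algebraMap_iff`).
* `sum_mul_xi`: expansion of the determinant along the first row (linearity of `det` in a row, or
  `Matrix.det_succ_row_zero` with `simp` and `ring`).
* `xi_vec`: the matrix with rows `vec θ (Pi.single a 1), vec θ b, vec θ b', vec θ b''` is the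
  product of the integer matrix with rows `Pi.single a 1, b, b', b''` and `Vᵀ`; use `sum_mul_xi`
  and `Matrix.det_mul`.
* `xi_le`, `xi_vec_inj`, `xi_vec_eq_zero_iff` follow from `xi_vec` and invertibility of `V`.
* `xi_perm`: permuting the columns multiplies the determinant by a sign (`Matrix.det_permute'`).
-/

namespace Vale.Agent.P018

open Polynomial NumberField Finset

variable {d : ℕ} {L : Type} [Field L] [NumberField L] {g : ℤ[X]} {θ : Fin d → 𝓞 L}

namespace VanderAux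

theorem forward {κ ι : Type} [Fintype κ] [Fintype ι] (A : κ → ι → L) :
    ∃ C : ℝ, 1 ≤ C ∧ ∀ (σ : L →+* ℂ) (r : ι → ℂ) (M : ℝ), 0 ≤ M → (∀ i, ‖r i‖ ≤ M) →
      ∀ j, ‖∑ i, σ (A j i) * r i‖ ≤ C * M := by
  have h0 : ∀ (σ : L →+* ℂ) j, 0 ≤ ∑ i, ‖σ (A j i)‖ := fun σ j => by positivity
  refine ⟨1 + ∑ σ : L →+* ℂ, ∑ j, ∑ i, ‖σ (A j i)‖, ?_, fun σ r M hM hr j => ?_⟩
  · exact le_add_of_nonneg_right (by positivity)
  have h1 : ∑ i, ‖σ (A j i)‖ ≤ 1 + ∑ σ : L →+* ℂ, ∑ j, ∑ i, ‖σ (A j i)‖ := by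
    have a1 := Finset.single_le_sum (f := fun j => ∑ i, ‖σ (A j i)‖) (fun j _ => h0 σ j)
      (Finset.mem_univ j)
    have a2 := Finset.single_le_sum (f := fun σ : L →+* ℂ => ∑ j, ∑ i, ‖σ (A j i)‖)
      (fun σ _ => Finset.sum_nonneg fun j _ => h0 σ j) (Finset.mem_univ σ)
    linarith
  refine (norm_sum_le _ _).trans (le_trans ?_ (mul_le_mul_of_nonneg_right h1 hM))
  rw [Finset.sum_mul]
  refine Finset.sum_le_sum fun i _ => ?_
  rw [norm_mul]
  exact mul_le_mul_of_nonneg_left (hr i) (norm_nonneg _)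

omit [NumberField L] in
theorem injL (h : Function.Injective θ) : Function.Injective fun j => (θ j : L) :=
  RingOfIntegers.coe_injective.comp h

omit [NumberField L] in
theorem det_ne (h : Function.Injective θ) : (Matrix.vandermonde fun j => (θ j : L)).det ≠ 0 :=
  Matrix.det_vandermonde_ne_zero_iff.mpr (injL h)

theorem root (hθ : Roots g θ) (j : Fin d) : aeval (θ j : L) g = 0 := by
  have h : ∏ j, (X - C (θ j : L)) = g.map (Int.castRingHom L) := by
    refine Polynomial.eq_of_infinite_eval_eq _ _ ?_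
    refine (Set.infinite_range_of_injective (Int.cast_injective (α := L))).mono ?_
    rintro _ ⟨x, rfl⟩
    have h1 := congrArg (algebraMap (𝓞 L) L) (hθ.prod x)
    simp only [map_prod, map_sub, map_intCast] at h1
    simp only [Set.mem_ofPred_eq, eval_prod, eval_sub, eval_X, eval_C, eval_intCast_map]
    exact h1
  rw [aeval_def, eval₂_eq_eval_map, algebraMap_int_eq, ← h, eval_prod]
  exact Finset.prod_eq_zero (Finset.mem_univ j) (by simp)

theorem equi_aeval (hθ : GalRoots g θ) (p : ℚ[X]) : Equi θ fun j => aeval (θ j : L) p := by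
  have hm : (g.map (algebraMap ℤ ℚ)).Monic := hθ.monic.map _
  have hd : (g.map (algebraMap ℤ ℚ)).natDegree = d := by
    rw [hθ.monic.natDegree_map, hθ.deg]
  refine ⟨fun i => (p %ₘ g.map (algebraMap ℤ ℚ)).coeff i, fun j => ?_⟩
  have h1 : g.map (algebraMap ℤ ℚ) ≠ 1 := fun h => by
    rw [h, natDegree_one] at hd
    exact absurd j.pos (by omega)
  have h2 := natDegree_modByMonic_lt p hm h1
  rw [hd] at h2
  have h3 : aeval (θ j : L) (g.map (algebraMap ℤ ℚ)) = 0 := by
    rw [aeval_map_algebraMap]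
    exact root hθ.toRoots j
  beta_reduce
  rw [← aeval_modByMonic_eq_self_of_root (p := p) h3, aeval_eq_sum_range' h2, Finset.sum_range]
  simp only [Rat.smul_def]

theorem equi_poly {β : Fin d → L} (h : Equi θ β) : ∃ p : ℚ[X], ∀ j, β j = aeval (θ j : L) p := by
  obtain ⟨r, hr⟩ := h
  exact ⟨∑ i, C (r i) * X ^ (i : ℕ), fun j => by simp [hr j]⟩

/-- the space of conjugate vectors -/
def eqSub (θ : Fin d → 𝓞 L) : Submodule ℚ (Fin d → L) :=
  Submodule.span ℚ (Set.range fun (i : Fin d) (j : Fin d) => (θ j : L) ^ (i : ℕ))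

theorem mem_eqSub {β : Fin d → L} : β ∈ eqSub θ ↔ Equi θ β := by
  rw [eqSub, Submodule.mem_span_range_iff_exists_fun]
  refine exists_congr fun r => ?_
  rw [eq_comm, funext_iff]
  simp only [Finset.sum_apply, Pi.smul_apply, Rat.smul_def]

omit [NumberField L] in
theorem em_pw (σ : L →+* ℂ) (P : Fin d → Fin d → ℤ) (i j : Fin d) :
    em σ (pw θ P i j) = ∑ a, (∑ b, (P a b : ℂ) * σ (θ j : L) ^ (b : ℕ)) * σ (θ i : L) ^ (a : ℕ) := by
  simp only [pw, map_sum, map_mul, map_pow, map_intCast, Finset.sum_mul]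
  refine Finset.sum_congr rfl fun a _ => Finset.sum_congr rfl fun b _ => ?_
  change (P a b : ℂ) * σ (θ i : L) ^ (a : ℕ) * σ (θ j : L) ^ (b : ℕ) = _
  ring

end VanderAux

open VanderAux

theorem crd_le (hθ : Roots g θ) : ∃ C : ℝ, 1 ≤ C ∧ ∀ (σ : L →+* ℂ) (r : Fin d → ℂ) (M : ℝ),
    (∀ j, ‖∑ i, r i * σ (θ j : L) ^ (i : ℕ)‖ ≤ M) → ∀ i, ‖r i‖ ≤ C * M := by
  obtain ⟨C, hC, h⟩ := forward fun i j => (Matrix.vandermonde fun j => (θ j : L))⁻¹ i j
  refine ⟨C, hC, fun σ r M hM i => ?_⟩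
  have h1 := h σ _ M ((norm_nonneg _).trans (hM i)) hM i
  have h2 := Matrix.nonsing_inv_mul _ (det_ne hθ.inj).isUnit
  have e : ∑ j, σ ((Matrix.vandermonde fun j => (θ j : L))⁻¹ i j) *
      ∑ k, r k * σ (θ j : L) ^ (k : ℕ) = r i := by
    have e1 : ∀ k : Fin d, ∑ j, σ ((Matrix.vandermonde fun j => (θ j : L))⁻¹ i j) *
        (r k * σ (θ j : L) ^ (k : ℕ)) = if i = k then r k else 0 := fun k => by
      have h3 := congrArg σ (congrFun (congrFun h2 i) k)
      simp only [Matrix.mul_apply, Matrix.vandermonde_apply, map_sum, map_mul, map_pow,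
        Matrix.one_apply] at h3
      simp only [mul_left_comm _ (r k), ← Finset.mul_sum, h3]
      split_ifs <;> simp
    simp only [Finset.mul_sum]
    rw [Finset.sum_comm]
    simp [e1]
  rwa [e] at h1

theorem pw_wedge (θ : Fin d → 𝓞 L) (b b' : Fin d → ℤ) (i j : Fin d) :
    pw θ (wedge b b') i j = bev b (θ i) * bev b' (θ j) - bev b (θ j) * bev b' (θ i) := by
  simp only [pw, wedge, bev, Finset.sum_mul_sum]
  rw [Finset.sum_comm (f := fun a c : Fin d =>
    (b a : 𝓞 L) * θ j ^ (a : ℕ) * ((b' c : 𝓞 L) * θ i ^ (c : ℕ)))]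
  simp only [← Finset.sum_sub_distrib]
  refine Finset.sum_congr rfl fun a _ => Finset.sum_congr rfl fun c _ => ?_
  push_cast
  ring

theorem pw_crd_le (hθ : Roots g θ) : ∃ C : ℝ, 1 ≤ C ∧ ∀ (σ : L →+* ℂ) (P : Fin d → Fin d → ℤ)
    (M : ℝ), (∀ i j, ‖em σ (pw θ P i j)‖ ≤ M) → ∀ i j, |(P i j : ℝ)| ≤ C * M := by
  obtain ⟨C, hC, h⟩ := crd_le hθ
  refine ⟨C * C, one_le_mul_of_one_le_of_one_le hC hC, fun σ P M hM a b => ?_⟩
  have h1 : ∀ j, ‖∑ b, (P a b : ℂ) * σ (θ j : L) ^ (b : ℕ)‖ ≤ C * M := fun j =>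
    h σ (fun a => ∑ b, (P a b : ℂ) * σ (θ j : L) ^ (b : ℕ)) M
      (fun i => by rw [← em_pw]; exact hM i j) a
  have h2 := h σ (fun b => (P a b : ℂ)) _ h1 b
  rwa [Complex.norm_intCast, ← mul_assoc] at h2

theorem pw_le (θ : Fin d → 𝓞 L) : ∃ C : ℝ, 1 ≤ C ∧ ∀ (σ : L →+* ℂ) (P : Fin d → Fin d → ℤ)
    (H : ℝ), (∀ i j, |(P i j : ℝ)| ≤ H) → ∀ i j, ‖em σ (pw θ P i j)‖ ≤ C * H := by
  obtain ⟨C, hC, h⟩ := forward fun (x y : Fin d × Fin d) =>
    (θ x.1 : L) ^ (y.1 : ℕ) * (θ x.2 : L) ^ (y.2 : ℕ)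
  refine ⟨C, hC, fun σ P H hH i j => ?_⟩
  have h1 := h σ (fun y => (P y.1 y.2 : ℂ)) H ((abs_nonneg _).trans (hH i j))
    (fun y => by rw [Complex.norm_intCast]; exact hH _ _) (i, j)
  rw [Fintype.sum_prod_type] at h1
  rw [em_pw]
  convert h1 using 3 with a
  rw [Finset.sum_mul]
  refine Finset.sum_congr rfl fun b _ => ?_
  simp only [map_mul, map_pow]
  ring

theorem pw_inj (hθ : Roots g θ) {P P' : Fin d → Fin d → ℤ} (h : pw θ P = pw θ P') : P = P' := by
  obtain ⟨C, -, hC⟩ := pw_crd_le hθ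
  obtain ⟨σ⟩ : Nonempty (L →+* ℂ) := inferInstance
  have h1 := hC σ (P - P') 0 fun i j => by
    have : pw θ (P - P') i j = pw θ P i j - pw θ P' i j := by
      simp only [pw, Pi.sub_apply, Int.cast_sub, sub_mul, Finset.sum_sub_distrib]
    rw [this, h, sub_self, map_zero, norm_zero]
  funext i j
  have h2 := h1 i j
  rw [mul_zero, abs_nonpos_iff, Int.cast_eq_zero] at h2
  exact sub_eq_zero.1 h2

theorem wedge_eq_zero_iff (hθ : Roots g θ) (b b' : Fin d → ℤ) :
    wedge b b' = 0 ↔ ∀ i j, vec θ b i * vec θ b' j = vec θ b j * vec θ b' i := by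
  have h0 : pw θ 0 = 0 := by funext i j; simp [pw]
  have h1 : ∀ i j, pw θ (wedge b b') i j = 0 ↔
      vec θ b i * vec θ b' j = vec θ b j * vec θ b' i := fun i j => by
    rw [pw_wedge, sub_eq_zero, ← RingOfIntegers.coe_injective.eq_iff, map_mul, map_mul]
    rfl
  constructor
  · intro h i j
    rw [← h1, h, h0]
    rfl
  · intro h
    refine pw_inj hθ ?_
    rw [h0]
    funext i j
    exact (h1 i j).2 (h i j)

theorem wedge_le_of_close (hθ : Roots g θ) : ∃ C : ℝ, 1 ≤ C ∧ ∀ (b b' : Fin d → ℤ) (ρ M : ℝ),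
    0 ≤ ρ → Close ρ (vec θ b) (vec θ b') → (∀ (σ : L →+* ℂ) j, ‖σ (vec θ b j)‖ ≤ M) →
    (∀ (σ : L →+* ℂ) j, ‖σ (vec θ b' j)‖ ≤ M) →
    ∀ i j, |(wedge b b' i j : ℝ)| ≤ C * ρ * M ^ 2 := by
  obtain ⟨C, hC, h⟩ := pw_crd_le hθ
  obtain ⟨σ⟩ : Nonempty (L →+* ℂ) := inferInstance
  refine ⟨C, hC, fun b b' ρ M hρ hc hb hb' i j => ?_⟩
  rw [mul_assoc]
  refine h σ _ _ (fun i j => ?_) i j
  have h1 := hc σ i j
  rw [map_sub, map_mul, map_mul, norm_mul] at h1
  rw [pw_wedge, map_sub, map_mul, map_mul]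
  refine h1.trans (mul_le_mul_of_nonneg_left ?_ hρ)
  rw [pow_two]
  exact mul_le_mul (hb σ j) (hb' σ i) (norm_nonneg _) ((norm_nonneg _).trans (hb σ j))

theorem wedge_eq_zero_of_close (hθ : Roots g θ) (b b' : Fin d → ℤ) (ρ M : ℝ) (hρ : 0 ≤ ρ)
    (h : Close ρ (vec θ b) (vec θ b')) (hb : ∀ (σ : L →+* ℂ) j, ‖σ (vec θ b j)‖ ≤ M)
    (hb' : ∀ (σ : L →+* ℂ) j, ‖σ (vec θ b' j)‖ ≤ M) (hM : ρ * M ^ 2 < 1) : wedge b b' = 0 := by
  refine pw_inj hθ ?_
  funext i j
  have h0 : pw θ 0 i j = 0 := by simp [pw]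
  rw [h0]
  refine eq_zero_of_em_lt _ fun σ => ?_
  have h1 := h σ i j
  rw [map_sub, map_mul, map_mul, norm_mul] at h1
  rw [pw_wedge, map_sub, map_mul, map_mul]
  refine (h1.trans (mul_le_mul_of_nonneg_left ?_ hρ)).trans_lt hM
  rw [pow_two]
  exact mul_le_mul (hb σ j) (hb' σ i) (norm_nonneg _) ((norm_nonneg _).trans (hb σ j))

theorem Equi.mul (hθ : GalRoots g θ) {β β' : Fin d → L} (h : Equi θ β) (h' : Equi θ β') :
    Equi θ (fun j => β j * β' j) := by
  obtain ⟨p, hp⟩ := equi_poly h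
  obtain ⟨q, hq⟩ := equi_poly h'
  simpa only [hp, hq, map_mul] using equi_aeval hθ (p * q)

theorem Equi.inv (hθ : GalRoots g θ) {β : Fin d → L} (h : Equi θ β) (h0 : ∀ j, β j ≠ 0) :
    Equi θ (fun j => (β j)⁻¹) := by
  have : FiniteDimensional ℚ (eqSub θ) := FiniteDimensional.span_of_finite ℚ (Set.finite_range _)
  set m : eqSub θ →ₗ[ℚ] eqSub θ := (LinearMap.mulLeft ℚ β).restrict
    fun x hx => mem_eqSub.2 (h.mul hθ (mem_eqSub.1 hx)) with hm
  have hinj : Function.Injective m := fun x y hxy => by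
    refine Subtype.ext (funext fun j => ?_)
    exact mul_left_cancel₀ (h0 j) (congrFun (congrArg Subtype.val hxy) j)
  have h1 : (fun _ => 1 : Fin d → L) ∈ eqSub θ := mem_eqSub.2 (by simpa using equi_aeval hθ 1)
  obtain ⟨x, hx⟩ := LinearMap.injective_iff_surjective.1 hinj ⟨_, h1⟩
  have e : (fun j => (β j)⁻¹) = x.1 := funext fun j =>
    inv_eq_of_mul_eq_one_right (congrFun (congrArg Subtype.val hx) j)
  rw [e]
  exact mem_eqSub.1 x.2

theorem exists_int_coords (hθ : Roots g θ) : ∃ D : ℤ, D ≠ 0 ∧ ∀ α : Fin d → 𝓞 L,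
    Equi θ (fun j => (α j : L)) → ∃ a : Fin d → ℤ, ∀ j, bev a (θ j) = (D : 𝓞 L) * α j := by
  have hdet : (Matrix.vandermonde θ).det ≠ 0 := Matrix.det_vandermonde_ne_zero_iff.mpr hθ.inj
  obtain ⟨D, hD, e, he⟩ := (Algebra.IsAlgebraic.isAlgebraic (R := ℤ)
    (Matrix.vandermonde θ).det).exists_nonzero_dvd (mem_nonZeroDivisors_of_ne_zero hdet)
  refine ⟨D, hD, fun α ⟨r, hr⟩ => ?_⟩
  set φ := algebraMap (𝓞 L) L with hφ
  have h1 : ∀ i, ((D * r i : ℚ) : L) = φ (e * ((Matrix.vandermonde θ).adjugate.mulVec α) i) := by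
    intro i
    have a1 : (φ.mapMatrix (Matrix.vandermonde θ)).mulVec (fun i => (r i : L)) = φ ∘ α := by
      funext j
      simp only [Matrix.mulVec, dotProduct, RingHom.mapMatrix_apply, Matrix.map_apply,
        Matrix.vandermonde_apply, map_pow, Function.comp_apply]
      exact (Finset.sum_congr rfl fun i _ => mul_comm _ _).trans (hr j).symm
    have a2 : φ (((Matrix.vandermonde θ).adjugate.mulVec α) i) =
        φ (Matrix.vandermonde θ).det * (r i : L) := by
      rw [RingHom.map_mulVec, ← a1, ← RingHom.mapMatrix_apply, RingHom.map_adjugate,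
        Matrix.mulVec_mulVec, Matrix.adjugate_mul, RingHom.map_det, Matrix.smul_mulVec,
        Matrix.one_mulVec]
      rfl
    have a3 : (D : L) = φ (Matrix.vandermonde θ).det * φ e := by
      rw [← map_mul, ← he]
      simp
    rw [map_mul, a2]
    push_cast
    rw [a3]
    ring
  have h2 : ∀ i, ∃ a : ℤ, (a : ℚ) = D * r i := fun i => by
    have a1 : IsIntegral ℤ (algebraMap ℚ L (D * r i)) := by
      rw [eq_ratCast, h1 i]
      exact RingOfIntegers.isIntegral_coe _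
    rw [isIntegral_algebraMap_iff (algebraMap ℚ L).injective] at a1
    exact IsIntegrallyClosed.isIntegral_iff.1 a1
  choose a ha using h2
  refine ⟨a, fun j => RingOfIntegers.coe_injective ?_⟩
  rw [map_mul, map_intCast, map_bev]
  have h3 : algebraMap (𝓞 L) L (α j) = ∑ i, (r i : L) * (θ j : L) ^ (i : ℕ) := hr j
  rw [h3, Finset.mul_sum, bev]
  refine Finset.sum_congr rfl fun i _ => ?_
  have h4 : ((a i : ℤ) : L) = D * r i := by exact_mod_cast congrArg (Rat.cast : ℚ → L) (ha i)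
  rw [h4, mul_assoc]

theorem sum_mul_xi {R : Type} [CommRing R] (x u v w : Fin 4 → R) :
    ∑ i, x i * xi u v w i = (Matrix.of ![x, u, v, w]).det := by
  have h : ∀ y : Fin 4 → R, (Matrix.of ![y, u, v, w]).det =
      Matrix.cramer (Matrix.of ![0, u, v, w]).transpose y 0 := fun y => by
    rw [Matrix.cramer_transpose_apply]
    congr 1
    ext i j
    fin_cases i <;> simp
  have e : x = ∑ i, x i • (Pi.single i 1 : Fin 4 → R) := by
    funext j
    simp [Finset.sum_apply, Pi.single_apply]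
  simp only [xi, h]
  conv_rhs => rw [e]
  simp only [map_sum, map_smul, Finset.sum_apply, Pi.smul_apply, smul_eq_mul]

theorem map_xi {R R' : Type} [CommRing R] [CommRing R'] (φ : R →+* R') (u v w : Fin 4 → R)
    (i : Fin 4) : φ (xi u v w i) = xi (fun j => φ (u j)) (fun j => φ (v j)) (fun j => φ (w j)) i := by
  unfold xi
  rw [RingHom.map_det]
  congr 1
  ext a b
  fin_cases a <;> simp [Pi.single_apply]

theorem xi_perm {R : Type} [CommRing R] (π : Equiv.Perm (Fin 4)) (u v w : Fin 4 → R) (i : Fin 4) :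
    xi (fun j => u (π j)) (fun j => v (π j)) (fun j => w (π j)) i =
      ((Equiv.Perm.sign π : ℤ) : R) * xi u v w (π i) := by
  unfold xi
  rw [← Matrix.det_permute']
  congr 1
  ext a b
  fin_cases a <;> simp [Pi.single_apply]

theorem det_vec (θ : Fin 4 → 𝓞 L) (x u v w : Fin 4 → ℤ) :
    (Matrix.of ![vec θ x, vec θ u, vec θ v, vec θ w]).det =
      (((Matrix.of ![x, u, v, w]).det : ℤ) : L) * (Matrix.vandermonde fun j => (θ j : L)).det := by
  rw [← Matrix.det_transpose (Matrix.vandermonde _), ← eq_intCast (Int.castRingHom L),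
    RingHom.map_det, ← Matrix.det_mul]
  congr 1
  ext a b
  fin_cases a <;> simp [Matrix.mul_apply, vec_eq]

theorem xi_vec (θ : Fin 4 → 𝓞 L) (b b' b'' : Fin 4 → ℤ) (a : Fin 4) :
    ∑ j, (θ j : L) ^ (a : ℕ) * xi (vec θ b) (vec θ b') (vec θ b'') j =
      ((xi b b' b'' a : ℤ) : L) * (Matrix.vandermonde fun j => (θ j : L)).det := by
  have e : vec θ (Pi.single a 1) = fun j => (θ j : L) ^ (a : ℕ) := by
    funext j
    simp [vec_eq, Pi.single_apply]
  rw [sum_mul_xi, ← e, det_vec]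
  rfl

theorem xi_le {θ : Fin 4 → 𝓞 L} (hθ : Roots g θ) : ∃ C : ℝ, 1 ≤ C ∧ ∀ (σ : L →+* ℂ)
    (b b' b'' : Fin 4 → ℤ) (M : ℝ), (∀ j, ‖σ (xi (vec θ b) (vec θ b') (vec θ b'') j)‖ ≤ M) →
    ∀ a, |((xi b b' b'' a : ℤ) : ℝ)| ≤ C * M := by
  obtain ⟨C, hC, h⟩ := forward fun (a j : Fin 4) =>
    (θ j : L) ^ (a : ℕ) / (Matrix.vandermonde fun j => (θ j : L)).det
  refine ⟨C, hC, fun σ b b' b'' M hM a => ?_⟩
  have h1 := h σ _ M ((norm_nonneg _).trans (hM a)) hM a
  simp only [← map_mul, ← map_sum, div_mul_eq_mul_div, ← Finset.sum_div] at h1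
  rwa [xi_vec, mul_div_cancel_right₀ _ (det_ne hθ.inj), map_intCast, Complex.norm_intCast] at h1

theorem xi_vec_inj {θ : Fin 4 → 𝓞 L} (hθ : Roots g θ) {b b' b'' u u' u'' : Fin 4 → ℤ}
    (h : xi b b' b'' = xi u u' u'') :
    xi (vec θ b) (vec θ b') (vec θ b'') = xi (vec θ u) (vec θ u') (vec θ u'') := by
  rw [← sub_eq_zero]
  refine Matrix.eq_zero_of_forall_pow_sum_mul_pow_eq_zero (injL hθ.inj) fun a => ?_
  simp only [Pi.sub_apply, mul_sub, Finset.sum_sub_distrib, mul_comm _ ((θ _ : L) ^ (a : ℕ))]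
  rw [xi_vec, xi_vec, h, sub_self]

theorem xi_vec_eq_zero_iff {θ : Fin 4 → 𝓞 L} (hθ : Roots g θ) (b b' b'' : Fin 4 → ℤ) :
    xi (vec θ b) (vec θ b') (vec θ b'') = 0 ↔ xi b b' b'' = 0 := by
  constructor
  · intro h
    funext a
    have h1 := xi_vec θ b b' b'' a
    simp only [h, Pi.zero_apply, mul_zero, Finset.sum_const_zero] at h1
    have h2 := (mul_eq_zero.1 h1.symm).resolve_right (det_ne hθ.inj)
    exact_mod_cast h2
  · intro h
    refine Matrix.eq_zero_of_forall_pow_sum_mul_pow_eq_zero (injL hθ.inj) fun a => ?_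
    simp only [mul_comm _ ((θ _ : L) ^ (a : ℕ))]
    rw [xi_vec, h]
    simp

end Vale.Agent.P018
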